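import Vale.Agent.P225.Spec

/-!
Linear second order equations `P' = Q`, `Q' = A P - d Q`, reduced to a first order linear system
`X' = B t X` on `V × V`. Existence by the Picard series, the rest by Gronwall.
-/

namespace Vale.Agent.P225

open scoped ContDiff
open Filter Topology MvPolynomial Matrix Set

variable {V : Type} [NormedAddCommGroup V] [NormedSpace ℝ V]

theorem Sol2.mono {d : ℝ → ℝ} {A : ℝ → V →L[ℝ] V} {P Q : ℝ → V} {s s' : Set ℝ}
    (h : Sol2 d A P Q s) (hs : s' ⊆ s) : Sol2 d A P Q s' := fun t ht => h t (hs ht)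

/-- The terms of the Picard series. -/
noncomputable def picTerm (B : ℝ → V →L[ℝ] V) (t0 : ℝ) (x : V) : ℕ → ℝ → V
  | 0 => fun _ => x
  | n + 1 => fun t => ∫ s in t0..t, B s (picTerm B t0 x n s)

theorem picTerm_cont [CompleteSpace V] {B : ℝ → V →L[ℝ] V} (hB : Continuous B) (t0 : ℝ) (x : V)
    (n : ℕ) : Continuous (picTerm B t0 x n) := by
  induction n with
  | zero => exact continuous_const
  | succ n ih =>
    exact continuous_iff_continuousAt.2 fun t =>
      ((hB.clm_apply ih).integral_hasStrictDerivAt t0 t).hasDerivAt.continuousAt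

theorem picTerm_bound [CompleteSpace V] {B : ℝ → V →L[ℝ] V} (t0 : ℝ) (x : V) {R M : ℝ}
    (hM : ∀ t ∈ Icc (t0 - R) (t0 + R), ‖B t‖ ≤ M) (n : ℕ) : ∀ t ∈ Icc (t0 - R) (t0 + R),
    ‖picTerm B t0 x n t‖ ≤ ‖x‖ * (1 / 2) ^ n * Real.cosh (2 * M * (t - t0)) := by
  induction n with
  | zero =>
    intro t _
    simpa [picTerm] using le_mul_of_one_le_right (norm_nonneg x) (Real.one_le_cosh _)
  | succ n ih =>
    intro t ht
    have h0 : t0 ∈ Icc (t0 - R) (t0 + R) := ⟨by linarith [ht.1, ht.2], by linarith [ht.1, ht.2]⟩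
    have hd : ∀ s, HasDerivAt (fun s => ‖x‖ * (1 / 2) ^ (n + 1) * Real.sinh (2 * M * (s - t0)))
        (M * (‖x‖ * (1 / 2) ^ n * Real.cosh (2 * M * (s - t0)))) s := fun s => by
      have := ((((hasDerivAt_id s).sub_const t0).const_mul (2 * M)).sinh).const_mul
        (‖x‖ * (1 / 2) ^ (n + 1))
      refine this.congr_deriv ?_
      simp only [id]; ring
    have hi : IntervalIntegrable (fun s => M * (‖x‖ * (1 / 2) ^ n * Real.cosh (2 * M * (s - t0))))
        MeasureTheory.volume t0 t := Continuous.intervalIntegrable (by fun_prop) _ _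
    refine (intervalIntegral.norm_integral_le_abs_of_norm_le ?_ hi).trans ?_
    · refine (MeasureTheory.ae_restrict_mem measurableSet_uIoc).mono fun s hs => ?_
      have hs' : s ∈ Icc (t0 - R) (t0 + R) := uIcc_subset_Icc h0 ht (uIoc_subset_uIcc hs)
      exact ((B s).le_opNorm _).trans
        (mul_le_mul (hM s hs') (ih s hs') (norm_nonneg _) ((norm_nonneg _).trans (hM s hs')))
    · rw [intervalIntegral.integral_eq_sub_of_hasDerivAt (fun s _ => hd s) hi]
      simp only [sub_self, mul_zero, Real.sinh_zero, sub_zero]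
      rw [abs_mul, abs_of_nonneg (by positivity), Real.abs_sinh, ← Real.cosh_abs]
      exact mul_le_mul_of_nonneg_left (Real.sinh_lt_cosh _).le (by positivity)

theorem lin_exists [CompleteSpace V] {B : ℝ → V →L[ℝ] V} (hB : Continuous B) (t0 : ℝ) (x : V) :
    ∃ X : ℝ → V, X t0 = x ∧ ∀ t, HasDerivAt X (B t (X t)) t := by
  refine ⟨fun t => x + ∑' n, picTerm B t0 x (n + 1) t, by simp [picTerm], fun t => ?_⟩
  set R := |t - t0| + 1 with hR
  obtain ⟨M, hM⟩ := (isCompact_Icc (a := t0 - R) (b := t0 + R)).exists_bound_of_continuousOn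
    hB.continuousOn
  obtain ⟨C, hC⟩ := (isCompact_Icc (a := t0 - R) (b := t0 + R)).exists_bound_of_continuousOn
    (f := fun s => Real.cosh (2 * M * (s - t0))) (by fun_prop)
  have hb : ∀ n, ∀ s ∈ Icc (t0 - R) (t0 + R), ‖picTerm B t0 x n s‖ ≤ ‖x‖ * C * (1 / 2) ^ n :=
    fun n s hs => (picTerm_bound t0 x hM n s hs).trans (by
      rw [mul_right_comm _ C]
      exact mul_le_mul_of_nonneg_left ((le_abs_self _).trans (hC s hs)) (by positivity))
  have hs : Summable fun n : ℕ => ‖x‖ * C * (1 / 2) ^ n := summable_geometric_two.mul_left _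
  have ht : t ∈ Ioo (t0 - R) (t0 + R) :=
    ⟨by linarith [neg_abs_le (t - t0)], by linarith [le_abs_self (t - t0)]⟩
  have h1 := hasDerivAt_tsum_of_isPreconnected (g := fun n => picTerm B t0 x (n + 1))
    (g' := fun n s => B s (picTerm B t0 x n s)) (y₀ := t0) (hs.mul_left M) isOpen_Ioo
    isPreconnected_Ioo
    (fun n s _ => ((hB.clm_apply (picTerm_cont hB t0 x n)).integral_hasStrictDerivAt t0 s).hasDerivAt)
    (fun n s hs => ((B s).le_opNorm _).trans (mul_le_mul (hM s (Ioo_subset_Icc_self hs))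
      (hb n s (Ioo_subset_Icc_self hs)) (norm_nonneg _)
      ((norm_nonneg _).trans (hM s (Ioo_subset_Icc_self hs)))))
    ⟨by linarith [abs_nonneg (t - t0)], by linarith [abs_nonneg (t - t0)]⟩
    (by simp [picTerm]) ht
  have h2 : Summable fun n => picTerm B t0 x n t :=
    .of_norm_bounded hs fun n => hb n t (Ioo_subset_Icc_self ht)
  rw [← (B t).map_tsum h2, h2.tsum_eq_zero_add] at h1
  exact h1.const_add x

theorem lin_unique {B : ℝ → V →L[ℝ] V} {a b t0 : ℝ} (hB : ContinuousOn B (Icc a b)) {X Y : ℝ → V}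
    (hX : ∀ t ∈ Icc a b, HasDerivAt X (B t (X t)) t)
    (hY : ∀ t ∈ Icc a b, HasDerivAt Y (B t (Y t)) t) (ht : t0 ∈ Icc a b) (h0 : X t0 = Y t0) :
    ∀ t ∈ Icc a b, X t = Y t := by
  obtain ⟨M, hM⟩ := isCompact_Icc.exists_bound_of_continuousOn hB
  have hL : ∀ t ∈ Icc a b, LipschitzOnWith M.toNNReal (B t) univ := fun t ht =>
    ((B t).lipschitz.weaken (by
      rw [← NNReal.coe_le_coe, coe_nnnorm]
      exact (hM t ht).trans (Real.le_coe_toNNReal M))).lipschitzOnWith
  intro t ht'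
  rcases le_total t0 t with h | h
  · have s1 : Icc t0 b ⊆ Icc a b := Icc_subset_Icc_left ht.1
    have s2 : Ico t0 b ⊆ Icc a b := Ico_subset_Icc_self.trans s1
    exact ODE_solution_unique_of_mem_Icc_right (v := fun t => B t) (s := fun _ => univ)
      (fun t ht => hL t (s2 ht)) (fun t ht => (hX t (s1 ht)).continuousAt.continuousWithinAt)
      (fun t ht => (hX t (s2 ht)).hasDerivWithinAt) (fun _ _ => mem_univ _)
      (fun t ht => (hY t (s1 ht)).continuousAt.continuousWithinAt)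
      (fun t ht => (hY t (s2 ht)).hasDerivWithinAt) (fun _ _ => mem_univ _) h0 ⟨h, ht'.2⟩
  · have s1 : Icc a t0 ⊆ Icc a b := Icc_subset_Icc_right ht.2
    have s2 : Ioc a t0 ⊆ Icc a b := Ioc_subset_Icc_self.trans s1
    exact ODE_solution_unique_of_mem_Icc_left (v := fun t => B t) (s := fun _ => univ)
      (fun t ht => hL t (s2 ht)) (fun t ht => (hX t (s1 ht)).continuousAt.continuousWithinAt)
      (fun t ht => (hX t (s2 ht)).hasDerivWithinAt) (fun _ _ => mem_univ _)
      (fun t ht => (hY t (s1 ht)).continuousAt.continuousWithinAt)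
      (fun t ht => (hY t (s2 ht)).hasDerivWithinAt) (fun _ _ => mem_univ _) h0 ⟨ht'.1, h⟩

theorem lin_continuous {Λ : Type} [TopologicalSpace Λ] {B : Λ → ℝ → V →L[ℝ] V}
    (hB : Continuous fun p : Λ × ℝ => B p.1 p.2) {a b : ℝ} (hab : a ≤ b) {X : Λ → ℝ → V}
    (h : ∀ c, ∀ t ∈ Icc a b, HasDerivAt (X c) (B c t (X c t)) t) (h0 : Continuous fun c => X c a) :
    Continuous fun c => X c b := by
  refine continuous_iff_continuousAt.2 fun c0 => Metric.tendsto_nhds.2 fun ε hε => ?_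
  have hc : ∀ c, ContinuousOn (X c) (Icc a b) := fun c t ht =>
    (h c t ht).continuousAt.continuousWithinAt
  obtain ⟨M, hM⟩ := (isCompact_Icc (a := a) (b := b)).exists_bound_of_continuousOn
    (f := B c0) (hB.comp (Continuous.prodMk_right c0)).continuousOn
  obtain ⟨N, hN⟩ := isCompact_Icc.exists_bound_of_continuousOn (hc c0)
  have hM0 : 0 ≤ M := (norm_nonneg _).trans (hM a ⟨le_rfl, hab⟩)
  have hT : Tendsto (fun η : ℝ => η * Real.exp ((M + 1) * (b - a)) +
      η * N / (M + 1) * (Real.exp ((M + 1) * (b - a)) - 1)) (𝓝[>] 0) (𝓝 0) := by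
    refine tendsto_nhdsWithin_of_tendsto_nhds (Continuous.tendsto' (by fun_prop) _ _ (by simp))
  obtain ⟨η, ⟨h1, h2⟩, h3⟩ := (((hT.eventually (gt_mem_nhds hε)).and
    (nhdsWithin_le_nhds (gt_mem_nhds one_pos))).and self_mem_nhdsWithin).exists
  have h3' : 0 < η := h3
  have e1 : ∀ᶠ c in 𝓝 c0, ∀ t ∈ Icc a b, ‖B c t - B c0 t‖ < η := by
    refine isCompact_Icc.eventually_forall_of_forall_eventually
      (P := fun c t => ‖B c t - B c0 t‖ < η) fun t _ => ?_
    have hc : Continuous fun z : Λ × ℝ => ‖B z.1 z.2 - B c0 z.2‖ :=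
      (hB.sub (hB.comp (f := fun z : Λ × ℝ => (c0, z.2)) (by fun_prop))).norm
    exact hc.continuousAt.eventually (gt_mem_nhds (by simpa using h3'))
  filter_upwards [e1, Metric.tendsto_nhds.1 h0.continuousAt η h3'] with c hc1 hc2
  rw [dist_eq_norm] at hc2 ⊢
  have := norm_le_gronwallBound_of_norm_deriv_right_le (f := fun t => X c t - X c0 t)
    (K := M + 1) (ε := η * N) ((hc c).sub (hc c0))
    (fun t ht => ((h c t (Ico_subset_Icc_self ht)).sub
      (h c0 t (Ico_subset_Icc_self ht))).hasDerivWithinAt) hc2.le (fun t ht => by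
      have ht' := Ico_subset_Icc_self ht
      have e : B c t (X c t) - B c0 t (X c0 t) =
          B c t (X c t - X c0 t) + (B c t - B c0 t) (X c0 t) := by simp
      have hK : ‖B c t‖ ≤ M + 1 := by
        have := norm_sub_norm_le (B c t) (B c0 t)
        linarith [hc1 t ht', hM t ht', show η < 1 from h2]
      rw [e]
      exact (norm_add_le _ _).trans (add_le_add
        (((B c t).le_opNorm _).trans (mul_le_mul_of_nonneg_right hK (norm_nonneg _)))
        ((ContinuousLinearMap.le_opNorm _ _).trans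
          (mul_le_mul (hc1 t ht').le (hN t ht') (norm_nonneg _) h3'.le)))) b ⟨hab, le_rfl⟩
  rw [gronwallBound_of_K_ne_0 (by linarith)] at this
  exact this.trans_lt h1

/-- The first order system. -/
noncomputable def sysB (d : ℝ) (A : V →L[ℝ] V) : V × V →L[ℝ] V × V :=
  (ContinuousLinearMap.inl ℝ V V).comp (ContinuousLinearMap.snd ℝ V V) +
    (ContinuousLinearMap.inr ℝ V V).comp
      (A.comp (ContinuousLinearMap.fst ℝ V V) - d • ContinuousLinearMap.snd ℝ V V)

theorem sysB_apply (d : ℝ) (A : V →L[ℝ] V) (x : V × V) :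
    sysB d A x = (x.2, A x.1 - d • x.2) := by simp [sysB]

theorem sysB_cont : Continuous fun z : ℝ × (V →L[ℝ] V) => sysB z.1 z.2 :=
  continuous_const.add (continuous_const.clm_comp
    ((continuous_snd.clm_comp continuous_const).sub (continuous_fst.smul continuous_const)))

theorem sysB_comp {Λ : Type} [TopologicalSpace Λ] {d : Λ → ℝ} {A : Λ → V →L[ℝ] V}
    (hd : Continuous d) (hA : Continuous A) : Continuous fun z => sysB (d z) (A z) :=
  Continuous.comp (g := fun z : ℝ × (V →L[ℝ] V) => sysB z.1 z.2) (f := fun z => (d z, A z))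
    sysB_cont (hd.prodMk hA)

theorem sysB_compOn {d : ℝ → ℝ} {A : ℝ → V →L[ℝ] V} {s : Set ℝ}
    (hd : ContinuousOn d s) (hA : ContinuousOn A s) : ContinuousOn (fun z => sysB (d z) (A z)) s :=
  Continuous.comp_continuousOn (g := fun z : ℝ × (V →L[ℝ] V) => sysB z.1 z.2)
    (f := fun z => (d z, A z)) sysB_cont (hd.prodMk hA)

theorem Sol2.sys {d : ℝ → ℝ} {A : ℝ → V →L[ℝ] V} {P Q : ℝ → V} {s : Set ℝ} (h : Sol2 d A P Q s) :
    ∀ t ∈ s, HasDerivAt (fun t => (P t, Q t)) (sysB (d t) (A t) (P t, Q t)) t := fun t ht => by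
  rw [sysB_apply]; exact (h t ht).1.prodMk (h t ht).2

theorem sol2_exists [CompleteSpace V] {d : ℝ → ℝ} {A : ℝ → V →L[ℝ] V} (hd : Continuous d)
    (hA : Continuous A) (t0 : ℝ) (p q : V) :
    ∃ P Q : ℝ → V, P t0 = p ∧ Q t0 = q ∧ Sol2 d A P Q univ := by
  obtain ⟨X, h0, hX⟩ := lin_exists (B := fun t => sysB (d t) (A t))
    (sysB_comp hd hA) t0 (p, q)
  refine ⟨fun t => (X t).1, fun t => (X t).2, by simp [h0], by simp [h0], fun t _ => ?_⟩
  have := hX t
  rw [sysB_apply] at this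
  exact ⟨(ContinuousLinearMap.fst ℝ V V).hasFDerivAt.comp_hasDerivAt t this,
    (ContinuousLinearMap.snd ℝ V V).hasFDerivAt.comp_hasDerivAt t this⟩

theorem sol2_unique {d : ℝ → ℝ} {A : ℝ → V →L[ℝ] V} {a b t0 : ℝ}
    (hd : ContinuousOn d (Icc a b)) (hA : ContinuousOn A (Icc a b)) {P Q P' Q' : ℝ → V}
    (h : Sol2 d A P Q (Icc a b)) (h' : Sol2 d A P' Q' (Icc a b)) (ht : t0 ∈ Icc a b)
    (hP : P t0 = P' t0) (hQ : Q t0 = Q' t0) : ∀ t ∈ Icc a b, P t = P' t ∧ Q t = Q' t :=
  fun t ht' => Prod.mk.inj (lin_unique (B := fun t => sysB (d t) (A t))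
    (sysB_compOn hd hA) h.sys h'.sys ht (by rw [hP, hQ]) t ht')

theorem sol2_continuous {Λ : Type} [TopologicalSpace Λ] {d : Λ → ℝ → ℝ}
    {A : Λ → ℝ → V →L[ℝ] V} (hd : Continuous fun p : Λ × ℝ => d p.1 p.2)
    (hA : Continuous fun p : Λ × ℝ => A p.1 p.2) {a b : ℝ} (hab : a ≤ b) {P Q : Λ → ℝ → V}
    (h : ∀ c, Sol2 (d c) (A c) (P c) (Q c) (Icc a b)) (hP : Continuous fun c => P c a)
    (hQ : Continuous fun c => Q c a) :
    (Continuous fun c => P c b) ∧ Continuous fun c => Q c b := by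
  have := lin_continuous (B := fun c t => sysB (d c t) (A c t)) (X := fun c t => (P c t, Q c t))
    (sysB_comp hd hA) hab (fun c => (h c).sys) (hP.prodMk hQ)
  exact ⟨this.fst, this.snd⟩

theorem sol2_smooth {d : ℝ → ℝ} {A : ℝ → V →L[ℝ] V} (hd : ContDiff ℝ ∞ d)
    (hA : ContDiff ℝ ∞ A) {P Q : ℝ → V} (h : Sol2 d A P Q univ) : ContDiff ℝ ∞ P := by
  have h1 : deriv P = Q := funext fun t => (h t (mem_univ _)).1.deriv
  have h2 : deriv Q = fun t => A t (P t) - d t • Q t := funext fun t => (h t (mem_univ _)).2.deriv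
  have d1 : Differentiable ℝ P := fun t => (h t (mem_univ _)).1.differentiableAt
  have d2 : Differentiable ℝ Q := fun t => (h t (mem_univ _)).2.differentiableAt
  have key : ∀ n : ℕ, ContDiff ℝ n P ∧ ContDiff ℝ n Q := by
    intro n
    induction n with
    | zero => exact ⟨contDiff_zero.2 d1.continuous, contDiff_zero.2 d2.continuous⟩
    | succ n ih =>
      rw [Nat.cast_succ, contDiff_succ_iff_deriv, contDiff_succ_iff_deriv, h1, h2]
      exact ⟨⟨d1, by simp, ih.2⟩, d2, by simp,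
        ((contDiff_infty.1 hA n).clm_apply ih.1).sub ((contDiff_infty.1 hd n).smul ih.2)⟩
  exact contDiff_infty.2 fun n => (key n).1

theorem sol2_bound {d : ℝ → ℝ} {A : ℝ → V →L[ℝ] V} {a b C : ℝ} (hC : 0 ≤ C)
    (hd : ∀ t ∈ Icc a b, |d t| ≤ C) (hA : ∀ t ∈ Icc a b, ‖A t‖ ≤ C) {P Q : ℝ → V}
    (h : Sol2 d A P Q (Icc a b)) :
    ∀ t ∈ Icc a b, ‖P t‖ + ‖Q t‖ ≤ 2 * Real.exp ((2 * C + 1) * (t - a)) * (‖P a‖ + ‖Q a‖) := by
  intro t ht
  have := norm_le_gronwallBound_of_norm_deriv_right_le (f := fun t => (P t, Q t))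
    (K := 2 * C + 1) (ε := 0) (δ := ‖P a‖ + ‖Q a‖)
    (fun t ht => (h.sys t ht).continuousAt.continuousWithinAt)
    (fun t ht => (h.sys t (Ico_subset_Icc_self ht)).hasDerivWithinAt)
    (max_le (le_add_of_nonneg_right (norm_nonneg _)) (le_add_of_nonneg_left (norm_nonneg _)))
    (fun s hs => by
      have hs' := Ico_subset_Icc_self hs
      have h1 : ‖P s‖ ≤ ‖(P s, Q s)‖ := norm_fst_le (P s, Q s)
      have h2 : ‖Q s‖ ≤ ‖(P s, Q s)‖ := norm_snd_le (P s, Q s)
      have h3 : ‖A s (P s)‖ ≤ C * ‖(P s, Q s)‖ :=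
        ((A s).le_opNorm _).trans (mul_le_mul (hA s hs') h1 (norm_nonneg _) hC)
      have h4 : ‖d s • Q s‖ ≤ C * ‖(P s, Q s)‖ := by
        rw [norm_smul]; exact mul_le_mul (hd s hs') h2 (norm_nonneg _) hC
      have h5 := norm_sub_le (A s (P s)) (d s • Q s)
      have h6 := mul_nonneg hC (norm_nonneg (P s, Q s))
      rw [sysB_apply]
      exact max_le (by simp only; linarith) (by simp only; linarith [norm_nonneg (P s, Q s)])) t ht
  rw [gronwallBound_ε0] at this
  have h1 : ‖P t‖ ≤ ‖(P t, Q t)‖ := norm_fst_le (P t, Q t)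
  have h2 : ‖Q t‖ ≤ ‖(P t, Q t)‖ := norm_snd_le (P t, Q t)
  linarith

end Vale.Agent.P225
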