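import Vale.Agent.P225.PolyBasic

/-!
Real harmonic polynomials as a real form of `HarmY`. We have
`toY m f = linSub (Vmat m) (MvPolynomial.map (algebraMap ℝ ℂ) f)`, `Umat * Vmat = 1 = Vmat * Umat`,
`Umat * Umatᵀ = 2 S` with `S α β = if β = bar α then 1 else 0`, `Vmat = (1/2) Umatᵀ S`. By
`pderiv_linSub`: `lap (linSub Umat g) = 2 linSub Umat (lapY g)`. Real and imaginary parts of a complex
polynomial: `g = map f1 + I • map f2` with `coeff s f1 = (coeff s g).re` etc.; `map` commutes with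
`pderiv` (`MvPolynomial.pderiv_map`) and `xi`. For `eY_decomp` take the real and imaginary parts of the
complex skew matrix `(1/2) Umatᵀ (E β α - E α β) Umat`.
-/

namespace Vale.Agent.P225

open scoped ContDiff
open Filter Topology MvPolynomial Matrix Set

theorem Umat_mul_Vmat (m : ℕ) : Umat m * Vmat m = 1 := by
  ext ⟨a, s⟩ ⟨b, t⟩
  rw [Matrix.mul_apply, Fintype.sum_prod_type, Finset.sum_eq_single a]
  · by_cases hab : a = b
    · subst hab
      cases s <;> cases t <;> simp [Umat, Vmat, Matrix.one_apply] <;>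
        first
          | linear_combination (-1 / 2 : ℂ) * Complex.I_mul_I
          | linear_combination (1 / 2 : ℂ) * Complex.I_mul_I
    · simp [Umat, Vmat, Matrix.one_apply, hab]
  · intro c _ hc
    simp [Umat, Ne.symm hc]
  · simp

theorem Vmat_mul_Umat (m : ℕ) : Vmat m * Umat m = 1 :=
  mul_eq_one_comm.1 (Umat_mul_Vmat m)

theorem rf_bar_bar {m : ℕ} (α : Fin m × Bool) : bar (bar α) = α := by
  simp [bar]

theorem rf_Vmat_bar (m : ℕ) (k γ : Fin m × Bool) : Vmat m k (bar γ) = 1 / 2 * Umat m γ k := by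
  obtain ⟨a, s⟩ := k
  obtain ⟨b, t⟩ := γ
  by_cases hab : a = b
  · subst hab
    cases s <;> cases t <;> simp [Umat, Vmat, bar] <;> ring
  · simp [Umat, Vmat, bar, hab, Ne.symm hab]

theorem rf_UU (m : ℕ) (α β : Fin m × Bool) :
    ∑ k, Umat m α k * Umat m β k = if α = bar β then 2 else 0 := by
  have h := congrFun (congrFun (Umat_mul_Vmat m) α) (bar β)
  rw [Matrix.mul_apply, Matrix.one_apply] at h
  simp only [rf_Vmat_bar] at h
  have h2 : ∑ k, Umat m α k * Umat m β k = 2 * ∑ k, Umat m α k * (1 / 2 * Umat m β k) := by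
    rw [Finset.mul_sum]
    exact Finset.sum_congr rfl fun k _ => by ring
  rw [h2, h]
  split_ifs <;> simp

theorem rf_lap_linSub (m : ℕ) (g : MvPolynomial (Fin m × Bool) ℂ) :
    ∑ k, pderiv k (pderiv k (linSub (Umat m) g)) =
      (2 : ℂ) • linSub (Umat m) (∑ α, pderiv α (pderiv (bar α) g)) := by
  have h1 : ∀ k : Fin m × Bool, pderiv k (pderiv k (linSub (Umat m) g)) =
      ∑ α, ∑ β, (Umat m α k * Umat m β k) • linSub (Umat m) (pderiv β (pderiv α g)) := by
    intro k
    rw [pderiv_linSub, map_sum]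
    refine Finset.sum_congr rfl fun α _ => ?_
    rw [Derivation.map_smul, pderiv_linSub, Finset.smul_sum]
    exact Finset.sum_congr rfl fun β _ => by rw [smul_smul]
  simp only [h1]
  rw [Finset.sum_comm]
  have h2 : ∀ α : Fin m × Bool, ∑ k, ∑ β, (Umat m α k * Umat m β k) •
      linSub (Umat m) (pderiv β (pderiv α g)) =
      ∑ β, (if α = bar β then (2 : ℂ) else 0) • linSub (Umat m) (pderiv β (pderiv α g)) := by
    intro α
    rw [Finset.sum_comm]
    exact Finset.sum_congr rfl fun β _ => by rw [← Finset.sum_smul, rf_UU]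
  simp only [h2]
  rw [Finset.sum_comm, map_sum, Finset.smul_sum]
  refine Finset.sum_congr rfl fun β _ => ?_
  rw [Finset.sum_eq_single (bar β)]
  · rw [if_pos rfl]
  · intro α _ h
    rw [if_neg h, zero_smul]
  · simp

theorem rf_toY (m : ℕ) (f : MvPolynomial (Fin m × Bool) ℝ) :
    toY m f = linSub (Vmat m) (MvPolynomial.map (algebraMap ℝ ℂ) f) := by
  induction f using MvPolynomial.induction_on with
  | C a =>
    rw [map_C, ← algebraMap_eq, ← algebraMap_eq, AlgHom.commutes, AlgHom.commutes]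
    rfl
  | add p q hp hq => rw [map_add, map_add, map_add, hp, hq]
  | mul_X p k hp =>
    rw [map_mul, map_mul, map_mul, hp, map_X, toY, linSub, aeval_X, aeval_X]

theorem rf_U_V {m : ℕ} (f : MvPolynomial (Fin m × Bool) ℂ) :
    linSub (Umat m) (linSub (Vmat m) f) = f := by
  rw [linSub_linSub, Vmat_mul_Umat, linSub_one]

theorem rf_V_U {m : ℕ} (f : MvPolynomial (Fin m × Bool) ℂ) :
    linSub (Vmat m) (linSub (Umat m) f) = f := by
  rw [linSub_linSub, Umat_mul_Vmat, linSub_one]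

theorem rf_map_inj {ι : Type} {f1 f2 : MvPolynomial ι ℝ}
    (h : MvPolynomial.map (algebraMap ℝ ℂ) f1 + Complex.I • MvPolynomial.map (algebraMap ℝ ℂ) f2
      = 0) : f1 = 0 ∧ f2 = 0 := by
  have h1 : ∀ s, coeff s f1 = 0 ∧ coeff s f2 = 0 := by
    intro s
    have h2 := congrArg (coeff s) h
    rw [coeff_add, coeff_smul, coeff_map, coeff_map, coeff_zero] at h2
    have h3 := congrArg Complex.re h2
    have h4 := congrArg Complex.im h2
    simp at h3 h4
    exact ⟨h3, h4⟩
  exact ⟨MvPolynomial.ext _ _ fun s => (h1 s).1, MvPolynomial.ext _ _ fun s => (h1 s).2⟩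

theorem rf_exists_coeff {ι : Type} (g : MvPolynomial ι ℂ) (φ : ℂ → ℝ) (hφ : φ 0 = 0) :
    ∃ f : MvPolynomial ι ℝ, ∀ s, coeff s f = φ (coeff s g) := by
  classical
  refine ⟨∑ s ∈ g.support, monomial s (φ (coeff s g)), fun s => ?_⟩
  simp only [coeff_sum, coeff_monomial, Finset.sum_ite_eq', mem_support_iff]
  split_ifs with h
  · rfl
  · rw [not_not.1 h, hφ]

theorem rf_lap_map {ι : Type} [Fintype ι] [DecidableEq ι] (f : MvPolynomial ι ℝ) :
    ∑ k, pderiv k (pderiv k (MvPolynomial.map (algebraMap ℝ ℂ) f)) =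
      MvPolynomial.map (algebraMap ℝ ℂ) (∑ k, pderiv k (pderiv k f)) := by
  rw [map_sum]
  exact Finset.sum_congr rfl fun k _ => by rw [pderiv_map, pderiv_map]

/-- The real matrix `A` in the complex coordinates. -/
noncomputable def cxMat {m : ℕ} (A : Matrix (Fin m × Bool) (Fin m × Bool) ℝ) :
    Matrix (Fin m × Bool) (Fin m × Bool) ℂ := Umat m * A.map (fun r : ℝ => (r : ℂ)) * Vmat m

theorem toY_mem {m j : ℕ} {f : MvPolynomial (Fin m × Bool) ℝ}
    (hf : f ∈ Harm (Fin m × Bool) ℝ j) : toY m f ∈ HarmY m j := by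
  obtain ⟨h1, h2⟩ := mem_Harm.1 hf
  rw [rf_toY]
  refine mem_HarmY.2 ⟨linSub_homog _ (h1.map _), ?_⟩
  have h3 := rf_lap_linSub m (linSub (Vmat m) (MvPolynomial.map (algebraMap ℝ ℂ) f))
  rw [rf_U_V, rf_lap_map, h2, map_zero] at h3
  have h4 := (smul_eq_zero.1 h3.symm).resolve_left two_ne_zero
  rw [← rf_V_U (∑ α, _), h4, map_zero]

theorem toY_inj {m : ℕ} {f1 f2 : MvPolynomial (Fin m × Bool) ℝ}
    (h : toY m f1 + Complex.I • toY m f2 = 0) : f1 = 0 ∧ f2 = 0 := by
  apply rf_map_inj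
  have h1 := congrArg (linSub (Umat m)) h
  rwa [map_add, map_smul, rf_toY, rf_toY, rf_U_V, rf_U_V, map_zero] at h1

theorem toY_surj {m j : ℕ} {g : MvPolynomial (Fin m × Bool) ℂ} (hg : g ∈ HarmY m j) :
    ∃ f1 ∈ Harm (Fin m × Bool) ℝ j, ∃ f2 ∈ Harm (Fin m × Bool) ℝ j,
      g = toY m f1 + Complex.I • toY m f2 := by
  obtain ⟨h1, h2⟩ := mem_HarmY.1 hg
  obtain ⟨f1, hf1⟩ := rf_exists_coeff (linSub (Umat m) g) Complex.re rfl
  obtain ⟨f2, hf2⟩ := rf_exists_coeff (linSub (Umat m) g) Complex.im rfl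
  have h3 := linSub_homog (Umat m) h1
  have e : linSub (Umat m) g =
      MvPolynomial.map (algebraMap ℝ ℂ) f1 + Complex.I • MvPolynomial.map (algebraMap ℝ ℂ) f2 := by
    refine MvPolynomial.ext _ _ fun s => ?_
    rw [coeff_add, coeff_smul, coeff_map, coeff_map, hf1, hf2]
    apply Complex.ext <;> simp
  have h4 := rf_lap_linSub m g
  rw [h2, map_zero, smul_zero, e] at h4
  simp only [map_add, Derivation.map_smul, Finset.sum_add_distrib, ← Finset.smul_sum,
    rf_lap_map] at h4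
  obtain ⟨h5, h6⟩ := rf_map_inj h4
  refine ⟨f1, mem_Harm.2 ⟨fun s hs => h3 fun h => hs ?_, h5⟩,
    f2, mem_Harm.2 ⟨fun s hs => h3 fun h => hs ?_, h6⟩, ?_⟩
  · rw [hf1, h]; rfl
  · rw [hf2, h]; rfl
  · rw [rf_toY, rf_toY, ← map_smul, ← map_add, ← e, rf_V_U]

theorem toY_xi {m : ℕ} (A : Matrix (Fin m × Bool) (Fin m × Bool) ℝ)
    (f : MvPolynomial (Fin m × Bool) ℝ) : xi (cxMat A) (toY m f) = toY m (xi A f) := by
  have h : Vmat m * cxMat A = A.map (fun r : ℝ => (r : ℂ)) * Vmat m := by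
    rw [cxMat, ← Matrix.mul_assoc, ← Matrix.mul_assoc, Vmat_mul_Umat, Matrix.one_mul]
  rw [rf_toY, rf_toY, xi_linSub h]
  congr 1
  rw [xi_apply, xi_apply, map_sum]
  refine Finset.sum_congr rfl fun k _ => ?_
  rw [map_sum]
  refine Finset.sum_congr rfl fun l _ => ?_
  rw [smul_eq_C_mul, smul_eq_C_mul, map_mul, map_mul, map_C, map_X, pderiv_map]
  rfl

theorem isCx_Jeps {m : ℕ} {ε : Fin m → ℝ} (hε : ∀ a, ε a = 1 ∨ ε a = -1) : IsCx (Jeps ε) := by
  constructor
  · ext ⟨a, s⟩ ⟨b, t⟩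
    by_cases hab : a = b
    · subst hab
      cases s <;> cases t <;> simp [Jeps, bar]
    · simp [Jeps, bar, hab, Ne.symm hab]
  · ext α γ
    rw [Matrix.mul_apply, Finset.sum_eq_single (bar α)]
    · obtain ⟨a, s⟩ := α
      obtain ⟨b, t⟩ := γ
      by_cases hab : a = b
      · subst hab
        rcases hε a with h | h <;> cases s <;> cases t <;> simp [Jeps, bar, h]
      · simp [Jeps, bar, hab, Ne.symm hab]
    · intro β _ h
      simp [Jeps, h]
    · simp

theorem rf_cxMat_Jeps {m : ℕ} (ε : Fin m → ℝ) : cxMat (Jeps ε) =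
    Matrix.diagonal fun α : Fin m × Bool =>
      if α.2 then -(Complex.I * ε α.1) else Complex.I * ε α.1 := by
  have h : Umat m * (Jeps ε).map (fun r : ℝ => (r : ℂ)) = (Matrix.diagonal fun α : Fin m × Bool =>
      if α.2 then -(Complex.I * ε α.1) else Complex.I * ε α.1) * Umat m := by
    ext α k
    rw [Matrix.diagonal_mul, Matrix.mul_apply, Finset.sum_eq_single (bar k)]
    · obtain ⟨a, s⟩ := α
      obtain ⟨b, t⟩ := k
      by_cases hab : a = b
      · subst hab
        cases s <;> cases t <;> simp [Jeps, bar, Umat] <;>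
          first
            | linear_combination (-ε a : ℂ) * Complex.I_mul_I
            | linear_combination (ε a : ℂ) * Complex.I_mul_I
      · simp [Umat, bar, hab]
    · intro β _ h
      have h' : k ≠ bar β := fun e => h (by rw [e, rf_bar_bar])
      simp [Jeps, h']
    · simp
  rw [cxMat, h, Matrix.mul_assoc, Umat_mul_Vmat, Matrix.mul_one]

theorem xi_cxMat_Jeps {m : ℕ} (ε : Fin m → ℝ) :
    xi (cxMat (Jeps ε)) = Complex.I • ∑ a, (ε a : ℂ) • hY a := by
  refine LinearMap.ext fun f => ?_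
  rw [rf_cxMat_Jeps, xi_apply, LinearMap.smul_apply, LinearMap.sum_apply, Finset.smul_sum]
  have h : ∀ (d : Fin m × Bool → ℂ) (k : Fin m × Bool),
      ∑ l, Matrix.diagonal d k l • (X l * pderiv k f) = d k • (X k * pderiv k f) := by
    intro d k
    rw [Finset.sum_eq_single k]
    · rw [Matrix.diagonal_apply_eq]
    · intro l _ hl
      rw [Matrix.diagonal_apply_ne _ (Ne.symm hl), zero_smul]
    · simp
  simp only [h]
  rw [Fintype.sum_prod_type]
  refine Finset.sum_congr rfl fun a _ => ?_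
  rw [LinearMap.smul_apply, hY, eY_apply, Fintype.sum_bool, smul_smul, smul_sub]
  simp only [bar, if_true, Bool.false_eq_true, if_false, Bool.not_true, Bool.not_false, neg_smul]
  abel

theorem eY_decomp {m : ℕ} (α β : Fin m × Bool) :
    ∃ A1 A2 : Matrix (Fin m × Bool) (Fin m × Bool) ℝ, A1ᵀ = -A1 ∧ A2ᵀ = -A2 ∧
      eY α β = xi (cxMat A1) + Complex.I • xi (cxMat A2) := by
  let B : Matrix (Fin m × Bool) (Fin m × Bool) ℂ :=
    Matrix.single (bar β) α 1 - Matrix.single (bar α) β 1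
  have hs : ∀ γ δ k l : Fin m × Bool,
      (Vmat m * Matrix.single (bar γ) δ (1 : ℂ) * Umat m) k l =
        1 / 2 * Umat m γ k * Umat m δ l := by
    intro γ δ k l
    rw [Matrix.mul_apply, Finset.sum_eq_single δ]
    · rw [Matrix.mul_single_apply_same, rf_Vmat_bar, mul_one]
    · intro x _ hx
      rw [Matrix.mul_single_apply_of_ne _ _ _ _ _ hx, zero_mul]
    · simp
  have hC : ∀ k l, (Vmat m * B * Umat m) l k = -(Vmat m * B * Umat m) k l := by
    intro k l
    simp only [B, Matrix.mul_sub, Matrix.sub_mul, Matrix.sub_apply, hs]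
    ring
  refine ⟨(Vmat m * B * Umat m).map Complex.re, (Vmat m * B * Umat m).map Complex.im, ?_, ?_, ?_⟩
  · ext k l
    rw [Matrix.transpose_apply, Matrix.neg_apply, Matrix.map_apply, Matrix.map_apply, hC,
      Complex.neg_re]
  · ext k l
    rw [Matrix.transpose_apply, Matrix.neg_apply, Matrix.map_apply, Matrix.map_apply, hC,
      Complex.neg_im]
  · rw [eY_eq_xi, ← xi_smul, ← xi_add]
    congr 1
    have e : ((Vmat m * B * Umat m).map Complex.re).map (fun r : ℝ => (r : ℂ)) +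
        Complex.I • ((Vmat m * B * Umat m).map Complex.im).map (fun r : ℝ => (r : ℂ)) =
        Vmat m * B * Umat m := by
      ext k l
      simp only [Matrix.add_apply, Matrix.smul_apply, Matrix.map_apply, smul_eq_mul]
      rw [mul_comm, Complex.re_add_im]
    rw [cxMat, cxMat, ← Matrix.smul_mul, ← Matrix.mul_smul, ← Matrix.add_mul, ← Matrix.mul_add, e,
      ← Matrix.mul_assoc, ← Matrix.mul_assoc, Umat_mul_Vmat, Matrix.one_mul, Matrix.mul_assoc,
      Umat_mul_Vmat, Matrix.mul_one]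

theorem rf_cx_abstract {V W : Type} [AddCommGroup V] [Module ℝ V] [AddCommGroup W] [Module ℂ W]
    [Module ℝ W] [IsScalarTower ℝ ℂ W] (φ : V →ₗ[ℝ] W)
    (hinj : ∀ a b, φ a + Complex.I • φ b = 0 → a = 0 ∧ b = 0)
    (hsurj : ∀ w, ∃ a b, w = φ a + Complex.I • φ b) (T : V →ₗ[ℝ] V) :
    ∃ T' : W →ₗ[ℂ] W, ∀ v, T' (φ v) = φ (T v) := by
  choose P Q hPQ using hsurj
  have uniq : ∀ w a b, w = φ a + Complex.I • φ b → P w = a ∧ Q w = b := by
    intro w a b h
    have h1 := hinj (P w - a) (Q w - b) (by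
      rw [map_sub, map_sub, smul_sub, sub_add_sub_comm, ← hPQ w, ← h, sub_self])
    exact ⟨sub_eq_zero.1 h1.1, sub_eq_zero.1 h1.2⟩
  have hsm : ∀ (c : ℂ) (a b : V), c • (φ a + Complex.I • φ b) =
      φ (c.re • a - c.im • b) + Complex.I • φ (c.re • b + c.im • a) := by
    intro c a b
    have hr : ∀ (r : ℝ) (w : W), r • w = (r : ℂ) • w := fun r w =>
      (algebraMap_smul ℂ r w).symm
    simp only [map_sub, map_add, map_smul, hr, smul_add, smul_smul]
    have e1 : c = (c.re : ℂ) + Complex.I * c.im := by rw [mul_comm, Complex.re_add_im]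
    have e2 : c * Complex.I = Complex.I * c.re - c.im := by
      apply Complex.ext <;> simp
    rw [e2]
    nth_rewrite 1 [e1]
    rw [add_smul, sub_smul]
    abel
  refine ⟨{ toFun := fun w => φ (T (P w)) + Complex.I • φ (T (Q w))
            map_add' := fun w w' => ?_
            map_smul' := fun c w => ?_ }, fun v => ?_⟩
  · obtain ⟨h1, h2⟩ := uniq (w + w') (P w + P w') (Q w + Q w') (by
      rw [map_add, map_add, smul_add, add_add_add_comm, ← hPQ w, ← hPQ w'])
    rw [h1, h2, map_add, map_add, map_add, map_add, smul_add, add_add_add_comm]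
  · obtain ⟨h1, h2⟩ := uniq (c • w) _ _ ((congrArg (c • ·) (hPQ w)).trans (hsm c _ _))
    rw [h1, h2, RingHom.id_apply, hsm, map_sub T, map_add T, map_smul T, map_smul T, map_smul T,
      map_smul T]
  · obtain ⟨h1, h2⟩ := uniq (φ v) v 0 (by simp)
    change φ (T (P (φ v))) + Complex.I • φ (T (Q (φ v))) = _
    rw [h1, h2, map_zero, map_zero, smul_zero, add_zero]

/-- The inclusion of the real harmonic polynomials into the complex model. -/
noncomputable def rfPhi (m j : ℕ) : Harm (Fin m × Bool) ℝ j →ₗ[ℝ] HarmY m j where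
  toFun f := ⟨toY m f, toY_mem f.2⟩
  map_add' a b := Subtype.ext (map_add (toY m) a.1 b.1)
  map_smul' c a := Subtype.ext (map_smul (toY m) c a.1)

theorem rfPhi_coe {m j : ℕ} (f : Harm (Fin m × Bool) ℝ j) :
    ((rfPhi m j f : HarmY m j) : MvPolynomial (Fin m × Bool) ℂ) = toY m f := rfl

/-- Complexification of a real endomorphism. -/
theorem exists_cx {m j : ℕ} (T : Module.End ℝ (Harm (Fin m × Bool) ℝ j)) :
    ∃ T' : Module.End ℂ (HarmY m j), ∀ f : Harm (Fin m × Bool) ℝ j,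
      ((T' ⟨toY m f, toY_mem f.2⟩ : HarmY m j) : MvPolynomial (Fin m × Bool) ℂ) =
        toY m (T f : Harm (Fin m × Bool) ℝ j) := by
  have hinj : ∀ a b : Harm (Fin m × Bool) ℝ j,
      rfPhi m j a + Complex.I • rfPhi m j b = 0 → a = 0 ∧ b = 0 := by
    intro a b h
    have h0 := congrArg Subtype.val h
    rw [Submodule.coe_add, Submodule.coe_smul, rfPhi_coe, rfPhi_coe, Submodule.coe_zero] at h0
    obtain ⟨h1, h2⟩ := toY_inj h0
    exact ⟨Subtype.ext h1, Subtype.ext h2⟩
  have hsurj : ∀ w : HarmY m j, ∃ a b : Harm (Fin m × Bool) ℝ j,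
      w = rfPhi m j a + Complex.I • rfPhi m j b := by
    intro w
    obtain ⟨f1, h1, f2, h2, h⟩ := toY_surj w.2
    refine ⟨⟨f1, h1⟩, ⟨f2, h2⟩, Subtype.ext ?_⟩
    rw [Submodule.coe_add, Submodule.coe_smul, rfPhi_coe, rfPhi_coe]
    exact h
  obtain ⟨T', hT⟩ := rf_cx_abstract (rfPhi m j) hinj hsurj T
  refine ⟨T', fun f => ?_⟩
  rw [← rfPhi_coe (T f), ← hT f]
  rfl

end Vale.Agent.P225
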