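import Vale.Agent.P225.GenC
import Vale.Agent.P225.RealForm

/-!
Real generation theorem. Let `M0` be the infimum of all submodules with the three properties; it has
them too, and it suffices to show `M0 = ⊤`.
1. `M0` is normalised by the restriction `x A` of `xi A` for real skew `A`: the set of `a ∈ M0` with
   `[x A, a] ∈ M0` is a submodule closed under brackets (Jacobi) containing the scalars; it contains
   the generators since `[xi A, (xi J)²] = xi K xi J + xi J xi K` with `K = J A - A J` (`xi_comm`),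
   which is the derivative at `0` of `t ↦ (xi (J t))²` along the curve of complex structures
   `J t = exp (-tA) J exp (tA)`. (Test with a linear functional vanishing on `M0`:
   `Subspace.forall_mem_dualAnnihilator_apply_eq_zero_iff`; expand the bilinear map in the entries
   of the skew parts to differentiate. Alternatively reduce to `A = E k l - E l k`, where
   `exp (tA) = 1 + sin t A + (1 - cos t) A²`.)
2. `MC = {T | ∃ a b ∈ M0, ∀ j f, T j (toY f) = toY (a j f) + I • toY (b j f)}` is a complex submodule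
   satisfying the hypotheses of `gen_complex` (`toY_surj`, `toY_xi`, `xi_cxMat_Jeps`, `isCx_Jeps`,
   `eY_decomp`; note `(xi (cxMat (Jeps ε)))² = -(∑ ε a • hY a)²`).
3. For a real `T` take `exists_cx` componentwise and conclude with `toY_inj`.
-/

namespace Vale.Agent.P225

open scoped ContDiff
open Filter Topology MvPolynomial Matrix Set

section aux

variable {ι : Type} [Fintype ι] [DecidableEq ι]

theorem gr_lin_coeff {a0 a1 : ℝ} {g : ℝ → ℝ} (hg : Continuous g)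
    (h : ∀ t, a0 + t * a1 + t ^ 2 * g t = 0) : a1 = 0 := by
  have h0 : a0 = 0 := by simpa using h 0
  have h1 : (fun t => a1 + t * g t) = fun _ => (0 : ℝ) := by
    refine Continuous.ext_on (dense_compl_singleton (0 : ℝ)) (by fun_prop) continuous_const ?_
    intro t ht
    have := h t
    refine mul_left_cancel₀ (show t ≠ 0 from ht) ?_
    simp only [mul_zero]
    linear_combination this - h0
  simpa using congrFun h1 0

theorem gr_isCx {A J : Matrix ι ι ℝ} (hA : Aᵀ = -A) (h3 : A * A * A = -A) (hJ : IsCx J) (t : ℝ) :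
    IsCx (((1 + t ^ 2) ^ 2)⁻¹ • ((1 - t • ((2 : ℝ) • A) + t ^ 2 • (1 + (2 : ℝ) • (A * A))) * J *
      (1 + t • ((2 : ℝ) • A) + t ^ 2 • (1 + (2 : ℝ) • (A * A))))) := by
  obtain ⟨N, hN⟩ : ∃ N : Matrix ι ι ℝ,
    N = 1 + t • ((2 : ℝ) • A) + t ^ 2 • (1 + (2 : ℝ) • (A * A)) := ⟨_, rfl⟩
  obtain ⟨N', hN'⟩ : ∃ N' : Matrix ι ι ℝ,
    N' = 1 - t • ((2 : ℝ) • A) + t ^ 2 • (1 + (2 : ℝ) • (A * A)) := ⟨_, rfl⟩
  have h3' : A * (A * A) = -A := by rw [← mul_assoc, h3]
  have h4 : A * A * (A * A) = -(A * A) := by rw [← mul_assoc, h3, neg_mul]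
  have e1 : Nᵀ = N' := by
    simp [hN, hN', transpose_add, transpose_smul, transpose_mul, hA, sub_eq_add_neg]
  have e2 : N'ᵀ = N := by rw [← e1, transpose_transpose]
  have e3 : N * N' = ((1 + t ^ 2) ^ 2) • (1 : Matrix ι ι ℝ) := by
    rw [hN, hN']
    simp only [mul_add, add_mul, mul_sub, smul_mul_assoc, mul_smul_comm, mul_one, one_mul, h3, h3',
      h4]
    module
  have e4 : N' * N = ((1 + t ^ 2) ^ 2) • (1 : Matrix ι ι ℝ) := by
    rw [hN, hN']
    simp only [mul_add, add_mul, sub_mul, smul_mul_assoc, mul_smul_comm, mul_one, one_mul, h3, h3',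
      h4]
    module
  have hp : (1 + t ^ 2) ^ 2 ≠ 0 := by positivity
  rw [← hN, ← hN']
  generalize (1 + t ^ 2) ^ 2 = r at *
  constructor
  · rw [transpose_smul, transpose_mul, transpose_mul, e1, e2, hJ.1]
    simp [mul_assoc]
  · have e5 : N' * J * N * (N' * J * N) = N' * (J * (N * N') * J) * N := by
      simp only [mul_assoc]
    rw [smul_mul_assoc, mul_smul_comm, e5, e3, mul_smul_comm, mul_one, smul_mul_assoc, hJ.2,
      mul_smul_comm, smul_mul_assoc, mul_neg, mul_one, neg_mul, e4, smul_neg, smul_neg, smul_neg,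
      smul_smul, smul_smul, smul_smul]
    congr 1
    rw [show r⁻¹ * r⁻¹ * r * r = 1 by field_simp, one_smul]

theorem gr_deriv {V : Type} [AddCommGroup V] [Module ℝ V] (M : Submodule ℝ V)
    (Q : Matrix ι ι ℝ →ₗ[ℝ] Matrix ι ι ℝ →ₗ[ℝ] V) (hQ : ∀ J, IsCx J → Q J J ∈ M)
    {A J : Matrix ι ι ℝ} (hA : Aᵀ = -A) (h3 : A * A * A = -A) (hJ : IsCx J) :
    Q (J * A - A * J) J + Q J (J * A - A * J) ∈ M := by
  rw [← Subspace.forall_mem_dualAnnihilator_apply_eq_zero_iff]
  intro φ hφ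
  rw [Submodule.mem_dualAnnihilator] at hφ
  obtain ⟨S, hS⟩ : ∃ S : Matrix ι ι ℝ, S = 1 + (2 : ℝ) • (A * A) := ⟨_, rfl⟩
  obtain ⟨K, hK⟩ : ∃ K : Matrix ι ι ℝ, K = J * A - A * J := ⟨_, rfl⟩
  obtain ⟨P2, h2⟩ : ∃ P : Matrix ι ι ℝ, P = J * S + S * J - (4 : ℝ) • (A * J * A) := ⟨_, rfl⟩
  obtain ⟨P3, h3'⟩ : ∃ P : Matrix ι ι ℝ, P = (2 : ℝ) • (S * J * A - A * J * S) := ⟨_, rfl⟩
  obtain ⟨P4, h4⟩ : ∃ P : Matrix ι ι ℝ, P = S * J * S := ⟨_, rfl⟩
  have e : ∀ t : ℝ, (1 - t • ((2 : ℝ) • A) + t ^ 2 • S) * J * (1 + t • ((2 : ℝ) • A) + t ^ 2 • S) =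
      J + (2 * t) • K + t ^ 2 • (P2 + t • P3 + t ^ 2 • P4) := by
    intro t
    rw [hK, h2, h3', h4]
    simp only [mul_add, add_mul, sub_mul, smul_mul_assoc, mul_smul_comm, mul_one, one_mul]
    module
  have key : ∀ t : ℝ, φ (Q (J + (2 * t) • K + t ^ 2 • (P2 + t • P3 + t ^ 2 • P4))
      (J + (2 * t) • K + t ^ 2 • (P2 + t • P3 + t ^ 2 • P4))) = 0 := by
    intro t
    have h := hφ _ (hQ _ (gr_isCx hA h3 hJ t))
    rw [← hS, e] at h
    simp only [map_smul, LinearMap.smul_apply, smul_eq_mul] at h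
    have hp : ((1 + t ^ 2) ^ 2)⁻¹ ≠ 0 := by positivity
    exact (mul_eq_zero.1 ((mul_eq_zero.1 h).resolve_left hp)).resolve_left hp
  rw [← hK]
  have := gr_lin_coeff (a0 := φ (Q J J)) (a1 := 2 * φ (Q K J + Q J K))
    (g := fun t => 4 * φ (Q K K) + φ (Q J (P2 + t • P3 + t ^ 2 • P4)) +
      φ (Q (P2 + t • P3 + t ^ 2 • P4) J) + 2 * t * φ (Q K (P2 + t • P3 + t ^ 2 • P4)) +
      2 * t * φ (Q (P2 + t • P3 + t ^ 2 • P4) K) +
      t ^ 2 * φ (Q (P2 + t • P3 + t ^ 2 • P4) (P2 + t • P3 + t ^ 2 • P4)))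
    (by
      simp only [map_add, map_smul, LinearMap.add_apply, LinearMap.smul_apply, smul_eq_mul]
      fun_prop)
    (fun t => by
      have h := key t
      generalize P2 + t • P3 + t ^ 2 • P4 = W at h ⊢
      simp only [map_add, map_smul, LinearMap.add_apply, LinearMap.smul_apply, smul_eq_mul] at h ⊢
      linear_combination h)
  linarith

theorem gr_deriv' {V : Type} [AddCommGroup V] [Module ℝ V] (M : Submodule ℝ V)
    (Q : Matrix ι ι ℝ →ₗ[ℝ] Matrix ι ι ℝ →ₗ[ℝ] V) (hQ : ∀ J, IsCx J → Q J J ∈ M)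
    {A J : Matrix ι ι ℝ} (hA : Aᵀ = -A) (hJ : IsCx J) :
    Q (J * A - A * J) J + Q J (J * A - A * J) ∈ M := by
  let L : Matrix ι ι ℝ →ₗ[ℝ] Matrix ι ι ℝ := LinearMap.mulLeft ℝ J - LinearMap.mulRight ℝ J
  let D : Matrix ι ι ℝ →ₗ[ℝ] V := Q.flip J ∘ₗ L + Q J ∘ₗ L
  have hD : ∀ B, D B = Q (J * B - B * J) J + Q J (J * B - B * J) := fun B => rfl
  have e : A = ∑ k, ∑ l, (A k l / 2) • (Matrix.single k l (1 : ℝ) - Matrix.single l k 1) := by
    ext i j
    have h1 : A j i = -A i j := congrFun (congrFun hA i) j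
    simp only [Matrix.sum_apply, Matrix.smul_apply, Matrix.sub_apply, Matrix.single_apply,
      smul_eq_mul, mul_sub, Finset.sum_sub_distrib, ite_and, mul_ite, mul_one, mul_zero]
    rw [Finset.sum_comm (f := fun k l => if l = i then if k = j then A k l / 2 else 0 else 0)]
    simp [h1]
    ring
  rw [← hD, e, map_sum]
  refine M.sum_mem fun k _ => ?_
  rw [map_sum]
  refine M.sum_mem fun l _ => ?_
  rw [map_smul]
  refine M.smul_mem _ ?_
  by_cases hkl : k = l
  · simp [hkl]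
  rw [hD]
  refine gr_deriv M Q hQ (by simp [transpose_sub]) ?_ hJ
  simp [mul_sub, sub_mul, Matrix.single_mul_single_same, Matrix.single_mul_single_of_ne, hkl,
    Ne.symm hkl]
  abel

variable {K : Type} [CommRing K] {W : Submodule K (MvPolynomial ι K)}

theorem Rep.gr_unique {T T' : Module.End K W} {F : Module.End K (MvPolynomial ι K)} (h : Rep T F)
    (h' : Rep T' F) : T = T' :=
  LinearMap.ext fun f => Subtype.ext ((h f).trans (h' f).symm)

theorem Rep.gr_mul {T T' : Module.End K W} {F F' : Module.End K (MvPolynomial ι K)} (h : Rep T F)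
    (h' : Rep T' F') : Rep (T * T') (F * F') := fun f => by
  rw [Module.End.mul_apply, Module.End.mul_apply, h, h']

theorem Rep.gr_sub {T T' : Module.End K W} {F F' : Module.End K (MvPolynomial ι K)} (h : Rep T F)
    (h' : Rep T' F') : Rep (T - T') (F - F') := fun f => by
  rw [LinearMap.sub_apply, LinearMap.sub_apply, Submodule.coe_sub, h, h']

theorem Rep.gr_smul {T : Module.End K W} {F : Module.End K (MvPolynomial ι K)} (h : Rep T F)
    (c : K) : Rep (c • T) (c • F) := fun f => by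
  rw [LinearMap.smul_apply, LinearMap.smul_apply, Submodule.coe_smul, h]

/-- restriction of `xi` of the skew part -/
noncomputable def grX (j : ℕ) : Matrix ι ι ℝ →ₗ[ℝ] Module.End ℝ (Harm ι ℝ j) where
  toFun A := (xi ((1 / 2 : ℝ) • (A - Aᵀ))).restrict fun _ hf =>
    xi_mem_Harm (by simp [transpose_sub, ← smul_neg]) hf
  map_add' A B := LinearMap.ext fun f => Subtype.ext (by
    show xi ((1 / 2 : ℝ) • (A + B - (A + B)ᵀ)) f =
      xi ((1 / 2 : ℝ) • (A - Aᵀ)) f + xi ((1 / 2 : ℝ) • (B - Bᵀ)) f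
    rw [← LinearMap.add_apply, ← xi_add, transpose_add]
    congr 2
    module)
  map_smul' c A := LinearMap.ext fun f => Subtype.ext (by
    show xi ((1 / 2 : ℝ) • (c • A - (c • A)ᵀ)) f = c • xi ((1 / 2 : ℝ) • (A - Aᵀ)) f
    rw [← LinearMap.smul_apply, ← xi_smul c, transpose_smul]
    congr 2
    module)

theorem grX_rep (j : ℕ) {A : Matrix ι ι ℝ} (hA : Aᵀ = -A) : Rep (grX j A) (xi A) := fun f => by
  show xi ((1 / 2 : ℝ) • (A - Aᵀ)) f = _
  congr 2
  rw [hA]
  module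

theorem grX_comm (j : ℕ) {A B : Matrix ι ι ℝ} (hA : Aᵀ = -A) (hB : Bᵀ = -B) :
    grX j A * grX j B - grX j B * grX j A = grX j (B * A - A * B) := by
  refine Rep.gr_unique (((grX_rep j hA).gr_mul (grX_rep j hB)).gr_sub
    ((grX_rep j hB).gr_mul (grX_rep j hA))) ?_
  rw [xi_comm]
  exact grX_rep j (by simp [transpose_sub, transpose_mul, hA, hB])

variable {κ : Type} {H : κ → Type} [∀ j, AddCommGroup (H j)] [∀ j, Module ℝ (H j)]

theorem gr_sub_mem (M : Submodule ℝ ((j : κ) → Module.End ℝ (H j)))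
    {a b : (j : κ) → Module.End ℝ (H j)} (ha : a ∈ M) (hb : b ∈ M) : a - b ∈ M := M.sub_mem ha hb

theorem gr_neg_mem (M : Submodule ℝ ((j : κ) → Module.End ℝ (H j)))
    {a : (j : κ) → Module.End ℝ (H j)} (ha : a ∈ M) : -a ∈ M := M.neg_mem ha

/-- the bilinear map whose values on complex structures are the generators -/
noncomputable def grQ (x : (j : κ) → Matrix ι ι ℝ →ₗ[ℝ] Module.End ℝ (H j)) (c : κ → ℝ) :
    Matrix ι ι ℝ →ₗ[ℝ] Matrix ι ι ℝ →ₗ[ℝ] ((j : κ) → Module.End ℝ (H j)) :=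
  LinearMap.mk₂ ℝ (fun A B j => c j • (x j A * x j B))
    (fun A A' B => by funext j; simp [add_mul])
    (fun r A B => by funext j; simp [smul_comm r])
    (fun A B B' => by funext j; simp [mul_add])
    (fun r A B => by funext j; simp [smul_comm r])

theorem gr_min [DecidableEq κ] (x : (j : κ) → Matrix ι ι ℝ →ₗ[ℝ] Module.End ℝ (H j)) (c : κ → ℝ)
    (hx : ∀ j (A B : Matrix ι ι ℝ), Aᵀ = -A → Bᵀ = -B →
      x j A * x j B - x j B * x j A = x j (B * A - A * B))
    (M : Submodule ℝ ((j : κ) → Module.End ℝ (H j)))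
    (hX : ∀ J, IsCx J → (fun j => c j • (x j J * x j J)) ∈ M) (h1 : ∀ j, Pi.single j 1 ∈ M)
    (hM : ∀ a ∈ M, ∀ b ∈ M, a * b - b * a ∈ M) :
    ∃ M0 ≤ M, (∀ J, IsCx J → (fun j => c j • (x j J * x j J)) ∈ M0) ∧ (∀ j, Pi.single j 1 ∈ M0) ∧
      (∀ a ∈ M0, ∀ b ∈ M0, a * b - b * a ∈ M0) ∧ ∀ A : Matrix ι ι ℝ, Aᵀ = -A → ∀ a ∈ M0,
        (fun j => x j A) * a - a * (fun j => x j A) ∈ M0 := by
  obtain ⟨G, hG⟩ : ∃ G : Set (Submodule ℝ ((j : κ) → Module.End ℝ (H j))),
    G = {M | (∀ J, IsCx J → grQ x c J J ∈ M) ∧ (∀ j, Pi.single j 1 ∈ M) ∧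
      ∀ a ∈ M, ∀ b ∈ M, a * b - b * a ∈ M} := ⟨_, rfl⟩
  have h0 : (∀ J, IsCx J → grQ x c J J ∈ sInf G) ∧ (∀ j, Pi.single j 1 ∈ sInf G) ∧
      ∀ a ∈ sInf G, ∀ b ∈ sInf G, a * b - b * a ∈ sInf G := by
    subst hG
    exact ⟨fun J hJ => Submodule.mem_sInf.2 fun M hM => hM.1 J hJ,
      fun j => Submodule.mem_sInf.2 fun M hM => hM.2.1 j,
      fun a ha b hb => Submodule.mem_sInf.2 fun M hM =>
        hM.2.2 a (Submodule.mem_sInf.1 ha M hM) b (Submodule.mem_sInf.1 hb M hM)⟩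
  have h2 : ∀ M, ((∀ J, IsCx J → grQ x c J J ∈ M) ∧ (∀ j, Pi.single j 1 ∈ M) ∧
      ∀ a ∈ M, ∀ b ∈ M, a * b - b * a ∈ M) → sInf G ≤ M := fun M hM => sInf_le (hG ▸ hM)
  generalize sInf G = M0 at h0 h2
  refine ⟨M0, h2 M ⟨hX, h1, hM⟩, h0.1, h0.2.1, h0.2.2, fun A hA a ha => ?_⟩
  obtain ⟨y, hy⟩ : ∃ y : (j : κ) → Module.End ℝ (H j), y = fun j => x j A := ⟨_, rfl⟩
  rw [← hy]
  refine (h2 (M0 ⊓ M0.comap (LinearMap.mulLeft ℝ y - LinearMap.mulRight ℝ y))
    ⟨fun J hJ => ⟨h0.1 J hJ, ?_⟩, fun j => ⟨h0.2.1 j, ?_⟩,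
      fun a ha b hb => ⟨h0.2.2 a ha.1 b hb.1, ?_⟩⟩ ha).2
  · show y * grQ x c J J - grQ x c J J * y ∈ M0
    convert gr_deriv' M0 (grQ x c) h0.1 hA hJ using 1
    funext j
    have e : ∀ B C, grQ x c B C j = c j • (x j B * x j C) := fun _ _ => rfl
    simp only [hy, Pi.sub_apply, Pi.mul_apply, Pi.add_apply, e, ← hx j A J hA hJ.1,
      mul_smul_comm, smul_mul_assoc, ← smul_sub, ← smul_add]
    congr 1
    noncomm_ring
  · show y * Pi.single j 1 - Pi.single j 1 * y ∈ M0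
    convert M0.zero_mem using 1
    funext i
    by_cases hi : i = j
    · subst hi
      simp
    · simp [Pi.single_eq_of_ne hi]
  · show y * (a * b - b * a) - (a * b - b * a) * y ∈ M0
    have k1 : y * a - a * y ∈ M0 := ha.2
    have k2 : y * b - b * y ∈ M0 := hb.2
    convert M0.add_mem (h0.2.2 _ k1 b hb.1) (h0.2.2 a ha.1 _ k2) using 1
    noncomm_ring

end aux

section cx

variable {m : ℕ} {κ : Type} {deg : κ → ℕ}

/-- `T` is the complexification of `a + i b`. -/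
def GrCx (T : (j : κ) → Module.End ℂ (HarmY m (deg j)))
    (a b : (j : κ) → Module.End ℝ (Harm (Fin m × Bool) ℝ (deg j))) : Prop :=
  ∀ j (f : Harm (Fin m × Bool) ℝ (deg j)),
    ((T j ⟨toY m f, toY_mem f.2⟩ : HarmY m (deg j)) : MvPolynomial (Fin m × Bool) ℂ) =
      toY m (a j f : Harm (Fin m × Bool) ℝ (deg j)) +
        Complex.I • toY m (b j f : Harm (Fin m × Bool) ℝ (deg j))

variable {T T' : (j : κ) → Module.End ℂ (HarmY m (deg j))}
  {a b a' b' : (j : κ) → Module.End ℝ (Harm (Fin m × Bool) ℝ (deg j))}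

theorem GrCx.add (h : GrCx T a b) (h' : GrCx T' a' b') : GrCx (T + T') (a + a') (b + b') :=
  fun j f => by
    simp only [Pi.add_apply, LinearMap.add_apply, Submodule.coe_add, map_add, h j f, h' j f]
    module

theorem GrCx.sub (h : GrCx T a b) (h' : GrCx T' a' b') : GrCx (T - T') (a - a') (b - b') :=
  fun j f => by
    simp only [Pi.sub_apply, LinearMap.sub_apply, Submodule.coe_sub, map_sub, h j f, h' j f]
    module

theorem GrCx.smul (h : GrCx T a b) (z : ℂ) :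
    GrCx (z • T) (z.re • a - z.im • b) (z.im • a + z.re • b) := fun j f => by
  simp only [Pi.sub_apply, Pi.add_apply, Pi.smul_apply, LinearMap.sub_apply, LinearMap.add_apply,
    LinearMap.smul_apply, Submodule.coe_sub, Submodule.coe_add, Submodule.coe_smul, map_sub,
    map_add, map_smul, h j f, ← Complex.coe_smul]
  have e := Complex.re_add_im z
  have e2 := Complex.I_mul_I
  match_scalars
  · linear_combination -e
  · linear_combination -Complex.I * e + z.im * e2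

theorem GrCx.mul (h : GrCx T a b) (h' : GrCx T' a' b') :
    GrCx (T * T') (a * a' - b * b') (a * b' + b * a') := fun j f => by
  have e : T' j ⟨toY m f, toY_mem f.2⟩ = (⟨toY m (a' j f), toY_mem (a' j f).2⟩ : HarmY m (deg j)) +
      Complex.I • (⟨toY m (b' j f), toY_mem (b' j f).2⟩ : HarmY m (deg j)) :=
    Subtype.ext (h' j f)
  simp only [Pi.sub_apply, Pi.add_apply, Pi.mul_apply, LinearMap.sub_apply, LinearMap.add_apply,
    Module.End.mul_apply, Submodule.coe_sub, Submodule.coe_add, map_sub, map_add]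
  rw [e, map_add, map_smul, Submodule.coe_add, Submodule.coe_smul, h j, h j]
  have e2 := Complex.I_mul_I
  match_scalars <;> first | ring1 | linear_combination e2

theorem GrCx.comm (h : GrCx T a b) (h' : GrCx T' a' b') :
    GrCx (T * T' - T' * T) (a * a' - a' * a - (b * b' - b' * b))
      (a * b' - b' * a + (b * a' - a' * b)) := by
  convert (h.mul h').sub (h'.mul h) using 1 <;> abel

/-- the complexification of a real subspace -/
def grMC (M0 : Submodule ℝ ((j : κ) → Module.End ℝ (Harm (Fin m × Bool) ℝ (deg j)))) :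
    Submodule ℂ ((j : κ) → Module.End ℂ (HarmY m (deg j))) where
  carrier := {T | ∃ a ∈ M0, ∃ b ∈ M0, GrCx T a b}
  zero_mem' := ⟨0, M0.zero_mem, 0, M0.zero_mem, fun j f => by simp⟩
  add_mem' := by
    rintro T T' ⟨a, ha, b, hb, h⟩ ⟨a', ha', b', hb', h'⟩
    exact ⟨_, M0.add_mem ha ha', _, M0.add_mem hb hb', h.add h'⟩
  smul_mem' := by
    rintro z T ⟨a, ha, b, hb, h⟩
    exact ⟨_, gr_sub_mem (H := fun j => Harm (Fin m × Bool) ℝ (deg j)) M0
      (M0.smul_mem _ ha) (M0.smul_mem _ hb), _,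
      M0.add_mem (M0.smul_mem _ ha) (M0.smul_mem _ hb), h.smul z⟩

end cx

theorem gen_real {m : ℕ} (hm : 4 ≤ m) {κ : Type} [Fintype κ] [DecidableEq κ] (deg : κ → ℕ)
    (hdeg : ∀ j, 2 ≤ deg j) (c : κ → ℝ) (hc0 : ∀ j, c j ≠ 0)
    (hc : ∀ j j' (u : ℤ), c j = u * c j' → j = j')
    (M : Submodule ℝ ((j : κ) → Module.End ℝ (Harm (Fin m × Bool) ℝ (deg j))))
    (hX : ∀ J : Matrix (Fin m × Bool) (Fin m × Bool) ℝ, IsCx J →
      ∀ T : (j : κ) → Module.End ℝ (Harm (Fin m × Bool) ℝ (deg j)),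
        (∀ j, Rep (T j) (c j • (xi J * xi J))) → T ∈ M)
    (h1 : ∀ j, Pi.single j 1 ∈ M) (hM : ∀ a ∈ M, ∀ b ∈ M, a * b - b * a ∈ M) : M = ⊤ := by
  have hrep : ∀ J : Matrix (Fin m × Bool) (Fin m × Bool) ℝ, IsCx J → ∀ j,
      Rep (c j • (grX (deg j) J * grX (deg j) J)) (c j • (xi J * xi J)) := fun J hJ j =>
    ((grX_rep _ hJ.1).gr_mul (grX_rep _ hJ.1)).gr_smul _
  obtain ⟨M0, hle, g1, g2, g3, hnorm⟩ := gr_min (H := fun j => Harm (Fin m × Bool) ℝ (deg j))
    (fun j => grX (deg j)) c (fun j A B hA hB => grX_comm _ hA hB) M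
    (fun J hJ => hX J hJ _ (hrep J hJ)) h1 hM
  have htop : grMC M0 = ⊤ := by
    refine gen_complex hm deg hdeg c hc0 hc _ (fun ε hε T hT => ?_) (fun j => ?_) ?_
      (fun α β T hT => ?_)
    · refine ⟨_, gr_neg_mem (H := fun j => Harm (Fin m × Bool) ℝ (deg j)) M0
        (g1 _ (isCx_Jeps hε)), 0, M0.zero_mem, fun j f => ?_⟩
      have e1 := hrep _ (isCx_Jeps hε) j f
      rw [hT j, Pi.neg_apply, LinearMap.neg_apply, Submodule.coe_neg, map_neg, e1]
      simp only [Pi.zero_apply, LinearMap.zero_apply, Submodule.coe_zero, map_zero, smul_zero,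
        add_zero, LinearMap.smul_apply, Module.End.mul_apply, map_smul, ← toY_xi, xi_cxMat_Jeps, sq,
        ← Complex.coe_smul, smul_smul]
      rw [Complex.I_mul_I, ← neg_smul]
      congr 1
      ring
    · refine ⟨_, g2 j, 0, M0.zero_mem, fun i f => ?_⟩
      by_cases hi : i = j
      · subst hi
        simp
      · simp [Pi.single_eq_of_ne hi]
    · rintro T ⟨a, ha, b, hb, h⟩ T' ⟨a', ha', b', hb', h'⟩
      exact ⟨_, gr_sub_mem (H := fun j => Harm (Fin m × Bool) ℝ (deg j)) M0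
      (g3 a ha a' ha') (g3 b hb b' hb'), _,
        M0.add_mem (g3 a ha b' hb') (g3 b hb a' ha'), h.comm h'⟩
    · rintro T' ⟨a, ha, b, hb, h⟩
      obtain ⟨A1, A2, hA1, hA2, e⟩ := eY_decomp α β
      have k : GrCx T (fun j => grX (deg j) A1) (fun j => grX (deg j) A2) := fun j f => by
        rw [hT j, e, grX_rep _ hA1 f, grX_rep _ hA2 f, ← toY_xi, ← toY_xi]
        rfl
      exact ⟨_, gr_sub_mem (H := fun j => Harm (Fin m × Bool) ℝ (deg j)) M0
      (hnorm A1 hA1 a ha) (hnorm A2 hA2 b hb), _,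
        M0.add_mem (hnorm A1 hA1 b hb) (hnorm A2 hA2 a ha), k.comm h⟩
  refine eq_top_iff.2 fun T _ => hle ?_
  choose T' hT' using fun j => exists_cx (T j)
  obtain ⟨a, ha, b, -, h⟩ : T' ∈ grMC M0 := htop ▸ Submodule.mem_top
  convert ha using 1
  funext j
  refine LinearMap.ext fun f => Subtype.ext ?_
  have e := h j f
  rw [hT' j f] at e
  have e2 : toY m ((a j f).1 - (T j f).1) + Complex.I • toY m (b j f).1 = 0 := by
    rw [map_sub, e]
    abel
  exact (sub_eq_zero.1 (toY_inj e2).1).symm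

end Vale.Agent.P225
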