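import Vale.Agent.P225.EigenBasis
import Vale.Agent.P225.GenR

/-!
Construction of `AlgData`. Take the bases of `exists_eigenbasis`; `Xi t j` is the operator
`(xi J)²` restricted to `Harm` (`exists_rep`, `xi_mem_Harm`) and transported by `(b j).equivFun`
(`LinearEquiv.conj`, `LinearMap.toContinuousLinearMap`). For `gen`, pull a submodule back along the
multiplicative linear equivalence between the two product algebras and use `gen_real`. `dimN` is
`finrank_Harm_ge`. Transport along `σ : ι ≃ ι'`: `e' = rename σ e`,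
`Jm' = (Jm t).submatrix σ.symm σ.symm`, using `MvPolynomial.pderiv_rename`.
-/

namespace Vale.Agent.P225

open scoped ContDiff
open Filter Topology MvPolynomial Matrix Set

/-- Endomorphisms in the coordinates of a basis. -/
noncomputable def amCj {V : Type} [AddCommGroup V] [Module ℝ V] {N : ℕ}
    (b : Module.Basis (Fin N) ℝ V) : Module.End ℝ V ≃ₗ[ℝ] ((Fin N → ℝ) →L[ℝ] (Fin N → ℝ)) :=
  b.equivFun.conj.trans LinearMap.toContinuousLinearMap

section

variable {V : Type} [AddCommGroup V] [Module ℝ V] {N : ℕ} (b : Module.Basis (Fin N) ℝ V)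

theorem amCj_apply (T : Module.End ℝ V) (v : Fin N → ℝ) :
    amCj b T v = b.equivFun (T (b.equivFun.symm v)) := rfl

theorem amCj_mul (S T : Module.End ℝ V) : amCj b (S * T) = amCj b S * amCj b T := by
  refine ContinuousLinearMap.ext fun v => ?_
  rw [mul_apply_eq_comp, amCj_apply, amCj_apply, amCj_apply,
    LinearEquiv.symm_apply_apply, Module.End.mul_apply]

theorem amCj_one : amCj b 1 = 1 := by
  refine ContinuousLinearMap.ext fun v => ?_
  rw [amCj_apply, Module.End.one_apply, LinearEquiv.apply_symm_apply,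
    one_apply_eq_self]

theorem amCj_sum (T : Module.End ℝ V) (v : Fin N → ℝ) :
    T (∑ l, v l • b l) = ∑ l, amCj b T v l • b l := by
  rw [← b.equivFun_symm_apply, ← b.equivFun_symm_apply, amCj_apply, LinearEquiv.symm_apply_apply]

end

theorem algData_prod {m : ℕ} (hm : 4 ≤ m) (nκ : ℕ) :
    Nonempty (AlgData (Fin m × Bool) m nκ
      {J : Matrix (Fin m × Bool) (Fin m × Bool) ℝ // IsCx J}) := by
  choose N b w hw hc using fun j : Fin nκ => exists_eigenbasis (m := m) (by omega) (j + 2)
  have hR : ∀ (t : {J : Matrix (Fin m × Bool) (Fin m × Bool) ℝ // IsCx J}) (j : Fin nκ),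
      ∃ T : Module.End ℝ (Harm (Fin m × Bool) ℝ (j + 2)), Rep T (xi t.1 * xi t.1) :=
    fun t j => exists_rep fun f hf => xi_mem_Harm t.2.1 (xi_mem_Harm t.2.1 hf)
  choose R hR using hR
  let t0 : {J : Matrix (Fin m × Bool) (Fin m × Bool) ℝ // IsCx J} :=
    ⟨Jeps fun _ => 1, isCx_Jeps fun _ => Or.inl rfl⟩
  refine ⟨⟨N, fun t => t.1, fun t => t.2, t0, fun j l => (b j l : MvPolynomial _ ℝ),
    fun j l => (b j l).2, fun j => ?_, fun t j => amCj (b j) (R t j), fun t j v => ?_, w,
    fun j l => (hw j l).1, fun j v l => ?_, fun c hc0 hc1 M h1 h2 h3 => ?_, fun j => ?_,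
    fun j => hc j⟩⟩
  · exact (b j).linearIndependent.map' (Harm (Fin m × Bool) ℝ (j + 2)).subtype
      (Submodule.ker_subtype _)
  · have h := congrArg Subtype.val (amCj_sum (b j) (R t j) v)
    rw [hR t j] at h
    simpa using h
  · have h : ∀ l, R t0 j (b j l) = -((w j l : ℝ) ^ 2) • b j l := fun l =>
      Subtype.ext ((hR t0 j _).trans (hw j l).2)
    have h' : R t0 j ((b j).equivFun.symm v) =
        (b j).equivFun.symm fun l => -((w j l : ℝ) ^ 2) * v l := by
      simp only [Module.Basis.equivFun_symm_apply, map_sum, map_smul, h, smul_smul, mul_comm]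
    rw [amCj_apply, h', LinearEquiv.apply_symm_apply]
  · let Φ := LinearEquiv.piCongrRight (R := ℝ) fun j : Fin nκ => amCj (b j)
    have hΦ : ∀ T j, Φ T j = amCj (b j) (T j) := fun _ _ => rfl
    have hmul : ∀ S T, Φ (S * T) = Φ S * Φ T := fun S T => funext fun j => amCj_mul _ _ _
    have key : M.comap Φ.toLinearMap = ⊤ := by
      refine gen_real hm (fun j : Fin nκ => (j : ℕ) + 2) (fun j => by omega) c hc0 hc1 _
        (fun J hJ T hT => ?_) (fun j => ?_) fun a ha a' ha' => ?_
      · have : Φ T = fun j => c j • amCj (b j) (R ⟨J, hJ⟩ j) := by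
          funext j
          rw [hΦ, ← map_smul]
          congr 1
          refine LinearMap.ext fun f => Subtype.ext ?_
          rw [hT j f, LinearMap.smul_apply, LinearMap.smul_apply, Submodule.coe_smul,
            hR ⟨J, hJ⟩ j f]
        show Φ T ∈ M
        rw [this]
        exact h1 ⟨J, hJ⟩
      · have : Φ (Pi.single j 1) = Pi.single j 1 := by
          funext j'
          rw [hΦ]
          by_cases h : j' = j
          · subst h
            rw [Pi.single_eq_same, Pi.single_eq_same, amCj_one]
          · rw [Pi.single_eq_of_ne h, Pi.single_eq_of_ne h, map_zero]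
        show Φ _ ∈ M
        rw [this]
        exact h2 j
      · show Φ _ ∈ M
        rw [map_sub, hmul, hmul]
        exact h3 _ ha _ ha'
    refine eq_top_iff.2 fun x _ => ?_
    have : Φ.symm x ∈ M.comap Φ.toLinearMap := key ▸ Submodule.mem_top
    simpa using this
  · have h := finrank_Harm_ge (ι := Fin m × Bool) ℝ j
    rw [Module.finrank_eq_card_basis (b j)] at h
    simpa [mul_comm] using h

theorem xi_rename {ι ι' : Type} [Fintype ι] [DecidableEq ι] [Fintype ι'] [DecidableEq ι']
    (σ : ι ≃ ι') (A : Matrix ι ι ℝ) (f : MvPolynomial ι ℝ) :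
    xi (A.submatrix σ.symm σ.symm) (rename σ f) = rename σ (xi A f) := by
  rw [xi_apply, xi_apply, map_sum, ← σ.sum_comp]
  refine Finset.sum_congr rfl fun k _ => ?_
  rw [map_sum, ← σ.sum_comp]
  refine Finset.sum_congr rfl fun l _ => ?_
  simp [pderiv_rename σ.injective]

theorem AlgData.transport {ι ι' : Type} [Fintype ι] [DecidableEq ι] [Fintype ι'] [DecidableEq ι']
    (σ : ι ≃ ι') {m nκ : ℕ} {T : Type} (D : AlgData ι m nκ T) : Nonempty (AlgData ι' m nκ T) := by
  refine ⟨⟨D.N, fun t => (D.Jm t).submatrix σ.symm σ.symm, fun t => ⟨?_, ?_⟩, D.t0,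
    fun j l => rename σ (D.e j l), fun j l => ?_, fun j => ?_, D.Xi, fun t j v => ?_, D.w, D.hw,
    D.hXi0, D.gen, D.dimN, D.cnt⟩⟩
  · rw [transpose_submatrix, (D.hJ t).1]
    rfl
  · rw [submatrix_mul_equiv, (D.hJ t).2]
    ext i k
    simp [one_apply]
  · obtain ⟨h1, h2⟩ := mem_Harm.1 (D.he j l)
    refine mem_Harm.2 ⟨h1.rename_isHomogeneous, ?_⟩
    rw [← σ.sum_comp]
    simp only [pderiv_rename σ.injective]
    rw [← map_sum, h2, map_zero]
  · exact (D.hind j).map' (rename σ).toLinearMap
      (LinearMap.ker_eq_bot.2 (rename_injective _ σ.injective))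
  · have h := congrArg (rename σ) (D.hXi t j v)
    rw [← xi_rename, ← xi_rename] at h
    simpa only [map_sum, map_smul] using h

end Vale.Agent.P225
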