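import Vale.Agent.P225.Spec

/-!
Scalar equations `f' = g`, `g' = A f - d g` with `A ≥ 0` (the Berger stage). Let `I s = ∫ a..s d`.
* Positivity: if `f a > 0`, `g a ≥ 0` then `g ≥ 0` and `f ≥ f a` on `[a, T]`: indeed
  `(exp I * f * g)' = exp I * (g² + A f²) ≥ 0`, so `f g ≥ 0`, `f²` is monotone, `f` never vanishes
  and stays positive (intermediate value theorem).
* Stable solutions: if `g T = -γ' f T` then in the same way `f g ≤ 0` on `[a,T]`, `f²` is antitone,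
  so `|f T| ≤ |f a|`, and `f` does not change sign (if `f a = 0` then `f = 0` on `[a,T]` and
  `g a = 0`; if `a = T` use the terminal condition directly). For `f ≥ 0`, `W = g + Γ f` has `(exp (I - Γ s) W)' ≤ 0` because
  `W' = (Γ - d) W - (Γ (Γ - d) - A) f`; as `W T ≥ 0` we get `W a ≥ 0`. So `-Γ f a ≤ g a ≤ 0`.
* Growth: for `u, v ≥ 0`, `d ≥ D0`, `A ≤ x (x + D0)`, `x ≥ 0`, `x + D0 ≥ 0`, the function
  `E = v + (x + D0) u` has `E' ≤ x E`. Use it with `(x, D0)` on the plateau and with `(Γ, -D)` on the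
  two ramps; the three functions `E` and `v + γ' u` are comparable up to constants.
* Main statement: `s = f - (z/G) u` is a stable solution, with
  `s' a + γ s a = (g a + γ f a) - z/G` and `s' a - α s a = g a - α f a`; writing `s' a = -β s a`,
  `0 ≤ β ≤ Γ`, gives `|s' a + γ s a| ≤ 2 Γ |s a| ≤ (2Γ/a0) |s' a - α s a|`. Also `G ≥ γ' u a`,
  `u T ≤ G/γ'`, `|f T| ≤ |s a| + |z| u T/G`.
-/

namespace Vale.Agent.P225

open scoped ContDiff
open Filter Topology MvPolynomial Matrix Set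

lemma berger_mono {F F' : ℝ → ℝ} {a b : ℝ} (h : ∀ s ∈ Icc a b, HasDerivAt F (F' s) s)
    (h0 : ∀ s ∈ Icc a b, 0 ≤ F' s) : MonotoneOn F (Icc a b) :=
  monotoneOn_of_deriv_nonneg (convex_Icc a b)
    (fun s hs => (h s hs).continuousAt.continuousWithinAt)
    (fun s hs => (h s (interior_subset hs)).differentiableAt.differentiableWithinAt)
    (fun s hs => by rw [(h s (interior_subset hs)).deriv]; exact h0 s (interior_subset hs))

lemma berger_anti {F F' : ℝ → ℝ} {a b : ℝ} (h : ∀ s ∈ Icc a b, HasDerivAt F (F' s) s)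
    (h0 : ∀ s ∈ Icc a b, F' s ≤ 0) : AntitoneOn F (Icc a b) := by
  have := berger_mono (F := fun s => -F s) (F' := fun s => -F' s) (fun s hs => (h s hs).neg)
    fun s hs => neg_nonneg.mpr (h0 s hs)
  intro s hs t ht hst
  exact neg_le_neg_iff.mp (this hs ht hst)

lemma berger_prod {a T : ℝ} {d A f g : ℝ → ℝ} (hd : Continuous d) (hA : ∀ s ∈ Icc a T, 0 ≤ A s)
    (h : ∀ s ∈ Icc a T, HasDerivAt f (g s) s ∧ HasDerivAt g (A s * f s - d s * g s) s) :
    MonotoneOn (fun s => Real.exp (∫ t in a..s, d t) * (f s * g s)) (Icc a T) := by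
  refine berger_mono (F' := fun s => Real.exp (∫ t in a..s, d t) * (g s ^ 2 + A s * f s ^ 2))
    (fun s hs => ?_) fun s hs => ?_
  · have h1 := ((hd.integral_hasStrictDerivAt a s).hasDerivAt.exp).mul ((h s hs).1.mul (h s hs).2)
    refine h1.congr_deriv ?_
    simp only [Pi.mul_apply]
    ring
  · have := hA s hs
    positivity

lemma berger_zero {a s : ℝ} {f : ℝ → ℝ} (has : a ≤ s) (hf : ContinuousOn f (Icc a s))
    (h1 : 0 ≤ f a) (h2 : f s ≤ 0) : ∃ c ∈ Icc a s, f c = 0 :=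
  intermediate_value_Icc' has hf ⟨h2, h1⟩

lemma berger_pos {a T : ℝ} {d A f g : ℝ → ℝ} (hd : Continuous d) (hA : ∀ s ∈ Icc a T, 0 ≤ A s)
    (h : ∀ s ∈ Icc a T, HasDerivAt f (g s) s ∧ HasDerivAt g (A s * f s - d s * g s) s)
    (hf : 0 < f a) (hg : 0 ≤ g a) : ∀ s ∈ Icc a T, 0 ≤ g s ∧ f a ≤ f s := by
  have h1 : ∀ s ∈ Icc a T, 0 ≤ f s * g s := fun s hs => by
    have h2 := berger_prod hd hA h ⟨le_rfl, hs.1.trans hs.2⟩ hs hs.1
    have h3 : 0 ≤ Real.exp (∫ t in a..a, d t) * (f a * g a) := by positivity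
    exact nonneg_of_mul_nonneg_right (by simpa [mul_comm] using h3.trans h2)
      (Real.exp_pos (∫ t in a..s, d t))
  have h2 : MonotoneOn (fun s => f s * f s) (Icc a T) :=
    berger_mono (F' := fun s => g s * f s + f s * g s) (fun s hs => (h s hs).1.mul (h s hs).1)
      fun s hs => by have := h1 s hs; linarith [mul_comm (g s) (f s)]
  have h3 : ∀ s ∈ Icc a T, f a * f a ≤ f s * f s := fun s hs =>
    h2 ⟨le_rfl, hs.1.trans hs.2⟩ hs hs.1
  intro s hs
  have h4 : 0 < f s := by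
    by_contra h5
    obtain ⟨c, hc, h6⟩ := berger_zero hs.1 (fun t ht =>
      (h t ⟨ht.1, ht.2.trans hs.2⟩).1.continuousAt.continuousWithinAt) hf.le (not_lt.mp h5)
    have := h3 c ⟨hc.1, hc.2.trans hs.2⟩
    rw [h6] at this
    nlinarith
  exact ⟨nonneg_of_mul_nonneg_right (by simpa [mul_comm] using h1 s hs) h4,
    by nlinarith [h3 s hs]⟩

lemma berger_stable0 {a T γ' : ℝ} {d A f g : ℝ → ℝ} (hd : Continuous d) (hγ : 0 ≤ γ')
    (hA : ∀ s ∈ Icc a T, 0 ≤ A s)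
    (h : ∀ s ∈ Icc a T, HasDerivAt f (g s) s ∧ HasDerivAt g (A s * f s - d s * g s) s)
    (hT : g T = -γ' * f T) :
    (∀ s ∈ Icc a T, f s * g s ≤ 0) ∧ AntitoneOn (fun s => f s * f s) (Icc a T) := by
  have h1 : ∀ s ∈ Icc a T, f s * g s ≤ 0 := fun s hs => by
    have h2 := berger_prod hd hA h hs ⟨hs.1.trans hs.2, le_rfl⟩ hs.2
    have h3 : Real.exp (∫ t in a..T, d t) * (f T * g T) ≤ 0 :=
      mul_nonpos_of_nonneg_of_nonpos (Real.exp_pos _).le (by
        rw [hT]; nlinarith [mul_nonneg hγ (mul_self_nonneg (f T))])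
    by_contra h4
    exact absurd (h2.trans h3) (not_le.mpr (mul_pos (Real.exp_pos _) (not_le.mp h4)))
  exact ⟨h1, berger_anti (F' := fun s => g s * f s + f s * g s)
    (fun s hs => (h s hs).1.mul (h s hs).1)
      fun s hs => by have := h1 s hs; linarith [mul_comm (g s) (f s)]⟩

lemma berger_stable1 {a T γ' Γ D : ℝ} {d A f g : ℝ → ℝ} (haT : a ≤ T) (hd : Continuous d)
    (hγ : 0 ≤ γ') (hγ' : γ' ≤ Γ) (hA : ∀ s ∈ Icc a T, |d s| ≤ D ∧ 0 ≤ A s ∧ A s ≤ Γ * (Γ - D))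
    (h : ∀ s ∈ Icc a T, HasDerivAt f (g s) s ∧ HasDerivAt g (A s * f s - d s * g s) s)
    (hT : g T = -γ' * f T) (hf : 0 ≤ f a) : 0 ≤ g a + Γ * f a := by
  obtain ⟨_, h2⟩ := berger_stable0 hd hγ (fun s hs => (hA s hs).2.1) h hT
  have h3 : ∀ s ∈ Icc a T, 0 ≤ f s := fun s hs => by
    by_contra h5
    obtain ⟨c, hc, h6⟩ := berger_zero hs.1 (fun t ht =>
      (h t ⟨ht.1, ht.2.trans hs.2⟩).1.continuousAt.continuousWithinAt) hf (not_le.mp h5).le
    have := h2 ⟨hc.1, hc.2.trans hs.2⟩ hs hc.2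
    simp only [h6] at this
    nlinarith [not_le.mp h5]
  have h4 : AntitoneOn (fun s => Real.exp ((∫ t in a..s, d t) - Γ * s) * (g s + Γ * f s))
      (Icc a T) := by
    refine berger_anti (F' := fun s => Real.exp ((∫ t in a..s, d t) - Γ * s) *
      ((A s - Γ * (Γ - d s)) * f s)) (fun s hs => ?_) fun s hs => ?_
    · have h1 := (((hd.integral_hasStrictDerivAt a s).hasDerivAt.sub
        ((hasDerivAt_id s).const_mul Γ)).exp).mul ((h s hs).2.add ((h s hs).1.const_mul Γ))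
      refine h1.congr_deriv ?_
      simp only [Pi.add_apply, Pi.sub_apply, id]
      ring
    · refine mul_nonpos_of_nonneg_of_nonpos (Real.exp_pos _).le
        (mul_nonpos_of_nonpos_of_nonneg ?_ (h3 s hs))
      obtain ⟨e1, _, e3⟩ := hA s hs
      nlinarith [mul_nonneg (hγ.trans hγ') (sub_nonneg.mpr (le_abs_self (d s) |>.trans e1))]
  have h5 := h4 ⟨le_rfl, haT⟩ ⟨haT, le_rfl⟩ haT
  have h6 : 0 ≤ Real.exp ((∫ t in a..T, d t) - Γ * T) * (g T + Γ * f T) :=
    mul_nonneg (Real.exp_pos _).le (by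
      rw [hT]; nlinarith [mul_nonneg (sub_nonneg.mpr hγ') (h3 T ⟨haT, le_rfl⟩)])
  by_contra h7
  exact absurd (h6.trans h5) (not_le.mpr (mul_neg_of_pos_of_neg (Real.exp_pos _) (not_le.mp h7)))

lemma berger_stable {a T γ' Γ D α γ : ℝ} {d A f g : ℝ → ℝ} (haT : a ≤ T) (hd : Continuous d)
    (hγ : 0 ≤ γ') (hγ' : γ' ≤ Γ) (hA : ∀ s ∈ Icc a T, |d s| ≤ D ∧ 0 ≤ A s ∧ A s ≤ Γ * (Γ - D))
    (h : ∀ s ∈ Icc a T, HasDerivAt f (g s) s ∧ HasDerivAt g (A s * f s - d s * g s) s)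
    (hT : g T = -γ' * f T) (_hα : 0 ≤ α) (h1 : 0 ≤ γ) (h2 : γ ≤ Γ) :
    |f T| ≤ |f a| ∧ |g a + γ * f a| ≤ Γ * |f a| ∧ α * |f a| ≤ |g a - α * f a| := by
  obtain ⟨s1, s2⟩ := berger_stable0 hd hγ (fun s hs => (hA s hs).2.1) h hT
  have p1 := berger_stable1 haT hd hγ hγ' hA h hT
  have p2 := berger_stable1 (f := fun s => -f s) (g := fun s => -g s) haT hd hγ hγ' hA
    (fun s hs => ⟨(h s hs).1.neg, (h s hs).2.neg.congr_deriv (by ring)⟩) (by simp [hT])
  have p3 := s1 a ⟨le_rfl, haT⟩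
  refine ⟨sq_le_sq.mp ?_, ?_⟩
  · simpa [sq] using s2 ⟨le_rfl, haT⟩ ⟨haT, le_rfl⟩ haT
  rcases lt_trichotomy (f a) 0 with hf | hf | hf
  · have q1 := p2 (by simpa using hf.le)
    have q2 : 0 ≤ g a := by nlinarith
    rw [abs_of_neg hf]
    exact ⟨abs_le.mpr ⟨by nlinarith, by nlinarith⟩, le_trans (by nlinarith) (le_abs_self _)⟩
  · have q1 := p1 hf.ge
    have q2 := p2 (by simp [hf])
    have q3 : g a = 0 := by rw [hf] at q1 q2; linarith
    simp [hf, q3]
  · have q1 := p1 hf.le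
    have q2 : g a ≤ 0 := by nlinarith
    rw [abs_of_pos hf]
    exact ⟨abs_le.mpr ⟨by nlinarith, by nlinarith⟩, le_trans (by nlinarith) (neg_le_abs _)⟩

lemma berger_growth {p q y c : ℝ} {d A u v : ℝ → ℝ} (hpq : p ≤ q)
    (hA : ∀ s ∈ Icc p q, c ≤ d s ∧ A s ≤ y * (y + c) ∧ 0 ≤ u s ∧ 0 ≤ v s)
    (h : ∀ s ∈ Icc p q, HasDerivAt u (v s) s ∧ HasDerivAt v (A s * u s - d s * v s) s) :
    v q + (y + c) * u q ≤ Real.exp (y * (q - p)) * (v p + (y + c) * u p) := by
  have h4 : AntitoneOn (fun s => Real.exp (-y * s) * (v s + (y + c) * u s)) (Icc p q) := by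
    refine berger_anti (F' := fun s => Real.exp (-y * s) *
      ((A s - y * (y + c)) * u s + (c - d s) * v s)) (fun s hs => ?_) fun s hs => ?_
    · have h1 := (((hasDerivAt_id s).const_mul (-y)).exp).mul
        ((h s hs).2.add ((h s hs).1.const_mul (y + c)))
      refine h1.congr_deriv ?_
      simp only [Pi.add_apply, id]
      ring
    · obtain ⟨e1, e2, e3, e4⟩ := hA s hs
      refine mul_nonpos_of_nonneg_of_nonpos (Real.exp_pos _).le ?_
      nlinarith [mul_nonneg (sub_nonneg.mpr e1) e4, mul_nonneg (sub_nonneg.mpr e2) e3]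
  have h5 := h4 ⟨le_rfl, hpq⟩ ⟨hpq, le_rfl⟩ hpq
  have h6 : Real.exp (y * (q - p)) = Real.exp (y * q) * Real.exp (-y * p) := by
    rw [← Real.exp_add]; congr 1; ring
  have h7 : Real.exp (y * q) * Real.exp (-y * q) = 1 := by rw [← Real.exp_add]; simp
  have h8 := mul_le_mul_of_nonneg_left h5 (Real.exp_pos (y * q)).le
  simp only at h8
  rw [← mul_assoc, h7, one_mul, ← mul_assoc, ← h6] at h8
  exact h8

theorem berger {a0 Γ D D0 : ℝ} (Xm : ℝ) (ha0 : 0 < a0) (hD : 0 ≤ D) (hΓ : D + 1 ≤ Γ)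
    (hD0 : 0 < D0) :
    ∃ Cb > 0, ∀ (a T ℓ α γ γ' x : ℝ) (d A f g u v : ℝ → ℝ), 0 ≤ ℓ → a + 2 * ℓ ≤ T →
      α ∈ Icc a0 Γ → γ ∈ Icc a0 Γ → γ' ∈ Icc a0 Γ → x ∈ Icc 0 Xm → Continuous d →
      (∀ s ∈ Icc a T, |d s| ≤ D ∧ 0 ≤ A s ∧ A s ≤ Γ * (Γ - D)) →
      (∀ s ∈ Icc (a + ℓ) (T - ℓ), D0 ≤ d s ∧ A s ≤ x * (x + D0)) →
      (∀ s ∈ Icc a T, HasDerivAt f (g s) s ∧ HasDerivAt g (A s * f s - d s * g s) s) →
      (∀ s ∈ Icc a T, HasDerivAt u (v s) s ∧ HasDerivAt v (A s * u s - d s * v s) s) →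
      u a = 1 / (α + γ) → v a = α / (α + γ) →
      Cb⁻¹ ≤ v T + γ' * u T ∧
      v T + γ' * u T ≤ Cb * Real.exp (2 * Γ * ℓ + x * (T - a - 2 * ℓ)) ∧
      |(g T + γ' * f T) / (v T + γ' * u T) - (g a + γ * f a)| ≤ Cb * |g a - α * f a| ∧
      |f T| ≤ Cb * (|g T + γ' * f T| + |f a|) := by
  have hΓ0 : 0 < Γ := by linarith
  set C1 := Γ * (1 + Γ / D0) * (1 + |Xm| + D0) * (Γ / a0) with hC1
  have hC10 : 0 ≤ C1 := by positivity
  have e1 : 0 ≤ 2 * Γ / a0 := by positivity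
  have e2 : 0 ≤ 2 / a0 := by positivity
  refine ⟨2 * Γ / a0 + 1 + 2 / a0 + C1, by positivity, ?_⟩
  intro a T ℓ α γ γ' x d A f g u v hℓ hT hα hγ hγ' hx hd hA hP hf hu hua hva
  have haT : a ≤ T := by linarith
  have hα0 : 0 < α := ha0.trans_le hα.1
  have hγ0 : 0 < γ := ha0.trans_le hγ.1
  have hγ0' : 0 < γ' := ha0.trans_le hγ'.1
  have hua0 : 0 < u a := by rw [hua]; positivity
  have hpos := berger_pos hd (fun s hs => (hA s hs).2.1) hu hua0 (by rw [hva]; positivity)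
  have hu0 : ∀ s ∈ Icc a T, 0 ≤ u s := fun s hs => hua0.le.trans (hpos s hs).2
  obtain ⟨hvT, huT⟩ := hpos T ⟨haT, le_rfl⟩
  have hG1 : a0 * u T ≤ v T + γ' * u T := by
    linarith [mul_nonneg (sub_nonneg.mpr hγ'.1) (hu0 T ⟨haT, le_rfl⟩)]
  have hG2 : a0 * u a ≤ v T + γ' * u T := (mul_le_mul_of_nonneg_left huT ha0.le).trans hG1
  have hG0 : 0 < v T + γ' * u T := lt_of_lt_of_le (by positivity) hG2
  refine ⟨?_, ?_, ?_⟩
  · refine le_trans ?_ hG2
    have h1 : (2 * Γ / a0 + 1 + 2 / a0 + C1)⁻¹ ≤ (2 * Γ / a0)⁻¹ :=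
      inv_anti₀ (by positivity) (by linarith)
    refine h1.trans ?_
    rw [hua, inv_div, mul_one_div]
    exact div_le_div_of_nonneg_left ha0.le (by positivity) (by linarith [hα.2, hγ.2])
  · have ramp : ∀ p q, a ≤ p → p ≤ q → q ≤ T → v q + (Γ + -D) * u q ≤
        Real.exp (Γ * (q - p)) * (v p + (Γ + -D) * u p) := fun p q h1 h2 h3 =>
      berger_growth (d := d) (A := A) h2 (fun s hs => by
        have hs' : s ∈ Icc a T := ⟨h1.trans hs.1, hs.2.trans h3⟩
        exact ⟨(abs_le.mp (hA s hs').1).1, (hA s hs').2.2, hu0 s hs', (hpos s hs').1⟩)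
        fun s hs => hu s ⟨h1.trans hs.1, hs.2.trans h3⟩
    have r1 := ramp a (a + ℓ) le_rfl (by linarith) (by linarith)
    have r3 := ramp (T - ℓ) T (by linarith) (by linarith) le_rfl
    have r2 := berger_growth (d := d) (A := A) (u := u) (v := v) (p := a + ℓ) (q := T - ℓ) (y := x)
      (c := D0) (by linarith) (fun s hs => by
        have hs' : s ∈ Icc a T := ⟨by linarith [hs.1], by linarith [hs.2]⟩
        exact ⟨(hP s hs).1, (hP s hs).2, hu0 s hs', (hpos s hs').1⟩)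
        fun s hs => hu s ⟨by linarith [hs.1], by linarith [hs.2]⟩
    have m1 : a + ℓ ∈ Icc a T := ⟨by linarith, by linarith⟩
    have m2 : T - ℓ ∈ Icc a T := ⟨by linarith, by linarith⟩
    have c0 : v a + (Γ + -D) * u a ≤ Γ / a0 := by
      rw [hua, hva, mul_one_div, ← add_div, div_le_div_iff₀ (by positivity) ha0]
      linarith [mul_nonneg hD ha0.le, mul_le_mul_of_nonneg_left hγ.1 hΓ0.le,
        mul_le_mul_of_nonneg_left (ha0.le.trans hα.1 |> fun _ => hα.1.trans hα.2) hα0.le]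
    have c1 : v (a + ℓ) + (x + D0) * u (a + ℓ) ≤
        (1 + |Xm| + D0) * (v (a + ℓ) + (Γ + -D) * u (a + ℓ)) := by
      have k1 := hu0 _ m1
      have k2 := (hpos _ m1).1
      have k3 : x ≤ |Xm| := hx.2.trans (le_abs_self _)
      have k4 : u (a + ℓ) ≤ (Γ + -D) * u (a + ℓ) := le_mul_of_one_le_left k1 (by linarith)
      have k5 : (1 + |Xm| + D0) * (v (a + ℓ) + u (a + ℓ)) ≤
          (1 + |Xm| + D0) * (v (a + ℓ) + (Γ + -D) * u (a + ℓ)) :=
        mul_le_mul_of_nonneg_left (by linarith) (by positivity)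
      linarith [mul_nonneg (abs_nonneg Xm) k2, mul_nonneg hD0.le k2,
        mul_nonneg (sub_nonneg.mpr k3) k1]
    have c2 : v (T - ℓ) + (Γ + -D) * u (T - ℓ) ≤
        (1 + Γ / D0) * (v (T - ℓ) + (x + D0) * u (T - ℓ)) := by
      have k1 := hu0 _ m2
      have k2 := (hpos _ m2).1
      have k3 : 0 ≤ Γ / D0 := by positivity
      have k4 : Γ / D0 * D0 = Γ := by field_simp
      have k5 := hx.1
      have k6 : (1 + Γ / D0) * (v (T - ℓ) + (x + D0) * u (T - ℓ)) = v (T - ℓ) + (x + D0) * u (T - ℓ)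
          + Γ / D0 * v (T - ℓ) + Γ / D0 * x * u (T - ℓ) + Γ / D0 * D0 * u (T - ℓ) := by ring
      rw [k6, k4]
      linarith [mul_nonneg k3 k2, mul_nonneg (mul_nonneg k3 k5) k1, mul_nonneg hD k1,
        mul_nonneg k5 k1, mul_nonneg hD0.le k1]
    have c3 : v T + γ' * u T ≤ Γ * (v T + (Γ + -D) * u T) := by
      have k1 := hu0 T ⟨haT, le_rfl⟩
      have k4 : u T ≤ (Γ + -D) * u T := le_mul_of_one_le_left k1 (by linarith)
      have k5 : Γ * (v T + u T) ≤ Γ * (v T + (Γ + -D) * u T) :=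
        mul_le_mul_of_nonneg_left (by linarith) hΓ0.le
      have k6 := mul_le_mul_of_nonneg_right hγ'.2 k1
      have k7 : v T ≤ Γ * v T := le_mul_of_one_le_left hvT (by linarith)
      linarith
    have x1 := (Real.exp_pos (Γ * (a + ℓ - a))).le
    have x2 := (Real.exp_pos (x * (T - ℓ - (a + ℓ)))).le
    have x3 := (Real.exp_pos (Γ * (T - (T - ℓ)))).le
    calc v T + γ' * u T ≤ Γ * (Real.exp (Γ * (T - (T - ℓ))) * ((1 + Γ / D0) *
          (Real.exp (x * (T - ℓ - (a + ℓ))) * ((1 + |Xm| + D0) *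
            (Real.exp (Γ * (a + ℓ - a)) * (Γ / a0)))))) := by
          refine c3.trans (mul_le_mul_of_nonneg_left (r3.trans (mul_le_mul_of_nonneg_left
            (c2.trans (mul_le_mul_of_nonneg_left (r2.trans (mul_le_mul_of_nonneg_left
            (c1.trans (mul_le_mul_of_nonneg_left (r1.trans (mul_le_mul_of_nonneg_left c0 x1))
            (by positivity))) x2)) (by positivity))) x3)) hΓ0.le)
      _ = C1 * Real.exp (2 * Γ * ℓ + x * (T - a - 2 * ℓ)) := by
          have : 2 * Γ * ℓ + x * (T - a - 2 * ℓ) =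
            Γ * (T - (T - ℓ)) + x * (T - ℓ - (a + ℓ)) + Γ * (a + ℓ - a) := by ring
          rw [this, Real.exp_add, Real.exp_add, hC1]; ring
      _ ≤ _ := mul_le_mul_of_nonneg_right (by linarith) (Real.exp_pos _).le
  · obtain ⟨w, hw⟩ : ∃ w, w = (g T + γ' * f T) / (v T + γ' * u T) := ⟨_, rfl⟩
    have hw1 : w * (v T + γ' * u T) = g T + γ' * f T := by rw [hw]; field_simp
    obtain ⟨t1, t2, t3⟩ := berger_stable (f := fun s => f s - w * u s) (g := fun s => g s - w * v s)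
      (α := α) (γ := γ) haT hd hγ0'.le hγ'.2 hA
      (fun s hs => ⟨(hf s hs).1.sub ((hu s hs).1.const_mul w),
        ((hf s hs).2.sub ((hu s hs).2.const_mul w)).congr_deriv (by ring)⟩)
      (by linarith) hα0.le hγ0.le hγ.2
    have i1 : g a - w * v a + γ * (f a - w * u a) = -(w - (g a + γ * f a)) := by
      rw [hua, hva]; field_simp; ring
    have i2 : g a - w * v a - α * (f a - w * u a) = g a - α * f a := by
      rw [hua, hva]; field_simp; ring
    rw [i1, abs_neg] at t2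
    rw [i2] at t3
    rw [← hw]
    constructor
    · have j1 : a0 * |f a - w * u a| ≤ |g a - α * f a| :=
        (mul_le_mul_of_nonneg_right hα.1 (abs_nonneg _)).trans t3
      have j2 : Γ * |f a - w * u a| ≤ Γ / a0 * |g a - α * f a| := by
        rw [div_mul_eq_mul_div, le_div_iff₀ ha0]
        linarith [mul_le_mul_of_nonneg_left j1 hΓ0.le]
      refine (t2.trans j2).trans (mul_le_mul_of_nonneg_right ?_ (abs_nonneg _))
      have : 2 * Γ / a0 = Γ / a0 + Γ / a0 := by ring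
      have : 0 ≤ Γ / a0 := by positivity
      linarith
    · have j0 : |g T + γ' * f T| = |w| * (v T + γ' * u T) := by
        rw [← hw1, abs_mul, abs_of_pos hG0]
      have j1 : |w * u T| ≤ |g T + γ' * f T| / a0 := by
        rw [abs_mul, abs_of_nonneg (hua0.le.trans huT), le_div_iff₀ ha0, j0]
        linarith [mul_le_mul_of_nonneg_left hG1 (abs_nonneg w)]
      have j2 : |w * u a| ≤ |g T + γ' * f T| / a0 := by
        rw [abs_mul, abs_of_nonneg hua0.le, le_div_iff₀ ha0, j0]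
        linarith [mul_le_mul_of_nonneg_left hG2 (abs_nonneg w)]
      have j3 : |f T| ≤ |f T - w * u T| + |w * u T| := by
        simpa using abs_add_le (f T - w * u T) (w * u T)
      have j4 : |f a - w * u a| ≤ |f a| + |w * u a| := abs_sub _ _
      have j5 : |g T + γ' * f T| / a0 + |g T + γ' * f T| / a0 = 2 / a0 * |g T + γ' * f T| := by ring
      have j6 := abs_nonneg (g T + γ' * f T)
      have j7 := abs_nonneg (f a)
      linarith [mul_nonneg e1 j6, mul_nonneg e1 j7, mul_nonneg e2 j7, mul_nonneg hC10 j6,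
        mul_nonneg hC10 j7]

end Vale.Agent.P225
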