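import Vale.Agent.P225.Defs

/-!
Internal definitions for the counterexample (see notes/P225.md).
-/

namespace Vale.Agent.P225

open scoped ContDiff
open Filter Topology MvPolynomial Matrix Set

section Geometry

variable {ι : Type} [Fintype ι] [DecidableEq ι]

/-- Orthogonal complex structures. -/
def IsCx (J : Matrix ι ι ℝ) : Prop := Jᵀ = -J ∧ J * J = -1

/-- The logarithm of the Euclidean norm (and `0` at the origin). -/
noncomputable def sig (x : ι → ℝ) : ℝ := Real.log (x ⬝ᵥ x) / 2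

/-- The metric `φ² (dσ² + g_H + e^{2y} η_J²)` in Cartesian coordinates, `L = log φ`. -/
noncomputable def met (y L : ℝ → ℝ) (J : ℝ → Matrix ι ι ℝ) (x : ι → ℝ) : Matrix ι ι ℝ :=
  Real.exp (2 * (L (sig x) - sig x)) •
    (1 + ((Real.exp (2 * y (sig x)) - 1) / (x ⬝ᵥ x)) •
      vecMulVec (J (sig x) *ᵥ x) (J (sig x) *ᵥ x))

structure IsProfile (y L : ℝ → ℝ) (J : ℝ → Matrix ι ι ℝ) : Prop where
  hy : ContDiff ℝ ∞ y
  hL : ContDiff ℝ ∞ L
  neg : ∀ σ ≤ 0, y σ = 0 ∧ L σ = σ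
  cx : ∀ σ, IsCx (J σ)
  dich : ∀ σ, (∀ᶠ t in 𝓝 σ, y t = 0) ∨ ∀ᶠ t in 𝓝 σ, J t = J σ

/-- The linear form `v ↦ x ⬝ᵥ v`. -/
noncomputable def dotL (x : ι → ℝ) : (ι → ℝ) →L[ℝ] ℝ := ∑ i, x i • ContinuousLinearMap.proj i

/-- The function `∑ l, P l (σ) * e l (x / |x|)` for `e l` homogeneous of degree `j`. -/
noncomputable def uOf {N : ℕ} (j : ℕ) (e : Fin N → MvPolynomial ι ℝ) (P : ℝ → Fin N → ℝ)
    (x : ι → ℝ) : ℝ :=
  ∑ l, Real.exp (-(j * sig x)) * P (sig x) l * eval x (e l)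

/-- The Christoffel bilinear map, for coefficients `a1, ..., a4`. -/
def gamVec (J : Matrix ι ι ℝ) (a1 a2 a3 a4 : ℝ) (x u v : ι → ℝ) : ι → ℝ :=
  a1 • ((x ⬝ᵥ u) • v + (x ⬝ᵥ v) • u - (u ⬝ᵥ v) • x) +
  a2 • (((J *ᵥ x) ⬝ᵥ v) • (J *ᵥ u) + ((J *ᵥ x) ⬝ᵥ u) • (J *ᵥ v)) +
  (a3 * ((J *ᵥ x) ⬝ᵥ u) * ((J *ᵥ x) ⬝ᵥ v)) • x +
  (a4 * ((x ⬝ᵥ u) * ((J *ᵥ x) ⬝ᵥ v) + (x ⬝ᵥ v) * ((J *ᵥ x) ⬝ᵥ u))) • (J *ᵥ x)

noncomputable def ca1 (L : ℝ → ℝ) (σ : ℝ) : ℝ := (deriv L σ - 1) * Real.exp (-2 * σ)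

noncomputable def ca2 (y : ℝ → ℝ) (σ : ℝ) : ℝ := (Real.exp (2 * y σ) - 1) * Real.exp (-2 * σ)

noncomputable def ca3 (y L : ℝ → ℝ) (σ : ℝ) : ℝ :=
  -((Real.exp (2 * y σ) - 1) * (deriv L σ - 2) + deriv y σ * Real.exp (2 * y σ)) *
    Real.exp (-4 * σ)

noncomputable def ca4 (y : ℝ → ℝ) (σ : ℝ) : ℝ :=
  (deriv y σ - (Real.exp (2 * y σ) - 1)) * Real.exp (-4 * σ)

/-- The Ricci form of the connection `gamVec`; `d1, ..., d4` are the derivatives in `σ`. -/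
noncomputable def ricForm (n ρ a b w a1 a2 a3 a4 d1 d2 d3 d4 : ℝ) : ℝ :=
  (d1 * (2 * a ^ 2 / ρ - w) + a1 * (2 - n) * w - 2 * d2 * b ^ 2 / ρ - 2 * a2 * w + d3 * b ^ 2 +
      a3 * (n + 2) * b ^ 2 + 2 * a4 * (b ^ 2 - a ^ 2)) -
    ((n * d1 + d2 + d4 * ρ + 2 * a4 * ρ) * a ^ 2 / ρ + (n * a1 + a2 + a4 * ρ) * w) +
    (n * a1 + a2 + a4 * ρ) * (a1 * (2 * a ^ 2 - w * ρ) - 2 * a2 * b ^ 2 + a3 * b ^ 2 * ρ) -
    (n * (a1 ^ 2 * a ^ 2 - a2 ^ 2 * b ^ 2) + 2 * a1 * a ^ 2 * (a2 + a4 * ρ) +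
      2 * a2 * b ^ 2 * (-2 * a1 - a2 + (a3 - a4) * ρ) + 2 * a1 ^ 2 * a ^ 2 +
      a ^ 2 * (a2 + a4 * ρ) ^ 2 - 2 * a1 * ρ * (a1 * w + a4 * b ^ 2) +
      2 * b ^ 2 * (a3 * ρ - a2) * (a1 + a4 * ρ))

/-- Radial Ricci curvature times `φ²`; `s, s1` are `L', L''` and `y1, y2` are `y', y''`. -/
def ricR (n s s1 y1 y2 : ℝ) : ℝ := -(n - 1) * s1 - y2 - y1 * s - y1 ^ 2

/-- Horizontal Ricci curvature times `φ²`; `E = exp (2 y)`. -/
def ricH (n s s1 y1 E : ℝ) : ℝ := -s1 - (n - 2) * s ^ 2 - s * y1 + n - 2 * E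

/-- Vertical Ricci curvature times `φ²`. -/
def ricV (n s s1 y1 y2 E : ℝ) : ℝ :=
  -(s1 + y2 + y1 * (s + y1)) - (n - 2) * s * (s + y1) + (n - 2) * E

end Geometry

section Poly

variable {ι : Type} [Fintype ι] [DecidableEq ι] {K : Type} [CommRing K]

/-- The derivation `f ↦ Df(x)(A x)`. -/
noncomputable def xi (A : Matrix ι ι K) : Module.End K (MvPolynomial ι K) :=
  ∑ k, ∑ l, A k l • (LinearMap.mulLeft K (X l) ∘ₗ (pderiv k).toLinearMap)

variable (K ι) in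
/-- The Euclidean Laplacian on polynomials. -/
noncomputable def lap : Module.End K (MvPolynomial ι K) :=
  ∑ k, (pderiv k).toLinearMap ∘ₗ (pderiv k).toLinearMap

variable (K ι) in
/-- Harmonic homogeneous polynomials of degree `j`. -/
noncomputable def Harm (j : ℕ) : Submodule K (MvPolynomial ι K) :=
  homogeneousSubmodule ι K j ⊓ LinearMap.ker (lap ι K)

/-- `T` is the restriction of `F` to the subspace `W`. -/
def Rep {W : Submodule K (MvPolynomial ι K)} (T : Module.End K W)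
    (F : Module.End K (MvPolynomial ι K)) : Prop :=
  ∀ f : W, ((T f : W) : MvPolynomial ι K) = F f

/-- The involution of the complex coordinates `z_a = (a, false)`, `conj z_a = (a, true)`. -/
def bar {m : ℕ} (α : Fin m × Bool) : Fin m × Bool := (α.1, !α.2)

/-- The Laplacian in the coordinates `z, conj z` (up to a factor). -/
noncomputable def lapY (m : ℕ) : Module.End ℂ (MvPolynomial (Fin m × Bool) ℂ) :=
  ∑ α, (pderiv α).toLinearMap ∘ₗ (pderiv (bar α)).toLinearMap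

noncomputable def HarmY (m j : ℕ) : Submodule ℂ (MvPolynomial (Fin m × Bool) ℂ) :=
  homogeneousSubmodule (Fin m × Bool) ℂ j ⊓ LinearMap.ker (lapY m)

/-- The generators `y_α ∂_{bar β} - y_β ∂_{bar α}` of the complex orthogonal Lie algebra. -/
noncomputable def eY {m : ℕ} (α β : Fin m × Bool) :
    Module.End ℂ (MvPolynomial (Fin m × Bool) ℂ) :=
  LinearMap.mulLeft ℂ (X α) ∘ₗ (pderiv (bar β)).toLinearMap -
    LinearMap.mulLeft ℂ (X β) ∘ₗ (pderiv (bar α)).toLinearMap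

/-- The Cartan elements `z_a ∂_{z_a} - conj z_a ∂_{conj z_a}`. -/
noncomputable def hY {m : ℕ} (a : Fin m) : Module.End ℂ (MvPolynomial (Fin m × Bool) ℂ) :=
  eY (a, false) (a, true)

/-- The diagonal complex structure with signs `ε`: multiplication of `z_a` by `i ε_a`. -/
def Jeps {m : ℕ} (ε : Fin m → ℝ) : Matrix (Fin m × Bool) (Fin m × Bool) ℝ :=
  fun α β => if β = bar α then (if α.2 then ε α.1 else -ε α.1) else 0

/-- The linear substitution `X α ↦ ∑ k, U α k • X k`, that is `f ↦ f ∘ U`. -/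
noncomputable def linSub {ι' : Type} (U : Matrix ι' ι K) :
    MvPolynomial ι' K →ₐ[K] MvPolynomial ι K :=
  aeval fun α => ∑ k, U α k • X k

/-- The matrix of `z_a = x_a + i x'_a`, `conj z_a = x_a - i x'_a`. -/
noncomputable def Umat (m : ℕ) : Matrix (Fin m × Bool) (Fin m × Bool) ℂ :=
  fun α k => if α.1 = k.1 then (if k.2 then (if α.2 then -Complex.I else Complex.I) else 1) else 0

/-- The inverse of `Umat`. -/
noncomputable def Vmat (m : ℕ) : Matrix (Fin m × Bool) (Fin m × Bool) ℂ :=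
  fun k α => if k.1 = α.1 then
    (if k.2 then (if α.2 then Complex.I / 2 else -Complex.I / 2) else 1 / 2) else 0

/-- A real polynomial in `x`, rewritten in the complex coordinates `y`. -/
noncomputable def toY (m : ℕ) :
    MvPolynomial (Fin m × Bool) ℝ →ₐ[ℝ] MvPolynomial (Fin m × Bool) ℂ :=
  aeval fun k => ∑ α, Vmat m k α • X α

/-- Lower bound for the dimension of the harmonic polynomials of bidegree `(p, q)`. -/
def dimPQ (m p q : ℕ) : ℕ :=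
  (p + m - 1).choose (m - 1) * (q + m - 1).choose (m - 1) -
    if q = 0 then 0 else (p + m - 2).choose (m - 1) * (q + m - 2).choose (m - 1)

end Poly

section Dyn

variable {V : Type} [NormedAddCommGroup V] [NormedSpace ℝ V]

/-- `(P, Q)` solves `P' = Q`, `Q' = A P - d Q` on the set `s`. -/
def Sol2 (d : ℝ → ℝ) (A : ℝ → V →L[ℝ] V) (P Q : ℝ → V) (s : Set ℝ) : Prop :=
  ∀ t ∈ s, HasDerivAt P (Q t) t ∧ HasDerivAt Q (A t (P t) - d t • Q t) t

/-- The ordered product `exp (b_{n-1} X_{n-1}) ⋯ exp (b_0 X_0)`. -/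
noncomputable def prodExp {R : Type} [NormedRing R] [NormedAlgebra ℝ R] (X : ℕ → R)
    (b : ℕ → ℝ) : ℕ → R
  | 0 => 1
  | i + 1 => NormedSpace.exp (b i • X i) * prodExp X b i

/-- The family `X` and the scalars generate the product of the endomorphism Lie algebras. -/
def Gen {κ T : Type} [DecidableEq κ] {N : κ → ℕ}
    (X : T → (j : κ) → (Fin (N j) → ℝ) →L[ℝ] (Fin (N j) → ℝ)) : Prop :=
  ∀ M : Submodule ℝ ((j : κ) → (Fin (N j) → ℝ) →L[ℝ] (Fin (N j) → ℝ)),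
    (∀ t, X t ∈ M) → (∀ j, Pi.single j 1 ∈ M) → (∀ a ∈ M, ∀ b ∈ M, a * b - b * a ∈ M) → M = ⊤

noncomputable def st (x : ℝ) : ℝ := Real.smoothTransition (2 * x - 1)

noncomputable def om (x : ℝ) : ℝ := Real.smoothTransition (2 * x - 1 / 2)

noncomputable def chi : ℝ → ℝ := deriv om

/-- The function `y` on one cycle: `nP` control pieces of length `ℓ`, then a Berger stage of
length `K ℓ`. -/
noncomputable def yS (nP K : ℕ) (y1 ℓ : ℝ) (b : ℕ → ℝ) (s : ℝ) : ℝ :=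
  ∑ i ∈ Finset.range nP, b i / ℓ * chi (s / ℓ - i) +
    y1 * (st (s / ℓ - nP) * st (nP + K - s / ℓ))

/-- The complex structure used at time `s` of a cycle. -/
noncomputable def tauS {T : Type} (nP : ℕ) (t : ℕ → T) (t0 : T) (ℓ s : ℝ) : T :=
  if ⌊s / ℓ⌋₊ < nP then t ⌊s / ℓ⌋₊ else t0

noncomputable def SS (Sa : ℝ) (y : ℝ → ℝ) (s : ℝ) : ℝ := Sa - ∫ u in (0 : ℝ)..s, deriv y u ^ 2

/-- The function `L'`. -/
noncomputable def sOf (n : ℝ) (y S : ℝ → ℝ) (s : ℝ) : ℝ :=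
  S s * Real.exp (-y s / (n - 1)) - deriv y s / (n - 1)

noncomputable def dOf (n : ℝ) (y S : ℝ → ℝ) (s : ℝ) : ℝ := (n - 2) * sOf n y S s + deriv y s

noncomputable def nuOf (y : ℝ → ℝ) (s : ℝ) : ℝ := 1 - Real.exp (-2 * y s)

noncomputable def AOf (lam : ℝ) (Xi : ℝ → V →L[ℝ] V) (y : ℝ → ℝ) (s : ℝ) : V →L[ℝ] V :=
  lam • (1 : V →L[ℝ] V) + nuOf y s • Xi s

/-- `-gam` is the negative root of `x² + (n-2) S x - lam`. -/
noncomputable def gam (n lam S : ℝ) : ℝ :=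
  ((n - 2) * S + Real.sqrt (((n - 2) * S) ^ 2 + 4 * lam)) / 2

/-- The positive root of `x² + (n-2) S x - lam`. -/
noncomputable def alp (n lam S : ℝ) : ℝ :=
  (-((n - 2) * S) + Real.sqrt (((n - 2) * S) ^ 2 + 4 * lam)) / 2

/-- The invariant at the start of a cycle. -/
def Inv {N : ℕ} (γ C0 : ℝ) (l : Fin N) (z : ℝ) (p q : Fin N → ℝ) : Prop :=
  z ≠ 0 ∧ q + γ • p = Pi.single l z ∧ ‖p‖ ≤ C0 * |z|

end Dyn

/-- Everything the construction needs from the algebra of harmonic polynomials; the clusters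
are the degrees `j + 2` for `j < nκ`. -/
structure AlgData (ι : Type) [Fintype ι] [DecidableEq ι] (m nκ : ℕ) (T : Type) where
  N : Fin nκ → ℕ
  Jm : T → Matrix ι ι ℝ
  hJ : ∀ t, IsCx (Jm t)
  t0 : T
  e : (j : Fin nκ) → Fin (N j) → MvPolynomial ι ℝ
  he : ∀ (j : Fin nκ) l, e j l ∈ Harm ι ℝ (j + 2)
  hind : ∀ j, LinearIndependent ℝ (e j)
  Xi : T → (j : Fin nκ) → (Fin (N j) → ℝ) →L[ℝ] (Fin (N j) → ℝ)
  hXi : ∀ t j v, xi (Jm t) (xi (Jm t) (∑ l, v l • e j l)) = ∑ l, Xi t j v l • e j l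
  w : (j : Fin nκ) → Fin (N j) → ℕ
  hw : ∀ (j : Fin nκ) l, w j l ≤ j + 2
  hXi0 : ∀ j v l, Xi t0 j v l = -((w j l : ℝ) ^ 2) * v l
  gen : ∀ c : Fin nκ → ℝ, (∀ j, c j ≠ 0) → (∀ j j' (u : ℤ), c j = u * c j' → j = j') →
    Gen fun t j => c j • Xi t j
  dimN : ∀ j : Fin nκ, (2 * m + j + 1).choose (j + 2) ≤ N j + (2 * m + j - 1).choose j
  cnt : ∀ (j : Fin nκ) (p q : ℕ), p + q = j + 2 → q < p →
    2 * dimPQ m p q ≤ (Finset.univ.filter fun l => w j l = p - q).card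

end Vale.Agent.P225
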