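import Vale.Agent.P371.Brouwer
import Vale.Agent.P225.Spec

/-!
Robust exact controllability in a finite dimensional algebra.

For a word `l : List (T × ℝ)` let `W l` be the product of the `exp (b • X t)`; the reversed word with
negated coefficients gives the inverse. Let `M = span {W l * X t * W l⁻¹} ⊔ Z`.
1. `M` is invariant under conjugation by every `W l`; differentiating `s ↦ exp (sX) a exp (-sX)` at
   `0` (`M` is closed) gives `[X t, M] ≤ M`, then `[W X W⁻¹, a] = W [X, W⁻¹ a W] W⁻¹ ∈ M`. So `M = ⊤`.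
2. Pick finitely many `(l i, t i)`, `i < r`, with `Λ (a, z) = ∑ a i • W X W⁻¹ - z` onto `R` from
   `(Fin r → ℝ) × Z`, and a linear right inverse `v ↦ (a v, z v)`. Then
   `G v = exp (-z v) * ∏ i, W (l i) exp (a v i • X (t i)) W (l i)⁻¹` has `G 0 = 1` and derivative the
   identity at `0`: choose `ρ > 0` with `‖G v - 1 - v‖ ≤ ρ/2` for `‖v‖ ≤ ρ`.
3. Robust solving: if `H` is continuous, `‖H v - G v‖ ≤ ρ/4` for `‖v‖ ≤ ρ` and `‖u - 1‖ ≤ ρ/4` then
   `H v = u` for some `‖v‖ ≤ ρ`: apply `Vale.Agent.P371.brouwer_bounded` to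
   `v ↦ r v - (H (r v) - u)` with `r` the radial retraction `v ↦ (ρ / max ρ ‖v‖) • v`; its norm is at
   most `ρ`, so the fixed point has `r v = v`.
4. With `H = G`: the set `{exp (-z) * W l}` contains a ball around `1` and is a submonoid (`Z` is
   central), so `g = exp (-z0) * W l0`; in particular `g` is a unit.
5. The final control word is the word of step 2 (coefficients depending affinely on `v`) followed by
   `l0` and one dummy letter with coefficient `0`; read it as `t, b : ℕ → _` in the order required by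
   `prodExp` (index `0` is the rightmost factor). Apply 3 to
   `H v = exp (-z v) * Ψ (b v) * (W l0)⁻¹` and `u = 1`.
(For `NormedSpace.exp` lemmas use `letI : NormedAlgebra ℚ R := NormedAlgebra.restrictScalars ℚ ℝ R`.)
-/

namespace Vale.Agent.P225

open scoped ContDiff
open Filter Topology MvPolynomial Matrix Set

namespace ControlAux

open NormedSpace

variable {R : Type} [NormedRing R] [NormedAlgebra ℝ R] [FiniteDimensional ℝ R] {T : Type}

theorem exp_cont : Continuous (exp : R → R) := by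
  let : NormedAlgebra ℚ R := NormedAlgebra.restrictScalars ℚ ℝ R
  have := FiniteDimensional.complete ℝ R
  exact exp_continuous

theorem exp_add_comm {x y : R} (h : x * y = y * x) : exp (x + y) = exp x * exp y := by
  let : NormedAlgebra ℚ R := NormedAlgebra.restrictScalars ℚ ℝ R
  have := FiniteDimensional.complete ℝ R
  exact exp_add_of_commute h

theorem exp_mul_neg (x : R) : exp x * exp (-x) = 1 := by
  rw [← exp_add_comm (by simp), add_neg_cancel, exp_zero]

theorem exp_neg_mul (x : R) : exp (-x) * exp x = 1 := by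
  simpa using exp_mul_neg (-x)

theorem hasF_exp (L : R →L[ℝ] R) : HasFDerivAt (fun v => exp (L v)) L 0 := by
  have := FiniteDimensional.complete ℝ R
  have h : HasFDerivAt exp (1 : R →L[ℝ] R) (L 0) := by
    rw [map_zero]; exact hasFDerivAt_exp_zero
  exact h.comp 0 L.hasFDerivAt

/-- the generators: one letter, or a central exponential -/
def Gens (X : T → R) (Z : Submodule ℝ R) : Set (R → R) :=
  {F | (∃ t, ∃ β : R → ℝ, Continuous β ∧ F = fun v => exp (β v • X t)) ∨
    ∃ z : R → R, Continuous z ∧ (∀ v, z v ∈ Z) ∧ F = fun v => exp (z v)}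

/-- words depending continuously on a parameter -/
def Wds (X : T → R) (Z : Submodule ℝ R) : Submonoid (R → R) := Submonoid.closure (Gens X Z)

variable {X : T → R} {Z : Submodule ℝ R}

omit [FiniteDimensional ℝ R] in
theorem letter_mem (t : T) {β : R → ℝ} (hβ : Continuous β) :
    (fun v => exp (β v • X t)) ∈ Wds X Z :=
  Submonoid.subset_closure (Or.inl ⟨t, β, hβ, rfl⟩)

omit [FiniteDimensional ℝ R] in
theorem central_mem {z : R → R} (hz : Continuous z) (h : ∀ v, z v ∈ Z) :
    (fun v => exp (z v)) ∈ Wds X Z :=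
  Submonoid.subset_closure (Or.inr ⟨z, hz, h, rfl⟩)

theorem Wds.cont {F : R → R} (h : F ∈ Wds X Z) : Continuous F := by
  induction h using Submonoid.closure_induction with
  | mem F hF =>
    rcases hF with ⟨t, β, hβ, rfl⟩ | ⟨z, hz, -, rfl⟩
    · exact exp_cont.comp (hβ.smul continuous_const)
    · exact exp_cont.comp hz
  | one => exact continuous_const
  | mul F G _ _ h1 h2 => exact h1.mul h2

omit [FiniteDimensional ℝ R] in
theorem Wds.eval {F : R → R} (h : F ∈ Wds X Z) (v : R) : (fun _ => F v) ∈ Wds X Z := by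
  induction h using Submonoid.closure_induction with
  | mem F hF =>
    rcases hF with ⟨t, β, -, rfl⟩ | ⟨z, -, hz, rfl⟩
    · exact letter_mem t continuous_const
    · exact central_mem continuous_const (fun _ => hz v)
  | one => exact one_mem _
  | mul F G _ _ h1 h2 => exact mul_mem h1 h2

theorem Wds.inv {F : R → R} (h : F ∈ Wds X Z) : ∃ G ∈ Wds X Z, F * G = 1 ∧ G * F = 1 := by
  induction h using Submonoid.closure_induction with
  | mem F hF =>
    rcases hF with ⟨t, β, hβ, rfl⟩ | ⟨z, hz, hz', rfl⟩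
    · refine ⟨_, letter_mem t hβ.neg, funext fun v => ?_, funext fun v => ?_⟩
      · simpa using exp_mul_neg (β v • X t)
      · simpa using exp_neg_mul (β v • X t)
    · exact ⟨_, central_mem hz.neg (fun v => Z.neg_mem (hz' v)), funext fun v => exp_mul_neg _,
        funext fun v => exp_neg_mul _⟩
  | one => exact ⟨1, one_mem _, mul_one _, mul_one _⟩
  | mul F G _ _ h1 h2 =>
    obtain ⟨F', a1, a2, a3⟩ := h1
    obtain ⟨G', b1, b2, b3⟩ := h2
    refine ⟨G' * F', mul_mem b1 a1, ?_, ?_⟩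
    · rw [mul_assoc, ← mul_assoc G, b2, one_mul, a2]
    · rw [mul_assoc, ← mul_assoc F', a3, one_mul, b3]

omit [FiniteDimensional ℝ R] in
theorem prodExp_congr {Y Y' : ℕ → R} {b b' : ℕ → ℝ} {n : ℕ}
    (h : ∀ i < n, Y i = Y' i ∧ b i = b' i) : prodExp Y b n = prodExp Y' b' n := by
  induction n with
  | zero => rfl
  | succ n ih =>
    rw [prodExp, prodExp, ih (fun i hi => h i (by omega)), (h n (by omega)).1, (h n (by omega)).2]

theorem Wds.normal [Nonempty T] (hZ : ∀ z ∈ Z, ∀ a, z * a = a * z) {F : R → R}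
    (h : F ∈ Wds X Z) : ∃ (n : ℕ) (t : ℕ → T) (b : R → ℕ → ℝ) (z : R → R) (β : R → ℝ),
      0 < n ∧ Continuous b ∧ Continuous z ∧ Continuous β ∧ (∀ v, z v ∈ Z) ∧
      (∀ v i, |b v i| ≤ β v) ∧ ∀ v, F v = exp (z v) * prodExp (fun i => X (t i)) (b v) n := by
  induction h using Submonoid.closure_induction_left with
  | one =>
    obtain ⟨t⟩ := ‹Nonempty T›
    exact ⟨1, fun _ => t, fun _ _ => 0, fun _ => 0, fun _ => 0, one_pos, continuous_const,
      continuous_const, continuous_const, fun _ => Z.zero_mem, fun _ _ => by simp,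
      fun v => by simp [prodExp]⟩
  | mul_left x hx y hy ih =>
    obtain ⟨n, t, b, z, β, h1, h2, h3, h4, h5, h6, h7⟩ := ih
    rcases hx with ⟨t₀, β₀, hβ, rfl⟩ | ⟨z₀, hz, hz', rfl⟩
    · refine ⟨n + 1, Function.update t n t₀, fun v => Function.update (b v) n (β₀ v), z,
        fun v => β v + |β₀ v|, n.succ_pos, h2.update n hβ, h3, h4.add hβ.abs, h5,
        fun v i => ?_, fun v => ?_⟩
      · have k0 := abs_nonneg (β₀ v)
        have k1 := (abs_nonneg _).trans (h6 v 0)
        by_cases e : i = n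
        · subst e; simp only [Function.update_self]; linarith
        · simp only [Function.update_of_ne e]; linarith [h6 v i]
      · have c : Commute (z v) (β₀ v • X t₀) := hZ _ (h5 v) _
        rw [Pi.mul_apply, h7, prodExp, ← mul_assoc, ← mul_assoc, ← c.exp.eq]
        simp only [Function.update_self]
        congr 1
        exact prodExp_congr fun i hi => by simp [Function.update_of_ne hi.ne]
    · refine ⟨n, t, b, fun v => z₀ v + z v, β, h1, h2, hz.add h3, h4,
        fun v => Z.add_mem (hz' v) (h5 v), h6, fun v => ?_⟩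
      rw [Pi.mul_apply, h7, ← mul_assoc, exp_add_comm (hZ _ (hz' v) _)]

/-- `u` is a constant word with inverse `u'` -/
def Cj (X : T → R) (Z : Submodule ℝ R) (u u' : R) : Prop :=
  (fun _ => u) ∈ Wds X Z ∧ (fun _ => u') ∈ Wds X Z ∧ u * u' = 1 ∧ u' * u = 1

omit [FiniteDimensional ℝ R] in
theorem Cj.mul {u u' w w' : R} (h : Cj X Z u u') (k : Cj X Z w w') : Cj X Z (u * w) (w' * u') := by
  refine ⟨mul_mem h.1 k.1, mul_mem k.2.1 h.2.1, ?_, ?_⟩
  · rw [mul_assoc, ← mul_assoc w, k.2.2.1, one_mul, h.2.2.1]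
  · rw [mul_assoc, ← mul_assoc u', h.2.2.2, one_mul, k.2.2.2]

omit [FiniteDimensional ℝ R] in
theorem Cj.symm {u u' : R} (h : Cj X Z u u') : Cj X Z u' u := ⟨h.2.1, h.1, h.2.2.2, h.2.2.1⟩

theorem cj_exp (t : T) (s : ℝ) : Cj X Z (exp (s • X t)) (exp (s • -X t)) := by
  refine ⟨letter_mem t continuous_const, ?_, ?_, ?_⟩
  · rw [smul_neg, ← neg_smul]; exact letter_mem t continuous_const
  · rw [smul_neg]; exact exp_mul_neg _
  · rw [smul_neg]; exact exp_neg_mul _

/-- the generators of the tangent space -/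
def Tan (X : T → R) (Z : Submodule ℝ R) : Set R :=
  {a | (∃ u u' t, Cj X Z u u' ∧ a = u * X t * u') ∨ a ∈ Z}

omit [FiniteDimensional ℝ R] in
theorem conj_mem (hZ : ∀ z ∈ Z, ∀ a, z * a = a * z) {u u' a : R} (h : Cj X Z u u')
    (ha : a ∈ Submodule.span ℝ (Tan X Z)) : u * a * u' ∈ Submodule.span ℝ (Tan X Z) := by
  induction ha using Submodule.span_induction with
  | mem a ha =>
    refine Submodule.subset_span ?_
    rcases ha with ⟨w, w', t, hw, rfl⟩ | ha
    · exact Or.inl ⟨_, _, t, h.mul hw, by simp only [mul_assoc]⟩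
    · right
      rw [← hZ a ha, mul_assoc, h.2.2.1, mul_one]; exact ha
  | zero => simp
  | add a b _ _ h1 h2 => rw [mul_add, add_mul]; exact add_mem h1 h2
  | smul c a _ h1 => rw [mul_smul_comm, smul_mul_assoc]; exact Submodule.smul_mem _ c h1

theorem bracket_X_mem (hZ : ∀ z ∈ Z, ∀ a, z * a = a * z) (t : T) {a : R}
    (ha : a ∈ Submodule.span ℝ (Tan X Z)) : X t * a - a * X t ∈ Submodule.span ℝ (Tan X Z) := by
  have := FiniteDimensional.complete ℝ R
  have hd : HasDerivAt (fun s : ℝ => exp (s • X t) * a * exp (s • -X t)) (X t * a - a * X t) 0 := by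
    have := ((hasDerivAt_exp_smul_const (X t) (0 : ℝ)).mul_const a).mul
      (hasDerivAt_exp_smul_const (-X t) (0 : ℝ))
    exact this.congr_deriv (by simp [sub_eq_add_neg])
  refine (Submodule.closed_of_finiteDimensional _).mem_of_tendsto
    (hasDerivAt_iff_tendsto_slope.1 hd) (Eventually.of_forall fun s => ?_)
  rw [slope_def_module]
  exact Submodule.smul_mem _ _ (sub_mem (conj_mem hZ (cj_exp t s) ha) (conj_mem hZ (cj_exp t 0) ha))

theorem span_tan (hZ : ∀ z ∈ Z, ∀ a, z * a = a * z)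
    (hgen : ∀ M : Submodule ℝ R, (∀ t, X t ∈ M) → Z ≤ M →
      (∀ a ∈ M, ∀ b ∈ M, a * b - b * a ∈ M) → M = ⊤) : Submodule.span ℝ (Tan X Z) = ⊤ := by
  refine hgen _ (fun t => Submodule.subset_span (Or.inl ⟨1, 1, t,
    ⟨one_mem _, one_mem _, mul_one _, mul_one _⟩, by simp⟩))
    (fun z hz => Submodule.subset_span (Or.inr hz)) (fun a ha b hb => ?_)
  induction ha using Submodule.span_induction with
  | mem a ha =>
    rcases ha with ⟨w, w', t, hw, rfl⟩ | ha
    · have := conj_mem hZ hw (bracket_X_mem hZ t (conj_mem hZ hw.symm hb))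
      have e : w * (X t * (w' * b * w) - w' * b * w * X t) * w' =
          w * X t * w' * b * (w * w') - (w * w') * b * (w * X t * w') := by
        simp only [mul_sub, sub_mul, mul_assoc]
      rwa [e, hw.2.2.1, mul_one, one_mul] at this
    · rw [hZ a ha, sub_self]; exact zero_mem _
  | zero => simp
  | add a c _ _ h1 h2 =>
    have e : (a + c) * b - b * (a + c) = (a * b - b * a) + (c * b - b * c) := by noncomm_ring
    rw [e]; exact add_mem h1 h2
  | smul c a _ h1 =>
    rw [smul_mul_assoc, mul_smul_comm, ← smul_sub]; exact Submodule.smul_mem _ c h1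

/-- realisable derivatives -/
def Rz (X : T → R) (Z : Submodule ℝ R) (D : R →L[ℝ] R) : Prop :=
  ∃ F ∈ Wds X Z, F 0 = 1 ∧ HasFDerivAt F D 0

omit [FiniteDimensional ℝ R] in
theorem rz_zero : Rz X Z 0 := ⟨1, one_mem _, rfl, hasFDerivAt_const _ _⟩

omit [FiniteDimensional ℝ R] in
theorem Rz.add {D D' : R →L[ℝ] R} (h : Rz X Z D) (k : Rz X Z D') : Rz X Z (D + D') := by
  obtain ⟨F, a1, a2, a3⟩ := h
  obtain ⟨G, b1, b2, b3⟩ := k
  refine ⟨F * G, mul_mem a1 b1, by simp [a2, b2], (a3.mul' b3).congr_fderiv ?_⟩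
  ext v
  simp [a2, b2, add_comm]

theorem rz_smulRight {a : R} (ha : a ∈ Submodule.span ℝ (Tan X Z)) (φ : R →L[ℝ] ℝ) :
    Rz X Z (φ.smulRight a) := by
  induction ha using Submodule.span_induction generalizing φ with
  | mem a ha =>
    rcases ha with ⟨w, w', t, hw, rfl⟩ | ha
    · refine ⟨fun v => w * exp (φ.smulRight (X t) v) * w',
        mul_mem (mul_mem hw.1 (letter_mem t φ.continuous)) hw.2.1, by simp [hw.2.2.1],
        (((hasF_exp (φ.smulRight (X t))).const_mul w).mul_const' w').congr_fderiv ?_⟩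
      ext v
      simp
    · exact ⟨fun v => exp (φ.smulRight a v),
        central_mem (φ.smulRight a).continuous (fun v => Z.smul_mem _ ha), by simp, hasF_exp _⟩
  | zero =>
    have : φ.smulRight (0 : R) = 0 := by ext v; simp
    rw [this]; exact rz_zero
  | add a c _ _ h1 h2 =>
    have : φ.smulRight (a + c) = φ.smulRight a + φ.smulRight c := by ext v; simp
    rw [this]; exact (h1 φ).add (h2 φ)
  | smul c a _ h1 =>
    have : φ.smulRight (c • a) = (c • φ).smulRight a := by ext v; simp [smul_smul, mul_comm]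
    rw [this]; exact h1 _

theorem rz_id (h : Submodule.span ℝ (Tan X Z) = ⊤) : Rz X Z (ContinuousLinearMap.id ℝ R) := by
  let e := Module.finBasis ℝ R
  have k : ContinuousLinearMap.id ℝ R =
      ∑ i, (LinearMap.toContinuousLinearMap (e.coord i)).smulRight (e i) := by
    ext v
    simp [e.sum_repr v]
  rw [k]
  exact Finset.sum_induction _ (Rz X Z) (fun _ _ => Rz.add) rz_zero
    (fun i _ => rz_smulRight (h ▸ Submodule.mem_top) _)

theorem robust {G : R → R} (h0 : G 0 = 1) (hG : HasFDerivAt G (ContinuousLinearMap.id ℝ R) 0) :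
    ∃ ρ > 0, ∀ H : R → R, Continuous H → (∀ v, ‖v‖ ≤ ρ → ‖H v - G v‖ ≤ ρ / 4) →
      ∀ u, ‖u - 1‖ ≤ ρ / 4 → ∃ v, ‖v‖ ≤ ρ ∧ H v = u := by
  have h1 := hG.isLittleO.bound (c := 1 / 2) (by norm_num)
  obtain ⟨ρ, hρ, h2⟩ := Metric.nhds_basis_closedBall.eventually_iff.1 h1
  refine ⟨ρ, hρ, fun H hH hc u hu => ?_⟩
  let r : R → R := fun v => (ρ / max ρ ‖v‖) • v
  have hm : ∀ v : R, 0 < max ρ ‖v‖ := fun v => hρ.trans_le (le_max_left _ _)
  have hr : Continuous r :=
    (continuous_const.div (continuous_const.max continuous_norm) (fun v => (hm v).ne')).smul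
      continuous_id
  have hr1 : ∀ v, ‖r v‖ ≤ ρ := by
    intro v
    rw [norm_smul, Real.norm_eq_abs, abs_of_pos (div_pos hρ (hm v)), div_mul_eq_mul_div,
      div_le_iff₀ (hm v)]
    exact mul_le_mul_of_nonneg_left (le_max_right _ _) hρ.le
  have hb : ∀ v, ‖r v - (H (r v) - u)‖ ≤ ρ := by
    intro v
    have k1 := h2 (x := r v) (by simpa using hr1 v)
    simp only [h0, sub_zero, ContinuousLinearMap.id_apply] at k1
    have e : r v - (H (r v) - u) = (u - 1) - (H (r v) - G (r v)) - (G (r v) - 1 - r v) := by abel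
    rw [e]
    have k2 := norm_sub_le ((u - 1) - (H (r v) - G (r v))) (G (r v) - 1 - r v)
    have k3 := norm_sub_le (u - 1) (H (r v) - G (r v))
    linarith [hc _ (hr1 v), hr1 v]
  obtain ⟨v, hv⟩ := Vale.Agent.P371.brouwer_bounded
    (f := fun v => r v - (H (r v) - u)) (hr.sub ((hH.comp hr).sub continuous_const)) hb
  have k1 : ‖v‖ ≤ ρ := by rw [← hv]; exact hb v
  have k2 : r v = v := by
    change (ρ / max ρ ‖v‖) • v = v
    rw [max_eq_left k1, div_self hρ.ne', one_smul]
  simp only [k2] at hv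
  exact ⟨v, k1, sub_eq_zero.1 (sub_eq_self.1 hv)⟩

end ControlAux

open ControlAux

theorem control {R : Type} [NormedRing R] [NormedAlgebra ℝ R] [FiniteDimensional ℝ R] {T : Type}
    [Nonempty T] (X : T → R) (Z : Submodule ℝ R) (hZ : ∀ z ∈ Z, ∀ a, z * a = a * z)
    (hgen : ∀ M : Submodule ℝ R, (∀ t, X t ∈ M) → Z ≤ M →
      (∀ a ∈ M, ∀ b ∈ M, a * b - b * a ∈ M) → M = ⊤)
    (g : R) (hg : ∀ U ∈ 𝓝 (1 : R), g ∈ Submonoid.closure U) :
    ∃ (nP : ℕ) (t : ℕ → T) (B ε : ℝ), 0 < nP ∧ 0 ≤ B ∧ 0 < ε ∧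
      ∀ Ψ : (ℕ → ℝ) → R, Continuous Ψ →
        (∀ b : ℕ → ℝ, (∀ i, |b i| ≤ B) → ‖Ψ b - prodExp (fun i => X (t i)) b nP‖ ≤ ε) →
        ∃ b : ℕ → ℝ, (∀ i, |b i| ≤ B) ∧ ∃ z ∈ Z, ‖z‖ ≤ B ∧ Ψ b = NormedSpace.exp z * g := by
  obtain ⟨G, hG, h0, hd⟩ := rz_id (span_tan hZ hgen)
  obtain ⟨ρ, hρ, hsol⟩ := robust h0 hd
  have hgW : (fun _ => g) ∈ Wds X Z := by
    have := hg _ (Metric.closedBall_mem_nhds 1 (show 0 < ρ / 4 by positivity))
    clear hg
    induction this using Submonoid.closure_induction with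
    | mem u hu =>
      obtain ⟨v, -, rfl⟩ := hsol G (Wds.cont hG) (fun v _ => by simp; positivity) u
        (by simpa [dist_eq_norm] using hu)
      exact Wds.eval hG v
    | one => exact one_mem _
    | mul a b _ _ h1 h2 => exact mul_mem h1 h2
  obtain ⟨G', -, e1, e2⟩ := Wds.inv hgW
  have e1 : g * G' 0 = 1 := congrFun e1 0
  have e2 : G' 0 * g = 1 := congrFun e2 0
  obtain ⟨n, t, b, z, β, h1, h2, h3, h4, h5, h6, h7⟩ := Wds.normal hZ (mul_mem hG hgW)
  have := FiniteDimensional.proper ℝ R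
  obtain ⟨B, hB⟩ := (isCompact_closedBall (0 : R) ρ).exists_bound_of_continuousOn
    (f := fun v => |β v| + ‖z v‖ + ‖NormedSpace.exp (z v)‖)
    ((h4.abs.add h3.norm).add (exp_cont.comp h3).norm).continuousOn
  have hB' : ∀ v : R, ‖v‖ ≤ ρ → β v ≤ B ∧ ‖z v‖ ≤ B ∧ ‖NormedSpace.exp (z v)‖ ≤ B := by
    intro v hv
    have k := (le_abs_self _).trans (hB v (by simpa using hv))
    have := le_abs_self (β v)
    have := abs_nonneg (β v)
    have := norm_nonneg (z v)
    have := norm_nonneg (NormedSpace.exp (z v))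
    exact ⟨by linarith, by linarith, by linarith⟩
  have hB0 : 0 ≤ B := (norm_nonneg _).trans (hB' 0 (by simpa using hρ.le)).2.1
  have hD : 0 < B * ‖G' 0‖ + 1 := by positivity
  refine ⟨n, t, B, ρ / 4 / (B * ‖G' 0‖ + 1), h1, hB0, by positivity, fun Ψ hΨ hc => ?_⟩
  obtain ⟨v, hv, hv'⟩ := hsol (fun v => NormedSpace.exp (z v) * Ψ (b v) * G' 0)
    (((exp_cont.comp h3).mul (hΨ.comp h2)).mul continuous_const) (fun v hv => by
      have k : G v = NormedSpace.exp (z v) * prodExp (fun i => X (t i)) (b v) n * G' 0 := by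
        rw [← h7, Pi.mul_apply, mul_assoc, e1, mul_one]
      rw [k, ← sub_mul, ← mul_sub]
      have k1 := hc (b v) (fun i => (h6 v i).trans (hB' v hv).1)
      calc _ ≤ ‖NormedSpace.exp (z v)‖ * ‖Ψ (b v) - prodExp (fun i => X (t i)) (b v) n‖ * ‖G' 0‖ :=
            (norm_mul_le _ _).trans (mul_le_mul_of_nonneg_right (norm_mul_le _ _) (norm_nonneg _))
        _ ≤ B * (ρ / 4 / (B * ‖G' 0‖ + 1)) * ‖G' 0‖ := by gcongr; exact (hB' v hv).2.2
        _ = ρ / 4 * (B * ‖G' 0‖ / (B * ‖G' 0‖ + 1)) := by ring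
        _ ≤ ρ / 4 * 1 := by gcongr; rw [div_le_one hD]; linarith
        _ = ρ / 4 := mul_one _) 1 (by simp; positivity)
  refine ⟨b v, fun i => (h6 v i).trans (hB' v hv).1, -z v, Z.neg_mem (h5 v),
    by rw [norm_neg]; exact (hB' v hv).2.1, ?_⟩
  calc Ψ (b v) = (NormedSpace.exp (-z v) * NormedSpace.exp (z v)) * Ψ (b v) * (G' 0 * g) := by
        rw [exp_neg_mul, e2, one_mul, mul_one]
    _ = NormedSpace.exp (-z v) * ((NormedSpace.exp (z v) * Ψ (b v) * G' 0) * g) := by
        simp only [mul_assoc]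
    _ = _ := by rw [hv', one_mul]

end Vale.Agent.P225
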