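import Vale.Agent.P225.Control

/-!
Apply `control` in `R = (j : κ) → End (Fin (N j) → ℝ)` with `Z` the range of
`c ↦ fun j => c j • 1`, and `g` a signed permutation: `g j (e l) = ± e (π j l)`.
The set `G` of `g` lying in `Submonoid.closure U` for all `U ∈ 𝓝 1` is a submonoid. It contains
`1 + Pi.single j (t • E a b)` (`a ≠ b`, `E a b v = Pi.single a (v b)`), because
`1 + t E = (1 + (t/n) E)^n` (`E * E = 0`). The product `(1 + E a b)(1 - E b a)(1 + E a b)` is a signed
transposition; induct with `Equiv.Perm.swap_induction_on` and then over `j`.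
Turn the columns `Ψ b j l` into operators `v ↦ ∑ l, v l • Ψ b j l` (norm error at most
`(∑ j, N j + 1) ε`), use `Pi.coe_exp` type facts to compare `prodExp` componentwise, and
`exp (c • 1) = Real.exp c • 1`; `|c j| ≤ ‖z‖` when `N j ≠ 0`.
-/

namespace Vale.Agent.P225

open scoped ContDiff
open Filter Topology MvPolynomial Matrix Set

/-- Elements that are products of elements arbitrarily close to `1`. -/
def Near (R : Type) [Monoid R] [TopologicalSpace R] : Submonoid R :=
  ⨅ U ∈ 𝓝 (1 : R), Submonoid.closure U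

theorem mem_near {R : Type} [Monoid R] [TopologicalSpace R] {g : R} :
    g ∈ Near R ↔ ∀ U ∈ 𝓝 (1 : R), g ∈ Submonoid.closure U := by
  simp [Near, Submonoid.mem_iInf]

theorem near_map {R S : Type} [Monoid R] [TopologicalSpace R] [Monoid S] [TopologicalSpace S]
    (φ : R →* S) (hφ : Continuous φ) {g : R} (hg : g ∈ Near R) : φ g ∈ Near S := by
  rw [mem_near] at hg ⊢
  intro U hU
  have h1 : φ ⁻¹' U ∈ 𝓝 (1 : R) := hφ.continuousAt.preimage_mem_nhds (by rwa [map_one])
  have h2 : Submonoid.closure (φ ⁻¹' U) ≤ (Submonoid.closure U).comap φ :=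
    Submonoid.closure_le.2 fun x hx => Submonoid.subset_closure (s := U) hx
  exact h2 (hg _ h1)

theorem near_pi {κ : Type} [Fintype κ] [DecidableEq κ] {A : κ → Type} [∀ j, Monoid (A j)]
    [∀ j, TopologicalSpace (A j)] (g : (j : κ) → A j) (hg : ∀ j, g j ∈ Near (A j)) :
    g ∈ Near ((j : κ) → A j) := by
  have key : ∀ s : Finset κ, (fun j => if j ∈ s then g j else 1) ∈ Near ((j : κ) → A j) := by
    intro s
    induction s using Finset.induction_on with
    | empty => exact (Near _).one_mem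
    | insert a s ha ih =>
      have h1 := near_map (MonoidHom.mulSingle A a) (continuous_mulSingle a) (hg a)
      have e : (fun j => if j ∈ insert a s then g j else 1) =
          MonoidHom.mulSingle A a (g a) * fun j => if j ∈ s then g j else 1 := by
        funext j
        by_cases h : j = a
        · subst h; simp [ha]
        · simp [h]
      rw [e]
      exact (Near _).mul_mem h1 ih
  simpa using key Finset.univ

theorem near_one_add {R : Type} [NormedRing R] [NormedAlgebra ℝ R] (x : R) (hx : x * x = 0) :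
    1 + x ∈ Near R := by
  rw [mem_near]
  intro U hU
  have h1 : Tendsto (fun n : ℕ => (1 : R) + (1 / ((n : ℝ) + 1)) • x) atTop (𝓝 1) := by
    have := ((tendsto_one_div_add_atTop_nhds_zero_nat (𝕜 := ℝ)).smul_const x).const_add (1 : R)
    simpa using this
  obtain ⟨n, hn⟩ := (h1.eventually hU).exists
  have h2 : ∀ (s : ℝ) (k : ℕ), ((1 : R) + s • x) ^ k = 1 + ((k : ℝ) * s) • x := by
    intro s k
    induction k with
    | zero => simp
    | succ k ih =>
      rw [pow_succ, ih, add_mul, one_mul, mul_add, mul_one, smul_mul_smul_comm, hx, smul_zero,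
        add_zero, add_assoc, ← add_smul]
      push_cast
      rw [show s + k * s = (k + 1) * s by ring]
  have h3 := (Submonoid.closure U).pow_mem (Submonoid.subset_closure hn) (n + 1)
  rw [h2] at h3
  push_cast at h3
  rwa [mul_one_div_cancel (by positivity), one_smul] at h3

/-- The elementary matrix. -/
noncomputable def elem {n : ℕ} (a b : Fin n) : (Fin n → ℝ) →L[ℝ] (Fin n → ℝ) :=
  (ContinuousLinearMap.single ℝ (fun _ => ℝ) a).comp (ContinuousLinearMap.proj b)

theorem elem_apply {n : ℕ} (a b : Fin n) (v : Fin n → ℝ) : elem a b v = Pi.single a (v b) := rfl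

theorem elem_sq {n : ℕ} {a b : Fin n} (h : a ≠ b) : elem a b * elem a b = 0 := by
  ext1 v
  simp [elem_apply, h.symm]

theorem near_perm {n : ℕ} (π : Equiv.Perm (Fin n)) :
    ∃ g ∈ Near ((Fin n → ℝ) →L[ℝ] (Fin n → ℝ)), ∀ l, ∃ s : ℝ, |s| = 1 ∧
      g (Pi.single l 1) = Pi.single (π l) s := by
  induction π using Equiv.Perm.swap_induction_on with
  | one => exact ⟨1, (Near _).one_mem, fun l => ⟨1, abs_one, rfl⟩⟩
  | swap_mul f a b hab ih =>
    obtain ⟨g, hg, hl⟩ := ih
    have h1 := near_one_add _ (elem_sq hab)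
    have h2 := near_one_add (-elem b a) ((neg_mul_neg _ _).trans (elem_sq hab.symm))
    refine ⟨(1 + elem a b) * (1 + -elem b a) * (1 + elem a b) * g,
      (Near _).mul_mem ((Near _).mul_mem ((Near _).mul_mem h1 h2) h1) hg, fun l => ?_⟩
    obtain ⟨s, hs, hs'⟩ := hl l
    simp only [mul_apply_eq_comp, hs', Equiv.Perm.mul_apply]
    generalize f l = c
    by_cases ha : c = a
    · subst ha
      refine ⟨-s, by rwa [abs_neg], ?_⟩
      funext i
      simp [elem_apply, hab.symm, Pi.single_apply]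
      split_ifs <;> simp_all
    by_cases hb : c = b
    · subst hb
      refine ⟨s, hs, ?_⟩
      funext i
      simp [elem_apply, hab, hab.symm, Pi.single_apply]
    · refine ⟨s, hs, ?_⟩
      rw [Equiv.swap_apply_of_ne_of_ne ha hb]
      simp [elem_apply, Ne.symm ha, Ne.symm hb]

theorem exp_pi_apply {κ : Type} [Fintype κ] {A : κ → Type} [∀ j, NormedRing (A j)]
    [∀ j, NormedAlgebra ℝ (A j)] [∀ j, CompleteSpace (A j)] (x : (j : κ) → A j) (j : κ) :
    NormedSpace.exp x j = NormedSpace.exp (x j) := by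
  let _ : ∀ j, NormedAlgebra ℚ (A j) := fun j => NormedAlgebra.restrictScalars ℚ ℝ (A j)
  exact Pi.coe_exp x j

theorem prodExp_pi {κ : Type} [Fintype κ] {A : κ → Type} [∀ j, NormedRing (A j)]
    [∀ j, NormedAlgebra ℝ (A j)] [∀ j, CompleteSpace (A j)] (X : ℕ → (j : κ) → A j)
    (b : ℕ → ℝ) (n : ℕ) (j : κ) : prodExp X b n j = prodExp (fun i => X i j) b n := by
  induction n with
  | zero => rfl
  | succ n ih => rw [prodExp, prodExp, Pi.mul_apply, ih, exp_pi_apply]; rfl

theorem exp_smul_one {A : Type} [NormedRing A] [NormedAlgebra ℝ A] (c : ℝ) :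
    NormedSpace.exp (c • (1 : A)) = Real.exp c • (1 : A) := by
  rw [← Algebra.algebraMap_eq_smul_one, ← Algebra.algebraMap_eq_smul_one,
    ← NormedSpace.algebraMap_exp_comm, Real.exp_eq_exp_ℝ]

/-- The operator with given columns. -/
noncomputable def ofCols {n : ℕ} (w : Fin n → Fin n → ℝ) : (Fin n → ℝ) →L[ℝ] (Fin n → ℝ) :=
  ∑ l, ContinuousLinearMap.smulRightL ℝ (Fin n → ℝ) (Fin n → ℝ) (ContinuousLinearMap.proj l) (w l)

theorem ofCols_apply {n : ℕ} (w : Fin n → Fin n → ℝ) (v : Fin n → ℝ) :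
    ofCols w v = ∑ l, v l • w l := by
  simp [ofCols]

theorem continuous_ofCols {n : ℕ} : Continuous (ofCols (n := n)) :=
  continuous_finsetSum _ fun l _ => (ContinuousLinearMap.smulRightL ℝ (Fin n → ℝ) (Fin n → ℝ)
    (ContinuousLinearMap.proj l)).continuous.comp (continuous_apply l)

theorem norm_ofCols_sub {n : ℕ} (w : Fin n → Fin n → ℝ) (P : (Fin n → ℝ) →L[ℝ] (Fin n → ℝ))
    {ε : ℝ} (hε : 0 ≤ ε) (h : ∀ l, ‖w l - P (Pi.single l 1)‖ ≤ ε) : ‖ofCols w - P‖ ≤ n * ε := by
  refine ContinuousLinearMap.opNorm_le_bound _ (by positivity) fun v => ?_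
  have e : (ofCols w - P) v = ∑ l, v l • (w l - P (Pi.single l 1)) := by
    have e1 : P v = ∑ l, v l • P (Pi.single l 1) := by
      conv_lhs => rw [← Finset.univ_sum_single v, map_sum]
      refine Finset.sum_congr rfl fun l _ => ?_
      rw [← map_smul, ← Pi.single_smul, smul_eq_mul, mul_one]
    rw [_root_.sub_apply, ofCols_apply, e1, ← Finset.sum_sub_distrib]
    simp only [smul_sub]
  rw [e]
  calc _ ≤ ∑ l : Fin n, ε * ‖v‖ := by
        refine norm_sum_le_of_le _ fun l _ => ?_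
        rw [norm_smul, mul_comm]
        exact mul_le_mul (h l) (norm_le_pi_norm v l) (norm_nonneg _) hε
    _ = _ := by simp [mul_assoc]

theorem control_perm {κ T : Type} [Fintype κ] [DecidableEq κ] [Nonempty T] {N : κ → ℕ}
    (X : T → (j : κ) → (Fin (N j) → ℝ) →L[ℝ] (Fin (N j) → ℝ)) (hgen : Gen X)
    (π : (j : κ) → Equiv.Perm (Fin (N j))) :
    ∃ (nP : ℕ) (t : ℕ → T) (B ε : ℝ), 0 < nP ∧ 0 ≤ B ∧ 0 < ε ∧
      ∀ Ψ : (ℕ → ℝ) → (j : κ) → Fin (N j) → Fin (N j) → ℝ, Continuous Ψ →
        (∀ b : ℕ → ℝ, (∀ i, |b i| ≤ B) → ∀ j l,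
          ‖Ψ b j l - prodExp (fun i => X (t i) j) b nP (Pi.single l 1)‖ ≤ ε) →
        ∃ b : ℕ → ℝ, (∀ i, |b i| ≤ B) ∧ ∀ j l, ∃ c : ℝ, Real.exp (-B) ≤ |c| ∧
          |c| ≤ Real.exp B ∧ Ψ b j l = Pi.single (π j l) c := by
  choose g hg hgl using fun j => near_perm (π j)
  let ζ : (κ → ℝ) →ₗ[ℝ] ((j : κ) → (Fin (N j) → ℝ) →L[ℝ] (Fin (N j) → ℝ)) :=
    { toFun := fun c j => c j • 1
      map_add' := fun c d => funext fun j => add_smul _ _ _
      map_smul' := fun a c => funext fun j => mul_smul _ _ _ }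
  obtain ⟨nP, t, B, ε, h1, h2, h3, h4⟩ := control X (LinearMap.range ζ) (by
      rintro z ⟨c, rfl⟩ a
      funext j
      show c j • 1 * a j = a j * c j • 1
      rw [smul_mul_assoc, mul_smul_comm, one_mul, mul_one])
    (fun M a1 a2 a3 => hgen M a1 (fun j => a2 ⟨Pi.single j 1, by
      funext i
      show (Pi.single j 1 : κ → ℝ) i • (1 : (Fin (N i) → ℝ) →L[ℝ] (Fin (N i) → ℝ)) = _
      by_cases h : i = j
      · subst h; simp
      · simp [h]⟩) a3) g (mem_near.1 (near_pi g hg))
  obtain ⟨S, hS⟩ : ∃ S : ℝ, S = ∑ j, (N j : ℝ) + 1 := ⟨_, rfl⟩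
  have hS0 : 0 < S := by rw [hS]; positivity
  have hS1 : ∀ j, (N j : ℝ) ≤ S := fun j => by
    have := Finset.single_le_sum (f := fun j => (N j : ℝ)) (fun i _ => Nat.cast_nonneg _)
      (Finset.mem_univ j)
    linarith
  refine ⟨nP, t, B, ε / S, h1, h2, by positivity, fun Ψ c1 c2 => ?_⟩
  obtain ⟨b, hb, z, ⟨c, rfl⟩, hz, he⟩ := h4 (fun b j => ofCols (Ψ b j))
    (continuous_pi fun j => continuous_ofCols.comp ((continuous_apply j).comp c1))
    (fun b hb => by
      refine (pi_norm_le_iff_of_nonneg h3.le).2 fun j => ?_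
      rw [Pi.sub_apply, prodExp_pi]
      refine (norm_ofCols_sub _ _ (by positivity) (c2 b hb j)).trans ?_
      calc (N j : ℝ) * (ε / S) ≤ S * (ε / S) := mul_le_mul_of_nonneg_right (hS1 j) (by positivity)
        _ = ε := by field_simp)
  refine ⟨b, hb, fun j l => ?_⟩
  obtain ⟨s, hs, hs'⟩ := hgl j l
  have hc : |c j| ≤ B := by
    have a1 := (ζ c j).le_opNorm (Pi.single l 1)
    have a2 : ζ c j (Pi.single l 1) = c j • (Pi.single l 1 : Fin (N j) → ℝ) := rfl
    rw [a2, norm_smul, Pi.norm_single, norm_one, mul_one, mul_one, Real.norm_eq_abs] at a1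
    exact a1.trans ((norm_le_pi_norm (ζ c) j).trans hz)
  have a3 : |Real.exp (c j) * s| = Real.exp (c j) := by
    rw [abs_mul, hs, mul_one, abs_of_pos (Real.exp_pos _)]
  refine ⟨Real.exp (c j) * s, ?_, ?_, ?_⟩
  · rw [a3]; exact Real.exp_le_exp.2 (abs_le.1 hc).1
  · rw [a3]; exact Real.exp_le_exp.2 (abs_le.1 hc).2
  · have a4 := congrArg (fun F => F j (Pi.single l 1)) he
    simp only [Pi.mul_apply, exp_pi_apply, mul_apply_eq_comp, hs'] at a4
    have a5 : ζ c j = c j • 1 := rfl
    rw [a5, exp_smul_one, ofCols_apply, Finset.sum_eq_single l] at a4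
    · rw [Pi.single_eq_same, one_smul] at a4
      rw [a4, ← smul_eq_mul, Pi.single_smul]
      rfl
    · intro i _ hi
      rw [Pi.single_eq_of_ne hi, zero_smul]
    · simp

end Vale.Agent.P225
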