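import Vale.Agent.P225.PolyBasic

/-!
Dimension of the weight spaces. Let `h = ∑ a, hY a`; it is diagonal on monomials with eigenvalue
`wt s = ∑ a, s (a,false) - ∑ a, s (a,true)` (`coeff_hY`). Let `P p q` be the span of the monomials
of bidegree `(p, q)` (`MvPolynomial.restrictSupport`), of dimension
`choose (p+m-1) (m-1) * choose (q+m-1) (m-1)` (`Finset.card_finsuppAntidiag_nat_eq_choose` twice and
a bijection `(Fin m × Bool →₀ ℕ) ≃ (Fin m →₀ ℕ) × (Fin m →₀ ℕ)`). `lapY` maps `P p q` to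
`P (p-1) (q-1)`, and to `0` if `q = 0` or `p = 0`, so the kernels in `P p q` and in `P q p` have dimension at least
`dimPQ m p q`; they are independent (`p ≠ q`) and contained in the space below.
-/

namespace Vale.Agent.P225

open scoped ContDiff
open Filter Topology MvPolynomial Matrix Set

/-- exponent vector from its two halves -/
noncomputable def cyJ {m : ℕ} (x : (Fin m →₀ ℕ) × (Fin m →₀ ℕ)) : Fin m × Bool →₀ ℕ :=
  Finsupp.equivFunOnFinite.symm fun α => bif α.2 then x.2 α.1 else x.1 α.1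

theorem cyJ_false {m : ℕ} (x : (Fin m →₀ ℕ) × (Fin m →₀ ℕ)) (a : Fin m) :
    cyJ x (a, false) = x.1 a := rfl

theorem cyJ_true {m : ℕ} (x : (Fin m →₀ ℕ) × (Fin m →₀ ℕ)) (a : Fin m) :
    cyJ x (a, true) = x.2 a := rfl

theorem cyJ_injective {m : ℕ} : Function.Injective (cyJ (m := m)) := fun x y h =>
  Prod.ext (Finsupp.ext fun a => by rw [← cyJ_false, h, cyJ_false])
    (Finsupp.ext fun a => by rw [← cyJ_true, h, cyJ_true])

/-- exponent vectors of bidegree `(a, b)` -/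
noncomputable def cyS (m a b : ℕ) : Finset (Fin m × Bool →₀ ℕ) :=
  (Finset.univ.finsuppAntidiag a ×ˢ Finset.univ.finsuppAntidiag b).image cyJ

theorem mem_cyS {m a b : ℕ} {s : Fin m × Bool →₀ ℕ} :
    s ∈ cyS m a b ↔ ∑ i, s (i, false) = a ∧ ∑ i, s (i, true) = b := by
  constructor
  · intro h
    obtain ⟨x, hx, rfl⟩ := Finset.mem_image.1 h
    obtain ⟨h1, h2⟩ := Finset.mem_product.1 hx
    exact ⟨(Finset.mem_finsuppAntidiag.1 h1).1, (Finset.mem_finsuppAntidiag.1 h2).1⟩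
  · rintro ⟨h1, h2⟩
    refine Finset.mem_image.2 ⟨(Finsupp.equivFunOnFinite.symm fun i => s (i, false),
      Finsupp.equivFunOnFinite.symm fun i => s (i, true)), Finset.mem_product.2
        ⟨Finset.mem_finsuppAntidiag.2 ⟨h1, Finset.subset_univ _⟩,
          Finset.mem_finsuppAntidiag.2 ⟨h2, Finset.subset_univ _⟩⟩, ?_⟩
    ext ⟨i, _ | _⟩ <;> rfl

theorem card_cyS {m : ℕ} (hm : 1 ≤ m) (a b : ℕ) :
    (cyS m a b).card = (a + m - 1).choose (m - 1) * (b + m - 1).choose (m - 1) := by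
  rw [cyS, Finset.card_image_of_injective _ cyJ_injective, Finset.card_product,
    Finset.card_finsuppAntidiag_nat_eq_choose, Finset.card_finsuppAntidiag_nat_eq_choose,
    Finset.card_univ, Fintype.card_fin, add_comm m a, add_comm m b,
    Nat.choose_symm_of_eq_add (show a + m - 1 = a + (m - 1) by omega),
    Nat.choose_symm_of_eq_add (show b + m - 1 = b + (m - 1) by omega)]

/-- span of a finite set of monomials -/
noncomputable def cyP {m : ℕ} (S : Finset (Fin m × Bool →₀ ℕ)) :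
    Submodule ℂ (MvPolynomial (Fin m × Bool) ℂ) := restrictSupport ℂ (S : Set (Fin m × Bool →₀ ℕ))

theorem mem_cyP {m : ℕ} {S : Finset (Fin m × Bool →₀ ℕ)} {f : MvPolynomial (Fin m × Bool) ℂ} :
    f ∈ cyP S ↔ ∀ s, coeff s f ≠ 0 → s ∈ S :=
  ⟨fun h _ hs => (mem_restrictSupport_iff ℂ).1 h (mem_support_iff.2 hs),
    fun h => (mem_restrictSupport_iff ℂ).2 fun s hs => h s (mem_support_iff.1 hs)⟩

theorem finrank_cyP {m : ℕ} (S : Finset (Fin m × Bool →₀ ℕ)) :
    Module.finrank ℂ (cyP S) = S.card :=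
  Module.finrank_eq_card_finset_basis (basisRestrictSupport ℂ (S : Set (Fin m × Bool →₀ ℕ)))

instance finite_cyP {m : ℕ} (S : Finset (Fin m × Bool →₀ ℕ)) : FiniteDimensional ℂ (cyP S) :=
  Module.Finite.of_basis (ι := S) (basisRestrictSupport ℂ (S : Set (Fin m × Bool →₀ ℕ)))

theorem cy_rank {V : Type} [AddCommGroup V] [Module ℂ V] (L : Module.End ℂ V)
    (P W : Submodule ℂ V) [FiniteDimensional ℂ P] [FiniteDimensional ℂ W]
    (h : ∀ f ∈ P, L f ∈ W) :
    Module.finrank ℂ P ≤ Module.finrank ℂ ↥(P ⊓ LinearMap.ker L) + Module.finrank ℂ W := by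
  have h1 := LinearMap.finrank_range_add_finrank_ker (L.domRestrict P)
  have h2 : Module.finrank ℂ (LinearMap.range (L.domRestrict P)) ≤ Module.finrank ℂ W :=
    Submodule.finrank_mono (by rintro _ ⟨f, rfl⟩; exact h f f.2)
  have h3 : Module.finrank ℂ (LinearMap.ker (L.domRestrict P)) =
      Module.finrank ℂ ↥(P ⊓ LinearMap.ker L) := by
    rw [LinearMap.ker_domRestrict, ← Submodule.finrank_map_subtype_eq, Submodule.map_comap_subtype]
  omega

theorem cy_sum_single {m : ℕ} (α : Fin m × Bool) (b : Bool) :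
    ∑ i, ((Finsupp.single α 1 : Fin m × Bool →₀ ℕ) (i, b) +
      (Finsupp.single (bar α) 1 : Fin m × Bool →₀ ℕ) (i, b)) = 1 := by
  obtain ⟨a, c⟩ := α
  cases b <;> cases c <;> simp [bar, Finsupp.single_apply]

theorem cy_lap {m a b : ℕ} {f : MvPolynomial (Fin m × Bool) ℂ} (hf : f ∈ cyP (cyS m a b)) :
    lapY m f ∈ cyP (if a = 0 ∨ b = 0 then ∅ else cyS m (a - 1) (b - 1)) := by
  refine mem_cyP.2 fun s hs => ?_
  have e : lapY m f = ∑ α, pderiv α (pderiv (bar α) f) := by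
    simp [lapY, LinearMap.sum_apply]
  rw [e, coeff_sum] at hs
  obtain ⟨α, -, hα⟩ := Finset.exists_ne_zero_of_sum_ne_zero hs
  rw [coeff_pderiv, coeff_pderiv] at hα
  obtain ⟨h1, h2⟩ := mem_cyS.1 (mem_cyP.1 hf _ (left_ne_zero_of_mul (left_ne_zero_of_mul hα)))
  simp only [Finsupp.add_apply, add_assoc] at h1 h2
  rw [Finset.sum_add_distrib, cy_sum_single] at h1 h2
  rw [if_neg (by omega)]
  exact mem_cyS.2 ⟨by omega, by omega⟩

theorem cy_weight {m a b : ℕ} {f : MvPolynomial (Fin m × Bool) ℂ} (hf : f ∈ cyP (cyS m a b)) :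
    (∑ i : Fin m, hY i) f = ((a : ℂ) - b) • f := by
  ext s
  rw [LinearMap.sum_apply, coeff_sum, coeff_smul, smul_eq_mul]
  simp only [coeff_hY]
  rw [← Finset.sum_mul]
  by_cases hs : coeff s f = 0
  · rw [hs, mul_zero, mul_zero]
  · obtain ⟨h1, h2⟩ := mem_cyS.1 (mem_cyP.1 hf s hs)
    rw [Finset.sum_sub_distrib, ← h1, ← h2]
    push_cast
    rfl

theorem cy_homog {m a b : ℕ} {f : MvPolynomial (Fin m × Bool) ℂ} (hf : f ∈ cyP (cyS m a b)) :
    f.IsHomogeneous (a + b) := by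
  intro s hs
  obtain ⟨h1, h2⟩ := mem_cyS.1 (mem_cyP.1 hf s hs)
  show Finsupp.weight (fun _ => 1) s = a + b
  rw [← Finsupp.degree_eq_weight_one, Finsupp.degree_eq_sum, Fintype.sum_prod_type, ← h1, ← h2,
    ← Finset.sum_add_distrib]
  exact Finset.sum_congr rfl fun i _ => by rw [Fintype.sum_bool, add_comm]

theorem cy_le {m a b j : ℕ} {c : ℂ} (hj : a + b = j) (hc : ((a : ℂ) - b) ^ 2 = c ^ 2) :
    cyP (cyS m a b) ⊓ LinearMap.ker (lapY m) ≤ HarmY m j ⊓ LinearMap.ker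
      ((∑ i : Fin m, hY i) ^ 2 - c ^ 2 • (1 : Module.End ℂ _)) := by
  rintro f ⟨h1, h2⟩
  refine ⟨⟨hj ▸ cy_homog h1, h2⟩, ?_⟩
  refine LinearMap.mem_ker.2 ?_
  rw [LinearMap.sub_apply, sq (∑ i : Fin m, hY i), Module.End.mul_apply, cy_weight h1, map_smul,
    cy_weight h1, smul_smul, ← sq, hc]
  simp

theorem finrank_weight_ge {m p q : ℕ} (hm : 1 ≤ m) (hqp : q < p) :
    2 * dimPQ m p q ≤ Module.finrank ℂ
      ↥(HarmY m (p + q) ⊓ LinearMap.ker
        ((∑ a : Fin m, hY a) ^ 2 - ((p - q : ℕ) : ℂ) ^ 2 • (1 : Module.End ℂ _))) := by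
  have k1 := cy_rank (lapY m) (cyP (cyS m p q)) _ fun f hf => cy_lap hf
  have k2 := cy_rank (lapY m) (cyP (cyS m q p)) _ fun f hf => cy_lap hf
  rw [finrank_cyP, finrank_cyP, card_cyS hm] at k1 k2
  have d1 : dimPQ m p q ≤ Module.finrank ℂ ↥(cyP (cyS m p q) ⊓ LinearMap.ker (lapY m)) := by
    unfold dimPQ
    by_cases hq : q = 0
    · rw [if_pos (Or.inr hq), Finset.card_empty] at k1
      rw [if_pos hq]
      exact k1
    · rw [if_neg (by omega), card_cyS hm, show p - 1 + m - 1 = p + m - 2 by omega,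
        show q - 1 + m - 1 = q + m - 2 by omega] at k1
      rw [if_neg hq]
      omega
  have d2 : dimPQ m p q ≤ Module.finrank ℂ ↥(cyP (cyS m q p) ⊓ LinearMap.ker (lapY m)) := by
    unfold dimPQ
    by_cases hq : q = 0
    · rw [if_pos (Or.inl hq), Finset.card_empty, mul_comm] at k2
      rw [if_pos hq]
      exact k2
    · rw [if_neg (by omega), card_cyS hm, show p - 1 + m - 1 = p + m - 2 by omega,
        show q - 1 + m - 1 = q + m - 2 by omega, mul_comm,
        mul_comm ((q + m - 2).choose (m - 1))] at k2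
      rw [if_neg hq]
      omega
  have e := Submodule.finrank_sup_add_finrank_inf_eq (cyP (cyS m p q) ⊓ LinearMap.ker (lapY m))
    (cyP (cyS m q p) ⊓ LinearMap.ker (lapY m))
  have hbot : (cyP (cyS m p q) ⊓ LinearMap.ker (lapY m)) ⊓
      (cyP (cyS m q p) ⊓ LinearMap.ker (lapY m)) = ⊥ := by
    refine eq_bot_iff.2 ?_
    rintro f ⟨⟨h1, -⟩, h2, -⟩
    refine (Submodule.mem_bot ℂ).2 (MvPolynomial.ext _ _ fun s => ?_)
    by_contra hs
    have a1 := (mem_cyS.1 (mem_cyP.1 h1 s hs)).1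
    have a2 := (mem_cyS.1 (mem_cyP.1 h2 s hs)).1
    omega
  rw [hbot, finrank_bot] at e
  have hc : (((p - q : ℕ) : ℂ)) = (p : ℂ) - q := by rw [Nat.cast_sub hqp.le]
  have l1 := cy_le (m := m) (a := p) (b := q) (c := ((p - q : ℕ) : ℂ)) rfl (by rw [hc])
  have l2 := cy_le (m := m) (a := q) (b := p) (c := ((p - q : ℕ) : ℂ)) (add_comm q p)
    (by rw [hc]; ring)
  have := Submodule.finrank_mono (sup_le l1 l2)
  omega

end Vale.Agent.P225
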