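import Vale.Agent.P225.StageFun

/-!
The control stage. Put `κ = α + γ`, `p = γ - α - d`, `E s = exp (-(α s + (α/κ) ∫ 0..s p))`,
`w = E • (Q + γ P)`, `v = E • (Q - α P)`, so `E • P = κ⁻¹ (w - v)`, `E • Q = κ⁻¹ (α w + γ v)`. On the
piece `i`:  `w' = κ⁻¹ (p γ v + ν X i (w - v))`,
`v' = -κ v - (α p/κ) v + κ⁻¹ (p (α w + γ v) + ν X i (w - v))`.
One piece `[t, t + ℓ]`, `N0 = ‖w t‖ + ‖v t‖`, `M = max (‖w‖ + ‖v‖)` on the piece (compactness), and
`C1` a constant with `‖w'‖ ≤ (C1/ℓ)(‖w‖ + ‖v‖)`, `‖v' + κ v‖ ≤ (C1/ℓ) M`: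
1. mean value inequality for `exp (κ (s-t)) • v`
   (`image_norm_le_of_norm_deriv_right_le_deriv_boundary`):
   `‖v s‖ ≤ exp (-κ (s-t)) ‖v t‖ + C1 M/(κ ℓ)`;
2. Gronwall for `w`: `‖w s‖ ≤ exp C1 (‖w t‖ + sup ‖v‖)`; hence `M ≤ 2 (1 + exp C1) N0` for large `ℓ`;
3. `z s = exp (-(b i * om ((s-t)/ℓ)) • c X i) (w s)` has
   `‖z'‖ ≤ C2 ((η/ℓ) M + (C1/ℓ) ‖v s‖)`, so `‖z (t+ℓ) - z t‖ ≤ C3 (η + 1/ℓ) N0`
   (the integral of `exp (-κ (s-t))` is at most `1/κ`).
So `‖w (t+ℓ) - exp (b i • c X i) (w t)‖ ≤ ε' N0` and `‖v (t+ℓ)‖ ≤ ε' N0` with `ε'` as small as we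
like. Then induct on the number of pieces (`‖exp (b i • c X i)‖ ≤ exp (B ‖c X i‖)`), and use
`‖v 0‖ ≤ ‖w 0‖ + 2 C ‖P 0‖`.
-/

namespace Vale.Agent.P225

open scoped ContDiff
open Filter Topology MvPolynomial Matrix Set

section Exp

variable {R : Type} [NormedRing R] [NormedAlgebra ℝ R] [CompleteSpace R]

private theorem exp_smul_mul (Y : R) (a b : ℝ) :
    NormedSpace.exp (a • Y) * NormedSpace.exp (b • Y) = NormedSpace.exp ((a + b) • Y) := by
  rw [add_smul, NormedSpace.exp_add_of_commute_of_mem_ball (𝕂 := ℝ)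
    (((Commute.refl Y).smul_left a).smul_right b)
    ((NormedSpace.expSeries_radius_eq_top ℝ R).symm ▸ edist_lt_top _ _)
    ((NormedSpace.expSeries_radius_eq_top ℝ R).symm ▸ edist_lt_top _ _)]

private theorem exp_bound (X : ℕ → R) (B : ℝ) (n : ℕ) : ∃ G, 0 ≤ G ∧ ∀ i < n, ∀ τ : ℝ, |τ| ≤ B →
    ‖NormedSpace.exp (τ • X i)‖ ≤ G := by
  induction n with
  | zero => exact ⟨0, le_rfl, fun i hi => absurd hi (Nat.not_lt_zero i)⟩
  | succ n ih =>
    obtain ⟨G, hG, h⟩ := ih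
    have hc : Continuous fun τ : ℝ => NormedSpace.exp (τ • X n) :=
      continuous_iff_continuousAt.2 fun τ => (hasDerivAt_exp_smul_const (X n) τ).continuousAt
    obtain ⟨G', h'⟩ := (isCompact_Icc (a := -B) (b := B)).exists_bound_of_continuousOn
      hc.continuousOn
    refine ⟨max G G', le_max_of_le_left hG, fun i hi τ hτ => ?_⟩
    rcases Nat.lt_succ_iff_lt_or_eq.1 hi with hi | rfl
    · exact le_max_of_le_left (h i hi τ hτ)
    · exact le_max_of_le_right (h' τ (abs_le.1 hτ))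

end Exp

private theorem piece {V : Type} [NormedAddCommGroup V] [NormedSpace ℝ V] [CompleteSpace V]
    {G C1 k0 ε : ℝ} (hG : 0 ≤ G) (hC1 : 0 ≤ C1) (hk0 : 0 < k0) (hε : 0 < ε) :
    ∃ η > 0, ∃ ℓ0 > 0, ∀ ℓ ≥ ℓ0, ∀ κ ≥ k0, ∀ (Y : V →L[ℝ] V) (β t : ℝ) (w v w' v' : ℝ → V),
      (∀ τ : ℝ, |τ| ≤ |β| → ‖NormedSpace.exp (τ • Y)‖ ≤ G) →
      (∀ s ∈ Icc t (t + ℓ), HasDerivAt w (w' s) s ∧ HasDerivAt v (v' s) s ∧
        ‖w' s - (β / ℓ * chi ((s - t) / ℓ)) • Y (w s)‖ ≤ η / ℓ * ‖w s‖ + C1 / ℓ * ‖v s‖ ∧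
        ‖v' s + κ • v s‖ ≤ C1 / ℓ * (‖w s‖ + ‖v s‖)) →
      ‖w (t + ℓ) - NormedSpace.exp (β • Y) (w t)‖ ≤ ε * (‖w t‖ + ‖v t‖) ∧
        ‖v (t + ℓ)‖ ≤ ε * (‖w t‖ + ‖v t‖) := by
  obtain ⟨K, hK⟩ : ∃ K, K = 2 * (G + 2) := ⟨_, rfl⟩
  have hK0 : 0 ≤ K := by rw [hK]; positivity
  obtain ⟨θ, hθ, hθ1, hθ2, hθ3⟩ : ∃ θ > 0, θ * (G ^ 2 * (1 + C1 ^ 2) + C1 + G ^ 2 * C1) ≤ 1 / 2 ∧
      θ * (G ^ 2 * (K + C1 + C1 ^ 2 * K)) ≤ ε ∧ θ * (1 + C1 * K) ≤ ε := by
    set A1 := G ^ 2 * (1 + C1 ^ 2) + C1 + G ^ 2 * C1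
    set A2 := G ^ 2 * (K + C1 + C1 ^ 2 * K)
    set A3 := 1 + C1 * K
    have h1 : 0 ≤ A1 := by positivity
    have h2 : 0 ≤ A2 := by positivity
    have h3 : 0 < A3 := by positivity
    have hm : 0 < min (1 / 2) ε := lt_min (by norm_num) hε
    have hm1 := min_le_left (1 / 2) ε
    have hm2 := min_le_right (1 / 2) ε
    have key : ∀ A, A ≤ A1 + A2 + A3 → min (1 / 2) ε / (A1 + A2 + A3) * A ≤ min (1 / 2) ε := by
      intro A hA
      rw [div_mul_eq_mul_div, div_le_iff₀ (by positivity)]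
      exact mul_le_mul_of_nonneg_left hA hm.le
    exact ⟨min (1 / 2) ε / (A1 + A2 + A3), by positivity, (key _ (by linarith)).trans hm1,
      (key _ (by linarith)).trans hm2, (key _ (by linarith)).trans hm2⟩
  refine ⟨θ, hθ, 1 / (k0 * θ), by positivity, ?_⟩
  intro ℓ hℓ κ hκ Y β t w v w' v' hY H
  have hℓ0 : 0 < ℓ := lt_of_lt_of_le (by positivity) hℓ
  have hκ0 : 0 < κ := lt_of_lt_of_le hk0 hκ
  have hδ : 1 / (κ * ℓ) ≤ θ := by
    rw [ge_iff_le, div_le_iff₀ (by positivity)] at hℓ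
    rw [div_le_iff₀ (by positivity)]
    nlinarith [mul_le_mul_of_nonneg_right hκ (mul_pos hθ hℓ0).le]
  have hcw : ContinuousOn w (Icc t (t + ℓ)) := fun s hs =>
    (H s hs).1.continuousAt.continuousWithinAt
  have hcv : ContinuousOn v (Icc t (t + ℓ)) := fun s hs =>
    (H s hs).2.1.continuousAt.continuousWithinAt
  obtain ⟨s0, hs0, hmax⟩ := (isCompact_Icc (a := t) (b := t + ℓ)).exists_isMaxOn
    ⟨t, left_mem_Icc.2 (by linarith)⟩ (hcw.norm.add hcv.norm)
  set M := ‖w s0‖ + ‖v s0‖ with hM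
  have hMle : ∀ s ∈ Icc t (t + ℓ), ‖w s‖ + ‖v s‖ ≤ M := fun s hs => hmax hs
  have hM0 : 0 ≤ M := by positivity
  set N := ‖w t‖ + ‖v t‖ with hN
  have hN0 : 0 ≤ N := by positivity
  have hvN : ‖v t‖ ≤ N := by rw [hN]; linarith [norm_nonneg (w t)]
  have hwN : ‖w t‖ ≤ N := by rw [hN]; linarith [norm_nonneg (v t)]
  have hexp : ∀ c s : ℝ, HasDerivAt (fun s => Real.exp (c * (s - t)))
      (Real.exp (c * (s - t)) * c) s := by
    intro c s
    have := (((hasDerivAt_id s).sub_const t).const_mul c).exp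
    simpa using this
  -- step 1
  have step1 : ∀ s ∈ Icc t (t + ℓ), ‖v s‖ ≤ Real.exp (-κ * (s - t)) * N + C1 * θ * M := by
    intro s hs
    have h1 := image_norm_le_of_norm_deriv_right_le_deriv_boundary (a := t) (b := t + ℓ)
      (f := fun s => Real.exp (κ * (s - t)) • v s)
      (f' := fun s => Real.exp (κ * (s - t)) • (v' s + κ • v s))
      (B := fun s => N + C1 * θ * M * Real.exp (κ * (s - t)))
      (B' := fun s => C1 * θ * M * (Real.exp (κ * (s - t)) * κ))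
      (ContinuousOn.smul (by fun_prop) hcv)
      (fun x hx => by
        have := (hexp κ x).smul (H x (Ico_subset_Icc_self hx)).2.1
        refine HasDerivAt.hasDerivWithinAt (this.congr_deriv ?_)
        rw [smul_add, smul_smul])
      (by
        simp only [sub_self, mul_zero, Real.exp_zero, one_smul, mul_one]
        have : 0 ≤ C1 * θ * M := by positivity
        linarith)
      (fun x => ((hexp κ x).const_mul _).const_add _)
      (fun x hx => by
        have h2 := (H x (Ico_subset_Icc_self hx)).2.2.2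
        have h3 := hMle x (Ico_subset_Icc_self hx)
        have he := Real.exp_pos (κ * (x - t))
        rw [norm_smul, Real.norm_of_nonneg he.le]
        have h4 : C1 / ℓ * (‖w x‖ + ‖v x‖) ≤ C1 * θ * M * κ := by
          have h5 : 1 / ℓ ≤ θ * κ := by
            rw [div_le_iff₀ (by positivity)] at hδ
            rw [div_le_iff₀ hℓ0]
            linarith
          calc C1 / ℓ * (‖w x‖ + ‖v x‖) = C1 * (1 / ℓ * (‖w x‖ + ‖v x‖)) := by ring
            _ ≤ C1 * (θ * κ * M) :=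
              mul_le_mul_of_nonneg_left (mul_le_mul h5 h3 (by positivity) (by positivity)) hC1
            _ = _ := by ring
        nlinarith) hs
    have he := Real.exp_pos (κ * (s - t))
    rw [norm_smul, Real.norm_of_nonneg he.le] at h1
    have h6 : Real.exp (-κ * (s - t)) * Real.exp (κ * (s - t)) = 1 := by
      rw [← Real.exp_add]
      simp
    have he' := Real.exp_pos (-κ * (s - t))
    have h7 := mul_le_mul_of_nonneg_left h1 he'.le
    calc ‖v s‖ = Real.exp (-κ * (s - t)) * (Real.exp (κ * (s - t)) * ‖v s‖) := by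
          rw [← mul_assoc, h6, one_mul]
      _ ≤ _ := h7
      _ = Real.exp (-κ * (s - t)) * N +
          C1 * θ * M * (Real.exp (-κ * (s - t)) * Real.exp (κ * (s - t))) := by ring
      _ = _ := by rw [h6, mul_one]
  -- step 2
  set τ : ℝ → ℝ := fun s => β * om ((s - t) / ℓ) with hτ
  have hτb : ∀ s, |τ s| ≤ |β| := by
    intro s
    have := om_mem ((s - t) / ℓ)
    rw [hτ]
    simp only [abs_mul]
    rw [abs_of_nonneg this.1]
    exact mul_le_of_le_one_right (abs_nonneg _) this.2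
  have hτd : ∀ s, HasDerivAt (fun s => -τ s) (-(β / ℓ * chi ((s - t) / ℓ))) s := by
    intro s
    have h1 := (hasDerivAt_om ((s - t) / ℓ)).comp s (((hasDerivAt_id s).sub_const t).div_const ℓ)
    have h2 := (h1.const_mul β).neg
    refine h2.congr_deriv ?_
    ring
  set z : ℝ → V := fun s => NormedSpace.exp ((-τ s) • Y) (w s) with hz
  have hzd : ∀ s ∈ Icc t (t + ℓ), HasDerivAt z (NormedSpace.exp ((-τ s) • Y)
      (w' s - (β / ℓ * chi ((s - t) / ℓ)) • Y (w s))) s := by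
    intro s hs
    have h1 := (hasDerivAt_exp_smul_const Y (-τ s)).scomp s (hτd s)
    have h2 := h1.clm_apply (H s hs).1
    refine h2.congr_deriv ?_
    simp only [Function.comp_apply, map_sub, map_smul, _root_.smul_apply,
      mul_apply_eq_comp]
    module
  have hwz : ∀ s, w s = NormedSpace.exp (τ s • Y) (z s) := by
    intro s
    have h1 := congrArg (fun T : V →L[ℝ] V => T (w s)) (exp_smul_mul Y (τ s) (-τ s))
    simp only [add_neg_cancel, zero_smul, NormedSpace.exp_zero, mul_apply_eq_comp,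
      one_apply_eq_self] at h1
    exact h1.symm
  have hzt : z t = w t := by
    rw [hz, hτ]
    simp [om_zero]
  have step2 : ∀ s ∈ Icc t (t + ℓ), ‖z s - z t‖ ≤ G * θ * (M + C1 * N + C1 ^ 2 * M) := by
    intro s hs
    have h1 := image_norm_le_of_norm_deriv_right_le_deriv_boundary (a := t) (b := t + ℓ)
      (f := fun s => z s - z t)
      (f' := fun s => NormedSpace.exp ((-τ s) • Y)
        (w' s - (β / ℓ * chi ((s - t) / ℓ)) • Y (w s)))
      (B := fun s => G * ((θ * M + C1 ^ 2 * θ * M) / ℓ * (s - t) +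
        C1 / ℓ * N / κ * (1 - Real.exp (-κ * (s - t)))))
      (B' := fun s => G * ((θ * M + C1 ^ 2 * θ * M) / ℓ * 1 +
        C1 / ℓ * N / κ * (-(Real.exp (-κ * (s - t)) * -κ))))
      (fun x hx => ((hzd x hx).sub_const _).continuousAt.continuousWithinAt)
      (fun x hx => ((hzd x (Ico_subset_Icc_self hx)).sub_const _).hasDerivWithinAt)
      (by simp)
      (fun x => (((((hasDerivAt_id x).sub_const t).const_mul _).add
        (((hexp (-κ) x).const_sub 1).const_mul _)).const_mul G))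
      (fun x hx => by
        have hx' := Ico_subset_Icc_self hx
        have h2 := (H x hx').2.2.1
        have h3 := hMle x hx'
        have h4 := step1 x hx'
        refine (ContinuousLinearMap.le_opNorm _ _).trans ?_
        refine mul_le_mul (hY _ (by rw [abs_neg]; exact hτb x)) (h2.trans ?_) (norm_nonneg _) hG
        have h5 : θ / ℓ * ‖w x‖ ≤ θ / ℓ * M :=
          mul_le_mul_of_nonneg_left (by linarith [norm_nonneg (v x)]) (by positivity)
        have h6 := mul_le_mul_of_nonneg_left h4 (show 0 ≤ C1 / ℓ by positivity)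
        have h7 : (θ * M + C1 ^ 2 * θ * M) / ℓ * 1 +
            C1 / ℓ * N / κ * (-(Real.exp (-κ * (x - t)) * -κ)) =
            θ / ℓ * M + C1 / ℓ * (Real.exp (-κ * (x - t)) * N + C1 * θ * M) := by
          field_simp
          ring
        rw [h7]
        linarith) hs
    refine h1.trans ?_
    rw [mul_assoc G θ]
    refine mul_le_mul_of_nonneg_left ?_ hG
    have h2 : (θ * M + C1 ^ 2 * θ * M) / ℓ * (s - t) ≤ θ * M + C1 ^ 2 * θ * M := by
      rw [div_mul_eq_mul_div, div_le_iff₀ hℓ0]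
      exact mul_le_mul_of_nonneg_left (by linarith [hs.2]) (by positivity)
    have h3 : C1 / ℓ * N / κ * (1 - Real.exp (-κ * (s - t))) ≤ θ * (C1 * N) := by
      calc C1 / ℓ * N / κ * (1 - Real.exp (-κ * (s - t))) ≤ C1 / ℓ * N / κ * 1 :=
            mul_le_mul_of_nonneg_left (by linarith [Real.exp_pos (-κ * (s - t))]) (by positivity)
        _ = 1 / (κ * ℓ) * (C1 * N) := by field_simp
        _ ≤ _ := mul_le_mul_of_nonneg_right hδ (by positivity)
    linarith
  -- the maximum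
  have hMK : M ≤ K * N := by
    have h1 : ‖w s0‖ ≤ G * (N + G * θ * (M + C1 * N + C1 ^ 2 * M)) := by
      rw [hwz s0]
      refine (ContinuousLinearMap.le_opNorm _ _).trans
        (mul_le_mul (hY _ (hτb s0)) ?_ (norm_nonneg _) hG)
      have h2 := step2 s0 hs0
      have h3 := norm_le_norm_add_norm_sub' (z s0) (z t)
      rw [hzt] at h2 h3
      linarith
    have h2 := step1 s0 hs0
    have h3 : Real.exp (-κ * (s0 - t)) * N ≤ N := by
      refine mul_le_of_le_one_left hN0 (Real.exp_le_one_iff.2 ?_)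
      nlinarith [hs0.1]
    have h4 : θ * (G ^ 2 * (1 + C1 ^ 2) + C1) * M ≤ 1 / 2 * M := by
      refine mul_le_mul_of_nonneg_right (le_trans ?_ hθ1) hM0
      refine mul_le_mul_of_nonneg_left ?_ hθ.le
      have : 0 ≤ G ^ 2 * C1 := by positivity
      linarith
    have h5 : θ * (G ^ 2 * C1) * N ≤ 1 / 2 * N := by
      refine mul_le_mul_of_nonneg_right (le_trans ?_ hθ1) hN0
      refine mul_le_mul_of_nonneg_left ?_ hθ.le
      have : 0 ≤ G ^ 2 * (1 + C1 ^ 2) + C1 := by positivity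
      linarith
    rw [hK]
    nlinarith
  have hr : t + ℓ ∈ Icc t (t + ℓ) := right_mem_Icc.2 (by linarith)
  constructor
  · have h1 : τ (t + ℓ) = β := by
      rw [hτ]
      simp [div_self hℓ0.ne', om_one]
    rw [hwz (t + ℓ), h1, ← hzt, ← map_sub]
    refine (ContinuousLinearMap.le_opNorm _ _).trans
      ((mul_le_mul (hY _ le_rfl) (step2 _ hr) (norm_nonneg _) hG).trans ?_)
    refine le_trans ?_ (mul_le_mul_of_nonneg_right hθ2 hN0)
    have h2 : M + C1 * N + C1 ^ 2 * M ≤ (K + C1 + C1 ^ 2 * K) * N := by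
      have := mul_le_mul_of_nonneg_left hMK (sq_nonneg C1)
      linarith
    have h3 := mul_le_mul_of_nonneg_left h2 (show 0 ≤ G ^ 2 * θ by positivity)
    linarith
  · refine (step1 _ hr).trans (le_trans ?_ (mul_le_mul_of_nonneg_right hθ3 hN0))
    have h1 : Real.exp (-κ * (t + ℓ - t)) ≤ θ := by
      refine le_trans ?_ hδ
      rw [add_sub_cancel_left, neg_mul, Real.exp_neg, one_div]
      refine inv_anti₀ (by positivity) ?_
      linarith [Real.add_one_le_exp (κ * ℓ)]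
    have h2 := mul_le_mul_of_nonneg_right h1 hN0
    have h3 := mul_le_mul_of_nonneg_left hMK (show 0 ≤ C1 * θ by positivity)
    linarith

private theorem chain {V : Type} [NormedAddCommGroup V] [NormedSpace ℝ V] [CompleteSpace V]
    (X : ℕ → V →L[ℝ] V) (b : ℕ → ℝ) {G ε : ℝ} (hG : 0 ≤ G) (hε : 0 ≤ ε) (hε1 : ε ≤ 1)
    (w v : ℕ → V) (n : ℕ) (hT : ∀ i < n, ‖NormedSpace.exp (b i • X i)‖ ≤ G)
    (hstep : ∀ i < n, ‖w (i + 1) - NormedSpace.exp (b i • X i) (w i)‖ ≤ ε * (‖w i‖ + ‖v i‖) ∧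
      ‖v (i + 1)‖ ≤ ε * (‖w i‖ + ‖v i‖)) :
    ∀ i ≤ n, ‖w i‖ + ‖v i‖ ≤ (G + 2) ^ i * (‖w 0‖ + ‖v 0‖) ∧
      ‖w i - prodExp X b i (w 0)‖ ≤ ε * i * (G + 2) ^ i * (‖w 0‖ + ‖v 0‖) ∧
      (0 < i → ‖v i‖ ≤ ε * i * (G + 2) ^ i * (‖w 0‖ + ‖v 0‖)) := by
  intro i
  induction i with
  | zero => intro _; simp [prodExp]
  | succ i ih =>
    intro hi
    obtain ⟨h1, h2, -⟩ := ih (Nat.le_of_succ_le hi)
    obtain ⟨h3, h4⟩ := hstep i hi
    have hTb := hT i hi
    have e1 : w (i + 1) - prodExp X b (i + 1) (w 0) =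
        (w (i + 1) - NormedSpace.exp (b i • X i) (w i)) +
          NormedSpace.exp (b i • X i) (w i - prodExp X b i (w 0)) := by
      simp only [prodExp, mul_apply_eq_comp, map_sub]
      abel
    rw [e1]
    generalize NormedSpace.exp (b i • X i) = T at h3 hTb ⊢
    have hN0 : 0 ≤ ‖w 0‖ + ‖v 0‖ := by positivity
    generalize ‖w 0‖ + ‖v 0‖ = N at h1 h2 hN0 ⊢
    have hp : 0 ≤ (G + 2) ^ i * N := by positivity
    have hi0 : (0 : ℝ) ≤ i := Nat.cast_nonneg i
    have h5 : ε * (‖w i‖ + ‖v i‖) ≤ ε * ((G + 2) ^ i * N) := mul_le_mul_of_nonneg_left h1 hε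
    have h6 : ε * ((G + 2) ^ i * N) ≤ (G + 2) ^ i * N := mul_le_of_le_one_left hp hε1
    have hq : 0 ≤ ε * ((G + 2) ^ i * N) := by positivity
    have q1 := mul_nonneg hq hi0
    have q2 := mul_nonneg hq hG
    have q3 := mul_nonneg q2 hi0
    rw [pow_succ]
    push_cast
    refine ⟨?_, ?_, fun _ => ?_⟩
    · have h7 : ‖T (w i)‖ ≤ G * ((G + 2) ^ i * N) :=
        (T.le_opNorm _).trans (mul_le_mul hTb (by linarith [norm_nonneg (v i)])
          (norm_nonneg _) hG)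
      have h8 := norm_le_norm_add_norm_sub' (w (i + 1)) (T (w i))
      linarith
    · refine (norm_add_le _ _).trans ?_
      have h7 : ‖T (w i - prodExp X b i (w 0))‖ ≤ G * (ε * i * (G + 2) ^ i * N) :=
        (T.le_opNorm _).trans (mul_le_mul hTb h2 (norm_nonneg _) hG)
      linarith
    · linarith

theorem ctrl_stage {V : Type} [NormedAddCommGroup V] [NormedSpace ℝ V] [CompleteSpace V]
    (X : ℕ → V →L[ℝ] V) (c : ℝ) {nP : ℕ} (hP : 0 < nP) (B C : ℝ) {a0 ε : ℝ} (ha0 : 0 < a0)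
    (hε : 0 < ε) :
    ∃ η > 0, ∃ ℓ0 > (0 : ℝ), ∀ ℓ ≥ ℓ0, ∀ α γ : ℝ, α ∈ Icc a0 C → γ ∈ Icc a0 C →
      ∀ b : ℕ → ℝ, (∀ i, |b i| ≤ B) → ∀ (d ν : ℝ → ℝ) (A : ℝ → V →L[ℝ] V) (P Q : ℝ → V),
      Continuous d →
      (∀ i < nP, ∀ s ∈ Icc (i * ℓ) ((i + 1) * ℓ),
        A s = (α * γ) • (1 : V →L[ℝ] V) + ν s • X i ∧ |γ - α - d s| ≤ C / ℓ ∧ |ν s| ≤ C / ℓ ∧
        |ν s / (α + γ) - c * (b i / ℓ * chi (s / ℓ - i))| ≤ η / ℓ) →
      Sol2 d A P Q (Icc 0 (nP * ℓ)) →
      ‖Real.exp (-(α * (nP * ℓ) + α / (α + γ) * ∫ s in (0 : ℝ)..(nP * ℓ), (γ - α - d s))) •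
            (Q (nP * ℓ) + γ • P (nP * ℓ)) -
          prodExp (fun i => c • X i) b nP (Q 0 + γ • P 0)‖ ≤ ε * (‖Q 0 + γ • P 0‖ + ‖P 0‖) ∧
      ‖Real.exp (-(α * (nP * ℓ) + α / (α + γ) * ∫ s in (0 : ℝ)..(nP * ℓ), (γ - α - d s))) •
            (Q (nP * ℓ) - α • P (nP * ℓ))‖ ≤ ε * (‖Q 0 + γ • P 0‖ + ‖P 0‖) := by
  by_cases hC : a0 ≤ C
  swap
  · exact ⟨1, one_pos, 1, one_pos, fun ℓ _ α γ hα => absurd (hα.1.trans hα.2) hC⟩
  have hC0 : 0 < C := lt_of_lt_of_le ha0 hC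
  obtain ⟨G, hG, hGb⟩ := exp_bound (fun i => c • X i) B nP
  obtain ⟨S, hS0, hS⟩ : ∃ S, 0 < S ∧ ∀ i < nP, ‖X i‖ ≤ S := by
    refine ⟨∑ i ∈ Finset.range nP, ‖X i‖ + 1, by positivity, fun i hi => ?_⟩
    have := Finset.single_le_sum (f := fun i => ‖X i‖) (fun i _ => norm_nonneg _)
      (Finset.mem_range.2 hi)
    linarith
  obtain ⟨ε', hε', hε1, hε2⟩ : ∃ ε' > 0, ε' ≤ 1 ∧ ε' * nP * (G + 2) ^ nP * (2 + 2 * C) ≤ ε := by
    have hP' : (0 : ℝ) < nP := by exact_mod_cast hP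
    refine ⟨min 1 (ε / (nP * (G + 2) ^ nP * (2 + 2 * C))), lt_min one_pos (by positivity),
      min_le_left _ _, ?_⟩
    have := min_le_right 1 (ε / (nP * (G + 2) ^ nP * (2 + 2 * C)))
    rw [le_div_iff₀ (by positivity)] at this
    linarith
  obtain ⟨η, hη, ℓ0, hℓ0, hpiece⟩ := piece (V := V) (G := G) (C1 := C + C / (2 * a0) * S)
    (k0 := 2 * a0) hG (by positivity) (by positivity) hε'
  refine ⟨η / S, by positivity, ℓ0, hℓ0, ?_⟩
  intro ℓ hℓ α γ hα hγ b hb d ν A P Q hd H hsol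
  have hℓ1 : 0 < ℓ := lt_of_lt_of_le hℓ0 hℓ
  have hα0 : 0 < α := lt_of_lt_of_le ha0 hα.1
  have hγ0 : 0 < γ := lt_of_lt_of_le ha0 hγ.1
  have hκ : 2 * a0 ≤ α + γ := by linarith [hα.1, hγ.1]
  have hκ0 : 0 < α + γ := by positivity
  set E : ℝ → ℝ := fun s =>
    Real.exp (-(α * s + α / (α + γ) * ∫ r in (0 : ℝ)..s, (γ - α - d r))) with hE
  have hEd : ∀ s, HasDerivAt E (E s * -(α + α / (α + γ) * (γ - α - d s))) s := by
    intro s
    have h1 : HasDerivAt (fun s => ∫ r in (0 : ℝ)..s, (γ - α - d r)) (γ - α - d s) s :=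
      ((continuous_const.sub hd).integral_hasStrictDerivAt 0 s).hasDerivAt
    have h2 := ((((hasDerivAt_id' s).const_mul α).fun_add (h1.const_mul (α / (α + γ)))).fun_neg).exp
    rw [mul_one] at h2
    exact h2
  set w : ℝ → V := fun s => E s • (Q s + γ • P s) with hw
  set v : ℝ → V := fun s => E s • (Q s - α • P s) with hv
  have hE0 : E 0 = 1 := by simp [hE]
  have hw0 : w 0 = Q 0 + γ • P 0 := by simp [hw, hE0]
  have hv0 : v 0 = Q 0 - α • P 0 := by simp [hv, hE0]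
  have hstep : ∀ i < nP, ‖w ((i + 1 : ℕ) * ℓ) - NormedSpace.exp (b i • c • X i) (w (i * ℓ))‖ ≤
      ε' * (‖w (i * ℓ)‖ + ‖v (i * ℓ)‖) ∧
      ‖v ((i + 1 : ℕ) * ℓ)‖ ≤ ε' * (‖w (i * ℓ)‖ + ‖v (i * ℓ)‖) := by
    intro i hi
    have e1 : ((i + 1 : ℕ) : ℝ) * ℓ = i * ℓ + ℓ := by push_cast; ring
    rw [e1]
    refine hpiece ℓ hℓ (α + γ) hκ (c • X i) (b i) (i * ℓ) w v
      (fun s => ((γ - α - d s) * (γ / (α + γ))) • v s + (ν s / (α + γ)) • X i (w s - v s))
      (fun s => -((α + γ) • v s) + (γ - α - d s) • ((α / (α + γ)) • w s +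
        ((γ - α) / (α + γ)) • v s) + (ν s / (α + γ)) • X i (w s - v s))
      (fun τ hτ => hGb i hi τ (hτ.trans (hb i))) fun s hs => ?_
    have hs1 : s ∈ Icc (i * ℓ) ((i + 1) * ℓ) := ⟨hs.1, by linarith [hs.2]⟩
    have hi1 : ((i : ℝ) + 1) ≤ nP := by exact_mod_cast hi
    have hs2 : s ∈ Icc 0 (nP * ℓ) := ⟨le_trans (by positivity) hs.1,
      hs1.2.trans (mul_le_mul_of_nonneg_right hi1 hℓ1.le)⟩
    obtain ⟨hA, hp, hν, hη'⟩ := H i hi s hs1
    obtain ⟨hP', hQ'⟩ := hsol s hs2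
    have hXi := hS i hi
    have hν' : |ν s / (α + γ)| ≤ C / (2 * a0) / ℓ := by
      rw [abs_div, abs_of_pos hκ0, div_right_comm]
      exact div_le_div₀ (by positivity) hν (by positivity) hκ
    have hXb : ∀ u : V, ‖(ν s / (α + γ)) • X i u‖ ≤ C / (2 * a0) * S / ℓ * ‖u‖ := by
      intro u
      rw [norm_smul, Real.norm_eq_abs]
      calc _ ≤ C / (2 * a0) / ℓ * (S * ‖u‖) :=
            mul_le_mul hν' (((X i).le_opNorm u).trans
              (mul_le_mul_of_nonneg_right hXi (norm_nonneg _))) (norm_nonneg _) (by positivity)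
        _ = _ := by ring
    refine ⟨?_, ?_, ?_, ?_⟩
    · have h1 := (hEd s).smul (hQ'.add (hP'.const_smul γ))
      refine h1.congr_deriv ?_
      simp only [hw, hv, hA, Pi.add_apply, Pi.smul_apply, map_sub, map_add, map_smul,
        _root_.add_apply, _root_.smul_apply, one_apply_eq_self]
      match_scalars <;> field_simp <;> ring
    · have h1 := (hEd s).smul (hQ'.sub (hP'.const_smul α))
      refine h1.congr_deriv ?_
      simp only [hw, hv, hA, Pi.sub_apply, Pi.smul_apply, map_sub, map_add, map_smul,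
        _root_.add_apply, _root_.smul_apply, one_apply_eq_self]
      match_scalars <;> field_simp <;> ring
    · have e2 : (s - i * ℓ) / ℓ = s / ℓ - i := by field_simp
      have e3 : ((γ - α - d s) * (γ / (α + γ))) • v s + (ν s / (α + γ)) • X i (w s - v s) -
          (b i / ℓ * chi ((s - i * ℓ) / ℓ)) • (c • X i) (w s) =
          (ν s / (α + γ) - c * (b i / ℓ * chi (s / ℓ - i))) • X i (w s) +
            (((γ - α - d s) * (γ / (α + γ))) • v s - (ν s / (α + γ)) • X i (v s)) := by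
        rw [e2]
        simp only [map_sub, _root_.smul_apply]
        module
      rw [e3]
      refine (norm_add_le _ _).trans (add_le_add ?_ ((norm_sub_le _ _).trans ?_))
      · rw [norm_smul, Real.norm_eq_abs]
        calc _ ≤ η / S / ℓ * (S * ‖w s‖) :=
              mul_le_mul hη' (((X i).le_opNorm _).trans
                (mul_le_mul_of_nonneg_right hXi (norm_nonneg _))) (norm_nonneg _) (by positivity)
          _ = _ := by field_simp
      · have h2 := hXb (v s)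
        have h3 : ‖((γ - α - d s) * (γ / (α + γ))) • v s‖ ≤ C / ℓ * ‖v s‖ := by
          rw [norm_smul, Real.norm_eq_abs, abs_mul]
          refine mul_le_mul_of_nonneg_right (le_trans (mul_le_of_le_one_right (abs_nonneg _) ?_) hp)
            (norm_nonneg _)
          rw [abs_of_pos (by positivity), div_le_one hκ0]
          linarith
        rw [add_div, add_mul]
        linarith
    · have e3 : -((α + γ) • v s) + (γ - α - d s) • ((α / (α + γ)) • w s +
          ((γ - α) / (α + γ)) • v s) + (ν s / (α + γ)) • X i (w s - v s) + (α + γ) • v s =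
          (γ - α - d s) • ((α / (α + γ)) • w s + ((γ - α) / (α + γ)) • v s) +
            (ν s / (α + γ)) • X i (w s - v s) := by abel
      rw [e3]
      refine (norm_add_le _ _).trans ?_
      have h2 := (hXb (w s - v s)).trans
        (mul_le_mul_of_nonneg_left (norm_sub_le _ _) (by positivity))
      have h3 : ‖(γ - α - d s) • ((α / (α + γ)) • w s + ((γ - α) / (α + γ)) • v s)‖ ≤
          C / ℓ * (‖w s‖ + ‖v s‖) := by
        rw [norm_smul, Real.norm_eq_abs]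
        refine mul_le_mul hp ((norm_add_le _ _).trans (add_le_add ?_ ?_)) (norm_nonneg _)
          (by positivity)
        · rw [norm_smul, Real.norm_eq_abs]
          refine mul_le_of_le_one_left (norm_nonneg _) ?_
          rw [abs_of_pos (by positivity), div_le_one hκ0]
          linarith
        · rw [norm_smul, Real.norm_eq_abs]
          refine mul_le_of_le_one_left (norm_nonneg _) ?_
          rw [abs_div, abs_of_pos hκ0, div_le_one hκ0, abs_le]
          constructor <;> linarith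
      rw [add_div, add_mul]
      linarith
  set N := ‖w 0‖ + ‖v 0‖ with hN
  have hN0 : 0 ≤ N := by positivity
  have hind := chain (fun i => c • X i) b hG hε'.le hε1 (fun i => w (i * ℓ)) (fun i => v (i * ℓ))
    nP (fun i hi => hGb i hi (b i) (hb i)) hstep
  simp only [Nat.cast_zero, zero_mul, ← hN] at hind
  obtain ⟨-, h1, h2⟩ := hind nP le_rfl
  have hNb : N ≤ (2 + 2 * C) * (‖Q 0 + γ • P 0‖ + ‖P 0‖) := by
    have e1 : v 0 = w 0 - (α + γ) • P 0 := by
      rw [hw0, hv0]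
      module
    have h3 : ‖v 0‖ ≤ ‖w 0‖ + 2 * C * ‖P 0‖ := by
      rw [e1]
      refine (norm_sub_le _ _).trans (add_le_add le_rfl ?_)
      rw [norm_smul, Real.norm_of_nonneg hκ0.le]
      exact mul_le_mul_of_nonneg_right (by linarith [hα.2, hγ.2]) (norm_nonneg _)
    rw [hN, ← hw0]
    have q1 := mul_nonneg hC0.le (norm_nonneg (w 0))
    have q2 := norm_nonneg (P 0)
    linarith
  have hfin : ε' * nP * (G + 2) ^ nP * N ≤ ε * (‖Q 0 + γ • P 0‖ + ‖P 0‖) := by
    refine (mul_le_mul_of_nonneg_left hNb (by positivity)).trans ?_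
    rw [← mul_assoc]
    exact mul_le_mul_of_nonneg_right hε2 (by positivity)
  rw [hw0] at h1
  exact ⟨h1.trans hfin, (h2 hP).trans hfin⟩

theorem norm_prodExp_le {R : Type} [NormedRing R] [NormedAlgebra ℝ R] [CompleteSpace R]
    (X : ℕ → R) (B : ℝ) (n : ℕ) : ∃ C, 0 ≤ C ∧ ∀ b : ℕ → ℝ, (∀ i, |b i| ≤ B) →
      ‖prodExp X b n‖ ≤ C := by
  induction n with
  | zero => exact ⟨‖(1 : R)‖, norm_nonneg _, fun b _ => le_rfl⟩
  | succ n ih =>
    obtain ⟨C, hC, h⟩ := ih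
    obtain ⟨G, hG, hG'⟩ := exp_bound X B (n + 1)
    exact ⟨G * C, mul_nonneg hG hC, fun b hb => (norm_mul_le _ _).trans
      (mul_le_mul (hG' n (Nat.lt_succ_self n) _ (hb n)) (h b hb) (norm_nonneg _) hG)⟩

end Vale.Agent.P225
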