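import Mathlib

namespace Vale.Agent.P225

open scoped ContDiff
open Filter Topology

variable {ι : Type} [Fintype ι] [DecidableEq ι]

/-- The partial derivative in the `i`-th coordinate direction. -/
noncomputable def pd (i : ι) (f : (ι → ℝ) → ℝ) (x : ι → ℝ) : ℝ :=
  fderiv ℝ f x (Pi.single i 1)

/-- A smooth Riemannian metric on the whole coordinate space: smooth coefficients, and a
symmetric positive definite matrix at each point. -/
def IsSmoothMetric (g : (ι → ℝ) → Matrix ι ι ℝ) : Prop :=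
  (∀ i j, ContDiff ℝ ∞ fun x => g x i j) ∧ ∀ x, (g x).PosDef

/-- The Christoffel symbols of the Levi-Civita connection (upper index `k`). -/
noncomputable def christoffel (g : (ι → ℝ) → Matrix ι ι ℝ) (k i j : ι) (x : ι → ℝ) : ℝ :=
  (1 / 2) * ∑ l, (g x)⁻¹ k l *
    (pd i (fun z => g z j l) x + pd j (fun z => g z i l) x - pd l (fun z => g z i j) x)

/-- The Ricci tensor in coordinates. -/
noncomputable def ricci (g : (ι → ℝ) → Matrix ι ι ℝ) (i j : ι) (x : ι → ℝ) : ℝ :=
  ∑ k, (pd k (christoffel g k i j) x - pd j (christoffel g k i k) x +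
    ∑ l, (christoffel g k k l x * christoffel g l i j x -
      christoffel g k j l x * christoffel g l i k x))

/-- Nonnegative Ricci curvature. -/
def RicciNonneg (g : (ι → ℝ) → Matrix ι ι ℝ) : Prop :=
  ∀ x v : ι → ℝ, 0 ≤ ∑ i, ∑ j, ricci g i j x * v i * v j

/-- The Laplace-Beltrami operator in coordinates. -/
noncomputable def laplacian (g : (ι → ℝ) → Matrix ι ι ℝ) (u : (ι → ℝ) → ℝ) (x : ι → ℝ) : ℝ :=
  ∑ i, ∑ j, (g x)⁻¹ i j * (pd i (pd j u) x - ∑ k, christoffel g k i j x * pd k u x)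

/-- The Riemannian length of a curve on the parameter interval from `0` to `1`. -/
noncomputable def curveLength (g : (ι → ℝ) → Matrix ι ι ℝ) (c : ℝ → ι → ℝ) : ℝ :=
  ∫ t in (0 : ℝ)..1, Real.sqrt (∑ i, ∑ j, g (c t) i j * deriv c t i * deriv c t j)

/-- The Riemannian distance: the infimum of the lengths of continuously differentiable curves
from `x` to `z`. -/
noncomputable def gdist (g : (ι → ℝ) → Matrix ι ι ℝ) (x z : ι → ℝ) : ℝ :=
  sInf {r | ∃ c : ℝ → ι → ℝ, ContDiff ℝ 1 c ∧ c 0 = x ∧ c 1 = z ∧ r = curveLength g c}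

/-- Completeness: every Cauchy sequence for the Riemannian distance converges for it. -/
def IsCompleteMetric (g : (ι → ℝ) → Matrix ι ι ℝ) : Prop :=
  ∀ x : ℕ → ι → ℝ, (∀ ε > 0, ∃ N, ∀ p ≥ N, ∀ q ≥ N, gdist g (x p) (x q) < ε) →
    ∃ z, Tendsto (fun p => gdist g (x p) z) atTop (𝓝 0)

/-- Smooth harmonic functions of polynomial growth of order at most `k`, with base point `0`. -/
def IsPolyHarmonic (g : (ι → ℝ) → Matrix ι ι ℝ) (k : ℕ) (u : (ι → ℝ) → ℝ) : Prop :=
  ContDiff ℝ ∞ u ∧ (∀ x, laplacian g u x = 0) ∧ ∃ C, ∀ x, |u x| ≤ C * (1 + gdist g 0 x) ^ k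

end Vale.Agent.P225
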