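import Vale.Agent.P225.DynAux

/-!
The global construction.
Choose cyclic permutations `π j` of `I j` (`Finset.exists_cycleOn`), get `nP, t, B, C1` from `stage`,
choose `K ≥ 2` with `∑ l ∈ I j, (C1 + (K-2)(x j l - k s0)) < 0` for all nonempty `I j`, then
`δ, C0, ℓ0` (`C00` an upper bound of the `1 / gam n (lam j) Ss`), shrink `δ` so that
`s0 ≤ (Ss - δ) exp (-y1/(n-1))`, and take `n0` large: `ℓ r = (r + n0)²`, `a 0 = 1`,
`a (r+1) = a r + (nP + K) ℓ r`; the loss of `S` in cycle `r` is at most `(nP+K) C²/ℓ r`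
(`yS_bounds`, `SS_bounds`), in total at most `δ` (`sum_inv_sq_le`).
Initial stage: `S0 σ = 1 - (1 - Ss) * smoothTransition σ`, `y = 0`; the scalar solution `f` of
`f'' + (n-2) S0 f' = lam f`, `f 0 = 1`, `f' 0 = deg` is positive with `f' ≥ 0` on `[0, 1]`, so the state
`(f 1 • e l, f' 1 • e l)` satisfies `Inv`.
Recursion on the state `(Sa, p, q, z)` (indexed by the current position: the function that started
at `i` sits at `(π j ^ r) i` at time `a r`): choose `b` by `stage` and solutions by `sol2_exists`.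
Glue with `glue` (`f r σ = yS .. (b r) (σ - a r)`), put `S σ = S0 σ - ∫ 0..σ, (y')²`, take global
solutions (`sol2_exists`, `sol2_smooth`; `AOf` is smooth by the dichotomy), identify them on
`Iic 0`, `[0,1]` and at the times `a r` by `sol2_unique`. Growth: `seq_bound` for
`log |z r| - k s0 * a r`, and `sol2_bound` between `a r` and `a (r+1)`.
-/

namespace Vale.Agent.P225

open scoped ContDiff
open Filter Topology MvPolynomial Matrix Set

theorem dyn {n : ℝ} (hn : 3 ≤ n) {κ T : Type} [Fintype κ] [DecidableEq κ] {N : κ → ℕ}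
    {deg : κ → ℝ} (hdeg : ∀ j, 0 < deg j)
    (Xi : T → (j : κ) → (Fin (N j) → ℝ) →L[ℝ] (Fin (N j) → ℝ)) (t0 : T)
    {μ : (j : κ) → Fin (N j) → ℝ} (hμ : ∀ j l, 0 ≤ μ j l ∧ μ j l ≤ deg j * (deg j + n - 2))
    (hXi0 : ∀ j v l, Xi t0 j v l = -μ j l * v l) {y1 Ss s0 : ℝ} (hy1 : 0 < y1) (hSs1 : Ss ≤ 1)
    (hs0 : 0 < s0) (hsS : s0 < Ss * Real.exp (-y1 / (n - 1)))
    (hgen : Gen fun t j =>
      (2 / Real.sqrt (((n - 2) * Ss) ^ 2 + 4 * (deg j * (deg j + n - 2)))) • Xi t j)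
    {x : (j : κ) → Fin (N j) → ℝ}
    (hx : ∀ j l, 0 ≤ x j l ∧ deg j * (deg j + n - 2) - (1 - Real.exp (-2 * y1)) * μ j l ≤
      x j l * (x j l + (n - 2) * s0))
    (I : (j : κ) → Finset (Fin (N j))) {k : ℝ} (hk : 0 ≤ k)
    (hI : ∀ j, (I j).Nonempty → ∑ l ∈ I j, (x j l - k * s0) < 0) {ε0 : ℝ} (hε0 : 0 < ε0) :
    ∃ (y S : ℝ → ℝ) (τ : ℝ → T), ContDiff ℝ ∞ y ∧ ContDiff ℝ ∞ S ∧
      (∀ σ ≤ 0, y σ = 0 ∧ S σ = 1) ∧
      (∀ σ, deriv S σ ≤ -deriv y σ ^ 2 ∧ S σ ≤ 1 ∧ s0 ≤ S σ * Real.exp (-y σ / (n - 1)) ∧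
        -ε0 ≤ y σ ∧ y σ ≤ y1 ∧ |deriv y σ| ≤ ε0 ∧ |deriv (deriv y) σ| ≤ ε0) ∧
      (∀ σ, (∀ᶠ r in 𝓝 σ, y r = 0) ∨ ((∀ᶠ r in 𝓝 σ, τ r = τ σ) ∧ S σ ≤ Ss)) ∧
      ∀ j, ∀ i ∈ I j, ∃ P Q : ℝ → Fin (N j) → ℝ, ContDiff ℝ ∞ P ∧
        Sol2 (dOf n y S) (AOf (deg j * (deg j + n - 2)) (fun σ => Xi (τ σ) j) y) P Q univ ∧
        (∀ σ ≤ 0, P σ = Real.exp (deg j * σ) • Pi.single i 1) ∧
        ∃ C, ∀ σ ≥ 0, ‖P σ‖ ≤ C * Real.exp (k * s0 * σ) := by
  classical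
  obtain ⟨lam, hlamdef⟩ : ∃ lam : κ → ℝ, ∀ j, lam j = deg j * (deg j + n - 2) := ⟨_, fun _ => rfl⟩
  simp only [← hlamdef] at hμ hgen hx ⊢
  have hlam : ∀ j, 0 < lam j := fun j => by
    rw [hlamdef]; exact mul_pos (hdeg j) (by linarith [hdeg j])
  choose π hπ using fun j => (I j).exists_cycleOn
  obtain ⟨nP, t, B, C1, hst⟩ := stage hn hlam Xi t0 hμ hXi0 hy1 hSs1 hs0 hsS hgen hx π
  -- the length of the Berger stage
  obtain ⟨K, hK2, hK⟩ : ∃ K : ℕ, 2 ≤ K ∧ ∀ j, (I j).Nonempty →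
      ∑ l ∈ I j, (C1 + ((K : ℝ) - 2) * (x j l - k * s0)) < 0 := by
    refine ((eventually_ge_atTop 2).and (eventually_all.2 fun j => ?_)).exists
    by_cases hj : (I j).Nonempty
    · have h1 := hI j hj
      have h2 : Tendsto (fun K : ℕ => ((K : ℝ) - 2) * ∑ l ∈ I j, (x j l - k * s0)) atTop atBot :=
        (tendsto_atTop_add_const_right _ (-2) tendsto_natCast_atTop_atTop).atTop_mul_const_of_neg
          h1
      filter_upwards [h2.eventually (eventually_lt_atBot (-∑ _l ∈ I j, C1))] with K hK _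
      rw [Finset.sum_add_distrib, ← Finset.mul_sum]
      linarith
    · exact Eventually.of_forall fun _ h => absurd h hj
  have hgam : ∀ j S, 0 < gam n (lam j) S := fun j S => (alp_gam (hlam j)).2.1
  obtain ⟨δ0, hδ0, C0, hC0, ℓ0, hst⟩ := hst K hK2 (∑ j, 1 / gam n (lam j) Ss)
  have hC00 : ∀ j, 1 / gam n (lam j) Ss ≤ C0 := fun j =>
    (Finset.single_le_sum (f := fun j => 1 / gam n (lam j) Ss)
      (fun j _ => (one_div_pos.2 (hgam j Ss)).le) (Finset.mem_univ j)).trans hC0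
  obtain ⟨δ, hδ, hδδ0, hδs⟩ : ∃ δ > 0, δ ≤ δ0 ∧ s0 ≤ (Ss - δ) * Real.exp (-y1 / (n - 1)) := by
    have hE := Real.exp_pos (-y1 / (n - 1))
    refine ⟨min δ0 (Ss - s0 / Real.exp (-y1 / (n - 1))), lt_min hδ0 ?_, min_le_left _ _, ?_⟩
    · rw [sub_pos, div_lt_iff₀ hE]; exact hsS
    · rw [← div_le_iff₀ hE]
      linarith [min_le_right δ0 (Ss - s0 / Real.exp (-y1 / (n - 1)))]
  have hSδ : 0 < Ss - δ := pos_of_mul_pos_left (hs0.trans_le hδs) (Real.exp_pos _).le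
  obtain ⟨C, hC, hyb⟩ := yS_bounds nP y1 B
  have hK' : (2 : ℝ) ≤ K := by exact_mod_cast hK2
  have hnP : (0 : ℝ) ≤ nP := Nat.cast_nonneg _
  obtain ⟨n0, hn02, hn0a, hn0b, hn0c⟩ : ∃ n0 : ℕ, 2 ≤ n0 ∧ ℓ0 ≤ n0 ∧ C / min ε0 y1 ≤ n0 ∧
      (nP + K) * C ^ 2 / δ + 1 ≤ n0 := by
    have h := tendsto_natCast_atTop_atTop (R := ℝ)
    exact ((eventually_ge_atTop 2).and ((h.eventually_ge_atTop _).and
      ((h.eventually_ge_atTop _).and (h.eventually_ge_atTop _)))).exists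
  have hn0 : (2 : ℝ) ≤ n0 := by exact_mod_cast hn02
  obtain ⟨ℓ, hℓdef⟩ : ∃ ℓ : ℕ → ℝ, ∀ r, ℓ r = ((r : ℝ) + n0) ^ 2 := ⟨_, fun _ => rfl⟩
  have hℓn : ∀ r, (n0 : ℝ) ≤ ℓ r := fun r => by
    have : (0 : ℝ) ≤ r := Nat.cast_nonneg _
    rw [hℓdef]; nlinarith
  have hℓ1 : ∀ r, 1 ≤ ℓ r := fun r => by linarith [hℓn r]
  have hℓ0 : ∀ r, 0 < ℓ r := fun r => by linarith [hℓn r]
  have hCℓ : ∀ r, C / ℓ r ≤ min ε0 y1 := fun r => by
    have h1 := lt_min hε0 hy1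
    rw [div_le_iff₀ h1] at hn0b
    rw [div_le_iff₀ (hℓ0 r)]
    nlinarith [hℓn r]
  have hT0 : ∀ r, 0 ≤ ((nP : ℝ) + K) * ℓ r := fun r => by have := hℓ0 r; positivity
  have hloss : ∀ r, (nP + K) * C ^ 2 * ∑ i ∈ Finset.range r, 1 / ((i : ℝ) + n0) ^ 2 ≤ δ :=
    fun r => by
    refine (mul_le_mul_of_nonneg_left (sum_inv_sq_le hn02 r) (by positivity)).trans ?_
    rw [mul_one_div, div_le_iff₀ (by linarith), ← div_le_iff₀' hδ]
    linarith
  have hSS : ∀ r (b : ℕ → ℝ) (Sa : ℝ), (∀ i, |b i| ≤ B) → ∀ s ∈ Icc 0 ((nP + K) * ℓ r),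
      SS Sa (yS nP K y1 (ℓ r) b) s ∈ Icc (Sa - (nP + K) * C ^ 2 * (1 / ((r : ℝ) + n0) ^ 2)) Sa :=
    fun r b Sa hb s hs => by
    have h1 := SS_bounds Sa (contDiff_yS nP K y1 (ℓ r) b) hs.1
      fun u _ => (hyb K (ℓ r) b (hℓ1 r) hb u).2.1
    refine ⟨le_trans ?_ h1.1, h1.2⟩
    have h2 : (C / ℓ r) ^ 2 * s ≤ (C / ℓ r) ^ 2 * ((nP + K) * ℓ r) :=
      mul_le_mul_of_nonneg_left hs.2 (by positivity)
    have h3 : (C / ℓ r) ^ 2 * ((nP + K) * ℓ r) = (nP + K) * C ^ 2 * (1 / ((r : ℝ) + n0) ^ 2) := by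
      rw [← hℓdef]
      have := hℓ0 r
      field_simp
    linarith
  -- the initial stage
  have hd0 : Continuous fun σ => (n - 2) * S0 Ss σ :=
    continuous_const.mul (contDiff_S0 Ss).continuous
  choose f g hf0 hg0 hfg using fun j => sol2_exists (V := ℝ) hd0
    (A := fun _ => lam j • (1 : ℝ →L[ℝ] ℝ)) continuous_const 0 1 (deg j)
  have hfg' : ∀ j s, HasDerivAt (f j) (g j s) s ∧
      HasDerivAt (g j) (lam j * f j s - (n - 2) * S0 Ss s * g j s) s := fun j s => by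
    simpa using hfg j s trivial
  have hfpos : ∀ j, 0 < f j 1 ∧ 0 ≤ g j 1 := fun j =>
    scalar_pos (hlam j).le hd0 (hfg' j) (by rw [hf0]; exact one_pos) (by rw [hg0]; exact (hdeg j).le)
  -- the recursion
  obtain ⟨st, b, hst0, hrec⟩ := exists_seq
    (α := ℝ × ((j : κ) → Fin (N j) → Fin (N j) → ℝ) × ((j : κ) → Fin (N j) → Fin (N j) → ℝ) ×
      ((j : κ) → Fin (N j) → ℝ)) (β := ℕ → ℝ)
    (fun r s => s.1 ∈ Icc (Ss - (nP + K) * C ^ 2 * ∑ i ∈ Finset.range r, 1 / ((i : ℝ) + n0) ^ 2) Ss ∧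
      ∀ j l, Inv (gam n (lam j) s.1) C0 l (s.2.2.2 j l) (s.2.1 j l) (s.2.2.1 j l))
    (fun r s b s' => (∀ i, |b i| ≤ B) ∧
      s'.1 = SS s.1 (yS nP K y1 (ℓ r) b) ((nP + K) * ℓ r) ∧ ∀ j l (P Q : ℝ → Fin (N j) → ℝ),
        Sol2 (dOf n (yS nP K y1 (ℓ r) b) (SS s.1 (yS nP K y1 (ℓ r) b)))
          (AOf (lam j) (fun u => Xi (tauS nP t t0 (ℓ r) u) j) (yS nP K y1 (ℓ r) b)) P Q
          (Icc 0 ((nP + K) * ℓ r)) → P 0 = s.2.1 j l → Q 0 = s.2.2.1 j l →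
        P ((nP + K) * ℓ r) = s'.2.1 j (π j l) ∧ Q ((nP + K) * ℓ r) = s'.2.2.1 j (π j l) ∧
          |s'.2.2.2 j (π j l)| ≤
            |s.2.2.2 j l| * Real.exp (C1 * ℓ r + (K - 2) * x j (π j l) * ℓ r))
    (Ss, fun j l => f j 1 • Pi.single l 1, fun j l => g j 1 • Pi.single l 1,
      fun j _ => g j 1 + gam n (lam j) Ss * f j 1)
    ⟨by simp, fun j l => by
      have h1 := hfpos j
      have h2 := hgam j Ss
      have h3 : 0 < g j 1 + gam n (lam j) Ss * f j 1 := by nlinarith [mul_pos h2 h1.1]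
      refine ⟨h3.ne', ?_, ?_⟩
      · dsimp only
        rw [smul_smul, ← add_smul, ← Pi.single_smul', smul_eq_mul, mul_one]
      · dsimp only
        rw [norm_smul, Pi.norm_single, norm_one, mul_one, Real.norm_of_nonneg h1.1.le,
          abs_of_pos h3]
        have h4 := hC00 j
        rw [div_le_iff₀ h2] at h4
        have h5 : 0 ≤ C0 := (one_div_pos.2 h2).le.trans (hC00 j)
        nlinarith [mul_nonneg h5 h1.2]⟩
    (by
      rintro r ⟨Sa, p, q, z⟩ ⟨hSa, hinv⟩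
      dsimp only at hSa hinv
      obtain ⟨b, hb, hsol⟩ := hst (ℓ r) (hn0a.trans (hℓn r)) Sa
        ⟨by linarith [hSa.1, hloss r], hSa.2⟩ p q z hinv
      have hdc : Continuous (dOf n (yS nP K y1 (ℓ r) b) (SS Sa (yS nP K y1 (ℓ r) b))) :=
        cont_fix (fun b => dOf n (yS nP K y1 (ℓ r) b) (SS Sa (yS nP K y1 (ℓ r) b)))
          (continuous_dOf_yS n nP K y1 (ℓ r) Sa) b
      have hAc : ∀ j, Continuous (AOf (lam j) (fun u => Xi (tauS nP t t0 (ℓ r) u) j)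
          (yS nP K y1 (ℓ r) b)) := fun j =>
        cont_fix (fun b => AOf (lam j) (fun u => Xi (tauS nP t t0 (ℓ r) u) j) (yS nP K y1 (ℓ r) b))
          (continuous_AOf_yS (lam j) (fun u => Xi u j) nP K y1 (hℓ0 r) t t0) b
      choose P Q hP hQ hPQ using fun j l => sol2_exists hdc (hAc j) 0 (p j l) (q j l)
      choose z' hz1 hz2 using fun j l =>
        hsol j l (P j l) (Q j l) ((hPQ j l).mono (subset_univ _)) (hP j l) (hQ j l)
      refine ⟨b, (SS Sa (yS nP K y1 (ℓ r) b) ((nP + K) * ℓ r),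
        fun j l => P j ((π j).symm l) ((nP + K) * ℓ r),
        fun j l => Q j ((π j).symm l) ((nP + K) * ℓ r), fun j l => z' j ((π j).symm l)),
        ⟨?_, fun j l => ?_⟩, hb, rfl, fun j l P' Q' h' hP' hQ' => ?_⟩
      · have h1 := hSS r b Sa hb _ ⟨hT0 r, le_rfl⟩
        dsimp only
        rw [Finset.sum_range_succ, mul_add]
        exact ⟨by linarith [h1.1, hSa.1], h1.2.trans hSa.2⟩
      · simpa using hz1 j ((π j).symm l)
      · have := sol2_unique hdc.continuousOn (hAc j).continuousOn h'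
          ((hPQ j l).mono (subset_univ _)) ⟨le_rfl, hT0 r⟩ (hP'.trans (hP j l).symm)
          (hQ'.trans (hQ j l).symm) _ ⟨hT0 r, le_rfl⟩
        simp only [Equiv.symm_apply_apply]
        exact ⟨this.1, this.2, hz2 j l⟩)
  obtain ⟨a, ha0, ha⟩ : ∃ a : ℕ → ℝ, a 0 = 1 ∧ ∀ r, a (r + 1) = a r + (nP + K) * ℓ r :=
    ⟨fun r => Nat.rec 1 (fun r u => u + (nP + K) * ℓ r) r, rfl, fun _ => rfl⟩
  have ha1 : ∀ r, 1 ≤ a r := fun r => by
    induction r with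
    | zero => exact ha0.ge
    | succ r ih => rw [ha]; linarith [hT0 r]
  obtain ⟨y, S, τ, hy, hS, hneg, hdS, hloc, hτ, hcov⟩ := profile hK2 y1 Ss t t0 hℓ1 ha0 ha b
    (Sa := fun r => (st r).1) (by rw [hst0]) fun r => (hrec r).2.2.1
  have hdz : ∀ σ ≤ 1, y σ = 0 ∧ deriv y σ = 0 ∧ deriv (deriv y) σ = 0 := fun σ hσ => by
    have h1 : y =ᶠ[𝓝 σ] fun _ => 0 := (hneg σ hσ).1
    refine ⟨h1.eq_of_nhds, by rw [h1.deriv_eq]; simp, ?_⟩
    rw [h1.deriv.deriv_eq]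
    simp
  have hyl : ∀ r, ∀ s ∈ Icc 0 ((nP + K) * ℓ r), y (a r + s) = yS nP K y1 (ℓ r) (b r) s ∧
      deriv y (a r + s) = deriv (yS nP K y1 (ℓ r) (b r)) s ∧
      deriv (deriv y) (a r + s) = deriv (deriv (yS nP K y1 (ℓ r) (b r))) s := fun r s hs => by
    have h1 := (hloc r s hs).1
    have h2 : (deriv fun σ => yS nP K y1 (ℓ r) (b r) (σ - a r)) =
        fun σ => deriv (yS nP K y1 (ℓ r) (b r)) (σ - a r) := funext fun σ => deriv_comp_sub_const _ _ _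
    refine ⟨by simpa using h1.eq_of_nhds, by rw [h1.deriv_eq, h2]; simp, ?_⟩
    rw [h1.deriv.deriv_eq, h2, deriv_comp_sub_const]
    simp
  have hSm : ∀ σ, 1 ≤ σ → S σ ∈ Icc (Ss - δ) Ss := fun σ hσ => by
    obtain ⟨r, s, hs, rfl⟩ := hcov σ hσ
    have h1 := hSS r (b r) (st r).1 (hrec r).2.1 s (Ico_subset_Icc_self hs)
    have h2 := (hrec r).1.1
    have h3 := hloss (r + 1)
    rw [Finset.sum_range_succ, mul_add] at h3
    rw [(hloc r s (Ico_subset_Icc_self hs)).2]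
    exact ⟨by linarith [h1.1, h2.1], h1.2.trans h2.2⟩
  have hSm' : ∀ σ, S σ ∈ Icc (Ss - δ) 1 := fun σ => by
    rcases le_total σ 1 with h | h
    · rw [(hneg σ h).2]
      exact ⟨by linarith [(S0_mem hSs1 σ).1], (S0_mem hSs1 σ).2⟩
    · exact ⟨(hSm σ h).1, (hSm σ h).2.trans hSs1⟩
  have hym : ∀ σ, -ε0 ≤ y σ ∧ y σ ≤ y1 ∧ |deriv y σ| ≤ ε0 ∧ |deriv (deriv y) σ| ≤ ε0 := fun σ => by
    rcases le_total σ 1 with h | h
    · obtain ⟨h1, h2, h3⟩ := hdz σ h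
      rw [h1, h2, h3, abs_zero]
      exact ⟨by linarith, hy1.le, hε0.le, hε0.le⟩
    · obtain ⟨r, s, hs, rfl⟩ := hcov σ h
      obtain ⟨h1, h2, h3⟩ := hyl r s (Ico_subset_Icc_self hs)
      obtain ⟨h4, h5, h6⟩ := hyb K (ℓ r) (b r) (hℓ1 r) (hrec r).2.1 s
      have h7 := (hCℓ r).trans (min_le_left _ _)
      have h8 := (hCℓ r).trans (min_le_right _ _)
      rw [h1, h2, h3]
      refine ⟨?_, ?_, h5.trans h7, h6.trans h7⟩
      · rcases le_total s (nP * ℓ r) with h9 | h9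
        · linarith [(abs_le.1 (h4 h9)).1]
        · linarith [(yS_berger (K := K) hy1.le (hℓ0 r) (b r) h9).1]
      · rcases le_total s (nP * ℓ r) with h9 | h9
        · linarith [(abs_le.1 (h4 h9)).2]
        · exact (yS_berger (K := K) hy1.le (hℓ0 r) (b r) h9).2
  have hdich : ∀ σ, (∀ᶠ r in 𝓝 σ, y r = 0) ∨ ((∀ᶠ r in 𝓝 σ, τ r = τ σ) ∧ S σ ≤ Ss) := fun σ => by
    rcases le_total σ 1 with h | h
    · exact Or.inl (hneg σ h).1
    have hSσ := (hSm σ h).2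
    obtain ⟨r, s, hs, rfl⟩ := hcov σ h
    have h1 := (hloc r s (Ico_subset_Icc_self hs)).1
    have h2 : Tendsto (fun σ => σ - a r) (𝓝 (a r + s)) (𝓝 s) := by
      have := (continuous_sub_right (a r)).tendsto (a r + s)
      simpa using this
    rcases hs.1.eq_or_lt with h0 | h0
    · left
      have h3 : ∀ᶠ u in 𝓝 s, u ≤ ℓ r / 4 := eventually_le_nhds (by linarith [hℓ0 r])
      filter_upwards [h1, h2.eventually h3] with u hu hu'
      rw [hu, yS_zero (hℓ0 r) _ (Or.inl hu')]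
    rcases yS_dich (nP := nP) (K := K) (y1 := y1) (hℓ0 r) t t0 s with h3 | h3
    · left
      filter_upwards [h1, h2.eventually h3] with u hu hu'
      rw [hu, hu']
    · refine Or.inr ⟨?_, hSσ⟩
      filter_upwards [h2.eventually h3, h2.eventually (Ioo_mem_nhds h0 hs.2)] with u hu hu'
      have h4 := hτ r (u - a r) (Ioo_subset_Ico_self hu')
      rw [add_sub_cancel] at h4
      rw [h4, hu, hτ r s hs]
  refine ⟨y, S, τ, hy, hS, fun σ hσ => ⟨(hdz σ (by linarith)).1, ?_⟩, fun σ => ⟨?_, (hSm' σ).2, ?_,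
    hym σ⟩, hdich, fun j i hi => ?_⟩
  · rw [(hneg σ (by linarith)).2, S0_neg Ss hσ]
  · rw [hdS]
    linarith [deriv_S0 hSs1 σ]
  · refine hδs.trans (mul_le_mul (hSm' σ).1 (Real.exp_le_exp.2 ?_) (Real.exp_pos _).le
      (hSδ.le.trans (hSm' σ).1))
    exact div_le_div_of_nonneg_right (by linarith [(hym σ).2.1]) (by linarith)
  have hd := contDiff_dOf n hy hS
  have hA := contDiff_AOf (lam j) (fun u => Xi u j) hy fun σ => (hdich σ).imp id And.left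
  obtain ⟨P, Q, hP0, hQ0, hPQ⟩ := sol2_exists hd.continuous hA.continuous 0
    (Pi.single i (1 : ℝ)) (deg j • Pi.single i (1 : ℝ))
  have hcoef : ∀ σ ≤ 1, dOf n y S σ = (n - 2) * S0 Ss σ ∧
      AOf (lam j) (fun σ => Xi (τ σ) j) y σ = lam j • 1 := fun σ hσ => by
    obtain ⟨h1, h2, -⟩ := hdz σ hσ
    simp [dOf, sOf, AOf, nuOf, h1, h2, (hneg σ hσ).2]
  have hsm : ∀ (u v : ℝ → ℝ) (s : Set ℝ), (∀ σ ∈ s, σ ≤ 1 ∧ HasDerivAt u (v σ) σ ∧
      HasDerivAt v (lam j * u σ - (n - 2) * S0 Ss σ * v σ) σ) →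
      Sol2 (dOf n y S) (AOf (lam j) (fun σ => Xi (τ σ) j) y)
        (fun σ => u σ • Pi.single i (1 : ℝ)) (fun σ => v σ • Pi.single i (1 : ℝ)) s :=
    fun u v s h σ hσ => by
    obtain ⟨h1, h2, h3⟩ := h σ hσ
    refine ⟨h2.smul_const _, (h3.smul_const _).congr_deriv ?_⟩
    rw [(hcoef σ h1).1, (hcoef σ h1).2]
    simp [sub_smul, smul_smul, mul_comm]
  refine ⟨P, Q, sol2_smooth hd hA hPQ, hPQ, fun σ hσ => ?_, ?_⟩
  · refine (sol2_unique hd.continuous.continuousOn hA.continuous.continuousOn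
      (hPQ.mono (subset_univ _)) (hsm (fun σ => Real.exp (deg j * σ))
        (fun σ => deg j * Real.exp (deg j * σ)) (Icc σ 0) fun u hu => ?_) ⟨hσ, le_rfl⟩
      (by simp [hP0]) (by simp [hQ0]) σ ⟨le_rfl, hσ⟩).1
    have h1 : HasDerivAt (fun σ => Real.exp (deg j * σ)) (deg j * Real.exp (deg j * u)) u :=
      (((hasDerivAt_id' u).const_mul (deg j)).exp).congr_deriv (by ring)
    refine ⟨by linarith [hu.2], h1, (h1.const_mul (deg j)).congr_deriv ?_⟩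
    rw [S0_neg Ss hu.2, hlamdef]
    ring
  have hstep : ∀ r l, P (a r) = (st r).2.1 j l → Q (a r) = (st r).2.2.1 j l →
      P (a (r + 1)) = (st (r + 1)).2.1 j (π j l) ∧ Q (a (r + 1)) = (st (r + 1)).2.2.1 j (π j l) ∧
        |(st (r + 1)).2.2.2 j (π j l)| ≤
          |(st r).2.2.2 j l| * Real.exp (C1 * ℓ r + (K - 2) * x j (π j l) * ℓ r) :=
    fun r l h1 h2 => by
    rw [ha]
    refine (hrec r).2.2.2 j l (fun u => P (a r + u)) (fun u => Q (a r + u))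
      (hPQ.shift (a r) fun u hu => ⟨?_, ?_⟩) (by simpa using h1) (by simpa using h2)
    · simp only [dOf, sOf, (hyl r u hu).1, (hyl r u hu).2.1, (hloc r u hu).2]
    · rcases hu.2.eq_or_lt with h3 | h3
      · have h4 : yS nP K y1 (ℓ r) (b r) u = 0 :=
          yS_zero (hℓ0 r) _ (Or.inr (by linarith [hℓ0 r]))
        simp [AOf, nuOf, (hyl r u hu).1, h4]
      · simp only [AOf, nuOf, (hyl r u hu).1, hτ r u ⟨hu.1, h3⟩]
  have hat : ∀ r, P (a r) = (st r).2.1 j ((π j ^ r) i) ∧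
      Q (a r) = (st r).2.2.1 j ((π j ^ r) i) := fun r => by
    induction r with
    | zero =>
      rw [ha0, hst0]
      exact sol2_unique hd.continuous.continuousOn hA.continuous.continuousOn
        (hPQ.mono (subset_univ _)) (hsm (f j) (g j) (Icc 0 1) fun u hu => ⟨hu.2, hfg' j u⟩)
        ⟨le_rfl, zero_le_one⟩ (by simp [hP0, hf0]) (by simp [hQ0, hg0]) 1 ⟨zero_le_one, le_rfl⟩
    | succ r ih =>
      have := hstep r _ ih.1 ih.2
      rw [pow_succ', Equiv.Perm.mul_apply]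
      exact ⟨this.1, this.2.1⟩
  have hinv := fun r => (hrec r).1.2 j ((π j ^ r) i)
  obtain ⟨a0, -, Cg, hCg⟩ := alp_gam_bounds (n := n) (by linarith) (hlam j)
  obtain ⟨Cd, hCd0, hCd1, hCd2⟩ : ∃ Cd, 0 ≤ Cd ∧ (∀ σ, |dOf n y S σ| ≤ Cd) ∧
      ∀ σ, 1 ≤ σ → ‖AOf (lam j) (fun σ => Xi (τ σ) j) y σ‖ ≤ Cd := by
    refine ⟨max ((n - 2) * (Real.exp (ε0 / (n - 1)) + ε0 / (n - 1)) + ε0)
      (lam j + (1 + Real.exp (2 * ε0)) * (‖Xi t0 j‖ + ∑ i ∈ Finset.range nP, ‖Xi (t i) j‖)),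
      le_max_of_le_right ?_, fun σ => le_max_of_le_left ?_, fun σ hσ => le_max_of_le_right ?_⟩
    · have := hlam j
      positivity
    · exact abs_dOf_le hn ⟨hSδ.le.trans (hSm' σ).1, (hSm' σ).2⟩ (hym σ).1 (hym σ).2.2.1
    · refine norm_AOf_le (hlam j).le (hym σ).1 ?_
      obtain ⟨r, s, hs, rfl⟩ := hcov σ hσ
      rw [hτ r s hs]
      exact norm_tauS_le (fun u => Xi u j) nP t t0 _ _
  obtain ⟨M, hM⟩ := seq_bound (hπ j).1 (hK j ⟨i, hi⟩) hi n0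
    (x := fun r => Real.log |(st r).2.2.2 j ((π j ^ r) i)| - k * s0 * a r) (fun r => by
      have h1 := (hstep r _ (hat r).1 (hat r).2).2.2
      have h2 := hinv (r + 1)
      rw [pow_succ', Equiv.Perm.mul_apply] at h2 ⊢
      have h3 := Real.log_le_log (abs_pos.2 h2.1) h1
      rw [Real.log_mul (abs_pos.2 (hinv r).1).ne' (Real.exp_pos _).ne', Real.log_exp] at h3
      rw [ha, ← hℓdef]
      have h4 : 0 ≤ k * s0 * (nP + 2) * ℓ r := by have := hℓ0 r; positivity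
      nlinarith) ((2 * Cd + 1) * (nP + K))
  refine growth hPQ hCd0 (mul_nonneg hk hs0.le) hCd1 hCd2 ha1 hcov
    (z := fun r => (st r).2.2.2 j ((π j ^ r) i)) (w := C0 + (1 + Cg * C0)) (M := M)
    (fun r => (hinv r).1) (fun r => ?_) fun r => ?_
  · obtain ⟨-, h2, h3⟩ := hinv r
    rw [(hat r).1, (hat r).2, eq_sub_of_add_eq h2]
    have h4 := (hrec r).1.1
    have h5 := (hCg (st r).1 ⟨by linarith [h4.1, hloss r], h4.2.trans hSs1⟩).2.2
    have h6 := norm_sub_le (Pi.single ((π j ^ r) i) ((st r).2.2.2 j ((π j ^ r) i)) : Fin (N j) → ℝ)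
      (gam n (lam j) (st r).1 • (st r).2.1 j ((π j ^ r) i))
    rw [Pi.norm_single, norm_smul, Real.norm_eq_abs, Real.norm_of_nonneg (hgam j _).le] at h6
    have h7 := mul_le_mul h5 h3 (norm_nonneg _) ((hgam j _).le.trans h5)
    nlinarith
  · have := hM r
    rw [← hℓdef] at this
    linarith

end Vale.Agent.P225
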