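import Vale.Agent.P225.Stage

/-! Auxiliary lemmas for the global construction. -/

namespace Vale.Agent.P225

open scoped ContDiff
open Filter Topology MvPolynomial Matrix Set

theorem exists_seq {α β : Type} (Good : ℕ → α → Prop) (Rel : ℕ → α → β → α → Prop) (s0 : α)
    (h0 : Good 0 s0) (step : ∀ r s, Good r s → ∃ b s', Good (r + 1) s' ∧ Rel r s b s') :
    ∃ (s : ℕ → α) (b : ℕ → β), s 0 = s0 ∧
      ∀ r, Good r (s r) ∧ Rel r (s r) (b r) (s (r + 1)) := by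
  choose fb fs h1 h2 using step
  let q : (r : ℕ) → {s // Good r s} := fun r =>
    Nat.rec ⟨s0, h0⟩ (fun r x => ⟨fs r x.1 x.2, h1 r x.1 x.2⟩) r
  exact ⟨fun r => (q r).1, fun r => fb r (q r).1 (q r).2, rfl,
    fun r => ⟨(q r).2, h2 r (q r).1 (q r).2⟩⟩

theorem cont_fix {X : Type} [TopologicalSpace X] (F : (ℕ → ℝ) → ℝ → X)
    (h : Continuous fun p : (ℕ → ℝ) × ℝ => F p.1 p.2) (b : ℕ → ℝ) : Continuous (F b) :=
  h.comp (Continuous.prodMk_right b)

theorem scalar_pos {d f g : ℝ → ℝ} {lam : ℝ} (hlam : 0 ≤ lam) (hd : Continuous d)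
    (h : ∀ s, HasDerivAt f (g s) s ∧ HasDerivAt g (lam * f s - d s * g s) s) (hf : 0 < f 0)
    (hg : 0 ≤ g 0) : 0 < f 1 ∧ 0 ≤ g 1 := by
  have hI : ∀ s, HasDerivAt (fun u => ∫ v in (0 : ℝ)..u, d v) (d s) s := fun s =>
    intervalIntegral.integral_hasDerivAt_right (hd.intervalIntegrable _ _)
      (hd.stronglyMeasurableAtFilter _ _) hd.continuousAt
  have h1 : ∀ s, HasDerivAt (fun u => Real.exp (∫ v in (0 : ℝ)..u, d v) * (f u * g u))
      (Real.exp (∫ v in (0 : ℝ)..s, d v) * (g s ^ 2 + lam * f s ^ 2)) s := fun s => by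
    refine ((hI s).exp.fun_mul ((h s).1.fun_mul (h s).2)).congr_deriv ?_
    ring
  have h2 : Monotone fun u => Real.exp (∫ v in (0 : ℝ)..u, d v) * (f u * g u) :=
    monotone_of_hasDerivAt_nonneg h1 fun s => by positivity
  have h3 : ∀ s, 0 ≤ s → 0 ≤ f s * g s := fun s hs => by
    have h4 := h2 hs
    have h5 : 0 ≤ Real.exp (∫ v in (0 : ℝ)..(0 : ℝ), d v) * (f 0 * g 0) := by positivity
    exact nonneg_of_mul_nonneg_right (h5.trans h4) (Real.exp_pos _)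
  have h6 : MonotoneOn (fun u => f u * f u) (Ici 0) := by
    refine monotoneOn_of_hasDerivWithinAt_nonneg (convex_Ici 0) (f' := fun s => 2 * (f s * g s))
      (fun s _ => ((h s).1.mul (h s).1).continuousAt.continuousWithinAt) (fun s _ => ?_)
      fun s hs => ?_
    · refine (((h s).1.fun_mul (h s).1).congr_deriv ?_).hasDerivWithinAt
      ring
    · have := h3 s (interior_subset hs)
      positivity
  have h7 : 0 < f 1 := by
    by_contra hc
    have hc' : (0 : ℝ) ∈ Icc (f 1) (f 0) := ⟨not_lt.1 hc, hf.le⟩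
    obtain ⟨s, hs, hs0⟩ := intermediate_value_Icc' zero_le_one
      (fun s _ => (h s).1.continuousAt.continuousWithinAt) hc'
    have := h6 self_mem_Ici hs.1 hs.1
    simp only [hs0, mul_zero] at this
    nlinarith
  exact ⟨h7, nonneg_of_mul_nonneg_right (h3 1 zero_le_one) h7⟩

/-- the initial part of the profile -/
noncomputable def S0 (Ss σ : ℝ) : ℝ := 1 - (1 - Ss) * Real.smoothTransition σ

theorem contDiff_S0 (Ss : ℝ) : ContDiff ℝ ∞ (S0 Ss) :=
  contDiff_const.sub (contDiff_const.mul Real.smoothTransition.contDiff)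

theorem S0_mem {Ss : ℝ} (h : Ss ≤ 1) (σ : ℝ) : S0 Ss σ ∈ Icc Ss 1 := by
  have h1 := Real.smoothTransition.nonneg σ
  have h2 := Real.smoothTransition.le_one σ
  unfold S0
  constructor <;> nlinarith

theorem S0_neg (Ss : ℝ) {σ : ℝ} (h : σ ≤ 0) : S0 Ss σ = 1 := by
  simp [S0, Real.smoothTransition.zero_of_nonpos h]

theorem S0_one (Ss : ℝ) {σ : ℝ} (h : 1 ≤ σ) : S0 Ss σ = Ss := by
  simp [S0, Real.smoothTransition.one_of_one_le h]

theorem deriv_S0 {Ss : ℝ} (h : Ss ≤ 1) (σ : ℝ) : deriv (S0 Ss) σ ≤ 0 := by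
  refine Antitone.deriv_nonpos fun u v huv => ?_
  have := Real.smoothTransition.monotone huv
  unfold S0
  nlinarith

theorem profile {T : Type} {nP K : ℕ} (hK : 2 ≤ K) (y1 Ss : ℝ) (t : ℕ → T) (t0 : T)
    {ℓ : ℕ → ℝ} (hℓ : ∀ r, 1 ≤ ℓ r) {a : ℕ → ℝ} (ha0 : a 0 = 1)
    (ha : ∀ r, a (r + 1) = a r + (nP + K) * ℓ r) (b : ℕ → ℕ → ℝ) {Sa : ℕ → ℝ} (hS0 : Sa 0 = Ss)
    (hSa : ∀ r, Sa (r + 1) = SS (Sa r) (yS nP K y1 (ℓ r) (b r)) ((nP + K) * ℓ r)) :
    ∃ (y S : ℝ → ℝ) (τ : ℝ → T), ContDiff ℝ ∞ y ∧ ContDiff ℝ ∞ S ∧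
      (∀ σ ≤ 1, (∀ᶠ r in 𝓝 σ, y r = 0) ∧ S σ = S0 Ss σ) ∧
      (∀ σ, deriv S σ = deriv (S0 Ss) σ - deriv y σ ^ 2) ∧
      (∀ r, ∀ s ∈ Icc 0 ((nP + K) * ℓ r),
        (y =ᶠ[𝓝 (a r + s)] fun σ => yS nP K y1 (ℓ r) (b r) (σ - a r)) ∧
        S (a r + s) = SS (Sa r) (yS nP K y1 (ℓ r) (b r)) s) ∧
      (∀ r, ∀ s ∈ Ico 0 ((nP + K) * ℓ r), τ (a r + s) = tauS nP t t0 (ℓ r) s) ∧
      ∀ σ, 1 ≤ σ → ∃ r, ∃ s ∈ Ico 0 ((nP + K) * ℓ r), σ = a r + s := by
  have hK' : (2 : ℝ) ≤ K := by exact_mod_cast hK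
  have hT : ∀ r, 1 ≤ ((nP : ℝ) + K) * ℓ r := fun r => by
    have := hℓ r
    have : (0 : ℝ) ≤ nP := Nat.cast_nonneg _
    nlinarith
  have hmono : StrictMono a := strictMono_nat_of_lt_succ fun r => by
    rw [ha]; linarith [hT r]
  have hge : ∀ r : ℕ, (r : ℝ) + 1 ≤ a r := fun r => by
    induction r with
    | zero => simp [ha0]
    | succ r ih => rw [ha]; push_cast; linarith [hT r]
  have hinf : Tendsto a atTop atTop :=
    tendsto_atTop_mono (fun r => by linarith [hge r]) tendsto_natCast_atTop_atTop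
  obtain ⟨y, τ, hy, hy0, hyf, hτ⟩ := glue hmono hinf
    (f := fun r σ => yS nP K y1 (ℓ r) (b r) (σ - a r))
    (fun r => (contDiff_yS nP K y1 (ℓ r) (b r)).comp (contDiff_id.sub contDiff_const))
    (fun r => ⟨ℓ r / 4, by linarith [hℓ r], fun s hs => yS_zero (by linarith [hℓ r]) _ (by
      rw [ha] at hs
      rcases hs with hs | hs
      · left; linarith
      · right; linarith)⟩) fun r σ => tauS nP t t0 (ℓ r) (σ - a r)
  have hyc : Continuous fun u => deriv y u ^ 2 := (hy.continuous_deriv (by simp)).pow 2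
  have hSS : ContDiff ℝ ∞ (SS 0 y) := by
    rw [contDiff_infty_iff_deriv]
    refine ⟨fun s => (hasDerivAt_SS 0 hy s).differentiableAt, ?_⟩
    have : deriv (SS 0 y) = fun s => -deriv y s ^ 2 := funext fun s => (hasDerivAt_SS 0 hy s).deriv
    rw [this]
    exact ((contDiff_infty_iff_deriv.1 hy).2.pow 2).neg
  have hz : ∀ σ ≤ 1, SS 0 y σ = 0 := fun σ hσ => by
    unfold SS
    rw [intervalIntegral.integral_congr (g := fun _ => 0) fun u hu => ?_]
    · simp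
    · have hu1 : u ≤ a 0 := by
        rw [ha0]
        exact hu.2.trans (max_le zero_le_one hσ)
      have : deriv y u = 0 := by
        rw [Filter.EventuallyEq.deriv_eq (f := fun _ => (0 : ℝ)) (hy0 u hu1)]
        simp
      simp [this]
  have key : ∀ r, Ss + SS 0 y (a r) = Sa r → ∀ s ∈ Icc 0 ((nP + K) * ℓ r),
      Ss + SS 0 y (a r + s) = SS (Sa r) (yS nP K y1 (ℓ r) (b r)) s := fun r hr s hs => by
    rw [← hr]
    unfold SS
    rw [← intervalIntegral.integral_add_adjacent_intervals (b := a r) (c := a r + s)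
      (hyc.intervalIntegrable _ _) (hyc.intervalIntegrable _ _)]
    have : ∫ u in a r..a r + s, deriv y u ^ 2 =
        ∫ u in (0 : ℝ)..s, deriv (yS nP K y1 (ℓ r) (b r)) u ^ 2 := by
      rw [intervalIntegral.integral_congr
        (g := fun u => deriv (yS nP K y1 (ℓ r) (b r)) (u - a r) ^ 2) fun u hu => ?_]
      · rw [intervalIntegral.integral_comp_sub_right
          (fun u => deriv (yS nP K y1 (ℓ r) (b r)) u ^ 2)]
        simp
      · rw [uIcc_of_le (by linarith [hs.1])] at hu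
        have := (hyf r u ⟨hu.1, by rw [ha]; linarith [hu.2, hs.2]⟩).deriv_eq
        simp only [this, deriv_comp_sub_const]
    rw [this]
    ring
  have key2 : ∀ r, Ss + SS 0 y (a r) = Sa r := fun r => by
    induction r with
    | zero => rw [hz _ ha0.le, hS0, add_zero]
    | succ r ih => rw [ha, key r ih _ ⟨by linarith [hT r], le_rfl⟩, hSa]
  refine ⟨y, fun σ => S0 Ss σ + SS 0 y σ, τ, hy, (contDiff_S0 Ss).add hSS,
    fun σ hσ => ⟨hy0 σ (ha0 ▸ hσ), by simp [hz σ hσ]⟩, fun σ => ?_, fun r s hs => ⟨?_, ?_⟩,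
    fun r s hs => ?_, fun σ hσ => ?_⟩
  · have h1 := ((contDiff_S0 Ss).differentiable (by simp) σ).hasDerivAt
    rw [(h1.fun_add (hasDerivAt_SS 0 hy σ)).deriv]
    ring
  · exact hyf r _ ⟨by linarith [hs.1], by rw [ha]; linarith [hs.2]⟩
  · have : (r : ℝ) ≥ 0 := Nat.cast_nonneg _
    show S0 Ss (a r + s) + _ = _
    rw [S0_one Ss (by linarith [hge r, hs.1]), key r (key2 r) s hs]
  · rw [hτ r _ ⟨by linarith [hs.1], by rw [ha]; linarith [hs.2]⟩]
    simp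
  · obtain ⟨r, hr⟩ := exists_cycle hinf (ha0 ▸ hσ : a 0 ≤ σ)
    rw [ha] at hr
    exact ⟨r, σ - a r, ⟨by linarith [hr.1], by linarith [hr.2]⟩, by ring⟩

variable {V : Type} [NormedAddCommGroup V] [NormedSpace ℝ V]

theorem contDiff_dOf (n : ℝ) {y S : ℝ → ℝ} (hy : ContDiff ℝ ∞ y) (hS : ContDiff ℝ ∞ S) :
    ContDiff ℝ ∞ (dOf n y S) := by
  have h1 := (contDiff_infty_iff_deriv.1 hy).2
  unfold dOf sOf
  exact (contDiff_const.mul ((hS.mul (hy.neg.div_const _).exp).sub (h1.div_const _))).add h1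

theorem contDiff_AOf {T : Type} (lam : ℝ) (X : T → V →L[ℝ] V) {y : ℝ → ℝ} {τ : ℝ → T}
    (hy : ContDiff ℝ ∞ y) (h : ∀ σ, (∀ᶠ r in 𝓝 σ, y r = 0) ∨ ∀ᶠ r in 𝓝 σ, τ r = τ σ) :
    ContDiff ℝ ∞ (AOf lam (fun σ => X (τ σ)) y) := by
  refine contDiff_iff_contDiffAt.2 fun σ => ?_
  rcases h σ with h | h
  · refine (contDiffAt_const (c := lam • (1 : V →L[ℝ] V))).congr_of_eventuallyEq ?_
    filter_upwards [h] with r hr
    simp [AOf, nuOf, hr]
  · have h1 : ContDiff ℝ ∞ (AOf lam (fun _ => X (τ σ)) y) := by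
      unfold AOf nuOf
      exact contDiff_const.add
        ((contDiff_const.sub (contDiff_const.mul hy).exp).smul contDiff_const)
    refine h1.contDiffAt.congr_of_eventuallyEq ?_
    filter_upwards [h] with r hr
    simp [AOf, hr]

theorem Sol2.shift {d d' : ℝ → ℝ} {A A' : ℝ → V →L[ℝ] V} {P Q : ℝ → V} (h : Sol2 d A P Q univ)
    (c : ℝ) {s : Set ℝ} (e : ∀ u ∈ s, d (c + u) = d' u ∧ A (c + u) = A' u) :
    Sol2 d' A' (fun u => P (c + u)) (fun u => Q (c + u)) s := fun u hu => by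
  rw [← (e u hu).1, ← (e u hu).2]
  exact ⟨(h _ trivial).1.comp_const_add c u, (h _ trivial).2.comp_const_add c u⟩

theorem abs_dOf_le {n ε : ℝ} (hn : 3 ≤ n) {y S : ℝ → ℝ} {σ : ℝ} (hS : S σ ∈ Icc (0 : ℝ) 1)
    (hy : -ε ≤ y σ) (hy' : |deriv y σ| ≤ ε) :
    |dOf n y S σ| ≤ (n - 2) * (Real.exp (ε / (n - 1)) + ε / (n - 1)) + ε := by
  have h1 : 0 < n - 1 := by linarith
  have h2 : Real.exp (-y σ / (n - 1)) ≤ Real.exp (ε / (n - 1)) :=
    Real.exp_le_exp.2 (div_le_div_of_nonneg_right (by linarith) h1.le)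
  have h3 : |sOf n y S σ| ≤ Real.exp (ε / (n - 1)) + ε / (n - 1) := by
    unfold sOf
    refine (abs_sub _ _).trans (add_le_add ?_ ?_)
    · have := Real.exp_pos (-y σ / (n - 1))
      rw [abs_of_nonneg (mul_nonneg hS.1 this.le)]
      nlinarith [hS.2]
    · rw [abs_div, abs_of_pos h1]
      exact div_le_div_of_nonneg_right hy' h1.le
  unfold dOf
  refine (abs_add_le _ _).trans (add_le_add ?_ hy')
  rw [abs_mul, abs_of_nonneg (by linarith)]
  exact mul_le_mul_of_nonneg_left h3 (by linarith)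

theorem norm_AOf_le {lam ε M : ℝ} (hlam : 0 ≤ lam) {X : ℝ → V →L[ℝ] V} {y : ℝ → ℝ} {σ : ℝ}
    (hy : -ε ≤ y σ) (hX : ‖X σ‖ ≤ M) : ‖AOf lam X y σ‖ ≤ lam + (1 + Real.exp (2 * ε)) * M := by
  unfold AOf
  refine (norm_add_le _ _).trans (add_le_add ?_ ?_)
  · rw [norm_smul, Real.norm_of_nonneg hlam]
    exact mul_le_of_le_one_right hlam ContinuousLinearMap.norm_id_le
  · rw [norm_smul]
    refine mul_le_mul ?_ hX (norm_nonneg _) (by positivity)
    unfold nuOf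
    refine (norm_sub_le _ _).trans (add_le_add (by simp) ?_)
    rw [Real.norm_of_nonneg (Real.exp_pos _).le]
    exact Real.exp_le_exp.2 (by linarith)

theorem norm_tauS_le {T : Type} (X : T → V →L[ℝ] V) (nP : ℕ) (t : ℕ → T) (t0 : T) (ℓ s : ℝ) :
    ‖X (tauS nP t t0 ℓ s)‖ ≤ ‖X t0‖ + ∑ i ∈ Finset.range nP, ‖X (t i)‖ := by
  have h0 : 0 ≤ ∑ i ∈ Finset.range nP, ‖X (t i)‖ := Finset.sum_nonneg fun _ _ => norm_nonneg _
  unfold tauS
  split_ifs with h
  · have := Finset.single_le_sum (f := fun i => ‖X (t i)‖) (fun _ _ => norm_nonneg _)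
      (Finset.mem_range.2 h)
    linarith [norm_nonneg (X t0)]
  · linarith

/-- from the bound at the ends of the cycles to the bound everywhere -/
theorem growth {d : ℝ → ℝ} {A : ℝ → V →L[ℝ] V} {P Q : ℝ → V} (h : Sol2 d A P Q univ)
    {C c M w : ℝ} (hC : 0 ≤ C) (hc : 0 ≤ c) (hd : ∀ σ, |d σ| ≤ C) (hA : ∀ σ, 1 ≤ σ → ‖A σ‖ ≤ C)
    {a L z : ℕ → ℝ} (ha : ∀ r, 1 ≤ a r) (hcov : ∀ σ, 1 ≤ σ → ∃ r, ∃ s ∈ Ico 0 (L r), σ = a r + s)
    (hz : ∀ r, z r ≠ 0) (hPQ : ∀ r, ‖P (a r)‖ + ‖Q (a r)‖ ≤ w * |z r|)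
    (hM : ∀ r, Real.log |z r| - c * a r + (2 * C + 1) * L r ≤ M) :
    ∃ C', ∀ σ ≥ 0, ‖P σ‖ ≤ C' * Real.exp (c * σ) := by
  have hP : Continuous P := continuous_iff_continuousAt.2 fun σ => (h σ trivial).1.continuousAt
  obtain ⟨C1, hC1⟩ := isCompact_Icc.exists_bound_of_continuousOn
    (hP.continuousOn (s := Icc 0 1))
  have hw : 0 ≤ w := by
    have h1 := hPQ 0
    have h2 := abs_pos.2 (hz 0)
    exact nonneg_of_mul_nonneg_left ((by positivity : (0 : ℝ) ≤ _).trans h1) h2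
  refine ⟨max C1 (2 * w * Real.exp M), fun σ hσ => ?_⟩
  have he : 1 ≤ Real.exp (c * σ) := Real.one_le_exp (by positivity)
  have hm : 0 ≤ max C1 (2 * w * Real.exp M) := le_max_of_le_right (by positivity)
  rcases le_total σ 1 with h1 | h1
  · exact ((hC1 σ ⟨hσ, h1⟩).trans (le_max_left _ _)).trans (le_mul_of_one_le_right hm he)
  obtain ⟨r, s, hs, rfl⟩ := hcov σ h1
  have h2 := sol2_bound (a := a r) (b := a r + s) hC (fun u _ => hd u)
    (fun u hu => hA u ((ha r).trans hu.1)) (h.mono (subset_univ _)) (a r + s)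
    ⟨by linarith [hs.1], le_rfl⟩
  have h3 : Real.exp ((2 * C + 1) * (a r + s - a r)) * |z r| ≤
      Real.exp M * Real.exp (c * (a r + s)) := by
    rw [← Real.exp_log (abs_pos.2 (hz r)), ← Real.exp_add, ← Real.exp_add]
    refine Real.exp_le_exp.2 ?_
    have h4 := hM r
    have h5 : (2 * C + 1) * s ≤ (2 * C + 1) * L r :=
      mul_le_mul_of_nonneg_left hs.2.le (by linarith)
    have h6 : 0 ≤ c * s := mul_nonneg hc hs.1
    rw [add_sub_cancel_left]
    linarith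
  calc ‖P (a r + s)‖ ≤ 2 * Real.exp ((2 * C + 1) * (a r + s - a r)) * (w * |z r|) := by
        refine le_trans (by linarith [norm_nonneg (Q (a r + s))]) (h2.trans ?_)
        exact mul_le_mul_of_nonneg_left (hPQ r) (by positivity)
    _ = 2 * w * (Real.exp ((2 * C + 1) * (a r + s - a r)) * |z r|) := by ring
    _ ≤ 2 * w * (Real.exp M * Real.exp (c * (a r + s))) :=
        mul_le_mul_of_nonneg_left h3 (by positivity)
    _ = 2 * w * Real.exp M * Real.exp (c * (a r + s)) := by ring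
    _ ≤ _ := mul_le_mul_of_nonneg_right (le_max_right _ _) (by positivity)

end Vale.Agent.P225
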