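import Vale.Agent.P225.CountY
import Vale.Agent.P225.RealForm

/-!
An eigenbasis for `T = (xi J0)²` on real harmonic polynomials, `J0 = Jeps 1`.
`∏ w ∈ range (j+1), (T + w²) = 0`: apply `toY` (`toY_xi`, `xi_cxMat_Jeps`, `toY_inj`) and compare
coefficients (`coeff_hY`; a monomial of degree `j` has weight of absolute value at most `j`). Hence
the eigenspaces `E w` for the distinct eigenvalues `-w²`, `w ≤ j`, span (Lagrange interpolation, or
`Polynomial.sup_ker_aeval_eq_ker_aeval_mul_of_coprime` by induction) and are independent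
(`Module.End.eigenspaces_iSupIndep`); take `DirectSum.IsInternal.collectedBasis` and reindex by
`Fin N`. The number of `l` with `w l = p - q` is `finrank (E (p - q))`. The real linear map
`(f1, f2) ↦ toY f1 + I • toY f2` maps `E w × E w` onto the space of `finrank_weight_ge`
(`toY_surj`, `toY_inj`), whose real dimension is twice the complex one (`finrank_real_of_complex`).
-/

namespace Vale.Agent.P225

open scoped ContDiff
open Filter Topology MvPolynomial Matrix Set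

namespace EigenBasisAux

theorem phi_aeval {V : Type} [AddCommGroup V] [Module ℝ V] (T : Module.End ℝ V) (φ : V →ₗ[ℝ] ℂ)
    (c : ℝ) (h : ∀ f, φ (T f) = c * φ f) (p : Polynomial ℝ) (f : V) :
    φ (Polynomial.aeval T p f) = (p.eval c : ℝ) * φ f := by
  induction p using Polynomial.induction_on with
  | C a => simp
  | add p q hp hq => simp [hp, hq, add_mul]
  | monomial n a ih =>
    rw [pow_succ', mul_left_comm, map_mul, Polynomial.aeval_X, Module.End.mul_apply, h, ih]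
    simp only [Polynomial.eval_mul, Polynomial.eval_X]
    push_cast
    ring

theorem ker_le_iSup {V κ : Type} [AddCommGroup V] [Module ℝ V] [DecidableEq κ]
    (T : Module.End ℝ V) (μ : κ → ℝ) (hμ : Function.Injective μ) (S : Finset κ) :
    LinearMap.ker (Polynomial.aeval T (∏ i ∈ S, (Polynomial.X - Polynomial.C (μ i)))) ≤
      ⨆ i, T.eigenspace (μ i) := by
  induction S using Finset.induction_on with
  | empty => intro x hx; simp at hx; simp [hx]
  | insert a S ha ih =>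
    rw [Finset.prod_insert ha, ← Polynomial.sup_ker_aeval_eq_ker_aeval_mul_of_coprime]
    · refine sup_le (le_trans ?_ (le_iSup (fun i => T.eigenspace (μ i)) a)) ih
      intro x hx
      rw [Module.End.mem_eigenspace_iff]
      simpa [sub_eq_zero] using hx
    · exact IsCoprime.prod_right fun i hi =>
        Polynomial.pairwise_coprime_X_sub_C hμ fun h => ha (h ▸ hi)

theorem exists_basis {V κ : Type} [AddCommGroup V] [Module ℝ V] [FiniteDimensional ℝ V]
    [Fintype κ] [DecidableEq κ] (T : Module.End ℝ V) (μ : κ → ℝ) (hμ : Function.Injective μ)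
    (h : Polynomial.aeval T (∏ i, (Polynomial.X - Polynomial.C (μ i))) = 0) :
    ∃ (N : ℕ) (b : Module.Basis (Fin N) ℝ V) (w : Fin N → κ), (∀ l, T (b l) = μ (w l) • b l) ∧
      ∀ k, Module.finrank ℝ (T.eigenspace (μ k)) ≤ (Finset.univ.filter fun l => w l = k).card := by
  have h1 : (⨆ i, T.eigenspace (μ i)) = ⊤ := by
    have := ker_le_iSup T μ hμ Finset.univ
    rwa [h, LinearMap.ker_zero, top_le_iff] at this
  have h2 : DirectSum.IsInternal fun i => T.eigenspace (μ i) :=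
    DirectSum.isInternal_submodule_of_iSupIndep_of_iSup_eq_top
      (T.eigenspaces_iSupIndep.comp hμ) h1
  set b0 := h2.collectedBasis fun i => Module.finBasis ℝ (T.eigenspace (μ i)) with hb0
  set e := Fintype.equivFin (Σ i, Fin (Module.finrank ℝ (T.eigenspace (μ i)))) with he
  refine ⟨_, b0.reindex e, fun l => (e.symm l).1, fun l => ?_, fun k => ?_⟩
  · rw [Module.Basis.reindex_apply, ← Module.End.mem_eigenspace_iff]
    exact h2.collectedBasis_mem _ _
  · rw [← Fintype.card_fin (Module.finrank ℝ (T.eigenspace (μ k))), ← Finset.card_univ]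
    refine Finset.card_le_card_of_injOn (fun r => e ⟨k, r⟩) (fun r _ => by simp) ?_
    intro r _ r' _ hr
    simpa using hr

theorem toY_J {m : ℕ} (f : MvPolynomial (Fin m × Bool) ℝ) :
    toY m (xi (Jeps fun _ => 1) f) = Complex.I • (∑ a : Fin m, hY a) (toY m f) := by
  rw [← toY_xi, xi_cxMat_Jeps]
  simp

theorem toY_JJ {m : ℕ} (f : MvPolynomial (Fin m × Bool) ℝ) :
    toY m (xi (Jeps fun _ => 1) (xi (Jeps fun _ => 1) f)) =
      -((∑ a : Fin m, hY a) ^ 2) (toY m f) := by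
  rw [toY_J, toY_J, map_smul, smul_smul, Complex.I_mul_I, pow_two, Module.End.mul_apply, neg_smul,
    one_smul]

theorem coeff_H {m : ℕ} (g : MvPolynomial (Fin m × Bool) ℂ) (s : Fin m × Bool →₀ ℕ) :
    coeff s ((∑ a : Fin m, hY a) g) =
      (((∑ a, s (a, false) : ℕ) : ℂ) - (∑ a, s (a, true) : ℕ)) * coeff s g := by
  rw [LinearMap.sum_apply, coeff_sum]
  simp only [coeff_hY]
  rw [← Finset.sum_mul, Finset.sum_sub_distrib]
  push_cast
  rfl

theorem deg_eq {m j : ℕ} {g : MvPolynomial (Fin m × Bool) ℂ} (hg : g.IsHomogeneous j)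
    {s : Fin m × Bool →₀ ℕ} (hs : coeff s g ≠ 0) : ∑ a, s (a, false) + ∑ a, s (a, true) = j := by
  have h := hg hs
  rw [Finsupp.weight_apply, Finsupp.sum_fintype _ _ (by simp), Fintype.sum_prod_type] at h
  simp only [Pi.one_apply, smul_eq_mul, mul_one, Fintype.sum_bool, Finset.sum_add_distrib] at h
  omega

theorem dim_le {E W : Type} [AddCommGroup E] [Module ℝ E] [FiniteDimensional ℝ E]
    [AddCommGroup W] [Module ℝ W] [Module ℂ W] [IsScalarTower ℝ ℂ W] [SMulCommClass ℝ ℂ W]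
    (A : E →ₗ[ℝ] W) (Y : Submodule ℂ W)
    (h : Y.restrictScalars ℝ ≤ LinearMap.range (A.coprod (Complex.I • A))) :
    Module.finrank ℂ Y ≤ Module.finrank ℝ E := by
  have h3 : Module.finrank ℝ (Y.restrictScalars ℝ) = 2 * Module.finrank ℂ Y := by
    rw [← Complex.finrank_real_complex]
    exact (Module.finrank_mul_finrank ℝ ℂ Y).symm
  have h4 := Submodule.finrank_mono h
  have h5 := LinearMap.finrank_range_le (A.coprod (Complex.I • A))
  rw [Module.finrank_prod] at h5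
  omega

theorem ann {m j : ℕ} (T : Module.End ℝ (Harm (Fin m × Bool) ℝ j))
    (hTY : ∀ f : Harm (Fin m × Bool) ℝ j, toY m (T f : Harm (Fin m × Bool) ℝ j) =
      -((∑ a : Fin m, hY a) ^ 2) (toY m f)) :
    Polynomial.aeval T
      (∏ i : Fin (j + 1), (Polynomial.X - Polynomial.C (-((i : ℕ) : ℝ) ^ 2))) = 0 := by
  refine LinearMap.ext fun f => Subtype.ext ?_
  refine (toY_inj (m := m) (f2 := 0) ?_).1
  rw [map_zero, smul_zero, add_zero]
  ext s
  set φ : Harm (Fin m × Bool) ℝ j →ₗ[ℝ] ℂ := ((lcoeff ℂ s).restrictScalars ℝ) ∘ₗ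
    (toY m).toLinearMap ∘ₗ (Harm (Fin m × Bool) ℝ j).subtype with hφ
  have hφ' : ∀ g, φ g = coeff s (toY m g) := fun g => rfl
  have h1 := phi_aeval T φ
    (-(((∑ a, s (a, false) : ℕ) : ℝ) - (∑ a, s (a, true) : ℕ)) ^ 2) (fun g => by
      rw [hφ', hφ', hTY, pow_two, Module.End.mul_apply, coeff_neg, coeff_H, coeff_H]
      push_cast
      ring) (∏ i : Fin (j + 1), (Polynomial.X - Polynomial.C (-((i : ℕ) : ℝ) ^ 2))) f
  rw [← hφ', h1, coeff_zero]
  by_cases h0 : φ f = 0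
  · rw [h0, mul_zero]
  have h2 := deg_eq (mem_HarmY.1 (toY_mem f.2)).1 h0
  generalize ∑ a, s (a, false) = P at *
  generalize ∑ a, s (a, true) = Q at *
  rw [Polynomial.eval_prod, Finset.prod_eq_zero
    (Finset.mem_univ (⟨(P - Q) + (Q - P), by omega⟩ : Fin (j + 1)))]
  · simp
  · simp only [Polynomial.eval_sub, Polynomial.eval_X, Polynomial.eval_C]
    rcases le_total P Q with h | h
    · rw [Nat.sub_eq_zero_of_le h, zero_add, Nat.cast_sub h]; ring
    · rw [Nat.sub_eq_zero_of_le h, add_zero, Nat.cast_sub h]; ring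

theorem mem_eig {m j : ℕ} (T : Module.End ℝ (Harm (Fin m × Bool) ℝ j))
    (hTY : ∀ f : Harm (Fin m × Bool) ℝ j, toY m (T f : Harm (Fin m × Bool) ℝ j) =
      -((∑ a : Fin m, hY a) ^ 2) (toY m f)) (w : ℕ) (f1 f2 : Harm (Fin m × Bool) ℝ j)
    (hg3 : ((∑ a : Fin m, hY a) ^ 2) (toY m f1 + Complex.I • toY m f2) =
      (w : ℂ) ^ 2 • (toY m f1 + Complex.I • toY m f2)) :
    f1 ∈ T.eigenspace (-(w : ℝ) ^ 2) ∧ f2 ∈ T.eigenspace (-(w : ℝ) ^ 2) := by
  have h3 : ∀ f : Harm (Fin m × Bool) ℝ j,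
      toY m ((T f : Harm (Fin m × Bool) ℝ j) + (w : ℝ) ^ 2 • f.1) =
        -((∑ a : Fin m, hY a) ^ 2) (toY m f) + (w : ℂ) ^ 2 • toY m f := fun f => by
    rw [map_add, map_smul, hTY, ← Complex.coe_smul, Complex.ofReal_pow, Complex.ofReal_natCast]
  have h4 := toY_inj (m := m)
    (f1 := (T f1 : Harm (Fin m × Bool) ℝ j) + (w : ℝ) ^ 2 • f1.1)
    (f2 := (T f2 : Harm (Fin m × Bool) ℝ j) + (w : ℝ) ^ 2 • f2.1) (by
      rw [h3 f1, h3 f2]
      rw [map_add, map_smul] at hg3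
      linear_combination (norm := module) -hg3)
  have h5 : ∀ f : Harm (Fin m × Bool) ℝ j,
      ((T f : Harm (Fin m × Bool) ℝ j) : MvPolynomial (Fin m × Bool) ℝ) +
        (w : ℝ) ^ 2 • f.1 = 0 → f ∈ T.eigenspace (-(w : ℝ) ^ 2) := by
    intro f h
    rw [Module.End.mem_eigenspace_iff]
    refine Subtype.ext ?_
    rw [eq_neg_of_add_eq_zero_left h, Submodule.coe_smul, neg_smul]
  exact ⟨h5 f1 h4.1, h5 f2 h4.2⟩

theorem dim_eig {m j : ℕ} (T : Module.End ℝ (Harm (Fin m × Bool) ℝ j))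
    (hTY : ∀ f : Harm (Fin m × Bool) ℝ j, toY m (T f : Harm (Fin m × Bool) ℝ j) =
      -((∑ a : Fin m, hY a) ^ 2) (toY m f)) (w : ℕ) :
    Module.finrank ℂ ↥(HarmY m j ⊓ LinearMap.ker
      ((∑ a : Fin m, hY a) ^ 2 - (w : ℂ) ^ 2 • (1 : Module.End ℂ _))) ≤
      Module.finrank ℝ (T.eigenspace (-(w : ℝ) ^ 2)) := by
  refine dim_le (E := T.eigenspace (-(w : ℝ) ^ 2)) ((toY m).toLinearMap ∘ₗ (Harm (Fin m × Bool) ℝ j).subtype ∘ₗ
    (T.eigenspace (-(w : ℝ) ^ 2)).subtype) _ ?_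
  rintro g ⟨hg1, hg2⟩
  obtain ⟨f1, hf1, f2, hf2, rfl⟩ := toY_surj hg1
  have hg3 := LinearMap.mem_ker.1 hg2
  rw [LinearMap.sub_apply, sub_eq_zero] at hg3
  obtain ⟨h1, h2⟩ := mem_eig T hTY w ⟨f1, hf1⟩ ⟨f2, hf2⟩ hg3
  exact ⟨(⟨_, h1⟩, ⟨_, h2⟩), rfl⟩

end EigenBasisAux

open EigenBasisAux in
theorem exists_eigenbasis {m : ℕ} (hm : 1 ≤ m) (j : ℕ) :
    ∃ (N : ℕ) (b : Module.Basis (Fin N) ℝ (Harm (Fin m × Bool) ℝ j)) (w : Fin N → ℕ),
      (∀ l, w l ≤ j ∧ xi (Jeps fun _ => 1) (xi (Jeps fun _ => 1)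
        (b l : MvPolynomial (Fin m × Bool) ℝ)) =
          -((w l : ℝ) ^ 2) • (b l : MvPolynomial (Fin m × Bool) ℝ)) ∧
      ∀ p q, p + q = j → q < p →
        2 * dimPQ m p q ≤ (Finset.univ.filter fun l => w l = p - q).card := by
  have hJ : (Jeps (m := m) fun _ => 1)ᵀ = -Jeps fun _ => 1 :=
    (isCx_Jeps fun _ => Or.inl rfl).1
  obtain ⟨T, hT⟩ := exists_rep (W := Harm (Fin m × Bool) ℝ j)
    (F := xi (Jeps fun _ => 1) * xi (Jeps fun _ => 1))
    fun f hf => xi_mem_Harm hJ (xi_mem_Harm hJ hf)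
  have hTY : ∀ f : Harm (Fin m × Bool) ℝ j, toY m (T f : Harm (Fin m × Bool) ℝ j) =
      -((∑ a : Fin m, hY a) ^ 2) (toY m f) := fun f => by
    rw [hT f, Module.End.mul_apply, toY_JJ]
  have hμ : Function.Injective fun i : Fin (j + 1) => -((i : ℕ) : ℝ) ^ 2 := by
    intro a b h
    have h1 : ((a : ℕ) : ℝ) ^ 2 = ((b : ℕ) : ℝ) ^ 2 := neg_injective h
    rw [sq_eq_sq₀ (Nat.cast_nonneg _) (Nat.cast_nonneg _)] at h1
    exact Fin.ext (by exact_mod_cast h1)
  have hann := ann T hTY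
  obtain ⟨N, b, w, hb, hw⟩ := exists_basis T _ hμ hann
  refine ⟨N, b, fun l => w l, fun l => ⟨Nat.lt_succ_iff.1 (w l).2, ?_⟩, fun p q hpq hqp => ?_⟩
  · rw [← Module.End.mul_apply, ← hT, hb]
    rfl
  subst hpq
  have h1 := hw ⟨p - q, by omega⟩
  simp only [Fin.ext_iff] at h1
  refine (finrank_weight_ge hm hqp).trans (le_trans ?_ h1)
  exact dim_eig T hTY (p - q)

end Vale.Agent.P225
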