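import Vale.Agent.P225.PolyBasic

/-!
Polynomial level lemmas for `GenC`.
-/

namespace Vale.Agent.P225

open MvPolynomial Matrix

variable {m : ℕ}

theorem gc_bar_bar (α : Fin m × Bool) : bar (bar α) = α := by
  simp [bar]

theorem gc_bar_ne (α : Fin m × Bool) : bar α ≠ α := by
  obtain ⟨a, b⟩ := α
  cases b <;> simp [bar]

theorem gc_bar_fst (α : Fin m × Bool) : (bar α).1 = α.1 := rfl

theorem gc_ne {α β : Fin m × Bool} (h : α.1 ≠ β.1) : α ≠ β := fun e => h (congrArg Prod.fst e)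

/-- the weight of a monomial along `α` -/
def gcU (α : Fin m × Bool) (s : Fin m × Bool →₀ ℕ) : ℤ := (s α : ℤ) - s (bar α)

/-- the weight of the variable `α` for the Cartan element of `ρ` -/
noncomputable def gcW (ρ α : Fin m × Bool) : ℂ :=
  (if ρ = α then 1 else 0) - if bar ρ = α then 1 else 0

theorem gcW_bar (ρ α : Fin m × Bool) : gcW ρ (bar α) = -gcW ρ α := by
  have h1 : (ρ = bar α) ↔ (bar ρ = α) :=
    ⟨fun h => by rw [h, gc_bar_bar], fun h => by rw [← h, gc_bar_bar]⟩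
  have h2 : (bar ρ = bar α) ↔ (ρ = α) :=
    ⟨fun h => by rw [← gc_bar_bar ρ, h, gc_bar_bar], fun h => by rw [h]⟩
  simp only [gcW, h1, h2]
  ring

theorem gcW_self (α : Fin m × Bool) : gcW α α = 1 := by
  simp [gcW, gc_bar_ne]

theorem gcW_ne {ρ α : Fin m × Bool} (h : ρ.1 ≠ α.1) : gcW ρ α = 0 := by
  have h1 : ρ ≠ α := gc_ne h
  have h2 : bar ρ ≠ α := gc_ne h
  simp [gcW, h1, h2]

theorem gc_coeff_h (α : Fin m × Bool) (f : MvPolynomial (Fin m × Bool) ℂ)
    (s : Fin m × Bool →₀ ℕ) : coeff s (eY α (bar α) f) = (gcU α s : ℂ) * coeff s f := by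
  obtain ⟨a, b⟩ := α
  have h := coeff_hY a f s
  cases b
  · simpa [gcU, bar, hY] using h
  · have e : eY (a, true) (bar (a, true)) f = -hY a f := by
      rw [hY, eY_apply, eY_apply]
      simp [bar]
    rw [e, coeff_neg, h]
    simp only [gcU, bar, Bool.not_true]
    push_cast
    ring

theorem gc_h_comm (ρ α β : Fin m × Bool) (f : MvPolynomial (Fin m × Bool) ℂ) :
    eY ρ (bar ρ) (eY α β f) = eY α β (eY ρ (bar ρ) f) + (gcW ρ α + gcW ρ β) • eY α β f := by
  have hA : (Matrix.single (bar (bar ρ)) ρ 1 - Matrix.single (bar ρ) (bar ρ) 1 :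
      Matrix (Fin m × Bool) (Fin m × Bool) ℂ) = Matrix.diagonal (gcW ρ) := by
    ext p q
    rw [gc_bar_bar]
    simp only [Matrix.sub_apply, Matrix.single_apply, Matrix.diagonal_apply, gcW]
    by_cases h : p = q
    · subst h
      simp
    · have h1 : ¬ (ρ = p ∧ ρ = q) := fun h' => h (h'.1.symm.trans h'.2)
      have h2 : ¬ (bar ρ = p ∧ bar ρ = q) := fun h' => h (h'.1.symm.trans h'.2)
      simp [h, h1, h2]
  have hB : ∀ p q : Fin m × Bool, Matrix.single (bar q) p (1 : ℂ) * Matrix.diagonal (gcW ρ) -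
      Matrix.diagonal (gcW ρ) * Matrix.single (bar q) p (1 : ℂ) =
      (gcW ρ p + gcW ρ q) • Matrix.single (bar q) p (1 : ℂ) := by
    intro p q
    ext x y
    simp only [Matrix.sub_apply, Matrix.mul_diagonal, Matrix.diagonal_mul, Matrix.smul_apply,
      Matrix.single_apply, smul_eq_mul]
    split_ifs with h
    · rw [← h.1, ← h.2, gcW_bar]
      ring
    · ring
  have h := xi_comm (Matrix.diagonal (gcW ρ))
    (Matrix.single (bar β) α 1 - Matrix.single (bar α) β 1)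
  have e : (Matrix.single (bar β) α (1 : ℂ) - Matrix.single (bar α) β 1) *
      Matrix.diagonal (gcW ρ) - Matrix.diagonal (gcW ρ) *
        (Matrix.single (bar β) α 1 - Matrix.single (bar α) β 1) =
      (gcW ρ α + gcW ρ β) • (Matrix.single (bar β) α 1 - Matrix.single (bar α) β 1) := by
    rw [Matrix.sub_mul, Matrix.mul_sub, smul_sub, ← hB α β, add_comm (gcW ρ α), ← hB β α]
    abel
  rw [e, xi_smul, ← hA, ← eY_eq_xi, ← eY_eq_xi] at h
  have h2 := congrArg (fun T => T f) h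
  simp only [LinearMap.sub_apply, Module.End.mul_apply, LinearMap.smul_apply] at h2
  rw [← h2]
  abel

theorem gc_e_comm {α β γ : Fin m × Bool} (h1 : α.1 ≠ β.1) (h2 : α.1 ≠ γ.1) (h3 : β.1 ≠ γ.1)
    (f : MvPolynomial (Fin m × Bool) ℂ) : eY α β (eY α γ f) = eY α γ (eY α β f) := by
  have key : ∀ {β γ : Fin m × Bool}, α.1 ≠ β.1 → α.1 ≠ γ.1 → β.1 ≠ γ.1 →
      (Matrix.single (bar β) α (1 : ℂ) - Matrix.single (bar α) β 1) *
        (Matrix.single (bar γ) α (1 : ℂ) - Matrix.single (bar α) γ 1) = 0 := by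
    intro β γ h1 h2 h3
    rw [Matrix.sub_mul, Matrix.mul_sub, Matrix.mul_sub,
      Matrix.single_mul_single_of_ne (h := gc_ne (β := bar γ) h2),
      Matrix.single_mul_single_of_ne (h := (gc_bar_ne α).symm),
      Matrix.single_mul_single_of_ne (h := gc_ne (β := bar γ) h3),
      Matrix.single_mul_single_of_ne (h := gc_ne (β := bar α) h1.symm)]
    simp
  have h := xi_comm (Matrix.single (bar β) α (1 : ℂ) - Matrix.single (bar α) β 1)
    (Matrix.single (bar γ) α (1 : ℂ) - Matrix.single (bar α) γ 1)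
  have h0 : xi (0 : Matrix (Fin m × Bool) (Fin m × Bool) ℂ) = 0 := by simp [xi]
  rw [key h1 h2 h3, key h2 h1 h3.symm, sub_self, h0, ← eY_eq_xi, ← eY_eq_xi, sub_eq_zero] at h
  exact congrArg (fun T => T f) h

/-- the monomial `X α * X β * X δ ^ n` -/
noncomputable def gcM (α β δ : Fin m × Bool) (n : ℕ) : Fin m × Bool →₀ ℕ :=
  Finsupp.single α 1 + Finsupp.single β 1 + Finsupp.single δ n

theorem gcM_comm (α β δ : Fin m × Bool) (n : ℕ) : gcM α β δ n = gcM β α δ n := by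
  rw [gcM, gcM, add_comm (Finsupp.single α 1)]

theorem gcM_degree (α β δ : Fin m × Bool) (n : ℕ) : (gcM α β δ n).degree = n + 2 := by
  simp only [gcM, map_add, Finsupp.degree_single]
  omega

theorem gcM_monomial (α β δ : Fin m × Bool) (n : ℕ) (a : ℂ) :
    monomial (gcM α β δ n) a = a • (X α * X β * X δ ^ n) := by
  rw [gcM, X_pow_eq_monomial, X, X, monomial_mul, monomial_mul, smul_monomial]
  simp

theorem gc_Y_monomial {α β γ δ : Fin m × Bool} (h1 : α.1 ≠ β.1) (h2 : α.1 ≠ γ.1) (h3 : β.1 ≠ γ.1)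
    (h4 : α.1 ≠ δ.1) (h5 : β.1 ≠ δ.1) (h6 : γ.1 ≠ δ.1) (n : ℕ) (a : ℂ) :
    eY α β (eY α γ (monomial (gcM (bar α) (bar γ) δ n) a)) = -monomial (gcM α β δ n) a := by
  have n1 : bar α ≠ bar γ := gc_ne h2
  have n2 : δ ≠ bar γ := gc_ne h6.symm
  have n3 : δ ≠ bar α := gc_ne h4.symm
  have n4 : α ≠ bar β := gc_ne h1
  have n5 : bar α ≠ bar β := gc_ne h1
  have n6 : δ ≠ bar β := gc_ne h5.symm
  have n7 : γ ≠ bar β := gc_ne h3.symm
  have n8 : bar γ ≠ bar β := gc_ne h3.symm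
  have n9 : γ ≠ bar α := gc_ne h2.symm
  rw [gcM_monomial, gcM_monomial, map_smul, map_smul, ← smul_neg]
  congr 1
  simp only [eY_apply, map_sub, pderiv_mul, pderiv_pow, pderiv_X_self, pderiv_X_of_ne n1,
    pderiv_X_of_ne n1.symm, pderiv_X_of_ne n2, pderiv_X_of_ne n3, pderiv_X_of_ne n4,
    pderiv_X_of_ne n5, pderiv_X_of_ne n6, pderiv_X_of_ne n7, pderiv_X_of_ne n8, pderiv_X_of_ne n9,
    pderiv_X_of_ne (gc_bar_ne α).symm, mul_zero, zero_mul, add_zero, zero_add, mul_one, one_mul]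
  ring

theorem gcM_mem {α β δ : Fin m × Bool} (h1 : α.1 ≠ β.1) (h4 : α.1 ≠ δ.1) (h5 : β.1 ≠ δ.1)
    (n : ℕ) : monomial (gcM α β δ n) (1 : ℂ) ∈ HarmY m (n + 2) := by
  rw [mem_HarmY]
  refine ⟨isHomogeneous_monomial _ (gcM_degree _ _ _ _), Finset.sum_eq_zero fun ρ _ => ?_⟩
  rw [pderiv_monomial, pderiv_monomial]
  have key : (gcM α β δ n) (bar ρ) = 0 ∨ (gcM α β δ n) ρ = 0 := by
    by_contra h
    push Not at h
    obtain ⟨k1, k2⟩ := h
    have mem : ∀ x, (gcM α β δ n) x ≠ 0 → x = α ∨ x = β ∨ x = δ := by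
      intro x hx
      by_contra hh
      push Not at hh
      apply hx
      simp [gcM, hh.1, hh.2.1, hh.2.2]
    have hb := gc_bar_ne ρ
    have hf := gc_bar_fst ρ
    rcases mem _ k1 with e1 | e1 | e1 <;> rcases mem _ k2 with e2 | e2 | e2 <;>
      rw [e1] at hb hf <;> rw [e2] at hb hf <;>
      first
        | exact hb rfl
        | exact h1 hf
        | exact h1 hf.symm
        | exact h4 hf
        | exact h4 hf.symm
        | exact h5 hf
        | exact h5 hf.symm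
  rcases key with h | h
  · simp [h]
  · simp [h]

/-- The separation lemma. -/
theorem gc_sep {α β γ δ : Fin m × Bool} (h1 : α.1 ≠ β.1) (h2 : α.1 ≠ γ.1) (h3 : β.1 ≠ γ.1)
    (h4 : α.1 ≠ δ.1) (h5 : β.1 ≠ δ.1) (h6 : γ.1 ≠ δ.1) (n : ℕ) :
    gcU α (gcM (bar α) (bar γ) δ n) = -1 ∧ gcU β (gcM (bar α) (bar γ) δ n) = 0 ∧
    gcU γ (gcM (bar α) (bar γ) δ n) = -1 ∧ gcU δ (gcM (bar α) (bar γ) δ n) = n ∧
    ∀ s : Fin m × Bool →₀ ℕ, s.degree = n + 2 → gcU α s = -1 → gcU γ s = -1 → gcU δ s = n →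
      s = gcM (bar α) (bar γ) δ n := by
  have n1 : bar α ≠ bar γ := gc_ne h2
  have n2 : δ ≠ bar γ := gc_ne h6.symm
  have n3 : δ ≠ bar α := gc_ne h4.symm
  have n5 : bar α ≠ bar β := gc_ne h1
  have n6 : δ ≠ bar β := gc_ne h5.symm
  have n8 : bar γ ≠ bar β := gc_ne h3.symm
  have n9 : γ ≠ bar α := gc_ne h2.symm
  have m1 : α ≠ bar γ := gc_ne h2
  have m2 : α ≠ δ := gc_ne h4
  have m3 : β ≠ bar α := gc_ne h1.symm
  have m4 : β ≠ bar γ := gc_ne h3
  have m5 : β ≠ δ := gc_ne h5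
  have m6 : γ ≠ δ := gc_ne h6
  have m7 : bar δ ≠ bar α := gc_ne h4.symm
  have m8 : bar δ ≠ bar γ := gc_ne h6.symm
  refine ⟨?_, ?_, ?_, ?_, ?_⟩
  · simp [gcU, gcM, (gc_bar_ne α).symm, m1, m2, n1, n3.symm]
  · simp [gcU, gcM, m3, m4, m5, n5.symm, n8.symm, n6.symm]
  · simp [gcU, gcM, (gc_bar_ne γ).symm, n9, m6, n1.symm, n2.symm]
  · simp [gcU, gcM, gc_bar_ne δ, n3, n2, m7, m8]
  · intro s hs k1 k2 k3
    simp only [gcU] at k1 k2 k3
    have hle : gcM (bar α) (bar γ) δ n ≤ s := by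
      intro x
      by_cases x1 : x = bar α
      · subst x1
        simp [gcM, n1, n3.symm]
        omega
      by_cases x2 : x = bar γ
      · subst x2
        simp [gcM, n1.symm, n2.symm]
        omega
      by_cases x3 : x = δ
      · subst x3
        simp [gcM, n3, n2]
        omega
      simp [gcM, x1, x2, x3]
    obtain ⟨t, rfl⟩ := exists_add_of_le hle
    rw [map_add, gcM_degree] at hs
    have : t = 0 := (Finsupp.degree_eq_zero_iff t).1 (by omega)
    rw [this, add_zero]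

end Vale.Agent.P225
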