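import Vale.Agent.P225.Spec

/-!
A Lie algebra of endomorphisms containing an `sl 3` of rank one operators, normalised by an
irreducible set, and containing `1`, is everything.
Write `u ⊗ ψ = ψ.smulRight u`, `E i j = x i ⊗ f j`; `[u ⊗ ψ, u' ⊗ ψ'] = ψ u' • u ⊗ ψ' - ψ' u • u' ⊗ ψ`.
Brackets give all `E i j` (`i ≠ j`) and `E i i - E j j` in `M`. Say `Good u ψ` if
`u ⊗ ψ - ψ u • E 0 0 ∈ M`.
* `Good u (f i) → Good u (f k)` (bracket with `E i k`, using the third index for the diagonal term),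
  and dually `Good (x i) ψ → Good (x k) ψ`. So `U = {u | Good u (f 0)}`, `W = {ψ | Good (x 0) ψ}` are
  subspaces not depending on the index.
* `u ∈ U`, `ψ ∈ W` imply `Good u ψ`: bracket `u ⊗ f 0 - f 0 u • E 1 1` with `x 0 ⊗ ψ - ψ (x 0) • E 1 1`.
* For `A ∈ 𝒩`: `[[A, E 0 1], E 1 2]` gives `A (x 0) ∈ U`, similarly `A (x i) ∈ U` and dually
  `f i ∘ A ∈ W`. Then `[A, u ⊗ f 2 - f 2 u • E 0 0] ∈ M` shows `A u ∈ U` for `u ∈ U`; dually `W` is
  invariant under `ψ ↦ ψ ∘ A`.
* Irreducibility gives `U = ⊤` (`x 1 ∈ U`, `x 1 ≠ 0`), and `W.dualCoannihilator` is invariant and not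
  `⊤`, so it is `⊥` and `W = ⊤`. Thus `T - trace T • E 0 0 ∈ M` for all `T` (rank one operators
  span); with `T = 1` we get `E 0 0 ∈ M` since `finrank ≠ 0`.
-/

namespace Vale.Agent.P225

open scoped ContDiff
open Filter Topology MvPolynomial Matrix Set

section rk

variable {V : Type} [AddCommGroup V] [Module ℂ V]

theorem rk_mul_rk (u u' : V) (ψ ψ' : Module.Dual ℂ V) :
    (ψ.smulRight u * ψ'.smulRight u' : Module.End ℂ V) = ψ u' • ψ'.smulRight u := by
  ext v
  simp [smul_smul, mul_comm]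

theorem mul_rk (A : Module.End ℂ V) (u : V) (ψ : Module.Dual ℂ V) :
    (A * ψ.smulRight u : Module.End ℂ V) = ψ.smulRight (A u) := by
  ext v
  simp

theorem rk_mul (A : Module.End ℂ V) (u : V) (ψ : Module.Dual ℂ V) :
    (ψ.smulRight u * A : Module.End ℂ V) = (ψ ∘ₗ A).smulRight u := by
  ext v
  simp

end rk

theorem lie_top_of_rank_one {V : Type} [AddCommGroup V] [Module ℂ V] [FiniteDimensional ℂ V]
    (M : Submodule ℂ (Module.End ℂ V)) (hM : ∀ a ∈ M, ∀ b ∈ M, a * b - b * a ∈ M)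
    (h1 : (1 : Module.End ℂ V) ∈ M) (𝒩 : Set (Module.End ℂ V))
    (hN : ∀ A ∈ 𝒩, ∀ a ∈ M, A * a - a * A ∈ M)
    (hirr : ∀ U : Submodule ℂ V, (∀ A ∈ 𝒩, ∀ u ∈ U, A u ∈ U) → U = ⊥ ∨ U = ⊤)
    (x : Fin 3 → V) (f : Fin 3 → Module.Dual ℂ V) (hfx : ∀ i k, f i (x k) = if i = k then 1 else 0)
    (h01 : (f 1).smulRight (x 0) ∈ M) (h10 : (f 0).smulRight (x 1) ∈ M)
    (h12 : (f 2).smulRight (x 1) ∈ M) (h21 : (f 1).smulRight (x 2) ∈ M) : M = ⊤ := by
  have hd : ∀ i, f i (x i) = 1 := fun i => by simp [hfx]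
  have ho : ∀ {i k}, i ≠ k → f i (x k) = 0 := fun h => by simp [hfx, h]
  have br : ∀ (u u' : V) (ψ ψ' : Module.Dual ℂ V), ψ.smulRight u ∈ M → ψ'.smulRight u' ∈ M →
      ψ u' • ψ'.smulRight u - ψ' u • ψ.smulRight u' ∈ M := fun u u' ψ ψ' h h' => by
    simpa only [rk_mul_rk] using hM _ h _ h'
  have h02 : (f 2).smulRight (x 0) ∈ M := by simpa [hfx] using br _ _ _ _ h01 h12
  have h20 : (f 0).smulRight (x 2) ∈ M := by simpa [hfx] using br _ _ _ _ h21 h10
  have hE : ∀ {i k}, i ≠ k → (f k).smulRight (x i) ∈ M := by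
    intro i k h
    fin_cases i <;> fin_cases k <;> first | exact absurd rfl h | assumption
  have hD : ∀ i k, (f i).smulRight (x i) - (f k).smulRight (x k) ∈ M := by
    intro i k
    by_cases h : i = k
    · simp [h]
    · simpa [hd] using br _ _ _ _ (hE h) (hE (Ne.symm h))
  have third : ∀ i k : Fin 3, i ≠ k → ∃ l, l ≠ i ∧ l ≠ k := by decide
  obtain ⟨G, hG⟩ : ∃ G : V → Module.Dual ℂ V → Module.End ℂ V,
      ∀ u ψ, G u ψ = ψ.smulRight u - ψ u • (f 0).smulRight (x 0) := ⟨_, fun _ _ => rfl⟩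
  have gi : ∀ u ψ i, G u ψ ∈ M ↔ ψ.smulRight u - ψ u • (f i).smulRight (x i) ∈ M := by
    intro u ψ i
    have e : ψ.smulRight u - ψ u • (f i).smulRight (x i) =
        G u ψ + ψ u • ((f 0).smulRight (x 0) - (f i).smulRight (x i)) := by
      rw [hG]
      module
    rw [e, M.add_mem_iff_left (M.smul_mem _ (hD 0 i))]
  have lA : ∀ u i k, G u (f i) ∈ M → G u (f k) ∈ M := by
    intro u i k h
    by_cases hik : i = k
    · rwa [← hik]
    obtain ⟨l, h1, h2⟩ := third i k hik
    have := hM _ ((gi _ _ l).1 h) _ (hE hik)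
    simp only [sub_mul, mul_sub, smul_mul_assoc, mul_smul_comm, rk_mul_rk, hd, ho h1, ho h2.symm,
      one_smul, zero_smul, smul_zero, sub_zero] at this
    exact (gi _ _ i).2 this
  have lB : ∀ ψ i k, G (x i) ψ ∈ M → G (x k) ψ ∈ M := by
    intro ψ i k h
    by_cases hik : i = k
    · rwa [← hik]
    obtain ⟨l, h1, h2⟩ := third i k hik
    have := hM _ (hE (Ne.symm hik)) _ ((gi _ _ l).1 h)
    simp only [sub_mul, mul_sub, smul_mul_assoc, mul_smul_comm, rk_mul_rk, hd, ho h1.symm, ho h2,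
      one_smul, zero_smul, smul_zero, sub_zero] at this
    exact (gi _ _ i).2 this
  have lC : ∀ u ψ, G u (f 0) ∈ M → G (x 0) ψ ∈ M → G u ψ ∈ M := by
    intro u ψ hu hψ
    have h3 := hM _ ((gi _ _ 1).1 hu) _ ((gi _ _ 1).1 hψ)
    simp only [sub_mul, mul_sub, smul_mul_assoc, mul_smul_comm, rk_mul_rk, hd,
      ho (show (0 : Fin 3) ≠ 1 by decide), ho (show (1 : Fin 3) ≠ 0 by decide),
      one_smul, zero_smul, smul_zero, sub_zero] at h3
    have h4 := M.sub_mem (M.sub_mem h3 (M.smul_mem (ψ (x 0) * f 1 u) h10))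
      (M.smul_mem (f 0 u * ψ (x 1)) h01)
    rw [hG]
    refine (congrArg (· ∈ M) ?_).mp h4
    module
  have lD : ∀ A ∈ 𝒩, G (A (x 0)) (f 0) ∈ M := by
    intro A hA
    have h3 := hM _ (hN A hA _ h01) _ h12
    rw [mul_rk A, rk_mul A] at h3
    simp only [sub_mul, mul_sub, rk_mul_rk, hd, ho (show (2 : Fin 3) ≠ 0 by decide),
      one_smul, zero_smul, sub_zero] at h3
    refine lA _ 2 0 ((gi _ _ 1).2 ?_)
    have h4 := M.add_mem h3 (M.smul_mem ((f 1 ∘ₗ A) (x 1)) h02)
    refine (congrArg (· ∈ M) ?_).mp h4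
    module
  have lD' : ∀ A ∈ 𝒩, G (x 0) (f 0 ∘ₗ A) ∈ M := by
    intro A hA
    have h3 := hM _ h21 _ (hN A hA _ h10)
    rw [mul_rk A, rk_mul A] at h3
    simp only [sub_mul, mul_sub, rk_mul_rk, hd, ho (show (0 : Fin 3) ≠ 2 by decide),
      one_smul, zero_smul] at h3
    refine lB _ 2 0 ((gi _ _ 1).2 ?_)
    have h4 := M.sub_mem (M.smul_mem (f 1 (A (x 1))) h20) h3
    refine (congrArg (· ∈ M) ?_).mp h4
    module
  have lE : ∀ A ∈ 𝒩, ∀ u ψ, G u ψ ∈ M → G (A u) ψ - G u (ψ ∘ₗ A) ∈ M := by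
    intro A hA u ψ h
    have h3 := hN A hA _ h
    have h4 := M.add_mem h3 (M.smul_mem (ψ u) (M.sub_mem (lD A hA) (lD' A hA)))
    refine (congrArg (· ∈ M) ?_).mp h4
    simp only [hG, sub_mul, mul_sub, smul_mul_assoc, mul_smul_comm, mul_rk A, rk_mul A,
      LinearMap.comp_apply]
    module
  let U : Submodule ℂ V :=
    { carrier := {u | G u (f 0) ∈ M}
      add_mem' := fun {a b} ha hb => by
        refine (congrArg (· ∈ M) ?_).mp (M.add_mem ha hb)
        ext v
        simp only [hG, LinearMap.add_apply, LinearMap.sub_apply, LinearMap.smul_apply,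
          LinearMap.smulRight_apply, map_add]
        module
      zero_mem' := by
        refine (congrArg (· ∈ M) ?_).mp M.zero_mem
        ext v
        simp [hG]
      smul_mem' := fun c a ha => by
        refine (congrArg (· ∈ M) ?_).mp (M.smul_mem c ha)
        ext v
        simp only [hG, LinearMap.sub_apply, LinearMap.smul_apply,
          LinearMap.smulRight_apply, map_smul, smul_eq_mul]
        module }
  let W : Submodule ℂ (Module.Dual ℂ V) :=
    { carrier := {ψ | G (x 0) ψ ∈ M}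
      add_mem' := fun {a b} ha hb => by
        refine (congrArg (· ∈ M) ?_).mp (M.add_mem ha hb)
        ext v
        simp only [hG, LinearMap.add_apply, LinearMap.sub_apply, LinearMap.smul_apply,
          LinearMap.smulRight_apply]
        module
      zero_mem' := by
        refine (congrArg (· ∈ M) ?_).mp M.zero_mem
        ext v
        simp [hG]
      smul_mem' := fun c a ha => by
        refine (congrArg (· ∈ M) ?_).mp (M.smul_mem c ha)
        ext v
        simp only [hG, LinearMap.sub_apply, LinearMap.smul_apply,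
          LinearMap.smulRight_apply, smul_eq_mul]
        module }
  have hU : U = ⊤ := by
    refine (hirr U fun A hA u hu => ?_).resolve_left fun h => ?_
    · have h3 := M.add_mem (lE A hA u _ hu) (lC _ _ hu (lD' A hA))
      rwa [sub_add_cancel] at h3
    · have h3 : x 1 ∈ U := by
        change G (x 1) (f 0) ∈ M
        simpa [hG, hfx] using h10
      rw [h, Submodule.mem_bot] at h3
      simpa [h3] using hd 1
  have hW : W = ⊤ := by
    have h3 : W.dualCoannihilator = ⊥ := by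
      refine (hirr _ fun A hA u hu => ?_).resolve_right fun h => ?_
      · rw [Submodule.mem_dualCoannihilator] at hu ⊢
        intro ψ hψ
        refine hu (ψ ∘ₗ A) ?_
        have h4 := M.sub_mem (lC _ _ (lD A hA) hψ) (lE A hA _ _ hψ)
        rwa [sub_sub_cancel] at h4
      · have h4 : f 1 ∈ W := by
          change G (x 0) (f 1) ∈ M
          simpa [hG, hfx] using h01
        have h5 : x 1 ∈ W.dualCoannihilator := h ▸ Submodule.mem_top
        have h6 := (Submodule.mem_dualCoannihilator _).1 h5 _ h4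
        simp [hd] at h6
    rw [← Subspace.dualCoannihilator_dualAnnihilator_eq (W := W), h3,
      Submodule.dualAnnihilator_bot]
  have hall : ∀ u ψ, G u ψ ∈ M := fun u ψ =>
    lC u ψ (show u ∈ U from hU ▸ Submodule.mem_top) (show ψ ∈ W from hW ▸ Submodule.mem_top)
  let b := Module.finBasis ℂ V
  have hT : ∀ T : Module.End ℂ V,
      T - (∑ i, b.coord i (T (b i))) • (f 0).smulRight (x 0) ∈ M := by
    intro T
    refine (congrArg (· ∈ M) ?_).mp (M.sum_mem fun i (_ : i ∈ Finset.univ) => hall (T (b i)) (b.coord i))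
    simp only [hG, Finset.sum_sub_distrib, Finset.sum_smul]
    congr 1
    ext v
    simp only [LinearMap.sum_apply, LinearMap.smulRight_apply, ← map_smul, ← map_sum,
      Module.Basis.coord_apply, b.sum_repr]
  have h00 : (f 0).smulRight (x 0) ∈ M := by
    have h3 := M.sub_mem h1 (hT 1)
    have : Nontrivial V := ⟨⟨x 0, 0, fun h => by simpa [h] using hd 0⟩⟩
    have h4 : ((Module.finrank ℂ V : ℕ) : ℂ) ≠ 0 := Nat.cast_ne_zero.2 Module.finrank_pos.ne'
    rw [sub_sub_cancel] at h3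
    simp only [Module.End.one_apply, Module.Basis.coord_apply, Module.Basis.repr_self,
      Finsupp.single_eq_same, Finset.sum_const, Finset.card_univ, Fintype.card_fin, nsmul_eq_mul,
      mul_one] at h3
    exact (M.smul_mem_iff h4).1 h3
  refine eq_top_iff.2 fun T _ => ?_
  have h3 := M.add_mem (hT T) (M.smul_mem (∑ i, b.coord i (T (b i))) h00)
  rwa [sub_add_cancel] at h3

end Vale.Agent.P225
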