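import Vale.Agent.P225.Irred
import Vale.Agent.P225.RankOne
import Vale.Agent.P225.GenCAux

/-!
Complex generation theorem. Let `H a`, `Ee α β` be the restrictions of `hY a`, `eY α β` (as families
over `j`; `exists_rep`, `eY_mem_HarmY`), `c` the central family of scalars, `sg α = ± 1` the sign
(`+1` for `α.2 = false`).
1. Four sign patterns give `c H a H b ∈ M` for `a ≠ b`:
   `(h_a+h_b+r)² - (h_a-h_b+r)² - (-h_a+h_b+r)² + (-h_a-h_b+r)² = 8 h_a h_b` (all `hY` commute:
   `coeff_hY`).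
2. `hY d * eY α β = eY α β * (hY d + δ)` with `δ = sg α [d = α.1] + sg β [d = β.1]`, and
   `eY α β`, `eY α γ` commute for distinct indices (`eY_eq_xi`, `xi_comm`). For `α, β, γ` with
   distinct indices `a, b, g`: `[Ee α β, [Ee α γ, c H b H g]] = sg β sg γ • c Ee α β Ee α γ`, so
   `Y = c Ee α β Ee α γ ∈ M`.
3. Call `T` diagonal with symbol `φ` if `coeff s (T j f) = φ j s * coeff s f`. The set of diagonal
   `T` with `Y T ∈ M` is a subspace containing `1`, and closed under multiplication by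
   `ℓ_{de} = c (δ_d H e + δ_e H d + δ_d δ_e)` (`d ≠ e`, `δ = 2 α + β + γ` as a weight), because
   `[c H d H e, Y T] = Y ℓ_{de} T`. Fix a fourth index `d0`, `δ0 = (d0, false)`, and the source
   monomial `s0 = bar α + bar γ + (deg j0 - 2) δ0`. If `(j, s)` (with `s` of degree `deg j`) has the
   same values of all the symbols `ℓ_{de}` as `(j0, s0)`, then `(j, s) = (j0, s0)`: with
   `u_a = sg α * wt_a s` etc., `c_j (2 u_b + u_a + 2) = c_{j0}`, `c_j (2 u_g + u_a + 2) = -c_{j0}`,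
   `c_j (u_b + u_g + 1) = 0` give `u_a = -1`, `c_{j0} = (2 u_b + 1) c_j`, so `j = j0` by `hc`, then
   `u_b = 0`, `u_g = -1`, `wt_{d0} s = deg j0 - 2`, so `s0 ≤ s` and the degrees agree. Multiplying the
   factors `ℓ - ℓ(j,s)` over the finitely many other pairs gives a diagonal `T` with symbol the
   indicator of `(j0, s0)`; `Y T = Pi.single j0 (-c_{j0} • (coeff s0).smulRight (X α X β X δ0^(deg-2)))`.
4. With indices `0, 1, 2` and `d0 = 3`, take the monomials `x 0 = z0 z1 M`, `x 1 = conj z0 * z2 M`,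
   `x 2 = z0 * conj z1 * M` (`M = z3^(deg-2)`; they are harmonic). A source `{s, t}` goes to
   `{bar s, r}`, so the four hypotheses of `lie_top_of_rank_one` hold for
   `M.comap (LinearMap.single j0)`, normalised by the `Ee α β j0` (irreducible by `irred_HarmY`).
5. Every element is the sum of its `Pi.single` components.
-/

namespace Vale.Agent.P225

open scoped ContDiff
open Filter Topology MvPolynomial Matrix Set

section Diag

variable {m : ℕ} {κ : Type} {deg : κ → ℕ}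

/-- diagonal families of operators, with symbol `φ` -/
private def Diag (T : (j : κ) → Module.End ℂ (HarmY m (deg j)))
    (φ : κ → (Fin m × Bool →₀ ℕ) → ℂ) : Prop :=
  ∀ j (f : HarmY m (deg j)) s,
    coeff s (T j f : MvPolynomial (Fin m × Bool) ℂ) = φ j s * coeff s (f : MvPolynomial _ ℂ)

variable {T T' : (j : κ) → Module.End ℂ (HarmY m (deg j))}
  {φ φ' : κ → (Fin m × Bool →₀ ℕ) → ℂ}

private theorem Diag.one : Diag (1 : (j : κ) → Module.End ℂ (HarmY m (deg j))) fun _ _ => 1 :=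
  fun j f s => by simp

private theorem Diag.mul (h : Diag T φ) (h' : Diag T' φ') :
    Diag (T * T') fun j s => φ j s * φ' j s := fun j f s => by
  rw [Pi.mul_apply, Module.End.mul_apply, h, h', mul_assoc]

private theorem Diag.add (h : Diag T φ) (h' : Diag T' φ') :
    Diag (T + T') fun j s => φ j s + φ' j s := fun j f s => by
  rw [Pi.add_apply, LinearMap.add_apply, Submodule.coe_add, coeff_add, h, h', add_mul]

private theorem Diag.smul (a : ℂ) (h : Diag T φ) : Diag (a • T) fun j s => a * φ j s :=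
  fun j f s => by
    rw [Pi.smul_apply, LinearMap.smul_apply, Submodule.coe_smul, coeff_smul, h, smul_eq_mul,
      mul_assoc]

private theorem Diag.ext (h : Diag T φ) (h' : Diag T' φ') (e : ∀ j s, φ j s = φ' j s) :
    T = T' := by
  funext j
  refine LinearMap.ext fun f => Subtype.ext (MvPolynomial.ext _ _ fun s => ?_)
  rw [h, h', e]

private theorem Diag.comm (h : Diag T φ) (h' : Diag T' φ') : T * T' = T' * T :=
  (h.mul h').ext (h'.mul h) fun _ _ => mul_comm _ _

end Diag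

private theorem alg_Y {A : Type} [Ring A] (cc Eb Eg Hb Hg : A) (ccc : ∀ T, T * cc = cc * T)
    (a1 : Hg * Eg = Eg * (Hg + 1)) (a2 : Hb * Eg = Eg * Hb) (a3 : Hb * Eb = Eb * (Hb + 1))
    (EE : Eb * Eg = Eg * Eb) :
    Eb * (Eg * (cc * Hb * Hg) - cc * Hb * Hg * Eg) -
      (Eg * (cc * Hb * Hg) - cc * Hb * Hg * Eg) * Eb = cc * (Eb * Eg) := by
  have e1 : Eg * (cc * Hb * Hg) - cc * Hb * Hg * Eg = -(cc * Eg * Hb) := by
    rw [mul_assoc (cc * Hb), a1, ← mul_assoc (cc * Hb), mul_assoc cc Hb Eg, a2,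
      ← mul_assoc Eg, ← mul_assoc Eg, ccc Eg]
    noncomm_ring
  rw [e1, neg_mul, mul_assoc (cc * Eg), a3, mul_neg, ← mul_assoc Eb, ← mul_assoc Eb, ccc Eb,
    mul_assoc cc Eb Eg, EE]
  noncomm_ring

private theorem alg_L {A : Type} [Ring A] [Algebra ℂ A] (cc Y T H H' : A) (p q : ℂ)
    (ccc : ∀ T, T * cc = cc * T) (a1 : H * Y = Y * (H + p • 1)) (a2 : H' * Y = Y * (H' + q • 1))
    (a3 : T * (cc * H * H') = cc * H * H' * T) :
    cc * H * H' * (Y * T) - Y * T * (cc * H * H') =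
      Y * (cc * (p • H' + q • H + (p * q) • 1) * T) := by
  rw [mul_assoc Y T, a3, ← mul_assoc _ Y T, mul_assoc _ H' Y, a2, ← mul_assoc _ Y,
    mul_assoc cc H Y, a1, ← mul_assoc cc Y, ← ccc Y]
  simp only [mul_add, add_mul, smul_mul_assoc, mul_smul_comm, one_mul, mul_one, mul_assoc,
    smul_add, smul_smul]
  module

private theorem single_br {κ : Type} [DecidableEq κ] {A : κ → Type} [∀ j, Ring (A j)] (j0 : κ)
    (T : ∀ j, A j) (a : A j0) :
    T * Pi.single j0 a - Pi.single j0 a * T = Pi.single j0 (T j0 * a - a * T j0) := by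
  rw [Pi.single_sub, Pi.single_mul_right, Pi.single_mul_left]

private theorem single_br' {κ : Type} [DecidableEq κ] {A : κ → Type} [∀ j, Ring (A j)] (j0 : κ)
    (a b : A j0) : Pi.single j0 a * Pi.single j0 b - Pi.single j0 b * Pi.single j0 a =
      Pi.single j0 (a * b - b * a) := by
  rw [Pi.single_sub, Pi.single_mul, Pi.single_mul]

/-- Step 1. -/
private theorem step1 {m : ℕ} {κ : Type} (deg : κ → ℕ) (c : κ → ℝ)
    (M : Submodule ℂ ((j : κ) → Module.End ℂ (HarmY m (deg j))))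
    (hX : ∀ ε : Fin m → ℝ, (∀ a, ε a = 1 ∨ ε a = -1) →
      ∀ T : (j : κ) → Module.End ℂ (HarmY m (deg j)),
        (∀ j, Rep (T j) ((c j : ℂ) • (∑ a, (ε a : ℂ) • hY a) ^ 2)) → T ∈ M)
    {ρ ρ' : Fin m × Bool} (hρ : ρ.1 ≠ ρ'.1) {T : (j : κ) → Module.End ℂ (HarmY m (deg j))}
    (hT : Diag T fun j s => c j * gcU ρ s * gcU ρ' s) : T ∈ M := by
  have hS : ∀ (ε : Fin m → ℝ) (f : MvPolynomial (Fin m × Bool) ℂ) s,
      coeff s ((∑ a, (ε a : ℂ) • hY a) f) =
        (∑ a, (ε a : ℂ) * (gcU (a, false) s : ℂ)) * coeff s f := by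
    intro ε f s
    rw [LinearMap.sum_apply, coeff_sum, Finset.sum_mul]
    refine Finset.sum_congr rfl fun a _ => ?_
    rw [LinearMap.smul_apply, coeff_smul, coeff_hY, smul_eq_mul]
    simp only [gcU, bar, Bool.not_false]
    push_cast
    ring
  have hmem : ∀ (ε : Fin m → ℝ) j, ∀ f ∈ HarmY m (deg j),
      (∑ a, (ε a : ℂ) • hY a) f ∈ HarmY m (deg j) := by
    intro ε j f hf
    rw [LinearMap.sum_apply]
    exact Submodule.sum_mem _ fun a _ => Submodule.smul_mem _ _ (eY_mem_HarmY _ _ hf)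
  have hex : ∀ ε : Fin m → ℝ, (∀ a, ε a = 1 ∨ ε a = -1) → ∃ T ∈ M,
      Diag T fun j s => c j * (∑ a, (ε a : ℂ) * (gcU (a, false) s : ℂ)) ^ 2 := by
    intro ε hε
    have h1 : ∀ j, ∃ T : Module.End ℂ (HarmY m (deg j)),
        Rep T ((c j : ℂ) • (∑ a, (ε a : ℂ) • hY a) ^ 2) := fun j => exists_rep fun f hf => by
      rw [LinearMap.smul_apply, sq, Module.End.mul_apply]
      exact Submodule.smul_mem _ _ (hmem ε j _ (hmem ε j _ hf))
    choose T hT using h1
    refine ⟨T, hX ε hε T hT, fun j f s => ?_⟩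
    rw [hT j f, LinearMap.smul_apply, sq, Module.End.mul_apply, coeff_smul, hS, hS, smul_eq_mul]
    ring
  have hsum : ∀ (σ τ : ℝ) (w : Fin m → ℂ),
      ∑ a, ((if a = ρ.1 then σ else if a = ρ'.1 then τ else 1 : ℝ) : ℂ) * w a =
        (σ - 1) * w ρ.1 + (τ - 1) * w ρ'.1 + ∑ a, w a := by
    intro σ τ w
    have : ∀ a, ((if a = ρ.1 then σ else if a = ρ'.1 then τ else 1 : ℝ) : ℂ) * w a =
        (if a = ρ.1 then (σ - 1) * w a else 0) + (if a = ρ'.1 then (τ - 1) * w a else 0) + w a := by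
      intro a
      by_cases h1 : a = ρ.1
      · have h2 : a ≠ ρ'.1 := fun h => hρ (h1.symm.trans h)
        rw [if_pos h1, if_pos h1, if_neg h2]
        ring
      · by_cases h2 : a = ρ'.1
        · rw [if_neg h1, if_neg h1, if_pos h2, if_pos h2]
          ring
        · rw [if_neg h1, if_neg h1, if_neg h2, if_neg h2]
          simp
    simp only [this, Finset.sum_add_distrib, Finset.sum_ite_eq', Finset.mem_univ, if_true]
  have hε : ∀ σ τ : ℝ, (σ = 1 ∨ σ = -1) → (τ = 1 ∨ τ = -1) → ∀ a,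
      (if a = ρ.1 then σ else if a = ρ'.1 then τ else 1 : ℝ) = 1 ∨
      (if a = ρ.1 then σ else if a = ρ'.1 then τ else 1 : ℝ) = -1 := by
    intro σ τ h1 h2 a
    split_ifs
    · exact h1
    · exact h2
    · exact Or.inl rfl
  obtain ⟨T1, m1, d1⟩ := hex _ (hε 1 1 (Or.inl rfl) (Or.inl rfl))
  obtain ⟨T2, m2, d2⟩ := hex _ (hε 1 (-1) (Or.inl rfl) (Or.inr rfl))
  obtain ⟨T3, m3, d3⟩ := hex _ (hε (-1) 1 (Or.inr rfl) (Or.inl rfl))
  obtain ⟨T4, m4, d4⟩ := hex _ (hε (-1) (-1) (Or.inr rfl) (Or.inr rfl))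
  have hsg : ∀ α : Fin m × Bool, ∃ e : ℂ, ∀ s, (gcU α s : ℂ) = e * gcU (α.1, false) s := by
    rintro ⟨a, b⟩
    cases b
    · exact ⟨1, fun s => by simp⟩
    · exact ⟨-1, fun s => by simp [gcU, bar]⟩
  obtain ⟨e, he⟩ := hsg ρ
  obtain ⟨e', he'⟩ := hsg ρ'
  rw [hT.ext ((((d1.add (d2.smul (-1))).add (d3.smul (-1))).add d4).smul (e * e' / 8))
    fun j s => ?_]
  · exact M.smul_mem _ (M.add_mem (M.add_mem (M.add_mem m1 (M.smul_mem _ m2)) (M.smul_mem _ m3)) m4)
  · simp only [hsum]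
    rw [he, he']
    push_cast
    ring

/-- Steps 2 and 3. -/
private theorem step3 {m : ℕ} {κ : Type} [Fintype κ] [DecidableEq κ] (deg : κ → ℕ) (c : κ → ℝ)
    (hc0 : ∀ j, c j ≠ 0) (hc : ∀ j j' (u : ℤ), c j = u * c j' → j = j')
    (M : Submodule ℂ ((j : κ) → Module.End ℂ (HarmY m (deg j))))
    (hM : ∀ a ∈ M, ∀ b ∈ M, a * b - b * a ∈ M)
    (E : Fin m × Bool → Fin m × Bool → (j : κ) → Module.End ℂ (HarmY m (deg j)))
    (hE : ∀ α β j, Rep (E α β j) (eY α β))
    (hN : ∀ α β, ∀ a ∈ M, E α β * a - a * E α β ∈ M)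
    (hq : ∀ {ρ ρ' : Fin m × Bool}, ρ.1 ≠ ρ'.1 →
      ∀ {T : (j : κ) → Module.End ℂ (HarmY m (deg j))},
      (Diag T fun j s => c j * gcU ρ s * gcU ρ' s) → T ∈ M)
    {α β γ δ : Fin m × Bool} (h1 : α.1 ≠ β.1) (h2 : α.1 ≠ γ.1) (h3 : β.1 ≠ γ.1)
    (h4 : α.1 ≠ δ.1) (h5 : β.1 ≠ δ.1) (h6 : γ.1 ≠ δ.1) (j0 : κ) {n : ℕ} (hn : deg j0 = n + 2)
    (T0 : Module.End ℂ (HarmY m (deg j0)))
    (hT0 : ∀ f, (T0 f : MvPolynomial (Fin m × Bool) ℂ) =
      monomial (gcM α β δ n) (coeff (gcM (bar α) (bar γ) δ n) (f : MvPolynomial _ ℂ))) :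
    Pi.single j0 T0 ∈ M := by
  set cc : (j : κ) → Module.End ℂ (HarmY m (deg j)) := fun j => (c j : ℂ) • 1 with hcc
  have dc : Diag cc fun j _ => c j := fun j f s => by simp [hcc]
  have ccc : ∀ T, T * cc = cc * T := by
    intro T
    funext j
    simp [hcc]
  set H : Fin m × Bool → (j : κ) → Module.End ℂ (HarmY m (deg j)) := fun ρ => E ρ (bar ρ) with hH
  have dH : ∀ ρ, Diag (H ρ) fun _ s => gcU ρ s := fun ρ j f s => by
    rw [hH]
    simp only
    rw [hE, gc_coeff_h]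
  have HE : ∀ ρ α β, H ρ * E α β = E α β * (H ρ + (gcW ρ α + gcW ρ β) • 1) := by
    intro ρ α β
    funext j
    refine LinearMap.ext fun f => Subtype.ext ?_
    simp only [hH, Pi.mul_apply, Pi.add_apply, Pi.smul_apply, Pi.one_apply, Module.End.mul_apply,
      LinearMap.add_apply, LinearMap.smul_apply, Module.End.one_apply, map_add, map_smul,
      Submodule.coe_add, Submodule.coe_smul, hE _ _ j _]
    exact gc_h_comm _ _ _ _
  have EE : E α β * E α γ = E α γ * E α β := by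
    funext j
    refine LinearMap.ext fun f => Subtype.ext ?_
    simp only [Pi.mul_apply, Module.End.mul_apply, hE _ _ j _]
    exact gc_e_comm h1 h2 h3 _
  have hQ : ∀ {ρ ρ' : Fin m × Bool}, ρ.1 ≠ ρ'.1 → cc * H ρ * H ρ' ∈ M :=
    fun h => hq h ((dc.mul (dH _)).mul (dH _))
  set Y := cc * (E α β * E α γ) with hY
  have hYM : Y ∈ M := by
    have a1 := HE γ α γ
    have a2 := HE β α γ
    have a3 := HE β α β
    rw [gcW_ne h2.symm, gcW_self, zero_add, one_smul] at a1
    rw [gcW_ne h1.symm, gcW_ne h3, zero_add, zero_smul, add_zero] at a2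
    rw [gcW_ne h1.symm, gcW_self, zero_add, one_smul] at a3
    have k := hN α β _ (hN α γ _ (hQ h3))
    rw [hY]
    exact (alg_Y cc (E α β) (E α γ) (H β) (H γ) ccc a1 a2 a3 EE) ▸ k
  have HY : ∀ ρ, H ρ * Y = Y * (H ρ + (2 * gcW ρ α + gcW ρ β + gcW ρ γ) • 1) := by
    intro ρ
    rw [hY, ← mul_assoc, ccc (H ρ), mul_assoc cc, ← mul_assoc (H ρ), HE, mul_assoc (E α β),
      add_mul, HE, mul_assoc cc, mul_assoc (E α β)]
    congr 2
    simp only [mul_add, smul_mul_assoc, mul_smul_comm, one_mul, mul_one]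
    module
  have hstep : ∀ {ρ ρ' : Fin m × Bool} (p q : ℂ), ρ.1 ≠ ρ'.1 →
      2 * gcW ρ α + gcW ρ β + gcW ρ γ = p → 2 * gcW ρ' α + gcW ρ' β + gcW ρ' γ = q →
      ∀ T φ, Diag T φ → Y * T ∈ M → ∀ a : ℂ, ∃ T', Y * T' ∈ M ∧
        Diag T' fun j s => (c j * (p * gcU ρ' s + q * gcU ρ s + p * q) - a) * φ j s := by
    intro ρ ρ' p q hρ hp hq T φ dT mT a
    have dL := (((dc.mul ((((dH ρ').smul p).add ((dH ρ).smul q)).add
      (Diag.one.smul (p * q)))).mul dT).add (dT.smul (-a)))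
    refine ⟨_, ?_, fun j f s => (dL j f s).trans (by ring)⟩
    rw [mul_add, mul_smul_comm]
    refine M.add_mem ?_ (M.smul_mem _ mT)
    have k := hM _ (hQ hρ) _ mT
    have a1 := HY ρ
    have a2 := HY ρ'
    rw [hp] at a1
    rw [hq] at a2
    have a3 : T * (cc * H ρ * H ρ') = cc * H ρ * H ρ' * T :=
      dT.comm ((dc.mul (dH _)).mul (dH _))
    exact (alg_L cc Y T (H ρ) (H ρ') p q ccc a1 a2 a3) ▸ k
  obtain ⟨u1, u2, u3, u4, hsep⟩ := gc_sep h1 h2 h3 h4 h5 h6 n
  set s0 := gcM (bar α) (bar γ) δ n with hs0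
  have wα : 2 * gcW α α + gcW α β + gcW α γ = 2 := by
    rw [gcW_self, gcW_ne h1, gcW_ne h2]; ring
  have wβ : 2 * gcW β α + gcW β β + gcW β γ = 1 := by
    rw [gcW_self, gcW_ne h1.symm, gcW_ne h3]; ring
  have wγ : 2 * gcW γ α + gcW γ β + gcW γ γ = 1 := by
    rw [gcW_self, gcW_ne h2.symm, gcW_ne h3.symm]; ring
  have wδ : 2 * gcW δ α + gcW δ β + gcW δ γ = 0 := by
    rw [gcW_ne h4.symm, gcW_ne h5.symm, gcW_ne h6.symm]; ring
  have hkill : ∀ x : κ × (Fin m × Bool →₀ ℕ), x.2.degree = deg x.1 → x ≠ (j0, s0) →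
      ∀ T φ, Diag T φ → Y * T ∈ M → ∃ (T' : (j : κ) → Module.End ℂ (HarmY m (deg j)))
        (ψ : κ → (Fin m × Bool →₀ ℕ) → ℂ), Y * T' ∈ M ∧ ψ x.1 x.2 = 0 ∧ ψ j0 s0 ≠ 0 ∧
        Diag T' fun j s => ψ j s * φ j s := by
    rintro ⟨j, s⟩ hx hne T φ dT mT
    have gen : ∀ {ρ ρ' : Fin m × Bool} (p q : ℂ), ρ.1 ≠ ρ'.1 →
        2 * gcW ρ α + gcW ρ β + gcW ρ γ = p → 2 * gcW ρ' α + gcW ρ' β + gcW ρ' γ = q →
        (c j0 * (p * gcU ρ' s0 + q * gcU ρ s0 + p * q) : ℂ) ≠
          c j * (p * gcU ρ' s + q * gcU ρ s + p * q) →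
        ∃ (T' : (j : κ) → Module.End ℂ (HarmY m (deg j)))
          (ψ : κ → (Fin m × Bool →₀ ℕ) → ℂ), Y * T' ∈ M ∧ ψ j s = 0 ∧ ψ j0 s0 ≠ 0 ∧
          Diag T' fun j s => ψ j s * φ j s := by
      intro ρ ρ' p q hρ hp hq hne
      obtain ⟨T', m', d'⟩ := hstep p q hρ hp hq T φ dT mT
        (c j * (p * gcU ρ' s + q * gcU ρ s + p * q))
      exact ⟨T', _, m', sub_self _, sub_ne_zero.2 hne, d'⟩
    by_contra hcon
    have k1 := not_not.1 (mt (gen _ _ h1 wα wβ) hcon)
    have k2 := not_not.1 (mt (gen _ _ h2 wα wγ) hcon)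
    have k3 := not_not.1 (mt (gen _ _ h3 wβ wγ) hcon)
    have k4 := not_not.1 (mt (gen _ _ h5 wβ wδ) hcon)
    simp only [u1, u2, u3, u4] at k1 k2 k3 k4
    have cj : (c j : ℂ) ≠ 0 := Complex.ofReal_ne_zero.2 (hc0 j)
    have l3 : gcU γ s + gcU β s + 1 = 0 := by
      have : (c j : ℂ) * ((gcU γ s + gcU β s + 1 : ℤ) : ℂ) = 0 := by
        push_cast at k3 ⊢
        linear_combination -k3
      exact_mod_cast (mul_eq_zero.1 this).resolve_left cj
    have l1 : gcU β s + gcU γ s + gcU α s + 2 = 0 := by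
      have : (c j : ℂ) * ((gcU β s + gcU γ s + gcU α s + 2 : ℤ) : ℂ) = 0 := by
        push_cast at k1 k2 ⊢
        linear_combination -(k1 + k2) / 2
      exact_mod_cast (mul_eq_zero.1 this).resolve_left cj
    have l2 : j0 = j := by
      refine hc j0 j (2 * gcU β s + gcU α s + 2) (Complex.ofReal_injective ?_)
      push_cast at k1 ⊢
      linear_combination k1
    subst l2
    have l4 : 2 * gcU β s + gcU α s + 1 = 0 := by
      have : (c j0 : ℂ) * ((2 * gcU β s + gcU α s + 1 : ℤ) : ℂ) = 0 := by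
        push_cast at k1 ⊢
        linear_combination -k1
      exact_mod_cast (mul_eq_zero.1 this).resolve_left cj
    have l5 : gcU δ s - n = 0 := by
      have : (c j0 : ℂ) * ((gcU δ s - n : ℤ) : ℂ) = 0 := by
        push_cast at k4 ⊢
        linear_combination -k4
      exact_mod_cast (mul_eq_zero.1 this).resolve_left cj
    exact hne (by rw [hsep s (hx.trans hn) (by omega) (by omega) (by omega)])
  have hall : ∀ F : Finset (κ × (Fin m × Bool →₀ ℕ)),
      (∀ x ∈ F, x.2.degree = deg x.1 ∧ x ≠ (j0, s0)) →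
      ∃ (T : (j : κ) → Module.End ℂ (HarmY m (deg j))) (φ : κ → (Fin m × Bool →₀ ℕ) → ℂ),
        Y * T ∈ M ∧ Diag T φ ∧ φ j0 s0 ≠ 0 ∧ ∀ x ∈ F, φ x.1 x.2 = 0 := by
    classical
    intro F
    induction F using Finset.induction_on with
    | empty => exact fun _ => ⟨1, _, by rwa [mul_one], Diag.one, one_ne_zero, by simp⟩
    | insert x F _ ih =>
      intro hF
      obtain ⟨T, φ, mT, dT, k1, k2⟩ := ih fun y hy => hF y (Finset.mem_insert_of_mem hy)
      obtain ⟨k3, k4⟩ := hF x (Finset.mem_insert_self _ _)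
      obtain ⟨T', ψ, m', k5, k6, d'⟩ := hkill x k3 k4 T φ dT mT
      refine ⟨T', _, m', d', mul_ne_zero k6 k1, fun y hy => ?_⟩
      rcases Finset.mem_insert.1 hy with rfl | hy
      · rw [k5, zero_mul]
      · rw [k2 y hy, mul_zero]
  have hfin : {x : κ × (Fin m × Bool →₀ ℕ) | x.2.degree = deg x.1 ∧ x ≠ (j0, s0)}.Finite := by
    refine (Set.finite_iUnion fun j : κ =>
      (Finsupp.finite_of_degree_eq (σ := Fin m × Bool) (deg j)).image fun s => (j, s)).subset ?_
    rintro ⟨j, s⟩ hx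
    exact Set.mem_iUnion.2 ⟨j, s, hx.1, rfl⟩
  obtain ⟨T, φ, mT, dT, k1, k2⟩ := hall hfin.toFinset fun x hx => (hfin.mem_toFinset.1 hx)
  have hz : ∀ j s (f : HarmY m (deg j)), (j, s) ≠ (j0, s0) →
      coeff s (T j f : MvPolynomial (Fin m × Bool) ℂ) = 0 := by
    intro j s f hne
    by_cases hs : s.degree = deg j
    · rw [dT, k2 (j, s) (hfin.mem_toFinset.2 ⟨hs, hne⟩), zero_mul]
    · exact (mem_HarmY.1 (T j f).2).1.coeff_eq_zero hs
  have c0 : (c j0 : ℂ) ≠ 0 := Complex.ofReal_ne_zero.2 (hc0 j0)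
  have e : Pi.single j0 T0 = (-(c j0 * φ j0 s0)⁻¹ : ℂ) • (Y * T) := by
    funext j
    refine LinearMap.ext fun f => Subtype.ext ?_
    simp only [hY, hcc, Pi.mul_apply, Pi.smul_apply, Module.End.mul_apply, LinearMap.smul_apply,
      Module.End.one_apply, Submodule.coe_smul, hE _ _ j _]
    by_cases hj : j = j0
    · subst hj
      have e1 : (T j f : MvPolynomial (Fin m × Bool) ℂ) =
          monomial s0 (φ j s0 * coeff s0 (f : MvPolynomial _ ℂ)) := by
        refine MvPolynomial.ext _ _ fun s => ?_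
        rw [coeff_monomial]
        split_ifs with hs
        · rw [← hs, dT]
        · exact hz j s f fun h => hs (congrArg Prod.snd h).symm
      rw [Pi.single_eq_same, hT0, e1, hs0, gc_Y_monomial h1 h2 h3 h4 h5 h6, smul_neg, neg_smul,
        smul_neg, neg_neg, smul_monomial, smul_monomial]
      congr 1
      simp only [smul_eq_mul, ← hs0]
      field_simp
    · have e1 : (T j f : MvPolynomial (Fin m × Bool) ℂ) = 0 :=
        MvPolynomial.ext _ _ fun s => hz j s f fun h => hj (congrArg Prod.fst h)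
      rw [Pi.single_eq_of_ne hj, e1]
      simp
  rw [e]
  exact M.smul_mem _ mT

theorem gen_complex {m : ℕ} (hm : 4 ≤ m) {κ : Type} [Fintype κ] [DecidableEq κ] (deg : κ → ℕ)
    (hdeg : ∀ j, 2 ≤ deg j) (c : κ → ℝ) (hc0 : ∀ j, c j ≠ 0)
    (hc : ∀ j j' (u : ℤ), c j = u * c j' → j = j')
    (M : Submodule ℂ ((j : κ) → Module.End ℂ (HarmY m (deg j))))
    (hX : ∀ ε : Fin m → ℝ, (∀ a, ε a = 1 ∨ ε a = -1) →
      ∀ T : (j : κ) → Module.End ℂ (HarmY m (deg j)),
        (∀ j, Rep (T j) ((c j : ℂ) • (∑ a, (ε a : ℂ) • hY a) ^ 2)) → T ∈ M)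
    (h1 : ∀ j, Pi.single j 1 ∈ M) (hM : ∀ a ∈ M, ∀ b ∈ M, a * b - b * a ∈ M)
    (hN : ∀ α β (T : (j : κ) → Module.End ℂ (HarmY m (deg j))), (∀ j, Rep (T j) (eY α β)) →
      ∀ a ∈ M, T * a - a * T ∈ M) : M = ⊤ := by
  have hex : ∀ α β j, ∃ T : Module.End ℂ (HarmY m (deg j)), Rep T (eY α β) :=
    fun α β j => exists_rep fun f hf => eY_mem_HarmY α β hf
  choose E hE using hex
  have key : ∀ (j0 : κ) (T0 : Module.End ℂ (HarmY m (deg j0))), Pi.single j0 T0 ∈ M := by
    intro j0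
    obtain ⟨n, hn⟩ : ∃ n, deg j0 = n + 2 := ⟨deg j0 - 2, by have := hdeg j0; omega⟩
    set i0 : Fin m := ⟨0, by omega⟩
    set i1 : Fin m := ⟨1, by omega⟩
    set i2 : Fin m := ⟨2, by omega⟩
    set i3 : Fin m := ⟨3, by omega⟩
    have n01 : i0 ≠ i1 := by simp [i0, i1]
    have n02 : i0 ≠ i2 := by simp [i0, i2]
    have n03 : i0 ≠ i3 := by simp [i0, i3]
    have n12 : i1 ≠ i2 := by simp [i1, i2]
    have n13 : i1 ≠ i3 := by simp [i1, i3]
    have n23 : i2 ≠ i3 := by simp [i2, i3]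
    set s : Fin 3 → (Fin m × Bool →₀ ℕ) := ![gcM (i0, false) (i1, false) (i3, false) n,
      gcM (i0, true) (i2, false) (i3, false) n, gcM (i0, false) (i1, true) (i3, false) n] with hs
    have hsm : ∀ i, monomial (s i) (1 : ℂ) ∈ HarmY m (deg j0) := by
      intro i
      rw [hn]
      fin_cases i
      · exact gcM_mem n01 n03 n13 n
      · exact gcM_mem n02 n03 n23 n
      · exact gcM_mem n01 n03 n13 n
    have hsi : Function.Injective s := by
      have a1 : s 0 ≠ s 1 := fun h => by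
        have := congrArg (fun t => t (i0, true)) h
        simp [hs, gcM, n01, n02, n03] at this
      have a2 : s 0 ≠ s 2 := fun h => by
        have := congrArg (fun t => t (i1, true)) h
        simp [hs, gcM, n01.symm, n13] at this
      have a3 : s 1 ≠ s 2 := fun h => by
        have := congrArg (fun t => t (i0, true)) h
        simp [hs, gcM, n01, n02, n03] at this
      intro i k h
      fin_cases i <;> fin_cases k <;>
        first | rfl | exact absurd h a1 | exact absurd h a2 | exact absurd h a3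
              | exact absurd h.symm a1 | exact absurd h.symm a2 | exact absurd h.symm a3
    set x : Fin 3 → HarmY m (deg j0) := fun i => ⟨_, hsm i⟩ with hx
    set f : Fin 3 → Module.Dual ℂ (HarmY m (deg j0)) :=
      fun i => lcoeff ℂ (s i) ∘ₗ (HarmY m (deg j0)).subtype with hf
    have hfx : ∀ i k (g : HarmY m (deg j0)), (((f i).smulRight (x k) g : HarmY m (deg j0)) :
        MvPolynomial (Fin m × Bool) ℂ) = monomial (s k) (coeff (s i) (g : MvPolynomial _ ℂ)) := by
      intro i k g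
      simp [hx, hf, smul_monomial]
    have main := fun {α β γ δ : Fin m × Bool} => step3 deg c hc0 hc M hM E hE
      (fun α β => hN α β _ (hE α β)) (fun h _ hT => step1 deg c M hX h hT)
      (α := α) (β := β) (γ := γ) (δ := δ)
    have htop := lie_top_of_rank_one
      (M.comap (LinearMap.single ℂ (fun j => Module.End ℂ (HarmY m (deg j))) j0))
      (fun a ha b hb => by
        have := hM _ ha _ hb
        simp only [Submodule.mem_comap, LinearMap.coe_single] at this ⊢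
        exact (single_br' (A := fun j => Module.End ℂ (HarmY m (deg j))) j0 a b) ▸ this)
      (h1 j0) {A | ∃ α β, A = E α β j0}
      (by
        rintro _ ⟨α, β, rfl⟩ a ha
        have := hN α β _ (hE α β) _ ha
        simp only [Submodule.mem_comap, LinearMap.coe_single] at this ⊢
        exact (single_br (A := fun j => Module.End ℂ (HarmY m (deg j))) j0 (E α β) a) ▸ this)
      (fun U hU => irred_HarmY (by omega) U fun α β T hT g hg => by
        have e : T = E α β j0 := LinearMap.ext fun g => Subtype.ext ((hT g).trans (hE α β j0 g).symm)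
        rw [e]
        exact hU _ ⟨α, β, rfl⟩ g hg)
      x f
      (fun i k => by
        simp only [hx, hf, LinearMap.comp_apply, Submodule.subtype_apply, lcoeff_apply,
          coeff_monomial, hsi.eq_iff, eq_comm])
      (main (α := (i0, false)) (β := (i1, false)) (γ := (i2, true)) (δ := (i3, false))
        n01 n02 n12 n03 n13 n23 j0 hn _ (hfx 1 0))
      (main (α := (i0, true)) (β := (i2, false)) (γ := (i1, true)) (δ := (i3, false))
        n02 n01 n12.symm n03 n23 n13 j0 hn _ (hfx 0 1))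
      (main (α := (i0, true)) (β := (i2, false)) (γ := (i1, false)) (δ := (i3, false))
        n02 n01 n12.symm n03 n23 n13 j0 hn _ (hfx 2 1))
      (main (α := (i0, false)) (β := (i1, true)) (γ := (i2, true)) (δ := (i3, false))
        n01 n02 n12 n03 n13 n23 j0 hn _ (hfx 1 2))
    intro T0
    have : T0 ∈ M.comap (LinearMap.single ℂ (fun j => Module.End ℂ (HarmY m (deg j))) j0) := by
      rw [htop]
      trivial
    exact this
  rw [eq_top_iff]
  intro T _
  rw [← Finset.univ_sum_single T]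
  exact Submodule.sum_mem _ fun j _ => key j _

end Vale.Agent.P225
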