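import Vale.Agent.P225.Spec

/-!
Basic facts on `pd`, `sig`, `met`.

* The `congr` lemmas: all objects depend only on germs (`Filter.EventuallyEq.fderiv_eq`,
  `Filter.EventuallyEq.eventuallyEq_nhds`).
* `met_local`: `sig` is continuous at `x ≠ 0`; by `dich` either `J (sig z) = J (sig x)` near `x`, or
  `y (sig z) = 0` near `x` and then the coefficient of `vecMulVec` vanishes on both sides.
* `met_smooth`: near `0` the metric is `1`; near `x ≠ 0` use `met_local`. Positivity from `met_quad`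
  and Cauchy-Schwarz `(Jx ⬝ v)² ≤ (x ⬝ x)(v ⬝ v)`, `exp (2 y) - 1 > -1`.
* `met_inv`: `Matrix.inv_eq_right_inv`, `vecMulVec a a * vecMulVec a a = (a ⬝ a) • vecMulVec a a`,
  `Jx ⬝ Jx = x ⬝ x`.
-/

namespace Vale.Agent.P225

open scoped ContDiff
open Filter Topology MvPolynomial Matrix Set

variable {ι : Type} [Fintype ι] [DecidableEq ι]

theorem dotL_apply (x v : ι → ℝ) : dotL x v = x ⬝ᵥ v := by
  simp [dotL, dotProduct]

theorem pd_congr {f g : (ι → ℝ) → ℝ} {x : ι → ℝ} (h : f =ᶠ[𝓝 x] g) (i : ι) :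
    pd i f =ᶠ[𝓝 x] pd i g := by
  filter_upwards [h.eventuallyEq_nhds] with z hz
  rw [pd, pd, hz.fderiv_eq]

theorem christoffel_congr {g g' : (ι → ℝ) → Matrix ι ι ℝ} {x : ι → ℝ} (h : g =ᶠ[𝓝 x] g')
    (k i j : ι) : christoffel g k i j =ᶠ[𝓝 x] christoffel g' k i j := by
  filter_upwards [h.eventuallyEq_nhds] with z hz
  have e : ∀ a b c, pd a (fun z => g z b c) z = pd a (fun z => g' z b c) z := fun a b c =>
    (pd_congr (hz.mono fun w hw => by simp only [hw]) a).eq_of_nhds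
  simp only [christoffel, e, hz.eq_of_nhds]

theorem ricci_congr {g g' : (ι → ℝ) → Matrix ι ι ℝ} {x : ι → ℝ} (h : g =ᶠ[𝓝 x] g') (i j : ι) :
    ricci g i j x = ricci g' i j x := by
  have e : ∀ a b c, christoffel g a b c x = christoffel g' a b c x := fun a b c =>
    (christoffel_congr h a b c).eq_of_nhds
  have e' : ∀ a b c d, pd d (christoffel g a b c) x = pd d (christoffel g' a b c) x :=
    fun a b c d => (pd_congr (christoffel_congr h a b c) d).eq_of_nhds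
  simp only [ricci, e, e']

theorem laplacian_congr {g g' : (ι → ℝ) → Matrix ι ι ℝ} {u u' : (ι → ℝ) → ℝ} {x : ι → ℝ}
    (h : g =ᶠ[𝓝 x] g') (hu : u =ᶠ[𝓝 x] u') : laplacian g u x = laplacian g' u' x := by
  have e : ∀ a b c, christoffel g a b c x = christoffel g' a b c x := fun a b c =>
    (christoffel_congr h a b c).eq_of_nhds
  have e1 : ∀ a, pd a u x = pd a u' x := fun a => (pd_congr hu a).eq_of_nhds
  have e2 : ∀ a b, pd a (pd b u) x = pd a (pd b u') x := fun a b =>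
    (pd_congr (pd_congr hu b) a).eq_of_nhds
  simp only [laplacian, e, e1, e2, h.eq_of_nhds]

theorem christoffel_one (k i j : ι) (x : ι → ℝ) :
    christoffel (fun _ => (1 : Matrix ι ι ℝ)) k i j x = 0 := by
  simp [christoffel, pd]

omit [DecidableEq ι] in
theorem dot_self_nonneg' (x : ι → ℝ) : 0 ≤ x ⬝ᵥ x :=
  Finset.sum_nonneg fun i _ => mul_self_nonneg (x i)

omit [DecidableEq ι] in
theorem contDiff_dot_self : ContDiff ℝ ∞ fun x : ι → ℝ => x ⬝ᵥ x := by
  unfold dotProduct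
  fun_prop

theorem dot_self_pos {x : ι → ℝ} (hx : x ≠ 0) : 0 < x ⬝ᵥ x := by
  exact lt_of_le_of_ne (dot_self_nonneg' x) (fun h => hx (dotProduct_self_eq_zero.1 h.symm))

theorem exp_two_sig {x : ι → ℝ} (hx : x ≠ 0) : Real.exp (2 * sig x) = x ⬝ᵥ x := by
  rw [sig, mul_div_cancel₀ _ two_ne_zero, Real.exp_log (dot_self_pos hx)]

theorem sig_nonpos {x : ι → ℝ} (hx : x ⬝ᵥ x ≤ 1) : sig x ≤ 0 := by
  have := Real.log_nonpos (dot_self_nonneg' x) hx
  unfold sig
  linarith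

theorem hasFDerivAt_sig {x : ι → ℝ} (hx : x ≠ 0) :
    HasFDerivAt (sig : (ι → ℝ) → ℝ) ((x ⬝ᵥ x)⁻¹ • dotL x) x := by
  have h1 : HasFDerivAt (fun x : ι → ℝ => x ⬝ᵥ x) ((2 : ℝ) • dotL x) x := by
    have := HasFDerivAt.fun_sum (u := Finset.univ) fun i _ =>
      (hasFDerivAt_apply (𝕜 := ℝ) i x).mul (hasFDerivAt_apply (𝕜 := ℝ) i x)
    refine this.congr_fderiv ?_
    ext v
    simp [dotL, Finset.mul_sum, two_mul, Finset.sum_add_distrib]
  have h2 := (h1.log (dot_self_pos hx).ne').mul_const (2⁻¹ : ℝ)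
  refine (h2.congr_fderiv ?_).congr_of_eventuallyEq (Eventually.of_forall fun z => ?_)
  · ext v
    simp
    ring
  · simp [sig, div_eq_mul_inv]

theorem contDiffAt_sig {x : ι → ℝ} (hx : x ≠ 0) : ContDiffAt ℝ ∞ (sig : (ι → ℝ) → ℝ) x := by
  exact (contDiff_dot_self.contDiffAt.log (dot_self_pos hx).ne').div_const 2

theorem IsCx.dot_mulVec {J : Matrix ι ι ℝ} (hJ : IsCx J) (u v : ι → ℝ) :
    (J *ᵥ u) ⬝ᵥ v = -(u ⬝ᵥ (J *ᵥ v)) := by
  rw [dotProduct_comm, dotProduct_mulVec, ← mulVec_transpose, hJ.1, neg_mulVec, neg_dotProduct,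
    dotProduct_comm]

theorem IsCx.mulVec_mulVec {J : Matrix ι ι ℝ} (hJ : IsCx J) (u : ι → ℝ) :
    J *ᵥ (J *ᵥ u) = -u := by
  rw [Matrix.mulVec_mulVec, hJ.2, neg_mulVec, one_mulVec]

theorem IsCx.dot_dot {J : Matrix ι ι ℝ} (hJ : IsCx J) (u v : ι → ℝ) :
    (J *ᵥ u) ⬝ᵥ (J *ᵥ v) = u ⬝ᵥ v := by
  rw [hJ.dot_mulVec, hJ.mulVec_mulVec, dotProduct_neg, neg_neg]

theorem IsCx.dot_self {J : Matrix ι ι ℝ} (hJ : IsCx J) (u : ι → ℝ) : (J *ᵥ u) ⬝ᵥ u = 0 := by
  have := hJ.dot_mulVec u u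
  rw [dotProduct_comm u] at this
  linarith

theorem IsCx.trace {J : Matrix ι ι ℝ} (hJ : IsCx J) : ∑ i, J i i = 0 := by
  refine Finset.sum_eq_zero fun i _ => ?_
  have := congrFun (congrFun hJ.1 i) i
  simp only [transpose_apply, Matrix.neg_apply] at this
  linarith

/-- Bessel inequality for the orthogonal pair `x, Jx`. -/
theorem IsCx.bessel {J : Matrix ι ι ℝ} (hJ : IsCx J) (x v : ι → ℝ) :
    (x ⬝ᵥ v) ^ 2 + ((J *ᵥ x) ⬝ᵥ v) ^ 2 ≤ (x ⬝ᵥ x) * (v ⬝ᵥ v) := by
  by_cases hx : x = 0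
  · simp [hx]
  have hρ := dot_self_pos hx
  have h := dot_self_nonneg' ((x ⬝ᵥ x) • v - (x ⬝ᵥ v) • x - ((J *ᵥ x) ⬝ᵥ v) • (J *ᵥ x))
  simp only [sub_dotProduct, dotProduct_sub, smul_dotProduct, dotProduct_smul, smul_eq_mul,
    hJ.dot_dot, hJ.dot_self, dotProduct_comm v x, dotProduct_comm v (J *ᵥ x),
    dotProduct_comm x (J *ᵥ x)] at h
  refine le_of_mul_le_mul_left ?_ hρ
  nlinarith

theorem met_quad (y L : ℝ → ℝ) (J : ℝ → Matrix ι ι ℝ) (x v : ι → ℝ) :
    ∑ i, ∑ j, met y L J x i j * v i * v j = Real.exp (2 * (L (sig x) - sig x)) *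
      (v ⬝ᵥ v + (Real.exp (2 * y (sig x)) - 1) / (x ⬝ᵥ x) * ((J (sig x) *ᵥ x) ⬝ᵥ v) ^ 2) := by
  set a := Real.exp (2 * (L (sig x) - sig x))
  set c := (Real.exp (2 * y (sig x)) - 1) / (x ⬝ᵥ x)
  set w := J (sig x) *ᵥ x
  have e : ∀ i j, met y L J x i j * v i * v j =
      a * ((if i = j then v i * v j else 0) + c * ((w i * v i) * (w j * v j))) := by
    intro i j
    simp only [met, Matrix.smul_apply, Matrix.add_apply, vecMulVec_apply, one_apply, smul_eq_mul]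
    split_ifs <;> ring
  simp only [e, ← Finset.mul_sum, Finset.sum_add_distrib, Finset.sum_ite_eq, Finset.mem_univ,
    if_true, ← Finset.sum_mul]
  simp only [dotProduct, sq]

theorem met_eq_one {y L : ℝ → ℝ} {J : ℝ → Matrix ι ι ℝ} (h : IsProfile y L J) {x : ι → ℝ}
    (hx : x ⬝ᵥ x ≤ 1) : met y L J x = 1 := by
  obtain ⟨h1, h2⟩ := h.neg _ (sig_nonpos hx)
  simp [met, h1, h2]

theorem met_near_zero {y L : ℝ → ℝ} {J : ℝ → Matrix ι ι ℝ} (h : IsProfile y L J) :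
    met y L J =ᶠ[𝓝 0] fun _ => 1 := by
  have : ∀ᶠ x : ι → ℝ in 𝓝 0, x ⬝ᵥ x < 1 :=
    contDiff_dot_self.continuous.continuousAt.eventually_lt continuousAt_const (by simp)
  filter_upwards [this] with x hx
  exact met_eq_one h hx.le

theorem met_local {y L : ℝ → ℝ} {J : ℝ → Matrix ι ι ℝ} (h : IsProfile y L J) {x : ι → ℝ}
    (hx : x ≠ 0) : met y L J =ᶠ[𝓝 x] met y L fun _ => J (sig x) := by
  have hc : Tendsto (sig : (ι → ℝ) → ℝ) (𝓝 x) (𝓝 (sig x)) := (hasFDerivAt_sig hx).continuousAt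
  rcases h.dich (sig x) with k | k
  · filter_upwards [hc.eventually k] with z hz
    simp [met, hz]
  · filter_upwards [hc.eventually k] with z hz
    simp [met, hz]

theorem met_apply (y L : ℝ → ℝ) (J : ℝ → Matrix ι ι ℝ) (x : ι → ℝ) (i j : ι) :
    met y L J x i j = Real.exp (2 * (L (sig x) - sig x)) * ((1 : Matrix ι ι ℝ) i j +
      (Real.exp (2 * y (sig x)) - 1) / (x ⬝ᵥ x) *
        ((J (sig x) *ᵥ x) i * (J (sig x) *ᵥ x) j)) := by
  simp [met, vecMulVec_apply]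

theorem met_smooth {y L : ℝ → ℝ} {J : ℝ → Matrix ι ι ℝ} (h : IsProfile y L J) :
    IsSmoothMetric (met y L J) := by
  refine ⟨fun i j => contDiff_iff_contDiffAt.2 fun x => ?_, fun x => ?_⟩
  · by_cases hx : x = 0
    · subst hx
      exact (contDiffAt_const (c := (1 : Matrix ι ι ℝ) i j)).congr_of_eventuallyEq
        ((met_near_zero h).mono fun z hz => by simp only [hz])
    · refine ContDiffAt.congr_of_eventuallyEq (f := fun z => met y L (fun _ => J (sig x)) z i j) ?_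
        ((met_local h hx).mono fun z hz => by simp only [hz])
      simp only [met_apply]
      have hs := contDiffAt_sig hx
      have hv : ∀ a, ContDiffAt ℝ ∞ (fun z : ι → ℝ => (J (sig x) *ᵥ z) a) x := by
        intro a
        unfold mulVec dotProduct
        fun_prop
      exact ((contDiffAt_const.mul ((h.hL.contDiffAt.comp x hs).sub hs)).exp).mul
        (contDiffAt_const.add ((((contDiffAt_const.mul (h.hy.contDiffAt.comp x hs)).exp.sub
          contDiffAt_const).div contDiff_dot_self.contDiffAt (dot_self_pos hx).ne').mul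
          ((hv i).mul (hv j))))
  · refine posDef_iff_dotProduct_mulVec.2 ⟨?_, fun v hv => ?_⟩
    · ext i j
      simp only [conjTranspose_apply, star_trivial, met_apply, one_apply, eq_comm (a := j),
        mul_comm ((J (sig x) *ᵥ x) j)]
    · have e : star v ⬝ᵥ (met y L J x *ᵥ v) = ∑ i, ∑ j, met y L J x i j * v i * v j := by
        simp only [dotProduct, mulVec, star_trivial, Finset.mul_sum]
        exact Finset.sum_congr rfl fun i _ => Finset.sum_congr rfl fun j _ => by ring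
      rw [e, met_quad]
      refine mul_pos (Real.exp_pos _) ?_
      have hv' := dot_self_pos hv
      by_cases hx : x = 0
      · simpa [hx] using hv'
      have hρ := dot_self_pos hx
      have hb := (h.cx (sig x)).bessel x v
      have hE := Real.exp_pos (2 * y (sig x))
      set E := Real.exp (2 * y (sig x))
      set b := (J (sig x) *ᵥ x) ⬝ᵥ v
      have e2 : v ⬝ᵥ v + (E - 1) / (x ⬝ᵥ x) * b ^ 2 =
          ((x ⬝ᵥ x) * (v ⬝ᵥ v) - b ^ 2 + E * b ^ 2) / (x ⬝ᵥ x) := by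
        field_simp; ring
      rw [e2]
      refine div_pos ?_ hρ
      rcases (sq_nonneg b).eq_or_lt with k | k
      · rw [← k]; simpa using mul_pos hρ hv'
      · nlinarith [sq_nonneg (x ⬝ᵥ v), mul_pos hE k]

theorem met_inv (y L : ℝ → ℝ) {J : Matrix ι ι ℝ} (hJ : IsCx J) {x : ι → ℝ} (hx : x ≠ 0) :
    (met y L (fun _ => J) x)⁻¹ = Real.exp (-2 * (L (sig x) - sig x)) •
      (1 - (nuOf y (sig x) / (x ⬝ᵥ x)) • vecMulVec (J *ᵥ x) (J *ᵥ x)) := by
  refine Matrix.inv_eq_right_inv ?_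
  have hρ := dot_self_pos hx
  have e1 : vecMulVec (J *ᵥ x) (J *ᵥ x) * vecMulVec (J *ᵥ x) (J *ᵥ x) =
      (x ⬝ᵥ x) • vecMulVec (J *ᵥ x) (J *ᵥ x) := by
    rw [vecMulVec_mul_vecMulVec, hJ.dot_dot, vecMulVec_smul]
  have e2 : Real.exp (2 * (L (sig x) - sig x)) * Real.exp (-2 * (L (sig x) - sig x)) = 1 := by
    rw [← Real.exp_add]; simp
  have e3 : Real.exp (2 * y (sig x)) * Real.exp (-2 * y (sig x)) = 1 := by
    rw [← Real.exp_add]; simp
  rw [met, smul_mul_smul_comm, e2, one_smul, add_mul, mul_sub, mul_sub, smul_mul_smul_comm, e1]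
  simp only [one_mul, mul_one, smul_smul]
  rw [sub_add_eq_add_sub, add_sub_assoc, ← sub_smul, ← sub_smul, add_eq_left]
  have : (Real.exp (2 * y (sig x)) - 1) / (x ⬝ᵥ x) -
      (Real.exp (2 * y (sig x)) - 1) / (x ⬝ᵥ x) * (nuOf y (sig x) / (x ⬝ᵥ x)) * (x ⬝ᵥ x) -
      nuOf y (sig x) / (x ⬝ᵥ x) = 0 := by
    unfold nuOf
    generalize Real.exp (-2 * y (sig x)) = F at e3 ⊢
    field_simp
    linear_combination e3
  rw [this, zero_smul]

end Vale.Agent.P225
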