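import Vale.Agent.P225.GeoBasic

/-!
Christoffel symbols of `met` for a constant complex structure (formula checked numerically).

Write `g(u,v) = α (u ⬝ v) + β (j ⬝ u)(j ⬝ v)`, `j = J x`, `ρ = x ⬝ x = exp (2σ)`,
`α = exp (2 (L - σ))`, `β = α θ / ρ`, `θ = exp (2 y) - 1`. For a function `F (sig x)` one has
`pd i = F'(σ) x i / ρ` (`hasFDerivAt_sig`), and `pd i ((J x) a) = J a i`. So
`pd l (g i j) = α' x_l δ_ij / ρ + β' x_l j_i j_j / ρ + β (J_il j_j + j_i J_jl)` with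
`α' = 2 (L' - 1) α`, `β' = β (2 L' - 4) + 2 y' α exp (2 y) / ρ`. With `J` skew,
`(pd_i g_jl + pd_j g_il - pd_l g_ij) / 2 = (α'/2ρ)(x_i δ_jl + x_j δ_il - x_l δ_ij)
  + (β'/2ρ)(x_i j_j j_l + x_j j_i j_l - x_l j_i j_j) + β (j_j J_li + j_i J_lj)`.
Apply `met_inv`: `g⁻¹ w = α⁻¹ (w - ν (j ⬝ w) j / ρ)`, using `j ⬝ x = 0`, `j ⬝ j = ρ`,
`∑ l, j_l J_li = j ⬝ J e_i = x_i`. It is easiest to prove instead that `g` applied to the claimed
vector `gamVec` is the covector above, and then cancel `g`.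
-/

namespace Vale.Agent.P225

open scoped ContDiff
open Filter Topology MvPolynomial Matrix Set

variable {ι : Type} [Fintype ι] [DecidableEq ι]

namespace ChrisAux

theorem pd_form {A B : ℝ → ℝ} {A' B' : ℝ} {x : ι → ℝ} (hx : x ≠ 0)
    (hA : HasDerivAt A A' (sig x)) (hB : HasDerivAt B B' (sig x)) (J : Matrix ι ι ℝ) (c : ℝ)
    (a b l : ι) :
    pd l (fun z => A (sig z) * c + B (sig z) * ((J *ᵥ z) a * (J *ᵥ z) b)) x =
      A' * (x l / (x ⬝ᵥ x)) * c + B' * (x l / (x ⬝ᵥ x)) * ((J *ᵥ x) a * (J *ᵥ x) b) +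
        B (sig x) * (J a l * (J *ᵥ x) b + (J *ᵥ x) a * J b l) := by
  have hs := hasFDerivAt_sig hx
  have hv : ∀ a, HasFDerivAt (fun z : ι → ℝ => (J *ᵥ z) a) (dotL (J a)) x := by
    intro a
    have e : (fun z : ι → ℝ => (J *ᵥ z) a) = dotL (J a) := by
      funext z; rw [dotL_apply]; rfl
    rw [e]; exact (dotL (J a)).hasFDerivAt
  have h := ((hA.comp_hasFDerivAt x hs).mul_const c).add
    ((hB.comp_hasFDerivAt x hs).mul ((hv a).mul (hv b)))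
  rw [pd]
  erw [h.fderiv]
  simp [dotL_apply]
  ring

/-- the Christoffel covector -/
noncomputable def cov (J : Matrix ι ι ℝ) (p q r : ℝ) (x u v : ι → ℝ) : ι → ℝ :=
  p • ((x ⬝ᵥ u) • v + (x ⬝ᵥ v) • u - (u ⬝ᵥ v) • x) +
  q • (((x ⬝ᵥ u) * ((J *ᵥ x) ⬝ᵥ v) + (x ⬝ᵥ v) * ((J *ᵥ x) ⬝ᵥ u)) • (J *ᵥ x) -
    (((J *ᵥ x) ⬝ᵥ u) * ((J *ᵥ x) ⬝ᵥ v)) • x) +
  r • (((J *ᵥ x) ⬝ᵥ v) • (J *ᵥ u) + ((J *ᵥ x) ⬝ᵥ u) • (J *ᵥ v))

theorem dot_cov {J : Matrix ι ι ℝ} (hJ : IsCx J) (p q r : ℝ) (x u v : ι → ℝ) :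
    (J *ᵥ x) ⬝ᵥ cov J p q r x u v =
      ((x ⬝ᵥ u) * ((J *ᵥ x) ⬝ᵥ v) + (x ⬝ᵥ v) * ((J *ᵥ x) ⬝ᵥ u)) * (p + q * (x ⬝ᵥ x) + r) := by
  simp only [cov, dotProduct_add, dotProduct_sub, dotProduct_smul, smul_eq_mul, hJ.dot_dot,
    hJ.dot_self]
  ring

end ChrisAux

open ChrisAux

theorem christoffel_met {y L : ℝ → ℝ} (hy : ContDiff ℝ ∞ y) (hL : ContDiff ℝ ∞ L)
    {J : Matrix ι ι ℝ} (hJ : IsCx J) {x : ι → ℝ} (hx : x ≠ 0) (k i j : ι) :
    christoffel (met y L fun _ => J) k i j x =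
      gamVec J (ca1 L (sig x)) (ca2 y (sig x)) (ca3 y L (sig x)) (ca4 y (sig x)) x
        (Pi.single i 1) (Pi.single j 1) k := by
  have hρ := dot_self_pos hx
  have hy' : HasDerivAt y (deriv y (sig x)) (sig x) :=
    (hy.differentiable (by simp) _).hasDerivAt
  have hL' : HasDerivAt L (deriv L (sig x)) (sig x) :=
    (hL.differentiable (by simp) _).hasDerivAt
  have hA := ((hL'.sub (hasDerivAt_id' (sig x))).const_mul 2).exp
  have hB := hA.mul (((hy'.const_mul 2).exp.sub_const 1).mul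
    ((hasDerivAt_id' (sig x)).const_mul (-2)).exp)
  have hne : ∀ᶠ z in 𝓝 x, z ≠ (0 : ι → ℝ) := isOpen_ne.mem_nhds hx
  have hinv : ∀ z : ι → ℝ, z ≠ 0 → Real.exp (-2 * sig z) = (z ⬝ᵥ z)⁻¹ := by
    intro z hz
    rw [← exp_two_sig hz, ← Real.exp_neg, neg_mul]
  have key : ∀ a b l, pd l (fun z => met y L (fun _ => J) z a b) x = _ := fun a b l =>
    (pd_congr (hne.mono fun z hz => by
      simp only [met_apply, Pi.mul_apply, Pi.sub_apply, hinv z hz]; ring) l).eq_of_nhds.trans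
      (pd_form hx hA hB J ((1 : Matrix ι ι ℝ) a b) a b l)
  simp only [Pi.mul_apply, Pi.sub_apply, hinv x hx] at key
  have hsk : ∀ a b, J b a = -J a b := fun a b => congrFun (congrFun hJ.1 a) b
  have h4 : Real.exp (-4 * sig x) = (x ⬝ᵥ x)⁻¹ * (x ⬝ᵥ x)⁻¹ := by
    rw [← hinv x hx, ← Real.exp_add]; congr 1; ring
  have hα : Real.exp (-2 * (L (sig x) - sig x)) = (Real.exp (2 * (L (sig x) - sig x)))⁻¹ := by
    rw [← Real.exp_neg, neg_mul]
  have hE : Real.exp (-2 * y (sig x)) = (Real.exp (2 * y (sig x)))⁻¹ := by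
    rw [← Real.exp_neg, neg_mul]
  have hα0 := Real.exp_pos (2 * (L (sig x) - sig x))
  have hE0 := Real.exp_pos (2 * y (sig x))
  set α := Real.exp (2 * (L (sig x) - sig x))
  set E := Real.exp (2 * y (sig x))
  set ρ := x ⬝ᵥ x with hρdef
  set s := deriv L (sig x)
  set y1 := deriv y (sig x)
  have e1 : christoffel (met y L fun _ => J) k i j x = ((met y L (fun _ => J) x)⁻¹ *ᵥ
      cov J (α * (s - 1) / ρ) (α * ((E - 1) * (s - 2) + y1 * E) / ρ ^ 2) (α * (E - 1) / ρ) x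
        (Pi.single i 1) (Pi.single j 1)) k := by
    rw [christoffel, Finset.mul_sum]
    refine Finset.sum_congr rfl fun l _ => ?_
    rw [mul_left_comm]
    congr 1
    simp only [key, cov, Pi.add_apply, Pi.sub_apply, Pi.smul_apply, smul_eq_mul,
      dotProduct_single, mulVec_single_one, col_apply, mul_one, hsk l i, hsk l j, hsk i j,
      one_apply, Pi.single_apply, eq_comm (a := l), @eq_comm _ j i]
    field_simp
    ring
  rw [e1, met_inv y L hJ hx, smul_mulVec, sub_mulVec, one_mulVec, smul_mulVec, vecMulVec_mulVec,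
    dot_cov hJ]
  simp only [cov, gamVec, ca1, ca2, ca3, ca4, nuOf, Pi.add_apply, Pi.sub_apply, Pi.smul_apply,
    smul_eq_mul, hinv x hx, h4, hα, hE, MulOpposite.smul_eq_mul_unop, MulOpposite.unop_op,
    ← hρdef]
  field_simp
  ring

end Vale.Agent.P225
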