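import Vale.Agent.P225.GeoBasic

/-!
Distance estimates and completeness.

Let `Θ x = exp (L σ - σ) • x` viewed in `EuclideanSpace ℝ ι` (`Θ x = x` on the unit ball, so `Θ` is
differentiable everywhere). For `x ≠ 0`, `DΘ v = exp (L σ - σ) • (v + (L' - 1) (x ⬝ v)/ρ • x)`, so
`|DΘ v|² = α (v ⬝ v + (L'² - 1) (x ⬝ v)²/ρ) ≤ 4 α (v ⬝ v)`, while by `met_quad` and `IsCx.bessel`
`g(v,v) ≥ α min 1 (exp (2 y)) (v ⬝ v) ≥ α (v ⬝ v)/4` (`exp (-1) ≥ 1/4`). Hence `|DΘ v| ≤ 4 sqrt g(v,v)`
and, integrating along a curve (`intervalIntegral.integral_eq_sub_of_hasDerivAt`,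
`norm_integral_le_integral_norm`), `|Θ x - Θ z| ≤ 4 gdist x z` (`le_csInf`; the set is nonempty:
straight segment). `|Θ x| = exp (L σ)` for `x ≠ 0`. Completeness: a Cauchy sequence has `Θ (x p)`
Cauchy, hence convergent and bounded; since `L → ∞` the `x p` are bounded; `Θ` is continuous and
injective (`L` strictly increasing), so all cluster points coincide and `x p → z`
(`IsCompact.tendsto_nhds_of_unique_mapClusterPt`); finally
`0 ≤ gdist (x p) z ≤ C ‖x p - z‖` using the straight segment and a bound of the (continuous) metric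
coefficients on a compact ball (`met_smooth`).
-/

namespace Vale.Agent.P225

open scoped ContDiff
open Filter Topology MvPolynomial Matrix Set

variable {ι : Type} [Fintype ι] [DecidableEq ι]

theorem gdist_nonneg (g : (ι → ℝ) → Matrix ι ι ℝ) (x z : ι → ℝ) : 0 ≤ gdist g x z := by
  refine Real.sInf_nonneg ?_
  rintro r ⟨c, -, -, -, rfl⟩
  exact intervalIntegral.integral_nonneg zero_le_one fun _ _ => Real.sqrt_nonneg _

namespace DistAux

/-- the radial stretching factor -/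
noncomputable def th (L : ℝ → ℝ) (x : ι → ℝ) : ℝ := Real.exp (L (sig x) - sig x)

omit [DecidableEq ι] in
lemma th_pos (L : ℝ → ℝ) (x : ι → ℝ) : 0 < th L x := Real.exp_pos _

omit [DecidableEq ι] in
lemma cs (a b : ι → ℝ) : (a ⬝ᵥ b) ^ 2 ≤ (a ⬝ᵥ a) * (b ⬝ᵥ b) := by
  simpa only [dotProduct, sq] using Finset.sum_mul_sq_le_sq_mul_sq Finset.univ a b

omit [DecidableEq ι] in
lemma dot_nonneg (a : ι → ℝ) : 0 ≤ a ⬝ᵥ a := Finset.sum_nonneg fun _ _ => mul_self_nonneg _

variable {y L : ℝ → ℝ} {J : ℝ → Matrix ι ι ℝ}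

lemma th_near (h : IsProfile y L J) : (th L : (ι → ℝ) → ℝ) =ᶠ[𝓝 0] fun _ => 1 := by
  have hc : Continuous fun x : ι → ℝ => x ⬝ᵥ x := continuous_id.dotProduct continuous_id
  have h1 : ∀ᶠ x : ι → ℝ in 𝓝 0, x ⬝ᵥ x < 1 :=
    hc.continuousAt.eventually_lt continuousAt_const (by simp)
  filter_upwards [h1] with x hx
  simp [th, (h.neg _ (sig_nonpos hx.le)).2]

lemma th_deriv (h : IsProfile y L J) {c : ℝ → ι → ℝ} {v : ι → ℝ} {t : ℝ}
    (hc : HasDerivAt c v t) : HasDerivAt (fun s => th L (c s))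
      (th L (c t) * ((deriv L (sig (c t)) - 1) * (c t ⬝ᵥ v / (c t ⬝ᵥ c t)))) t := by
  by_cases h0 : c t = 0
  · have h1 : (fun s => th L (c s)) =ᶠ[𝓝 t] fun _ => 1 := by
      have := hc.continuousAt
      rw [ContinuousAt, h0] at this
      exact this.eventually (th_near h)
    refine ((hasDerivAt_const t (1 : ℝ)).congr_deriv ?_).congr_of_eventuallyEq h1
    simp [h0]
  · have h1 := (hasFDerivAt_sig h0).comp_hasDerivAt t hc
    have h2 : HasDerivAt L (deriv L (sig (c t))) (sig (c t)) :=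
      (h.hL.differentiable (by simp) _).hasDerivAt
    refine ((h2.comp t h1).sub h1).exp.congr_deriv ?_
    simp only [th, _root_.smul_apply, dotL_apply, smul_eq_mul, Function.comp, Pi.sub_apply]
    ring

lemma th_cont (h : IsProfile y L J) : Continuous (th L : (ι → ℝ) → ℝ) := by
  refine continuous_iff_continuousAt.mpr fun x => ?_
  by_cases h0 : x = 0
  · rw [h0]
    exact continuousAt_const.congr (th_near h).symm
  · have h1 := (contDiffAt_sig h0).continuousAt
    exact ((h.hL.continuous.continuousAt.comp h1).sub h1).rexp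

lemma quad_ge (h : IsProfile y L J) (hy : ∀ σ, -(1 / 2) ≤ y σ) (x v : ι → ℝ) :
    th L x ^ 2 * (v ⬝ᵥ v) ≤ 4 * ∑ i, ∑ j, met y L J x i j * v i * v j := by
  have e : Real.exp (2 * (L (sig x) - sig x)) = th L x ^ 2 := by
    rw [th, ← Real.exp_nat_mul]; norm_num
  have hE : 1 / 4 ≤ Real.exp (2 * y (sig x)) := by
    have h1 : Real.exp (-1) ≤ Real.exp (2 * y (sig x)) :=
      Real.exp_le_exp.mpr (by linarith [hy (sig x)])
    have h2 := Real.exp_neg_one_gt_d9
    linarith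
  have hb : ((J (sig x) *ᵥ x) ⬝ᵥ v) ^ 2 / (x ⬝ᵥ x) ≤ v ⬝ᵥ v := by
    refine div_le_of_le_mul₀ (dot_nonneg x) (dot_nonneg v) ?_
    have := (h.cx (sig x)).bessel x v
    nlinarith [sq_nonneg (x ⬝ᵥ v)]
  have hb0 : 0 ≤ ((J (sig x) *ᵥ x) ⬝ᵥ v) ^ 2 / (x ⬝ᵥ x) :=
    div_nonneg (sq_nonneg _) (dot_nonneg x)
  rw [met_quad, e, mul_left_comm, div_mul_eq_mul_div, mul_div_assoc]
  refine mul_le_mul_of_nonneg_left ?_ (sq_nonneg _)
  nlinarith [dot_nonneg v]

lemma deriv_le (h : IsProfile y L J) (hL : ∀ σ, 0 < deriv L σ ∧ deriv L σ ≤ 2)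
    (hy : ∀ σ, -(1 / 2) ≤ y σ) {e : ι → ℝ} (he : e ⬝ᵥ e ≤ 1) (x v : ι → ℝ) :
    th L x * ((deriv L (sig x) - 1) * (x ⬝ᵥ v / (x ⬝ᵥ x))) * (e ⬝ᵥ x) + th L x * (e ⬝ᵥ v) ≤
      4 * √(∑ i, ∑ j, met y L J x i j * v i * v j) := by
  have hv := dot_nonneg v
  have hB : (e ⬝ᵥ v) ^ 2 ≤ v ⬝ᵥ v := (cs e v).trans (mul_le_of_le_one_left hv he)
  have hA : ((deriv L (sig x) - 1) * (x ⬝ᵥ v / (x ⬝ᵥ x)) * (e ⬝ᵥ x)) ^ 2 ≤ v ⬝ᵥ v := by
    by_cases h0 : x = 0
    · simpa [h0] using hv
    have hρ := dot_self_pos h0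
    have h1 : (deriv L (sig x) - 1) ^ 2 ≤ 1 := by
      obtain ⟨h2, h3⟩ := hL (sig x)
      nlinarith
    have h2 : (e ⬝ᵥ x) ^ 2 ≤ x ⬝ᵥ x := (cs e x).trans (mul_le_of_le_one_left hρ.le he)
    have h3 : (x ⬝ᵥ v / (x ⬝ᵥ x)) ^ 2 ≤ v ⬝ᵥ v / (x ⬝ᵥ x) := by
      rw [div_pow, div_le_div_iff₀ (by positivity) hρ]
      have := mul_le_mul_of_nonneg_right (cs x v) hρ.le
      nlinarith
    rw [mul_pow, mul_pow]
    calc (deriv L (sig x) - 1) ^ 2 * (x ⬝ᵥ v / (x ⬝ᵥ x)) ^ 2 * (e ⬝ᵥ x) ^ 2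
        ≤ 1 * (v ⬝ᵥ v / (x ⬝ᵥ x)) * (x ⬝ᵥ x) :=
          mul_le_mul (mul_le_mul h1 h3 (sq_nonneg _) zero_le_one) h2 (sq_nonneg _)
            (by positivity)
      _ = v ⬝ᵥ v := by field_simp
  have hq := quad_ge h hy x v
  generalize (deriv L (sig x) - 1) = s at hA ⊢
  have h4 : ((th L x * (s * (x ⬝ᵥ v / (x ⬝ᵥ x))) * (e ⬝ᵥ x) + th L x * (e ⬝ᵥ v)) / 4) ^ 2 ≤
      ∑ i, ∑ j, met y L J x i j * v i * v j := by
    have h5 : (s * (x ⬝ᵥ v / (x ⬝ᵥ x)) * (e ⬝ᵥ x) + e ⬝ᵥ v) ^ 2 ≤ 4 * (v ⬝ᵥ v) := by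
      nlinarith [sq_nonneg (s * (x ⬝ᵥ v / (x ⬝ᵥ x)) * (e ⬝ᵥ x) - e ⬝ᵥ v)]
    have h6 := mul_le_mul_of_nonneg_left h5 (sq_nonneg (th L x))
    nlinarith
  have := Real.le_sqrt_of_sq_le h4
  linarith

lemma seg_contDiff (x z : ι → ℝ) : ContDiff ℝ 1 fun t : ℝ => x + t • (z - x) :=
  contDiff_const.add (contDiff_id.smul contDiff_const)

lemma dot_le (h : IsProfile y L J) (hL : ∀ σ, 0 < deriv L σ ∧ deriv L σ ≤ 2)
    (hy : ∀ σ, -(1 / 2) ≤ y σ) {e : ι → ℝ} (he : e ⬝ᵥ e ≤ 1) (x z : ι → ℝ) :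
    th L z * (e ⬝ᵥ z) - th L x * (e ⬝ᵥ x) ≤ 4 * gdist (met y L J) x z := by
  rw [← div_le_iff₀' (by norm_num)]
  refine le_csInf ⟨_, _, seg_contDiff x z, by simp, by simp, rfl⟩ ?_
  rintro r ⟨c, hc, rfl, rfl, rfl⟩
  rw [div_le_iff₀' (by norm_num), curveLength, ← intervalIntegral.integral_const_mul]
  have hd : ∀ t, HasDerivAt c (deriv c t) t := fun t =>
    (hc.differentiable one_ne_zero t).hasDerivAt
  have hF : ∀ t, HasDerivAt (fun s => th L (c s) * (e ⬝ᵥ c s)) _ t := fun t =>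
    (th_deriv h (hd t)).fun_mul ((dotL e).hasFDerivAt.comp_hasDerivAt t (hd t)
      |>.congr_of_eventuallyEq (Eventually.of_forall fun s => (dotL_apply e (c s)).symm))
  have hcont : Continuous fun t =>
      4 * √(∑ i, ∑ j, met y L J (c t) i j * deriv c t i * deriv c t j) := by
    have h1 := hc.continuous
    have h2 := hc.continuous_deriv le_rfl
    refine continuous_const.mul (Continuous.sqrt ?_)
    refine continuous_finsetSum _ fun i _ => continuous_finsetSum _ fun j _ => ?_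
    exact ((((met_smooth h).1 i j).continuous.comp h1).mul ((continuous_apply i).comp h2)).mul
      ((continuous_apply j).comp h2)
  refine intervalIntegral.sub_le_integral_of_hasDeriv_right_of_le
    (g := fun s => th L (c s) * (e ⬝ᵥ c s)) zero_le_one
    (fun t _ => (hF t).continuousAt.continuousWithinAt) (fun t _ => (hF t).hasDerivWithinAt)
    hcont.integrableOn_Icc fun t _ => ?_
  rw [dotL_apply]
  exact deriv_le h hL hy he _ _

lemma th_sq {x : ι → ℝ} (hx : x ≠ 0) : th L x ^ 2 * (x ⬝ᵥ x) = Real.exp (L (sig x)) ^ 2 := by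
  rw [← exp_two_sig hx, th, ← Real.exp_nat_mul, ← Real.exp_nat_mul, ← Real.exp_add]
  congr 1
  push_cast
  ring

lemma th_dot {x : ι → ℝ} (hx : x ≠ 0) :
    (th L x • x) ⬝ᵥ (th L x • x) = Real.exp (L (sig x)) ^ 2 := by
  rw [← th_sq hx, smul_dotProduct, dotProduct_smul, smul_eq_mul, smul_eq_mul]; ring

lemma inj (hL : StrictMono L) {x z : ι → ℝ} (h : th L x • x = th L z • z) : x = z := by
  by_cases hx : x = 0
  · rw [hx, smul_zero] at h
    rw [hx, (smul_eq_zero.mp h.symm).resolve_left (th_pos L z).ne']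
  by_cases hz : z = 0
  · rw [hz, smul_zero] at h
    rw [hz, (smul_eq_zero.mp h).resolve_left (th_pos L x).ne']
  have h1 := th_dot (L := L) hx
  rw [h, th_dot hz, pow_left_inj₀ (Real.exp_pos _).le (Real.exp_pos _).le two_ne_zero,
    Real.exp_eq_exp] at h1
  have h2 : th L x = th L z := by rw [th, th, hL.injective h1]
  rw [h2] at h
  exact smul_right_injective _ (th_pos L z).ne' h

lemma tendsto_gdist {g : (ι → ℝ) → Matrix ι ι ℝ} (hg : ∀ i j, Continuous fun x => g x i j)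
    (z : ι → ℝ) : Tendsto (fun x => gdist g x z) (𝓝 z) (𝓝 0) := by
  have hc : Continuous fun x : ι → ℝ => ∫ t in (0 : ℝ)..1,
      √(∑ i, ∑ j, g (x + t • (z - x)) i j * (z - x) i * (z - x) j) := by
    refine intervalIntegral.continuous_parametric_intervalIntegral_of_continuous' ?_ 0 1
    refine Continuous.sqrt ?_
    refine continuous_finsetSum _ fun i _ => continuous_finsetSum _ fun j _ => ?_
    exact (((hg i j).comp (by fun_prop)).mul (by fun_prop)).mul (by fun_prop)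
  refine squeeze_zero (fun x => gdist_nonneg g x z) (fun x => ?_) (hc.tendsto' z 0 (by simp))
  refine csInf_le ⟨0, ?_⟩ ⟨_, seg_contDiff x z, by simp, by simp, ?_⟩
  · rintro r ⟨c, -, -, -, rfl⟩
    exact intervalIntegral.integral_nonneg zero_le_one fun _ _ => Real.sqrt_nonneg _
  · have hd : ∀ t : ℝ, deriv (fun t : ℝ => x + t • (z - x)) t = z - x := fun t => by
      have := (((hasDerivAt_id t).smul_const (z - x)).const_add x).deriv
      rwa [one_smul] at this
    simp only [curveLength, hd]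

end DistAux

open DistAux

theorem dist_met {y L : ℝ → ℝ} {J : ℝ → Matrix ι ι ℝ} (h : IsProfile y L J)
    (hL : ∀ σ, 0 < deriv L σ ∧ deriv L σ ≤ 2) (hy : ∀ σ, -(1 / 2) ≤ y σ)
    (hinf : Tendsto L atTop atTop) :
    IsCompleteMetric (met y L J) ∧
      ∀ x, x ≠ 0 → Real.exp (L (sig x)) ≤ 4 * gdist (met y L J) 0 x := by
  have hmono : StrictMono L := strictMono_of_deriv_pos fun σ => (hL σ).1
  constructor
  · intro x hx
    have hcoord : ∀ (a b : ι → ℝ) (i : ι),
        |th L b * b i - th L a * a i| ≤ 4 * gdist (met y L J) a b := by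
      intro a b i
      have h1 := dot_le h hL hy (e := Pi.single i 1) (by simp) a b
      have h2 := dot_le h hL hy (e := Pi.single i (-1)) (by simp) a b
      simp only [single_dotProduct] at h1 h2
      rw [abs_le]
      constructor <;> linarith
    have hcau : CauchySeq fun p => th L (x p) • x p := by
      refine Metric.cauchySeq_iff.mpr fun ε hε => ?_
      obtain ⟨N, hN⟩ := hx (ε / 4) (by positivity)
      refine ⟨N, fun p hp q hq => (dist_pi_lt_iff hε).mpr fun i => ?_⟩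
      have := hN q hq p hp
      rw [Real.dist_eq]
      exact (hcoord (x q) (x p) i).trans_lt (by linarith)
    obtain ⟨w, hw⟩ := cauchySeq_tendsto_of_complete hcau
    have hdot : Tendsto (fun p => (th L (x p) • x p) ⬝ᵥ (th L (x p) • x p)) atTop (𝓝 (w ⬝ᵥ w)) :=
      ((continuous_id.dotProduct continuous_id).tendsto w).comp hw
    obtain ⟨B, hB⟩ := hdot.bddAbove_range
    obtain ⟨S, hS⟩ := (hinf.eventually_gt_atTop (max B 0)).exists
    have hball : ∀ p, x p ∈ Metric.closedBall (0 : ι → ℝ) (Real.exp S) := by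
      intro p
      by_cases h0 : x p = 0
      · rw [h0]; exact Metric.mem_closedBall_self (Real.exp_pos _).le
      have h1 : sig (x p) ≤ S := by
        by_contra hlt
        have h2 := hmono (not_le.mp hlt)
        have h3 := hB ⟨p, rfl⟩
        simp only [th_dot h0] at h3
        have h4 := Real.add_one_le_exp (L (sig (x p)))
        have h5 := le_max_left B 0
        have h6 := le_max_right B 0
        nlinarith
      rw [mem_closedBall_zero_iff, pi_norm_le_iff_of_nonneg (Real.exp_pos _).le]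
      intro i
      refine abs_le_of_sq_le_sq ?_ (Real.exp_pos _).le
      have h2 : x p i * x p i ≤ x p ⬝ᵥ x p :=
        Finset.single_le_sum (f := fun j => x p j * x p j) (fun _ _ => mul_self_nonneg _)
          (Finset.mem_univ i)
      have h3 : Real.exp (2 * sig (x p)) ≤ Real.exp S ^ 2 := by
        rw [← Real.exp_nat_mul]
        exact Real.exp_le_exp.mpr (by push_cast; linarith)
      rw [exp_two_sig h0] at h3
      nlinarith
    have hK := isCompact_closedBall (0 : ι → ℝ) (Real.exp S)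
    have hcl : ∀ a, MapClusterPt a atTop x → th L a • a = w := fun a ha =>
      eq_of_nhds_neBot ((ha.continuousAt_comp (f := fun a : ι → ℝ => th L a • a)
        ((th_cont h).smul continuous_id).continuousAt).clusterPt.mono hw)
    obtain ⟨z, -, hz⟩ := hK.exists_mapClusterPt (f := atTop) (u := x)
      (le_principal_iff.mpr (mem_map.mpr (Eventually.of_forall hball)))
    have hlim : Tendsto x atTop (𝓝 z) :=
      hK.tendsto_nhds_of_unique_mapClusterPt (Eventually.of_forall hball)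
        fun a _ ha => inj hmono ((hcl a ha).trans (hcl z hz).symm)
    exact ⟨z, (tendsto_gdist (fun i j => ((met_smooth h).1 i j).continuous) z).comp hlim⟩
  · intro x hx
    have hρ := exp_two_sig hx
    have e1 : Real.exp (-sig x) * (x ⬝ᵥ x) = Real.exp (sig x) := by
      rw [← hρ, ← Real.exp_add]; congr 1; ring
    have h1 := dot_le h hL hy (e := Real.exp (-sig x) • x) (by
      rw [smul_dotProduct, dotProduct_smul, smul_eq_mul, smul_eq_mul, e1, ← Real.exp_add]
      simp) 0 x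
    rw [dotProduct_zero, mul_zero, sub_zero, smul_dotProduct, smul_eq_mul, e1, th,
      ← Real.exp_add, sub_add_cancel] at h1
    exact h1

end Vale.Agent.P225
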