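import Vale.Agent.P225.GeoLapAux

/-!
The functions `uOf` are harmonic for `met`.

Put `R σ = exp (-jσ) • P σ`; it is constant `= v0` for `σ ≤ 0`, so `u = eval (∑ v0 l • e l)` on the
closed unit ball (also at `0`, where `sig 0 = 0`): smooth near `0` and harmonic there
(`met_near_zero`, `laplacian_congr`, `christoffel_one`). At `x ≠ 0` use `met_local`, `met_inv`,
`christoffel_met`. With `g⁻¹ = α⁻¹ (1 - ν j jᵀ/ρ)`, `j = J x`:
`α Δ u = tr Hess u - ν Hess u (j,j)/ρ - Du (∑ i, Γ(e i, e i) - ν Γ(j,j)/ρ)`, where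
`∑ i, Γ(e i, e i) = (a1 (2-n) - 2 a2 + a3 ρ) x` and `Γ(j,j) = (-a1 ρ - 2 a2 ρ + a3 ρ²) x`; the vector in
brackets is `c x / ρ` with `c = (2-n)(s-1) - y1 - ν` (`s = L'`, `y1 = y'`, `ν = 1 - exp (-2y)`).
For `u = r(σ) e(x)`, `e` harmonic homogeneous of degree `j` (Euler identity
`MvPolynomial.IsHomogeneous.sum_X_mul_pderiv`): `Du x = (r' + j r) e`,
`ρ tr Hess u = (r'' + (n-2) r' + 2 j r') e`, `Hess u (j,j) = r' e + r (ξ²e + j e)` where `ξ = xi J`
(since `ξ² e = Hess e (j,j) + De (J J x)`). Summing over `l` and using `hXi` the equation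
`Δ u = 0` becomes `P'' + ((n-2) L' + y') P' = j (j+n-2) P + ν Xi P`.
The bound: `exp (-jσ) eval x (e l) = eval (exp (-σ) • x) (e l)` and `exp (-σ) • x` lies in the compact
unit cube.
-/

namespace Vale.Agent.P225

open scoped ContDiff
open Filter Topology MvPolynomial Matrix Set

variable {ι : Type} [Fintype ι] [DecidableEq ι]

theorem uOf_eq_Wf {j N : ℕ} (e : Fin N → MvPolynomial ι ℝ) (P : ℝ → Fin N → ℝ) :
    uOf j e P = Wf (fun σ => Real.exp (-(j * σ)) • P σ) e := by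
  funext x
  simp [uOf, Wf, smul_eval]

theorem uOf_ball {j N : ℕ} (e : Fin N → MvPolynomial ι ℝ) {P : ℝ → Fin N → ℝ} {v0 : Fin N → ℝ}
    (h0 : ∀ σ ≤ 0, P σ = Real.exp (j * σ) • v0) {x : ι → ℝ} (hx : x ⬝ᵥ x ≤ 1) :
    uOf j e P x = eval x (∑ l, v0 l • e l) := by
  rw [uOf_eq_Wf, Wf, h0 _ (sig_nonpos hx), smul_smul, ← Real.exp_add, neg_add_cancel,
    Real.exp_zero, one_smul]

theorem uOf_near_zero {j N : ℕ} (e : Fin N → MvPolynomial ι ℝ) {P : ℝ → Fin N → ℝ}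
    {v0 : Fin N → ℝ} (h0 : ∀ σ ≤ 0, P σ = Real.exp (j * σ) • v0) :
    uOf j e P =ᶠ[𝓝 0] fun x => eval x (∑ l, v0 l • e l) := by
  have hc : Continuous fun x : ι → ℝ => x ⬝ᵥ x := continuous_id.dotProduct continuous_id
  have : ∀ᶠ x : ι → ℝ in 𝓝 0, x ⬝ᵥ x < 1 :=
    hc.continuousAt.eventually_lt continuousAt_const (by simp)
  filter_upwards [this] with x hx using uOf_ball e h0 hx.le

theorem pd_eval (f : MvPolynomial ι ℝ) (k : ι) :
    pd k (fun x => eval x f) = fun x => eval x (pderiv k f) := by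
  funext x
  rw [pd, (hasFDerivAt_eval f x).fderiv, dotL_apply, dotProduct_single, mul_one]

theorem laplacian_one_eval {j : ℕ} {f : MvPolynomial ι ℝ} (hf : f ∈ Harm ι ℝ j) (x : ι → ℝ) :
    laplacian (fun _ => (1 : Matrix ι ι ℝ)) (fun x => eval x f) x = 0 := by
  have := congrArg (eval x) (mem_Harm.1 hf).2
  simpa [laplacian, christoffel_one, pd_eval, Matrix.one_apply] using this

theorem uOf_bound {j N : ℕ} {e : Fin N → MvPolynomial ι ℝ} (he : ∀ l, (e l).IsHomogeneous j)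
    (P : ℝ → Fin N → ℝ) : ∃ C, 0 ≤ C ∧ ∀ x, x ≠ 0 → |uOf j e P x| ≤ C * ‖P (sig x)‖ := by
  have hc : Continuous fun z : ι → ℝ => ∑ l, |eval z (e l)| :=
    continuous_finsetSum _ fun l _ => (contDiff_eval (e l)).continuous.abs
  obtain ⟨C, hC⟩ := (isCompact_closedBall (0 : ι → ℝ) 1).exists_bound_of_continuousOn
    hc.continuousOn
  refine ⟨C, (norm_nonneg _).trans (hC 0 (by simp)), fun x hx => ?_⟩
  have hm : Real.exp (-sig x) • x ∈ Metric.closedBall (0 : ι → ℝ) 1 := by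
    rw [mem_closedBall_zero_iff, pi_norm_le_iff_of_nonneg zero_le_one]
    intro i
    have h1 : x i * x i ≤ x ⬝ᵥ x :=
      Finset.single_le_sum (f := fun i => x i * x i) (fun i _ => mul_self_nonneg _)
        (Finset.mem_univ i)
    have h2 : Real.exp (-sig x) * Real.exp (-sig x) * (x ⬝ᵥ x) = 1 := by
      rw [← exp_two_sig hx, ← Real.exp_add, ← Real.exp_add, ← Real.exp_zero]; congr 1; ring
    rw [Real.norm_eq_abs, ← sq_le_one_iff_abs_le_one, Pi.smul_apply, smul_eq_mul]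
    nlinarith [mul_self_nonneg (Real.exp (-sig x))]
  have h3 := (le_abs_self _).trans (hC _ hm)
  calc |uOf j e P x| ≤ ∑ l, |Real.exp (-(j * sig x)) * P (sig x) l * eval x (e l)| :=
        Finset.abs_sum_le_sum_abs _ _
    _ ≤ ∑ l, |eval (Real.exp (-sig x) • x) (e l)| * ‖P (sig x)‖ :=
        Finset.sum_le_sum fun l _ => by
          rw [eval_smul_homog (he l), ← Real.exp_nat_mul, mul_neg, mul_right_comm, abs_mul]
          exact mul_le_mul_of_nonneg_left (norm_le_pi_norm (P (sig x)) l) (abs_nonneg _)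
    _ ≤ C * ‖P (sig x)‖ := by
        rw [← Finset.sum_mul]
        exact mul_le_mul_of_nonneg_right h3 (norm_nonneg _)

theorem harmonic_uOf {y L : ℝ → ℝ} {J : ℝ → Matrix ι ι ℝ} (h : IsProfile y L J) {j N : ℕ}
    {e : Fin N → MvPolynomial ι ℝ} (he : ∀ l, e l ∈ Harm ι ℝ j)
    {Xi : ℝ → (Fin N → ℝ) →L[ℝ] (Fin N → ℝ)}
    (hXi : ∀ σ v, xi (J σ) (xi (J σ) (∑ l, v l • e l)) = ∑ l, Xi σ v l • e l)
    {P Q : ℝ → Fin N → ℝ} (hP : ContDiff ℝ ∞ P)
    (hPQ : Sol2 (fun σ => ((Fintype.card ι : ℝ) - 2) * deriv L σ + deriv y σ)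
      (AOf (j * (j + (Fintype.card ι : ℝ) - 2)) Xi y) P Q univ)
    {v0 : Fin N → ℝ} (h0 : ∀ σ ≤ 0, P σ = Real.exp (j * σ) • v0) :
    ContDiff ℝ ∞ (uOf j e P) ∧ (∀ x, laplacian (met y L J) (uOf j e P) x = 0) ∧
      (∀ x, x ⬝ᵥ x ≤ 1 → uOf j e P x = eval x (∑ l, v0 l • e l)) ∧
      ∃ C, 0 ≤ C ∧ ∀ x, x ≠ 0 → |uOf j e P x| ≤ C * ‖P (sig x)‖ := by
  have hs : ∀ v : Fin N → ℝ, ∑ l, v l • e l ∈ Harm ι ℝ j := fun v =>
    Submodule.sum_mem _ fun l _ => Submodule.smul_mem _ _ (he l)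
  refine ⟨contDiff_iff_contDiffAt.2 fun x => ?_, fun x => ?_, fun x hx => uOf_ball e h0 hx,
    uOf_bound (fun l => (mem_Harm.1 (he l)).1) P⟩
  · by_cases hx : x = 0
    · subst hx
      exact (contDiff_eval _).contDiffAt.congr_of_eventuallyEq (uOf_near_zero e h0)
    · have h1 := contDiffAt_sig hx
      refine ContDiffAt.sum fun l _ => ContDiffAt.mul (ContDiffAt.mul ?_ ?_)
        (contDiff_eval _).contDiffAt
      · exact (contDiffAt_const.mul h1).neg.exp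
      · exact (contDiff_pi.1 hP l).contDiffAt.comp x h1
  by_cases hx : x = 0
  · subst hx
    rw [laplacian_congr (met_near_zero h) (uOf_near_zero e h0), laplacian_one_eval (hs v0)]
  have dE : ∀ σ, HasDerivAt (fun σ : ℝ => Real.exp (-(j * σ)))
      (Real.exp (-(j * σ)) * -(j * 1)) σ := fun σ => ((hasDerivAt_id σ).const_mul (j : ℝ)).neg.exp
  have d0 : ∀ σ, HasDerivAt (fun σ : ℝ => Real.exp (-(j * σ)) • P σ)
      (Real.exp (-(j * σ)) • (Q σ - (j : ℝ) • P σ)) σ := fun σ => by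
    refine ((dE σ).smul (hPQ σ trivial).1).congr_deriv ?_
    module
  have d1 := (dE (sig x)).smul ((hPQ (sig x) trivial).2.sub
    ((hPQ (sig x) trivial).1.const_smul (j : ℝ)))
  rw [laplacian_congr (met_local h hx) (EventuallyEq.refl _ _),
    laplacian_met h.hy h.hL (h.cx _) hx, uOf_eq_Wf, pd_pd_Wf e hx d0 d1]
  refine mul_eq_zero_of_right _ ?_
  have e1 := funext (pd_Wf e hx (d0 (sig x)))
  rw [e1]
  have hJ := h.cx (sig x)
  have h1 : (J (sig x) *ᵥ x) ⬝ᵥ x = 0 := hJ.dot_self x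
  have t0 : (Matrix.of fun i k => eval x (pderiv i (pderiv k
      (∑ l, (Real.exp (-(j * sig x)) • P (sig x)) l • e l)))).trace = 0 := by
    have := congrArg (eval x) (mem_Harm.1 (hs (Real.exp (-(j * sig x)) • P (sig x)))).2
    rw [map_sum, map_zero] at this
    exact this
  have t1 : ∀ (c : ℝ) (q : ι → ℝ), (x ⬝ᵥ fun k => (x ⬝ᵥ x)⁻¹ * x k * c + q k) = c + x ⬝ᵥ q := by
    intro c q
    have : (fun k => (x ⬝ᵥ x)⁻¹ * x k * c + q k) = ((x ⬝ᵥ x)⁻¹ * c) • x + q := by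
      funext k; simp only [Pi.add_apply, Pi.smul_apply, smul_eq_mul]; ring
    rw [this, dotProduct_add, dotProduct_smul, smul_eq_mul, mul_right_comm,
      inv_mul_cancel₀ (dot_self_pos hx).ne', one_mul]
  simp only [trace_add, trace_smul, trace_vecMulVec, trace_one, add_mulVec, smul_mulVec,
    one_mulVec, dotProduct_add, dotProduct_smul, quad_vecMulVec, hJ.dot_dot, h1, smul_eq_mul, t0,
    t1, hess_quad hJ (mem_Harm.1 (hs _)).1, hXi, dotProduct_comm _ x,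
    euler_eval (mem_Harm.1 (hs _)).1]
  let φ : (Fin N → ℝ) →ₗ[ℝ] ℝ := (aeval x).toLinearMap ∘ₗ Fintype.linearCombination ℝ e
  have hφ : ∀ v, eval x (∑ l, v l • e l) = φ v := fun v => by
    simp [φ, Fintype.linearCombination_apply, coe_aeval_eq_eval]
  have hρ := (dot_self_pos hx).ne'
  have e2 : (Q - (j : ℝ) • P) (sig x) = Q (sig x) - (j : ℝ) • P (sig x) := rfl
  simp only [hφ]
  simp only [e2, AOf, _root_.add_apply, _root_.smul_apply, one_apply_eq_self,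
    map_add, map_sub, map_smul, smul_eq_mul]
  field_simp
  ring

end Vale.Agent.P225
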