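import Vale.Agent.P225.Spec

/-!
Basic algebra of the operators `xi`, `lap`, `linSub`, `eY` on polynomials.
(`MvPolynomial.pderiv` is a derivation: `Derivation.leibniz`, `pderiv_X`; two linear maps that are
derivations agree if they agree on the `X i`; `MvPolynomial.IsHomogeneous.pderiv`,
`MvPolynomial.induction_on`; for the dimension use `homogeneousSubmodule_eq_finsupp_supported` or
`restrictSupport` and `Finset.card_finsuppAntidiag_nat_eq_choose`.)
-/

namespace Vale.Agent.P225

open scoped ContDiff
open Filter Topology MvPolynomial Matrix Set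

variable {ι : Type} [Fintype ι] [DecidableEq ι] {K : Type} [CommRing K]

theorem xi_apply (A : Matrix ι ι K) (f : MvPolynomial ι K) :
    xi A f = ∑ k, ∑ l, A k l • (X l * pderiv k f) := by
  simp [xi, LinearMap.sum_apply]

theorem lap_apply (f : MvPolynomial ι K) : lap ι K f = ∑ k, pderiv k (pderiv k f) := by
  simp [lap, LinearMap.sum_apply]

theorem mem_Harm {j : ℕ} {f : MvPolynomial ι K} :
    f ∈ Harm ι K j ↔ f.IsHomogeneous j ∧ ∑ k, pderiv k (pderiv k f) = 0 := by
  rw [Harm, Submodule.mem_inf, mem_homogeneousSubmodule, LinearMap.mem_ker, lap_apply]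

theorem mem_HarmY {m j : ℕ} {f : MvPolynomial (Fin m × Bool) ℂ} :
    f ∈ HarmY m j ↔ f.IsHomogeneous j ∧ ∑ α, pderiv α (pderiv (bar α) f) = 0 := by
  rw [HarmY, Submodule.mem_inf, mem_homogeneousSubmodule, LinearMap.mem_ker]
  simp [lapY, LinearMap.sum_apply]

theorem eY_apply {m : ℕ} (α β : Fin m × Bool) (f : MvPolynomial (Fin m × Bool) ℂ) :
    eY α β f = X α * pderiv (bar β) f - X β * pderiv (bar α) f := by
  simp [eY]

theorem pderiv_comm' (i k : ι) (f : MvPolynomial ι K) :
    pderiv i (pderiv k f) = pderiv k (pderiv i f) := by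
  induction f using MvPolynomial.induction_on with
  | C a => simp
  | add p q hp hq => simp [hp, hq]
  | mul_X p n h =>
    simp only [pderiv_mul, map_add, h, pderiv_X, Pi.single_apply]
    split_ifs <;> simp [add_right_comm]

theorem xi_add (A B : Matrix ι ι K) : xi (A + B) = xi A + xi B := by
  simp [xi, add_smul, Finset.sum_add_distrib]

theorem xi_smul (c : K) (A : Matrix ι ι K) : xi (c • A) = c • xi A := by
  simp [xi, Finset.smul_sum, smul_smul]

theorem xi_sub (A B : Matrix ι ι K) : xi (A - B) = xi A - xi B := by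
  refine LinearMap.ext fun f => ?_
  simp only [LinearMap.sub_apply, xi_apply, Matrix.sub_apply, sub_smul, Finset.sum_sub_distrib]

theorem xi_C (A : Matrix ι ι K) (a : K) : xi A (C a) = 0 := by
  simp [xi_apply]

theorem xi_X (A : Matrix ι ι K) (k : ι) : xi A (X k) = ∑ l, A k l • X l := by
  rw [xi_apply, Finset.sum_eq_single k]
  · simp
  · intro b _ hb
    simp [pderiv_X_of_ne hb.symm]
  · simp

theorem xi_mul (A : Matrix ι ι K) (f g : MvPolynomial ι K) :
    xi A (f * g) = xi A f * g + f * xi A g := by
  simp only [xi_apply, pderiv_mul, Finset.sum_mul, Finset.mul_sum, ← Finset.sum_add_distrib]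
  refine Finset.sum_congr rfl fun k _ => Finset.sum_congr rfl fun l _ => ?_
  simp only [smul_eq_C_mul]
  ring

theorem xi_xi_X (A B : Matrix ι ι K) (k : ι) : xi A (xi B (X k)) = xi (B * A) (X k) := by
  simp only [xi_X, map_sum, map_smul, Finset.smul_sum, smul_smul, Matrix.mul_apply,
    Finset.sum_smul]
  exact Finset.sum_comm

theorem xi_comm (A B : Matrix ι ι K) : xi A * xi B - xi B * xi A = xi (B * A - A * B) := by
  refine LinearMap.ext fun f => ?_
  rw [LinearMap.sub_apply, Module.End.mul_apply, Module.End.mul_apply]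
  induction f using MvPolynomial.induction_on with
  | C a => simp [xi_C]
  | add p q hp hq => rw [map_add, map_add, map_add, map_add, map_add, ← hp, ← hq]; ring
  | mul_X p n h =>
    have h2 := xi_xi_X A B n
    have h3 := xi_xi_X B A n
    rw [xi_mul (B * A - A * B), ← h, xi_sub, LinearMap.sub_apply, ← h2, ← h3]
    simp only [xi_mul, map_add]
    ring

theorem X_mul_pderiv_homog (l k : ι) {j : ℕ} {f : MvPolynomial ι K} (hf : f.IsHomogeneous j) :
    (X l * pderiv k f).IsHomogeneous j := by
  cases j with
  | zero =>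
    have h := (totalDegree_zero_iff_isHomogeneous _).mpr hf
    rw [totalDegree_eq_zero_iff_eq_C] at h
    rw [h, pderiv_C, mul_zero]
    exact isHomogeneous_zero _ _ _
  | succ j =>
    have h := (isHomogeneous_X K l).mul (hf.pderiv (i := k))
    rwa [Nat.add_sub_cancel, add_comm] at h

theorem pderiv_xi (A : Matrix ι ι K) (i : ι) (f : MvPolynomial ι K) :
    pderiv i (xi A f) = ∑ k, A k i • pderiv k f + xi A (pderiv i f) := by
  simp only [xi_apply, map_sum, Derivation.map_smul, pderiv_mul, smul_add,
    Finset.sum_add_distrib, pderiv_comm' i]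
  congr 1
  refine Finset.sum_congr rfl fun k _ => ?_
  rw [Finset.sum_eq_single i]
  · simp
  · intro b _ hb
    simp [pderiv_X_of_ne hb]
  · simp

theorem xi_homog (A : Matrix ι ι K) {j : ℕ} {f : MvPolynomial ι K} (hf : f.IsHomogeneous j) :
    (xi A f).IsHomogeneous j := by
  rw [xi_apply]
  refine IsHomogeneous.sum _ _ _ fun k _ => IsHomogeneous.sum _ _ _ fun l _ => ?_
  rw [smul_eq_C_mul]
  exact (X_mul_pderiv_homog l k hf).C_mul _

theorem xi_mem_Harm {A : Matrix ι ι K} (hA : Aᵀ = -A) [NoZeroDivisors K] [CharZero K] {j : ℕ}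
    {f : MvPolynomial ι K} (hf : f ∈ Harm ι K j) : xi A f ∈ Harm ι K j := by
  rw [mem_Harm] at hf ⊢
  refine ⟨xi_homog A hf.1, ?_⟩
  have hA' : ∀ k i, A k i = -A i k := fun k i => congrFun (congrFun hA i) k
  have h1 : ∑ i, ∑ k, A k i • pderiv i (pderiv k f) =
      -∑ i, ∑ k, A k i • pderiv k (pderiv i f) := by
    rw [Finset.sum_comm, ← Finset.sum_neg_distrib]
    refine Finset.sum_congr rfl fun i _ => ?_
    rw [← Finset.sum_neg_distrib]
    refine Finset.sum_congr rfl fun k _ => ?_
    rw [hA' i k, neg_smul]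
  simp only [pderiv_xi, map_add, map_sum, Derivation.map_smul, Finset.sum_add_distrib]
  rw [← map_sum, hf.2, map_zero, h1]
  simp

theorem bar_bar {m : ℕ} (α : Fin m × Bool) : bar (bar α) = α := by
  simp [bar]

theorem lapY_X_mul {m : ℕ} (α : Fin m × Bool) (g : MvPolynomial (Fin m × Bool) ℂ) :
    ∑ γ, pderiv γ (pderiv (bar γ) (X α * g)) =
      X α * ∑ γ, pderiv γ (pderiv (bar γ) g) + 2 * pderiv (bar α) g := by
  have h1 : ∑ γ, pderiv γ (pderiv (bar γ) (X α) * g) = pderiv (bar α) g := by
    rw [Finset.sum_eq_single (bar α)]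
    · rw [bar_bar, pderiv_X_self, one_mul]
    · intro b _ hb
      rw [pderiv_X_of_ne, zero_mul, map_zero]
      intro h
      exact hb (by rw [h, bar_bar])
    · simp
  have h2 : ∑ γ, pderiv γ (X α : MvPolynomial (Fin m × Bool) ℂ) * pderiv (bar γ) g =
      pderiv (bar α) g := by
    rw [Finset.sum_eq_single α]
    · rw [pderiv_X_self, one_mul]
    · intro b _ hb
      rw [pderiv_X_of_ne hb.symm, zero_mul]
    · simp
  have h3 : ∀ γ, pderiv γ (pderiv (bar γ) (X α * g)) = pderiv γ (pderiv (bar γ) (X α) * g) +
      (pderiv γ (X α : MvPolynomial (Fin m × Bool) ℂ) * pderiv (bar γ) g +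
        X α * pderiv γ (pderiv (bar γ) g)) := fun γ => by
    rw [pderiv_mul (f := X α), map_add, pderiv_mul (f := X α)]
  simp only [h3, Finset.sum_add_distrib, h1, h2, Finset.mul_sum]
  ring

theorem xi_single (k l : ι) (f : MvPolynomial ι K) :
    xi (Matrix.single k l (1 : K)) f = X l * pderiv k f := by
  rw [xi_apply, Finset.sum_eq_single k]
  · rw [Finset.sum_eq_single l]
    · simp
    · intro b _ hb
      simp [Matrix.single_apply_of_col_ne _ _ hb.symm]
    · simp
  · intro b _ hb
    simp [Matrix.single_apply_of_row_ne hb.symm]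
  · simp

theorem eY_mem_HarmY {m j : ℕ} (α β : Fin m × Bool) {f : MvPolynomial (Fin m × Bool) ℂ}
    (hf : f ∈ HarmY m j) : eY α β f ∈ HarmY m j := by
  rw [mem_HarmY] at hf ⊢
  rw [eY_apply]
  refine ⟨(X_mul_pderiv_homog _ _ hf.1).sub (X_mul_pderiv_homog _ _ hf.1), ?_⟩
  have h0 : ∀ δ, ∑ γ, pderiv γ (pderiv (bar γ) (pderiv δ f)) = 0 := fun δ => by
    have := congrArg (pderiv δ) hf.2
    rw [map_sum, map_zero] at this
    rw [← this]
    refine Finset.sum_congr rfl fun γ _ => ?_
    rw [pderiv_comm' δ γ, pderiv_comm' δ (bar γ)]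
  simp only [map_sub, Finset.sum_sub_distrib]
  rw [lapY_X_mul, lapY_X_mul, h0, h0, pderiv_comm' (bar α) (bar β)]
  simp

theorem eY_eq_xi {m : ℕ} (α β : Fin m × Bool) :
    eY α β = xi (Matrix.single (bar β) α 1 - Matrix.single (bar α) β 1) := by
  refine LinearMap.ext fun f => ?_
  rw [xi_sub, LinearMap.sub_apply, xi_single, xi_single, eY_apply]

theorem coeff_X_mul_pderiv (i : ι) (f : MvPolynomial ι K) (s : ι →₀ ℕ) :
    coeff s (X i * pderiv i f) = (s i : K) * coeff s f := by
  induction f using MvPolynomial.induction_on' with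
  | add p q hp hq => simp [mul_add, hp, hq]
  | monomial n a =>
    rw [X_mul_pderiv_monomial, coeff_smul, coeff_monomial]
    split_ifs with h
    · simp [h]
    · simp

theorem coeff_hY {m : ℕ} (a : Fin m) (f : MvPolynomial (Fin m × Bool) ℂ)
    (s : Fin m × Bool →₀ ℕ) :
    coeff s (hY a f) = ((s (a, false) : ℂ) - s (a, true)) * coeff s f := by
  rw [hY, eY_apply, coeff_sub]
  have h1 : bar (a, true) = (a, false) := rfl
  have h2 : bar (a, false) = (a, true) := rfl
  rw [h1, h2, coeff_X_mul_pderiv, coeff_X_mul_pderiv]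
  ring

theorem exists_rep {W : Submodule K (MvPolynomial ι K)} {F : Module.End K (MvPolynomial ι K)}
    (h : ∀ f ∈ W, F f ∈ W) : ∃ T : Module.End K W, Rep T F :=
  ⟨F.restrict h, fun _ => rfl⟩

theorem linSub_X {ι' : Type} (U : Matrix ι' ι K) (n : ι') :
    linSub U (X n) = ∑ k, U n k • X k := by
  simp [linSub]

theorem pderiv_linSub {ι' : Type} [Fintype ι'] [DecidableEq ι'] (U : Matrix ι' ι K) (k : ι)
    (f : MvPolynomial ι' K) : pderiv k (linSub U f) = ∑ α, U α k • linSub U (pderiv α f) := by
  induction f using MvPolynomial.induction_on with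
  | C a => simp [linSub]
  | add p q hp hq => simp [hp, hq, Finset.sum_add_distrib]
  | mul_X p n h =>
    have h1 : pderiv k (linSub U (X n)) = C (U n k) := by
      rw [linSub_X, map_sum, Finset.sum_eq_single k]
      · simp [smul_eq_C_mul]
      · intro b _ hb
        simp [pderiv_X_of_ne hb]
      · simp
    have h2 : ∑ α, U α k • (linSub U p * linSub U (pderiv α (X n))) = linSub U p * C (U n k) := by
      rw [Finset.sum_eq_single n]
      · simp [smul_eq_C_mul, mul_comm]
      · intro b _ hb
        simp [pderiv_X_of_ne hb.symm]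
      · simp
    simp only [map_mul, pderiv_mul, h, h1, map_add, smul_add, Finset.sum_add_distrib, h2,
      Finset.sum_mul, smul_mul_assoc]

theorem xi_linSub {ι' : Type} [Fintype ι'] [DecidableEq ι'] {U : Matrix ι' ι K}
    {A : Matrix ι ι K} {B : Matrix ι' ι' K} (h : U * A = B * U) (f : MvPolynomial ι' K) :
    xi A (linSub U f) = linSub U (xi B f) := by
  induction f using MvPolynomial.induction_on with
  | C a => simp [linSub, xi_C]
  | add p q hp hq => simp [hp, hq]
  | mul_X p n hp =>
    have h1 : xi A (linSub U (X n)) = linSub U (xi B (X n)) := by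
      have h2 : ∀ l, ∑ k, U n k * A k l = ∑ k, B n k * U k l := fun l =>
        congrFun (congrFun h n) l
      simp only [linSub_X, xi_X, map_sum, map_smul, Finset.smul_sum, smul_smul]
      rw [Finset.sum_comm, Finset.sum_comm (s := Finset.univ (α := ι'))]
      simp only [← Finset.sum_smul, h2]
    simp only [map_mul, xi_mul, map_add, hp, h1]

theorem linSub_homog {ι' : Type} (U : Matrix ι' ι K) {j : ℕ} {f : MvPolynomial ι' K}
    (hf : f.IsHomogeneous j) : (linSub U f).IsHomogeneous j := by
  have h := hf.aeval (fun α => ∑ k, U α k • (X k : MvPolynomial ι K)) (n := 1) fun α =>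
    IsHomogeneous.sum _ _ _ fun k _ => by
      rw [smul_eq_C_mul]
      exact isHomogeneous_C_mul_X _ _
  rwa [one_mul] at h

theorem linSub_linSub {ι' ι'' : Type} [Fintype ι'] [DecidableEq ι'] (U : Matrix ι'' ι' K)
    (W : Matrix ι' ι K) (f : MvPolynomial ι'' K) : linSub W (linSub U f) = linSub (U * W) f := by
  induction f using MvPolynomial.induction_on with
  | C a => simp [linSub]
  | add p q hp hq => simp [hp, hq]
  | mul_X p n hp =>
    have h1 : linSub W (linSub U (X n)) = linSub (U * W) (X n) := by
      simp only [linSub_X, map_sum, map_smul, Finset.smul_sum, smul_smul, Matrix.mul_apply,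
        Finset.sum_smul]
      exact Finset.sum_comm
    simp only [map_mul, hp, h1]

theorem linSub_one (f : MvPolynomial ι K) : linSub (1 : Matrix ι ι K) f = f := by
  induction f using MvPolynomial.induction_on with
  | C a => simp [linSub]
  | add p q hp hq => simp [hp, hq]
  | mul_X p n hp =>
    have h1 : linSub (1 : Matrix ι ι K) (X n) = X n := by
      simp [linSub_X, Matrix.one_apply]
    simp only [map_mul, hp, h1]

theorem finrank_homog (F : Type) [Field F] (j : ℕ) :
    Module.finrank F (homogeneousSubmodule ι F j) = (Fintype.card ι + j - 1).choose j := by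
  have h1 : homogeneousSubmodule ι F j =
      restrictSupport F ((Finset.univ.finsuppAntidiag j : Finset (ι →₀ ℕ)) : Set (ι →₀ ℕ)) := by
    rw [homogeneousSubmodule_eq_finsupp_supported, restrictSupport]
    congr 1
    ext d
    simp [Finset.mem_finsuppAntidiag, Finsupp.degree_eq_sum]
  rw [h1, Module.finrank_eq_card_basis (basisRestrictSupport F _)]
  simp [Finset.card_finsuppAntidiag_nat_eq_choose]

instance finite_homog (F : Type) [Field F] (j : ℕ) :
    FiniteDimensional F (homogeneousSubmodule ι F j) := by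
  exact Module.Finite.iff_fg.mpr (homogeneousSubmodule_fg ι F j)

instance finite_Harm (F : Type) [Field F] (j : ℕ) : FiniteDimensional F (Harm ι F j) :=
  Submodule.finiteDimensional_of_le (S₂ := homogeneousSubmodule ι F j) inf_le_left

instance finite_HarmY (m j : ℕ) : FiniteDimensional ℂ (HarmY m j) :=
  Submodule.finiteDimensional_of_le (S₂ := homogeneousSubmodule (Fin m × Bool) ℂ j) inf_le_left

/-- Rank-nullity for the Laplacian from degree `j + 2` to degree `j`. -/
theorem finrank_Harm_ge (F : Type) [Field F] (j : ℕ) :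
    (Fintype.card ι + j + 1).choose (j + 2) ≤
      Module.finrank F (Harm ι F (j + 2)) + (Fintype.card ι + j - 1).choose j := by
  have hmap : ∀ f ∈ homogeneousSubmodule ι F (j + 2), lap ι F f ∈ homogeneousSubmodule ι F j := by
    intro f hf
    rw [mem_homogeneousSubmodule] at hf ⊢
    rw [lap_apply]
    exact IsHomogeneous.sum _ _ _ fun k _ => hf.pderiv.pderiv
  have h1 := ((lap ι F).restrict hmap).finrank_range_add_finrank_ker
  have h2 : Module.finrank F (LinearMap.range ((lap ι F).restrict hmap)) ≤
      (Fintype.card ι + j - 1).choose j := by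
    rw [← finrank_homog F j]
    exact Submodule.finrank_le _
  have h3 : Module.finrank F (LinearMap.ker ((lap ι F).restrict hmap)) =
      Module.finrank F (Harm ι F (j + 2)) := by
    rw [← Submodule.finrank_map_subtype_eq, LinearMap.ker_restrict, Submodule.map_comap_subtype,
      Harm]
  rw [finrank_homog, h3, show Fintype.card ι + (j + 2) - 1 = Fintype.card ι + j + 1 by omega]
    at h1
  omega

theorem contDiff_eval (f : MvPolynomial ι ℝ) : ContDiff ℝ ∞ fun x : ι → ℝ => eval x f := by
  induction f using MvPolynomial.induction_on with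
  | C a => simpa using contDiff_const
  | add p q hp hq => simpa using hp.add hq
  | mul_X p n hp => simpa using hp.mul (contDiff_apply ℝ ℝ n)

theorem hasFDerivAt_eval (f : MvPolynomial ι ℝ) (x : ι → ℝ) :
    HasFDerivAt (fun z : ι → ℝ => eval z f) (dotL fun i => eval x (pderiv i f)) x := by
  induction f using MvPolynomial.induction_on with
  | C a =>
    have h : (dotL fun i => eval x (pderiv i (C a : MvPolynomial ι ℝ))) = 0 := by
      simp [dotL]
    rw [h]
    simpa using hasFDerivAt_const a x
  | add p q hp hq =>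
    have h : (dotL fun i => eval x (pderiv i (p + q))) =
        (dotL fun i => eval x (pderiv i p)) + dotL fun i => eval x (pderiv i q) := by
      simp [dotL, add_smul, Finset.sum_add_distrib]
    rw [h]
    simp only [map_add]
    exact hp.add hq
  | mul_X p n hp =>
    have h : (dotL fun i => eval x (pderiv i (p * X n))) =
        eval x p • ContinuousLinearMap.proj n + x n • dotL fun i => eval x (pderiv i p) := by
      ext v
      simp only [dotL, pderiv_mul, map_add, map_mul, eval_X, pderiv_X, Pi.single_apply,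
        ContinuousLinearMap.sum_apply, ContinuousLinearMap.smul_apply,
        ContinuousLinearMap.add_apply, ContinuousLinearMap.proj_apply, smul_eq_mul, add_mul,
        Finset.sum_add_distrib, Finset.mul_sum]
      rw [add_comm]
      congr 1
      · rw [Finset.sum_eq_single n]
        · simp
        · intro b _ hb
          simp [hb.symm]
        · simp
      · exact Finset.sum_congr rfl fun i _ => by ring
    rw [h]
    simp only [map_mul, eval_X]
    exact hp.mul (hasFDerivAt_apply (𝕜 := ℝ) n x)

theorem eval_smul_homog {j : ℕ} {f : MvPolynomial ι ℝ} (hf : f.IsHomogeneous j) (c : ℝ)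
    (x : ι → ℝ) : eval (c • x) f = c ^ j * eval x f := by
  rw [eval_eq, eval_eq, Finset.mul_sum]
  refine Finset.sum_congr rfl fun d hd => ?_
  rw [hf.degree_eq_sum_deg_support hd]
  simp only [Pi.smul_apply, smul_eq_mul, mul_pow, Finset.prod_mul_distrib,
    Finset.prod_pow_eq_pow_sum]
  ring

/-- Polynomials of distinct degrees, independent in each degree, are independent as functions on
the unit ball. -/
theorem indep_on_ball {κ : Type} [Fintype κ] {deg : κ → ℕ} (hdeg : Function.Injective deg)
    {N : κ → ℕ} {e : (j : κ) → Fin (N j) → MvPolynomial ι ℝ}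
    (he : ∀ j l, (e j l).IsHomogeneous (deg j)) (hind : ∀ j, LinearIndependent ℝ (e j))
    {u : (Σ j, Fin (N j)) → (ι → ℝ) → ℝ} {S : Set (Σ j, Fin (N j))}
    (hu : ∀ a ∈ S, ∀ x, x ⬝ᵥ x ≤ 1 → u a x = eval x (e a.1 a.2)) :
    LinearIndependent ℝ fun a : S => u a := by
  classical
  have h1 : LinearIndependent ℝ fun a : (Σ j, Fin (N j)) => e a.1 a.2 := by
    rw [Fintype.linearIndependent_iff]
    rintro g hg ⟨j, l⟩
    have h2 := congrArg (homogeneousComponent (deg j)) hg
    rw [map_sum, map_zero, Fintype.sum_sigma, Finset.sum_eq_single j] at h2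
    · refine Fintype.linearIndependent_iff.mp (hind j) (fun l => g ⟨j, l⟩) ?_ l
      rw [← h2]
      refine Finset.sum_congr rfl fun l _ => ?_
      rw [map_smul, homogeneousComponent_eq_self (he j l)]
    · intro j' _ hj
      refine Finset.sum_eq_zero fun l _ => ?_
      rw [map_smul, homogeneousComponent_of_mem (he j' l), if_neg, smul_zero]
      exact fun h => hj (hdeg h).symm
    · simp
  let B : Set (ι → ℝ) := {x | x ⬝ᵥ x ≤ 1}
  let Ev : MvPolynomial ι ℝ →ₗ[ℝ] (B → ℝ) :=
    { toFun := fun p x => eval x.1 p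
      map_add' := fun p q => by ext x; simp
      map_smul' := fun c p => by ext x; simp [smul_eval] }
  have hEv : LinearMap.ker Ev = ⊥ := by
    rw [LinearMap.ker_eq_bot']
    intro p hp
    have hr : (0 : ℝ) < 1 / (Fintype.card ι + 1) := by positivity
    refine funext_set (fun _ => Set.Icc (0 : ℝ) (1 / (Fintype.card ι + 1)))
      (fun _ => Set.Icc_infinite hr) fun x hx => ?_
    have hx1 : x ∈ B := by
      have h3 : ∀ i, x i * x i ≤ 1 / (Fintype.card ι + 1) := fun i => by
        have h4 := hx i (Set.mem_univ i)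
        have h5 : (1 : ℝ) / (Fintype.card ι + 1) ≤ 1 := by
          rw [div_le_one (by positivity)]
          have : (0 : ℝ) ≤ Fintype.card ι := Nat.cast_nonneg _
          linarith
        nlinarith [h4.1, h4.2]
      have h6 : x ⬝ᵥ x ≤ Fintype.card ι * (1 / (Fintype.card ι + 1)) := by
        have := Finset.sum_le_card_nsmul Finset.univ (fun i => x i * x i) _ fun i _ => h3 i
        simpa [dotProduct] using this
      refine h6.trans ?_
      rw [mul_one_div, div_le_one (by positivity)]
      linarith
    rw [map_zero]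
    exact congrFun hp ⟨x, hx1⟩
  have h2 := ((h1.comp (Subtype.val : S → _) Subtype.val_injective).map' Ev hEv)
  refine LinearIndependent.of_comp (LinearMap.funLeft ℝ ℝ (Subtype.val : B → _)) ?_
  have h3 : (LinearMap.funLeft ℝ ℝ (Subtype.val : B → _)) ∘ (fun a : S => u a) =
      Ev ∘ (fun a : (Σ j, Fin (N j)) => e a.1 a.2) ∘ Subtype.val := by
    ext a x
    exact hu a.1 a.2 x.1 x.2
  rw [h3]
  exact h2

end Vale.Agent.P225
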