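import Vale.Agent.P225.GeoChris
import Vale.Agent.P225.PolyBasic

/-! The Laplacian of `met` in terms of the Euclidean Hessian and gradient, and the derivatives of
the functions `∑ l, R l (sig x) * e l (x)`. -/

namespace Vale.Agent.P225

open scoped ContDiff
open Filter Topology MvPolynomial Matrix Set

variable {ι : Type} [Fintype ι] [DecidableEq ι]

theorem sum_inv_mul (c b : ℝ) (w : ι → ℝ) (T : Matrix ι ι ℝ) :
    ∑ i, ∑ k, (c • (1 - b • vecMulVec w w) : Matrix ι ι ℝ) i k * T i k =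
      c * (T.trace - b * (w ⬝ᵥ T *ᵥ w)) := by
  simp only [Matrix.smul_apply, Matrix.sub_apply, Matrix.one_apply, vecMulVec_apply, smul_eq_mul,
    Matrix.trace, Matrix.diag_apply, dotProduct, mulVec, Finset.mul_sum, mul_sub,
    ← Finset.sum_sub_distrib]
  refine Finset.sum_congr rfl fun i _ => ?_
  simp only [sub_mul, Finset.sum_sub_distrib, mul_ite, ite_mul, mul_one, mul_zero, zero_mul,
    Finset.sum_ite_eq, Finset.mem_univ, if_true]
  congr 1
  exact Finset.sum_congr rfl fun k _ => by ring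

theorem quad_vecMulVec (w u v : ι → ℝ) : w ⬝ᵥ vecMulVec u v *ᵥ w = (w ⬝ᵥ u) * (w ⬝ᵥ v) := by
  simp only [dotProduct, mulVec, vecMulVec_apply]
  rw [Finset.sum_mul_sum]
  simp only [Finset.mul_sum]
  exact Finset.sum_congr rfl fun i _ => Finset.sum_congr rfl fun k _ => by ring

theorem gamVec_dot {J : Matrix ι ι ℝ} (hJ : IsCx J) (a1 a2 a3 a4 : ℝ) (x p : ι → ℝ) :
    (Matrix.of fun i k => ∑ m, gamVec J a1 a2 a3 a4 x (Pi.single i 1) (Pi.single k 1) m * p m) =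
      a1 • (vecMulVec x p + vecMulVec p x - (x ⬝ᵥ p) • (1 : Matrix ι ι ℝ)) -
        a2 • (vecMulVec (J *ᵥ p) (J *ᵥ x) + vecMulVec (J *ᵥ x) (J *ᵥ p)) +
        (a3 * (x ⬝ᵥ p)) • vecMulVec (J *ᵥ x) (J *ᵥ x) +
        (a4 * ((J *ᵥ x) ⬝ᵥ p)) • (vecMulVec x (J *ᵥ x) + vecMulVec (J *ᵥ x) x) := by
  ext i k
  show gamVec J a1 a2 a3 a4 x (Pi.single i 1) (Pi.single k 1) ⬝ᵥ p = _
  simp only [gamVec, add_dotProduct, sub_dotProduct, smul_dotProduct, hJ.dot_mulVec (Pi.single _ _),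
    single_dotProduct, dotProduct_single, Matrix.smul_apply, Matrix.sub_apply, Matrix.add_apply,
    Matrix.one_apply, vecMulVec_apply, smul_eq_mul, Pi.single_apply, mul_one, one_mul,
    eq_comm (a := k)]
  split_ifs <;> ring

theorem laplacian_met {y L : ℝ → ℝ} (hy : ContDiff ℝ ∞ y) (hL : ContDiff ℝ ∞ L)
    {J : Matrix ι ι ℝ} (hJ : IsCx J) {x : ι → ℝ} (hx : x ≠ 0) (u : (ι → ℝ) → ℝ) :
    laplacian (met y L fun _ => J) u x = Real.exp (-2 * (L (sig x) - sig x)) *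
      ((Matrix.of fun i k => pd i (pd k u) x).trace - nuOf y (sig x) / (x ⬝ᵥ x) *
        ((J *ᵥ x) ⬝ᵥ (Matrix.of fun i k => pd i (pd k u) x) *ᵥ (J *ᵥ x)) -
        ((2 - (Fintype.card ι : ℝ)) * (deriv L (sig x) - 1) - deriv y (sig x) - nuOf y (sig x)) /
          (x ⬝ᵥ x) * (x ⬝ᵥ fun k => pd k u x)) := by
  have e := sum_inv_mul (Real.exp (-2 * (L (sig x) - sig x))) (nuOf y (sig x) / (x ⬝ᵥ x)) (J *ᵥ x)
    ((Matrix.of fun i k => pd i (pd k u) x) - Matrix.of fun i k => ∑ m, gamVec J (ca1 L (sig x))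
      (ca2 y (sig x)) (ca3 y L (sig x)) (ca4 y (sig x)) x (Pi.single i 1) (Pi.single k 1) m *
        (fun k => pd k u x) m)
  have e1 : laplacian (met y L fun _ => J) u x = _ := Eq.trans (by
    simp only [laplacian, met_inv y L hJ hx, christoffel_met hy hL hJ hx, Matrix.sub_apply,
      Matrix.of_apply]) e
  rw [e1, gamVec_dot hJ]
  congr 1
  generalize (fun k => pd k u x) = p
  generalize (Matrix.of fun i k => pd i (pd k u) x) = H
  have h1 : (J *ᵥ x) ⬝ᵥ x = 0 := hJ.dot_self x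
  have h2 : x ⬝ᵥ (J *ᵥ x) = 0 := by rw [dotProduct_comm, h1]
  simp only [trace_sub, trace_add, trace_smul, trace_vecMulVec, trace_one, sub_mulVec, add_mulVec,
    smul_mulVec, one_mulVec, dotProduct_sub, dotProduct_add, dotProduct_smul, quad_vecMulVec,
    hJ.dot_dot, h1, h2, smul_eq_mul, dotProduct_comm p x]
  have hρ := (dot_self_pos hx).ne'
  have h3 : Real.exp (-2 * sig x) = (x ⬝ᵥ x)⁻¹ := by
    rw [← exp_two_sig hx, ← Real.exp_neg]; congr 1; ring
  have h4 : Real.exp (-4 * sig x) = (x ⬝ᵥ x)⁻¹ * (x ⬝ᵥ x)⁻¹ := by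
    rw [← h3, ← Real.exp_add]; congr 1; ring
  have h5 : Real.exp (-2 * y (sig x)) = (Real.exp (2 * y (sig x)))⁻¹ := by
    rw [← Real.exp_neg]; congr 1; ring
  have h6 := (Real.exp_pos (2 * y (sig x))).ne'
  simp only [ca1, ca2, ca3, nuOf, h3, h4, h5]
  field_simp
  ring

/-- Polynomials with coefficients depending on `sig x`. -/
noncomputable def Wf {N : ℕ} (R : ℝ → Fin N → ℝ) (e : Fin N → MvPolynomial ι ℝ) (x : ι → ℝ) : ℝ :=
  eval x (∑ l, R (sig x) l • e l)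

theorem hasFDerivAt_Wf {N : ℕ} {R : ℝ → Fin N → ℝ} {R1 : Fin N → ℝ}
    (e : Fin N → MvPolynomial ι ℝ) {x : ι → ℝ} (hx : x ≠ 0) (hR : HasDerivAt R R1 (sig x)) :
    ∃ f' : (ι → ℝ) →L[ℝ] ℝ, HasFDerivAt (Wf R e) f' x ∧ ∀ k, f' (Pi.single k 1) =
      (x ⬝ᵥ x)⁻¹ * x k * eval x (∑ l, R1 l • e l) +
        eval x (pderiv k (∑ l, R (sig x) l • e l)) := by
  have h1 : ∀ l, HasFDerivAt (fun z : ι → ℝ => R (sig z) l * eval z (e l)) _ x := fun l =>
    (((hasDerivAt_pi.1 hR l).comp_hasFDerivAt x (hasFDerivAt_sig hx))).mul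
      (hasFDerivAt_eval (e l) x)
  have h2 := HasFDerivAt.fun_sum (u := Finset.univ) fun l _ => h1 l
  refine ⟨_, h2.congr_of_eventuallyEq (Eventually.of_forall fun z => ?_), fun k => ?_⟩
  · simp [Wf, smul_eval]
  · simp only [_root_.sum_apply, _root_.add_apply, _root_.smul_apply,
      dotL_apply, dotProduct_single, smul_eq_mul, mul_one, map_sum,
      Derivation.map_smul, smul_eval, Finset.mul_sum, ← Finset.sum_add_distrib,
      Function.comp_apply]
    exact Finset.sum_congr rfl fun l _ => by ring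

theorem pd_Wf {N : ℕ} {R : ℝ → Fin N → ℝ} {R1 : Fin N → ℝ}
    (e : Fin N → MvPolynomial ι ℝ) {x : ι → ℝ} (hx : x ≠ 0) (hR : HasDerivAt R R1 (sig x)) (k : ι) :
    pd k (Wf R e) x = (x ⬝ᵥ x)⁻¹ * x k * eval x (∑ l, R1 l • e l) +
      eval x (pderiv k (∑ l, R (sig x) l • e l)) := by
  obtain ⟨f', h1, h2⟩ := hasFDerivAt_Wf e hx hR
  rw [pd, h1.fderiv, h2]

theorem pd_pd_Wf {N : ℕ} {R R1 : ℝ → Fin N → ℝ} {R2 : Fin N → ℝ}
    (e : Fin N → MvPolynomial ι ℝ) {x : ι → ℝ} (hx : x ≠ 0) (hR : ∀ σ, HasDerivAt R (R1 σ) σ)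
    (hR1 : HasDerivAt R1 R2 (sig x)) :
    (Matrix.of fun i k => pd i (pd k (Wf R e)) x) =
      ((x ⬝ᵥ x)⁻¹ * (x ⬝ᵥ x)⁻¹ * (eval x (∑ l, R2 l • e l) - 2 * eval x (∑ l, R1 (sig x) l • e l))) •
          vecMulVec x x +
        ((x ⬝ᵥ x)⁻¹ * eval x (∑ l, R1 (sig x) l • e l)) • (1 : Matrix ι ι ℝ) +
        (x ⬝ᵥ x)⁻¹ • (vecMulVec (fun i => eval x (pderiv i (∑ l, R1 (sig x) l • e l))) x +
          vecMulVec x fun i => eval x (pderiv i (∑ l, R1 (sig x) l • e l))) +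
        Matrix.of fun i k => eval x (pderiv i (pderiv k (∑ l, R (sig x) l • e l))) := by
  ext i k
  have h3 : ∀ z : ι → ℝ, z ≠ 0 → Real.exp (-2 * sig z) = (z ⬝ᵥ z)⁻¹ := fun z hz => by
    rw [← exp_two_sig hz, ← Real.exp_neg]; congr 1; ring
  have e1 : pd k (Wf R e) =ᶠ[𝓝 x] fun z =>
      Wf (fun σ => Real.exp (-2 * σ) • R1 σ) (fun l => X k * e l) z +
        Wf R (fun l => pderiv k (e l)) z := by
    filter_upwards [isOpen_ne.mem_nhds hx] with z hz
    rw [pd_Wf e hz (hR _)]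
    simp only [Wf, h3 z hz, map_sum, smul_eval, Derivation.map_smul, Finset.mul_sum, map_mul,
      eval_X, Pi.smul_apply, smul_eq_mul]
    congr 1
    exact Finset.sum_congr rfl fun l _ => by ring
  have d1 : HasDerivAt (fun σ => Real.exp (-2 * σ) • R1 σ)
      (Real.exp (-2 * sig x) • R2 + (Real.exp (-2 * sig x) * (-2 * 1)) • R1 (sig x)) (sig x) :=
    (((hasDerivAt_id _).const_mul (-2 : ℝ)).exp).smul hR1
  obtain ⟨f1, a1, b1⟩ := hasFDerivAt_Wf (fun l => X k * e l) hx d1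
  obtain ⟨f2, a2, b2⟩ := hasFDerivAt_Wf (fun l => pderiv k (e l)) hx (hR (sig x))
  rw [Matrix.of_apply, (pd_congr e1 i).eq_of_nhds, pd, (a1.fun_add a2).fderiv,
    _root_.add_apply, b1, b2]
  simp only [h3 x hx, map_sum, smul_eval, Derivation.map_smul, Finset.mul_sum, map_mul,
    eval_X, Pi.smul_apply, Pi.add_apply, smul_eq_mul, Derivation.leibniz, map_add, pderiv_X,
    Matrix.add_apply, Matrix.smul_apply, vecMulVec_apply, Matrix.one_apply, Matrix.of_apply,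
    Finset.sum_mul, ← Finset.sum_add_distrib, ← Finset.sum_sub_distrib, Pi.single_apply,
    eq_comm (a := k)]
  refine Finset.sum_congr rfl fun l _ => ?_
  split_ifs <;> simp <;> ring

theorem euler_eval {j : ℕ} {f : MvPolynomial ι ℝ} (hf : f.IsHomogeneous j) (x : ι → ℝ) :
    (x ⬝ᵥ fun i => eval x (pderiv i f)) = j * eval x f := by
  have := congrArg (eval x) hf.sum_X_mul_pderiv
  simpa [dotProduct] using this

theorem eval_xi (J : Matrix ι ι ℝ) (f : MvPolynomial ι ℝ) (x : ι → ℝ) :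
    eval x (xi J f) = (J *ᵥ x) ⬝ᵥ fun k => eval x (pderiv k f) := by
  simp only [xi_apply, map_sum, smul_eval, map_mul, eval_X, dotProduct, mulVec, Finset.sum_mul]
  exact Finset.sum_congr rfl fun k _ => Finset.sum_congr rfl fun l _ => by ring

theorem eval_pderiv_xi (J : Matrix ι ι ℝ) (f : MvPolynomial ι ℝ) (x : ι → ℝ) :
    (fun i => eval x (pderiv i (xi J f))) = (Jᵀ *ᵥ fun k => eval x (pderiv k f)) +
      (Matrix.of fun i k => eval x (pderiv i (pderiv k f))) *ᵥ (J *ᵥ x) := by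
  funext i
  simp only [xi_apply, map_sum, Derivation.map_smul, Derivation.leibniz, smul_eval, smul_eq_mul,
    map_add, map_mul, eval_X, pderiv_X, Pi.add_apply, dotProduct, mulVec, transpose_apply,
    Matrix.of_apply, Finset.mul_sum, ← Finset.sum_add_distrib, mul_add, Pi.single_apply]
  refine Finset.sum_congr rfl fun k _ => ?_
  rw [Finset.sum_add_distrib, add_comm]
  congr 1
  · simp [apply_ite (eval x)]
  · exact Finset.sum_congr rfl fun l _ => by ring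

theorem hess_quad {J : Matrix ι ι ℝ} (hJ : IsCx J) {j : ℕ} {f : MvPolynomial ι ℝ}
    (hf : f.IsHomogeneous j) (x : ι → ℝ) :
    (J *ᵥ x) ⬝ᵥ (Matrix.of fun i k => eval x (pderiv i (pderiv k f))) *ᵥ (J *ᵥ x) =
      eval x (xi J (xi J f)) + j * eval x f := by
  rw [eval_xi, eval_pderiv_xi, dotProduct_add, hJ.1, neg_mulVec, dotProduct_neg, hJ.dot_dot,
    euler_eval hf]
  ring

end Vale.Agent.P225
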