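import Vale.Agent.P225.GeoBasic

/-!
The Ricci form of a connection of the shape `gamVec`.

Put `ρ = x ⬝ x`, `j = J x`, `a = x ⬝ v`, `b = j ⬝ v`, `w = v ⬝ v`, `Γ = gamVec`.
`Ric(v,v) = I - II + III - IV` where (derivatives in `x`; `D_z (a_i (sig x)) = a_i' (x ⬝ z) / ρ`)
* `I = ∑ k, (D_{e k} Γ(v,v)) k = a1' (2 a²/ρ - w) + a1 (2 - n) w - 2 a2' b²/ρ - 2 a2 w + a3' b²
   + a3 (n + 2) b² + 2 a4 (b² - a²)`;
* `∑ k, Γ(u, e k) k = t (x ⬝ u)` with `t = n a1 + a2 + a4 ρ`, so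
  `II = D_v (t (x ⬝ v)) = (n a1' + a2' + a4' ρ + 2 a4 ρ) a²/ρ + t w`;
* `III = t (x ⬝ Γ(v,v)) = t (a1 (2 a² - w ρ) - 2 a2 b² + a3 b² ρ)`;
* `IV = trace (G * G)` for the matrix `G` of `z ↦ Γ(v,z)`, that is
  `G = a1 (a 1 + v xᵀ - x vᵀ) + a2 (Jv jᵀ + b J) + a3 b x jᵀ + a4 (a j jᵀ + b j xᵀ)`;
  all traces reduce to dot products among `x, Jx, v, Jv` (`IsCx` lemmas in GeoBasic).
The value of IV in the statement was checked numerically.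
Hint: contract with `v i * v j` first (bilinearity of `gamVec` in `u, v` and linearity of `pd` on
differentiable functions), and replace the Christoffel symbols by `gamVec` near `x` via `pd_congr`.
-/

namespace Vale.Agent.P225

open scoped ContDiff
open Filter Topology MvPolynomial Matrix Set

variable {ι : Type} [Fintype ι] [DecidableEq ι]

section Lin

variable {E : Type} [AddCommGroup E] [Module ℝ E]

private theorem lin_add {F G : E → ℝ} (hF : IsLinearMap ℝ F) (hG : IsLinearMap ℝ G) :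
    IsLinearMap ℝ fun u => F u + G u :=
  ⟨fun u w => by rw [hF.map_add, hG.map_add]; ring,
    fun c u => by rw [hF.map_smul, hG.map_smul, smul_add]⟩

private theorem lin_sub {F G : E → ℝ} (hF : IsLinearMap ℝ F) (hG : IsLinearMap ℝ G) :
    IsLinearMap ℝ fun u => F u - G u :=
  ⟨fun u w => by rw [hF.map_add, hG.map_add]; ring,
    fun c u => by rw [hF.map_smul, hG.map_smul, smul_sub]⟩

private theorem lin_sum {κ : Type} [Fintype κ] {F : κ → E → ℝ} (hF : ∀ k, IsLinearMap ℝ (F k)) :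
    IsLinearMap ℝ fun u => ∑ k, F k u :=
  ⟨fun u w => by simp only [(hF _).map_add, Finset.sum_add_distrib],
    fun c u => by simp only [(hF _).map_smul, Finset.smul_sum]⟩

private theorem lin_const_mul (c : ℝ) {F : E → ℝ} (hF : IsLinearMap ℝ F) :
    IsLinearMap ℝ fun u => c * F u :=
  ⟨fun u w => by rw [hF.map_add]; ring, fun c u => by rw [hF.map_smul]; simp only [smul_eq_mul]; ring⟩

private theorem lin_mul_const (c : ℝ) {F : E → ℝ} (hF : IsLinearMap ℝ F) :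
    IsLinearMap ℝ fun u => F u * c :=
  ⟨fun u w => by rw [hF.map_add]; ring, fun c u => by rw [hF.map_smul]; simp only [smul_eq_mul]; ring⟩

end Lin

private theorem lin_basis {F : (ι → ℝ) → ℝ} (hF : IsLinearMap ℝ F) (v : ι → ℝ) :
    ∑ i, F (Pi.single i 1) * v i = F v := by
  have h := (hF.mk' F).pi_apply_eq_sum_univ v
  simp only [IsLinearMap.mk'_apply, smul_eq_mul] at h
  rw [h]
  refine Finset.sum_congr rfl fun i _ => ?_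
  rw [mul_comm]
  congr 2
  funext j
  simp [Pi.single_apply, eq_comm]

private theorem bil_basis {F : (ι → ℝ) → (ι → ℝ) → ℝ} (h1 : ∀ w, IsLinearMap ℝ fun u => F u w)
    (h2 : ∀ u, IsLinearMap ℝ (F u)) (v : ι → ℝ) :
    ∑ i, ∑ j, F (Pi.single i 1) (Pi.single j 1) * v i * v j = F v v := by
  rw [← lin_basis (h1 v) v]
  refine Finset.sum_congr rfl fun i _ => ?_
  rw [← lin_basis (h2 _) v, Finset.sum_mul]
  refine Finset.sum_congr rfl fun j _ => ?_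
  ring

/-- The derivative of `gamVec` in the base point, in the direction `h`. -/
private noncomputable def dGam (J : Matrix ι ι ℝ) (a1 a2 a3 a4 d1 d2 d3 d4 : ℝ)
    (x u w h : ι → ℝ) (k : ι) : ℝ :=
  d1 * ((x ⬝ᵥ x)⁻¹ * (x ⬝ᵥ h)) * ((x ⬝ᵥ u) * w k + (x ⬝ᵥ w) * u k - (u ⬝ᵥ w) * x k) +
  a1 * ((u ⬝ᵥ h) * w k + (w ⬝ᵥ h) * u k - (u ⬝ᵥ w) * h k) +
  d2 * ((x ⬝ᵥ x)⁻¹ * (x ⬝ᵥ h)) *
    (((J *ᵥ x) ⬝ᵥ w) * (J *ᵥ u) k + ((J *ᵥ x) ⬝ᵥ u) * (J *ᵥ w) k) +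
  a2 * (((J *ᵥ h) ⬝ᵥ w) * (J *ᵥ u) k + ((J *ᵥ h) ⬝ᵥ u) * (J *ᵥ w) k) +
  (d3 * ((x ⬝ᵥ x)⁻¹ * (x ⬝ᵥ h)) * ((J *ᵥ x) ⬝ᵥ u) * ((J *ᵥ x) ⬝ᵥ w) +
    a3 * ((J *ᵥ h) ⬝ᵥ u) * ((J *ᵥ x) ⬝ᵥ w) + a3 * ((J *ᵥ x) ⬝ᵥ u) * ((J *ᵥ h) ⬝ᵥ w)) * x k +
  a3 * ((J *ᵥ x) ⬝ᵥ u) * ((J *ᵥ x) ⬝ᵥ w) * h k +
  (d4 * ((x ⬝ᵥ x)⁻¹ * (x ⬝ᵥ h)) *
      ((x ⬝ᵥ u) * ((J *ᵥ x) ⬝ᵥ w) + (x ⬝ᵥ w) * ((J *ᵥ x) ⬝ᵥ u)) +
    a4 * ((u ⬝ᵥ h) * ((J *ᵥ x) ⬝ᵥ w) + (x ⬝ᵥ u) * ((J *ᵥ h) ⬝ᵥ w) +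
      (w ⬝ᵥ h) * ((J *ᵥ x) ⬝ᵥ u) + (x ⬝ᵥ w) * ((J *ᵥ h) ⬝ᵥ u))) * (J *ᵥ x) k +
  a4 * ((x ⬝ᵥ u) * ((J *ᵥ x) ⬝ᵥ w) + (x ⬝ᵥ w) * ((J *ᵥ x) ⬝ᵥ u)) * (J *ᵥ h) k

omit [DecidableEq ι] in
private theorem gamVec_apply (J : Matrix ι ι ℝ) (a1 a2 a3 a4 : ℝ) (x u w : ι → ℝ) (k : ι) :
    gamVec J a1 a2 a3 a4 x u w k =
      a1 * ((x ⬝ᵥ u) * w k + (x ⬝ᵥ w) * u k - (u ⬝ᵥ w) * x k) +
      a2 * (((J *ᵥ x) ⬝ᵥ w) * (J *ᵥ u) k + ((J *ᵥ x) ⬝ᵥ u) * (J *ᵥ w) k) +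
      a3 * ((J *ᵥ x) ⬝ᵥ u) * ((J *ᵥ x) ⬝ᵥ w) * x k +
      a4 * ((x ⬝ᵥ u) * ((J *ᵥ x) ⬝ᵥ w) + (x ⬝ᵥ w) * ((J *ᵥ x) ⬝ᵥ u)) * (J *ᵥ x) k := by
  simp only [gamVec, Pi.add_apply, Pi.smul_apply, Pi.sub_apply, smul_eq_mul]

private theorem fderiv_gamVec {J : Matrix ι ι ℝ} (hJ : IsCx J)
    {x : ι → ℝ} (hx : x ≠ 0) {a1 a2 a3 a4 : ℝ → ℝ} {d1 d2 d3 d4 : ℝ}
    (h1 : HasDerivAt a1 d1 (sig x)) (h2 : HasDerivAt a2 d2 (sig x))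
    (h3 : HasDerivAt a3 d3 (sig x)) (h4 : HasDerivAt a4 d4 (sig x)) (u w h : ι → ℝ) (k : ι) :
    fderiv ℝ (fun z => gamVec J (a1 (sig z)) (a2 (sig z)) (a3 (sig z)) (a4 (sig z)) z u w k) x h =
      dGam J (a1 (sig x)) (a2 (sig x)) (a3 (sig x)) (a4 (sig x)) d1 d2 d3 d4 x u w h k := by
  have A1 := h1.comp_hasFDerivAt x (hasFDerivAt_sig hx)
  have A2 := h2.comp_hasFDerivAt x (hasFDerivAt_sig hx)
  have A3 := h3.comp_hasFDerivAt x (hasFDerivAt_sig hx)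
  have A4 := h4.comp_hasFDerivAt x (hasFDerivAt_sig hx)
  have hd : ∀ u : ι → ℝ, HasFDerivAt (fun z : ι → ℝ => z ⬝ᵥ u) (dotL u) x := by
    intro u
    have := (dotL u).hasFDerivAt (x := x)
    refine this.congr_of_eventuallyEq (Eventually.of_forall fun z => ?_)
    simp only [dotL_apply, dotProduct_comm]
  have hj : ∀ u : ι → ℝ, HasFDerivAt (fun z : ι → ℝ => (J *ᵥ z) ⬝ᵥ u) (dotL (-(J *ᵥ u))) x := by
    intro u
    refine (hd (-(J *ᵥ u))).congr_of_eventuallyEq (Eventually.of_forall fun z => ?_)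
    simp only [hJ.dot_mulVec, dotProduct_neg]
  have hk : HasFDerivAt (fun z : ι → ℝ => z k) (dotL (Pi.single k 1)) x := by
    refine (hd (Pi.single k 1)).congr_of_eventuallyEq (Eventually.of_forall fun z => ?_)
    simp
  have hJk : HasFDerivAt (fun z : ι → ℝ => (J *ᵥ z) k) (dotL (J k)) x := by
    refine (hd (J k)).congr_of_eventuallyEq (Eventually.of_forall fun z => ?_)
    simp only [dotProduct_comm z]
    rfl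
  have H := ((((A1.fun_mul ((((hd u).mul_const (w k)).fun_add ((hd w).mul_const (u k))).fun_sub
    (hk.const_mul (u ⬝ᵥ w)))).fun_add
    (A2.fun_mul (((hj w).mul_const ((J *ᵥ u) k)).fun_add ((hj u).mul_const ((J *ᵥ w) k))))).fun_add
    (((A3.fun_mul (hj u)).fun_mul (hj w)).fun_mul hk)).fun_add
    ((A4.fun_mul (((hd u).fun_mul (hj w)).fun_add ((hd w).fun_mul (hj u)))).fun_mul hJk))
  simp only [gamVec_apply]
  simp only [Function.comp_apply] at H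
  rw [H.fderiv]
  have e1 : J k ⬝ᵥ h = (J *ᵥ h) k := rfl
  have e2 : ∀ u : ι → ℝ, -(J *ᵥ u) ⬝ᵥ h = (J *ᵥ h) ⬝ᵥ u := by
    intro u
    rw [hJ.dot_mulVec h, neg_dotProduct, dotProduct_comm]
  simp only [_root_.add_apply, _root_.sub_apply, _root_.smul_apply, dotL_apply,
    smul_eq_mul, single_dotProduct, one_mul, e1, e2,
    dGam]
  ring

omit [DecidableEq ι] in
private theorem gam_lin1 (J : Matrix ι ι ℝ) (a1 a2 a3 a4 : ℝ) (x w : ι → ℝ) (k : ι) :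
    IsLinearMap ℝ fun u => gamVec J a1 a2 a3 a4 x u w k := by
  constructor <;> intros <;>
    simp only [gamVec_apply, dotProduct_add, add_dotProduct, dotProduct_smul, smul_dotProduct,
      mulVec_add, mulVec_smul, Pi.add_apply, Pi.smul_apply, smul_eq_mul] <;> ring

omit [DecidableEq ι] in
private theorem gam_lin2 (J : Matrix ι ι ℝ) (a1 a2 a3 a4 : ℝ) (x u : ι → ℝ) (k : ι) :
    IsLinearMap ℝ fun w => gamVec J a1 a2 a3 a4 x u w k := by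
  constructor <;> intros <;>
    simp only [gamVec_apply, dotProduct_add, add_dotProduct, dotProduct_smul, smul_dotProduct,
      mulVec_add, mulVec_smul, Pi.add_apply, Pi.smul_apply, smul_eq_mul] <;> ring

omit [DecidableEq ι] in
private theorem dgam_lin1 (J : Matrix ι ι ℝ) (a1 a2 a3 a4 d1 d2 d3 d4 : ℝ) (x w h : ι → ℝ)
    (k : ι) : IsLinearMap ℝ fun u => dGam J a1 a2 a3 a4 d1 d2 d3 d4 x u w h k := by
  constructor <;> intros <;>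
    simp only [dGam, dotProduct_add, add_dotProduct, dotProduct_smul, smul_dotProduct,
      mulVec_add, mulVec_smul, Pi.add_apply, Pi.smul_apply, smul_eq_mul] <;> ring

omit [DecidableEq ι] in
private theorem dgam_lin2 (J : Matrix ι ι ℝ) (a1 a2 a3 a4 d1 d2 d3 d4 : ℝ) (x u h : ι → ℝ)
    (k : ι) : IsLinearMap ℝ fun w => dGam J a1 a2 a3 a4 d1 d2 d3 d4 x u w h k := by
  constructor <;> intros <;>
    simp only [dGam, dotProduct_add, add_dotProduct, dotProduct_smul, smul_dotProduct,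
      mulVec_add, mulVec_smul, Pi.add_apply, Pi.smul_apply, smul_eq_mul] <;> ring

omit [DecidableEq ι] in
private theorem dgam_lin3 (J : Matrix ι ι ℝ) (a1 a2 a3 a4 d1 d2 d3 d4 : ℝ) (x u w : ι → ℝ)
    (k : ι) : IsLinearMap ℝ fun h => dGam J a1 a2 a3 a4 d1 d2 d3 d4 x u w h k := by
  constructor <;> intros <;>
    simp only [dGam, dotProduct_add, add_dotProduct, dotProduct_smul, smul_dotProduct,
      mulVec_add, mulVec_smul, Pi.add_apply, Pi.smul_apply, smul_eq_mul] <;> ring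

/-- The table of dot products among `x, v, J x, J v`. -/
private theorem dot_table {J : Matrix ι ι ℝ} (hJ : IsCx J) (x v : ι → ℝ) :
    v ⬝ᵥ x = x ⬝ᵥ v ∧ x ⬝ᵥ (J *ᵥ x) = 0 ∧ (J *ᵥ x) ⬝ᵥ x = 0 ∧
    x ⬝ᵥ (J *ᵥ v) = -((J *ᵥ x) ⬝ᵥ v) ∧ (J *ᵥ v) ⬝ᵥ x = -((J *ᵥ x) ⬝ᵥ v) ∧
    v ⬝ᵥ (J *ᵥ x) = (J *ᵥ x) ⬝ᵥ v ∧ v ⬝ᵥ (J *ᵥ v) = 0 ∧ (J *ᵥ v) ⬝ᵥ v = 0 := by
  refine ⟨dotProduct_comm _ _, ?_, hJ.dot_self x, ?_, ?_, dotProduct_comm _ _, ?_, hJ.dot_self v⟩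
  · rw [dotProduct_comm, hJ.dot_self]
  · rw [hJ.dot_mulVec, neg_neg]
  · rw [hJ.dot_mulVec v x, dotProduct_comm]
  · rw [dotProduct_comm, hJ.dot_self]

private theorem sum_quad {J : Matrix ι ι ℝ} (hJ : IsCx J) (x v : ι → ℝ)
    (c0 c1 cxx cxv cxj cxu cvv cvj cvu cjj cju cuu : ℝ) :
    ∑ k, (c0 + c1 * J k k + cxx * (x k * x k) + cxv * (x k * v k) + cxj * (x k * (J *ᵥ x) k) +
      cxu * (x k * (J *ᵥ v) k) + cvv * (v k * v k) + cvj * (v k * (J *ᵥ x) k) +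
      cvu * (v k * (J *ᵥ v) k) + cjj * ((J *ᵥ x) k * (J *ᵥ x) k) +
      cju * ((J *ᵥ x) k * (J *ᵥ v) k) + cuu * ((J *ᵥ v) k * (J *ᵥ v) k)) =
    c0 * Fintype.card ι + cxx * (x ⬝ᵥ x) + cxv * (x ⬝ᵥ v) - cxu * ((J *ᵥ x) ⬝ᵥ v) +
      cvv * (v ⬝ᵥ v) + cvj * ((J *ᵥ x) ⬝ᵥ v) + cjj * (x ⬝ᵥ x) + cju * (x ⬝ᵥ v) +
      cuu * (v ⬝ᵥ v) := by
  obtain ⟨t1, t2, t3, t4, t5, t6, t7, t8⟩ := dot_table hJ x v
  have e : ∀ p q : ι → ℝ, ∑ k, p k * q k = p ⬝ᵥ q := fun _ _ => rfl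
  simp only [Finset.sum_add_distrib, ← Finset.mul_sum, hJ.trace, Finset.sum_const,
    Finset.card_univ, nsmul_eq_mul]
  simp only [e, t2, t4, t6, t7, hJ.dot_dot]
  ring

private theorem single_table {J : Matrix ι ι ℝ} (hJ : IsCx J) (k : ι) :
    (∀ p : ι → ℝ, p ⬝ᵥ Pi.single k 1 = p k) ∧ (∀ p : ι → ℝ, Pi.single k 1 ⬝ᵥ p = p k) ∧
    (∀ p : ι → ℝ, (J *ᵥ Pi.single k 1) ⬝ᵥ p = -(J *ᵥ p) k) ∧
    (∀ p : ι → ℝ, p ⬝ᵥ (J *ᵥ Pi.single k 1) = -(J *ᵥ p) k) ∧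
    (J *ᵥ Pi.single k 1) k = J k k ∧ (Pi.single k 1 : ι → ℝ) k = 1 := by
  have h3 : ∀ p : ι → ℝ, (J *ᵥ Pi.single k 1) ⬝ᵥ p = -(J *ᵥ p) k := by
    intro p
    rw [hJ.dot_mulVec, single_dotProduct, one_mul]
  refine ⟨fun p => by simp, fun p => by simp, h3, fun p => by rw [dotProduct_comm, h3], ?_, by simp⟩
  simp

private theorem tr1 {J : Matrix ι ι ℝ} (hJ : IsCx J) (a1 a2 a3 a4 d1 d2 d3 d4 : ℝ)
    (x v : ι → ℝ) {ρ a b w : ℝ} (hρ : x ⬝ᵥ x = ρ) (ha : x ⬝ᵥ v = a) (hb : (J *ᵥ x) ⬝ᵥ v = b)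
    (hw : v ⬝ᵥ v = w) (h0 : ρ ≠ 0) :
    ∑ k, dGam J a1 a2 a3 a4 d1 d2 d3 d4 x v v (Pi.single k 1) k =
      d1 * (2 * a ^ 2 / ρ - w) + a1 * (2 - Fintype.card ι) * w - 2 * d2 * b ^ 2 / ρ - 2 * a2 * w +
        d3 * b ^ 2 + a3 * (Fintype.card ι + 2) * b ^ 2 + 2 * a4 * (b ^ 2 - a ^ 2) := by
  refine (Finset.sum_congr rfl fun k _ => ?_).trans ((sum_quad hJ x v
      (-a1 * w + a3 * b * b) (2 * a * a4 * b) (b * b * d3 * ρ⁻¹ - d1 * w * ρ⁻¹) (2 * a * d1 *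
      ρ⁻¹) (2 * a * b * d4 * ρ⁻¹) (-2 * a3 * b + 2 * b * d2 * ρ⁻¹) (2 * a1) (2 * a4 * b) (0) (0)
      (-2 * a * a4) (-2 * a2)).trans ?_)
  · obtain ⟨s1, s2, s3, s4, s5, s6⟩ := single_table hJ k
    simp only [dGam, s1, s3, s5, s6, hρ, ha, hb, hw]
    ring
  · rw [hρ, ha, hb, hw]
    field_simp
    ring

private theorem tr2 {J : Matrix ι ι ℝ} (hJ : IsCx J) (a1 a2 a3 a4 d1 d2 d3 d4 : ℝ)
    (x v : ι → ℝ) {ρ a b w : ℝ} (hρ : x ⬝ᵥ x = ρ) (ha : x ⬝ᵥ v = a) (hb : (J *ᵥ x) ⬝ᵥ v = b)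
    (hw : v ⬝ᵥ v = w) (h0 : ρ ≠ 0) :
    ∑ k, dGam J a1 a2 a3 a4 d1 d2 d3 d4 x v (Pi.single k 1) v k =
      (Fintype.card ι * d1 + d2 + d4 * ρ + 2 * a4 * ρ) * a ^ 2 / ρ +
        (Fintype.card ι * a1 + a2 + a4 * ρ) * w := by
  refine (Finset.sum_congr rfl fun k _ => ?_).trans ((sum_quad hJ x v
      (a * a * d1 * ρ⁻¹ + a1 * w) (a * b * d2 * ρ⁻¹) (0) (0) (a * b * d3 * ρ⁻¹ + a * b * d4 *
      ρ⁻¹) (a3 * b + a4 * b) (0) (a3 * b + a4 * b) (0) (a * a * d4 * ρ⁻¹ + a4 * w) (2 * a * a4 +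
      a * d2 * ρ⁻¹) (a2)).trans ?_)
  · obtain ⟨s1, s2, s3, s4, s5, s6⟩ := single_table hJ k
    simp only [dGam, s1, s2, s5, s6, hρ, ha, hb, hw, hJ.dot_self]
    ring
  · rw [hρ, ha, hb, hw]
    field_simp
    ring

private theorem tr3 {J : Matrix ι ι ℝ} (hJ : IsCx J) (a1 a2 a3 a4 : ℝ) (x v : ι → ℝ) :
    ∑ k, gamVec J a1 a2 a3 a4 x (Pi.single k 1) v k =
      (Fintype.card ι * a1 + a2 + a4 * (x ⬝ᵥ x)) * (x ⬝ᵥ v) := by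
  obtain ⟨a, ha⟩ : ∃ a, x ⬝ᵥ v = a := ⟨_, rfl⟩
  obtain ⟨b, hb⟩ : ∃ b, (J *ᵥ x) ⬝ᵥ v = b := ⟨_, rfl⟩
  refine (Finset.sum_congr rfl fun k _ => ?_).trans ((sum_quad hJ x v
      (a * a1) (a2 * b) (0) (0) (a3 * b + a4 * b) (0) (0) (0) (0) (a * a4) (a2) (0)).trans ?_)
  · obtain ⟨s1, s2, s3, s4, s5, s6⟩ := single_table hJ k
    simp only [gamVec_apply, s1, s2, s5, s6, ha, hb]
    ring
  · rw [ha, hb]
    ring

private theorem tr4 {J : Matrix ι ι ℝ} (hJ : IsCx J) (a1 a2 a3 a4 : ℝ)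
    (x v : ι → ℝ) {ρ a b w : ℝ} (hρ : x ⬝ᵥ x = ρ) (ha : x ⬝ᵥ v = a) (hb : (J *ᵥ x) ⬝ᵥ v = b)
    (hw : v ⬝ᵥ v = w) :
    ∑ k, gamVec J a1 a2 a3 a4 x v (gamVec J a1 a2 a3 a4 x v (Pi.single k 1)) k =
      Fintype.card ι * (a1 ^ 2 * a ^ 2 - a2 ^ 2 * b ^ 2) + 2 * a1 * a ^ 2 * (a2 + a4 * ρ) +
      2 * a2 * b ^ 2 * (-2 * a1 - a2 + (a3 - a4) * ρ) + 2 * a1 ^ 2 * a ^ 2 +
      a ^ 2 * (a2 + a4 * ρ) ^ 2 - 2 * a1 * ρ * (a1 * w + a4 * b ^ 2) +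
      2 * b ^ 2 * (a3 * ρ - a2) * (a1 + a4 * ρ) := by
  refine (Finset.sum_congr rfl fun k _ => ?_).trans ((sum_quad hJ x v
      (a * a * a1 * a1 - a2 * a2 * b * b) (2 * a * a1 * a2 * b) (-a1 * a1 * w + a1 * a3 * b * b
      - a1 * a4 * b * b + a2 * a3 * b * b - a2 * a4 * b * b + a3 * a4 * b * b * ρ) (2 * a * a1 *
      a1) (a * a1 * a3 * b + 3 * a * a1 * a4 * b + a * a2 * a3 * b + a * a3 * a4 * b * ρ + a *
      a4 * a4 * b * ρ) (3 * a1 * a2 * b + a2 * a2 * b + a2 * a4 * b * ρ) (-a1 * a1 * ρ) (-3 * a1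
      * a2 * b + a1 * a3 * b * ρ - a1 * a4 * b * ρ - a2 * a2 * b) (0) (2 * a * a * a1 * a4 + a *
      a * a2 * a4 + a * a * a4 * a4 * ρ + a2 * a3 * b * b - 2 * a2 * a4 * b * b + a3 * a4 * b *
      b * ρ) (2 * a * a1 * a2 + a * a2 * a2 + a * a2 * a4 * ρ) (0)).trans ?_)
  · obtain ⟨s1, s2, s3, s4, s5, s6⟩ := single_table hJ k
    obtain ⟨t1, t2, t3, t4, t5, t6, t7, t8⟩ := dot_table hJ x v
    rw [gamVec_apply]
    simp only [gamVec, dotProduct_add, dotProduct_sub, dotProduct_smul, mulVec_add, mulVec_sub,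
      mulVec_smul, hJ.mulVec_mulVec, hJ.dot_dot, Pi.add_apply, Pi.sub_apply, Pi.smul_apply,
      Pi.neg_apply, smul_eq_mul, s1, s4, s5, s6, t1, t2, t3, t4, t6, t7, hρ, ha, hb, hw]
    ring
  · rw [hρ, ha, hb, hw]
    ring

theorem ricci_of_gamVec {g : (ι → ℝ) → Matrix ι ι ℝ} {J : Matrix ι ι ℝ} (hJ : IsCx J)
    {x : ι → ℝ} (hx : x ≠ 0) {a1 a2 a3 a4 : ℝ → ℝ} {d1 d2 d3 d4 : ℝ}
    (h1 : HasDerivAt a1 d1 (sig x)) (h2 : HasDerivAt a2 d2 (sig x))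
    (h3 : HasDerivAt a3 d3 (sig x)) (h4 : HasDerivAt a4 d4 (sig x))
    (hg : ∀ k i j, christoffel g k i j =ᶠ[𝓝 x] fun z =>
      gamVec J (a1 (sig z)) (a2 (sig z)) (a3 (sig z)) (a4 (sig z)) z
        (Pi.single i 1) (Pi.single j 1) k) (v : ι → ℝ) :
    ∑ i, ∑ j, ricci g i j x * v i * v j =
      ricForm (Fintype.card ι) (x ⬝ᵥ x) (x ⬝ᵥ v) ((J *ᵥ x) ⬝ᵥ v) (v ⬝ᵥ v)
        (a1 (sig x)) (a2 (sig x)) (a3 (sig x)) (a4 (sig x)) d1 d2 d3 d4 := by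
  have hpd : ∀ m k i j, pd m (christoffel g k i j) x =
      dGam J (a1 (sig x)) (a2 (sig x)) (a3 (sig x)) (a4 (sig x)) d1 d2 d3 d4 x
        (Pi.single i 1) (Pi.single j 1) (Pi.single m 1) k := by
    intro m k i j
    rw [(pd_congr (hg k i j) m).eq_of_nhds, pd, fderiv_gamVec hJ hx h1 h2 h3 h4]
  have hch : ∀ k i j, christoffel g k i j x =
      gamVec J (a1 (sig x)) (a2 (sig x)) (a3 (sig x)) (a4 (sig x)) x
        (Pi.single i 1) (Pi.single j 1) k := fun k i j => (hg k i j).eq_of_nhds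
  simp only [ricci, hpd, hch]
  generalize a1 (sig x) = b1
  generalize a2 (sig x) = b2
  generalize a3 (sig x) = b3
  generalize a4 (sig x) = b4
  rw [bil_basis (F := fun u w => ∑ k, (dGam J b1 b2 b3 b4 d1 d2 d3 d4 x u w (Pi.single k 1) k -
      dGam J b1 b2 b3 b4 d1 d2 d3 d4 x u (Pi.single k 1) w k +
      ∑ l, (gamVec J b1 b2 b3 b4 x (Pi.single k 1) (Pi.single l 1) k *
        gamVec J b1 b2 b3 b4 x u w l -
        gamVec J b1 b2 b3 b4 x w (Pi.single l 1) k * gamVec J b1 b2 b3 b4 x u (Pi.single k 1) l)))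
    (fun w => lin_sum fun k => lin_add (lin_sub (dgam_lin1 ..) (dgam_lin1 ..))
      (lin_sum fun l => lin_sub (lin_const_mul _ (gam_lin1 ..)) (lin_const_mul _ (gam_lin1 ..))))
    (fun u => lin_sum fun k => lin_add (lin_sub (dgam_lin2 ..) (dgam_lin3 ..))
      (lin_sum fun l => lin_sub (lin_const_mul _ (gam_lin2 ..)) (lin_mul_const _ (gam_lin1 ..))))]
  simp only [Finset.sum_add_distrib, Finset.sum_sub_distrib, lin_basis (gam_lin2 ..)]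
  have h0 := (dot_self_pos hx).ne'
  rw [tr1 hJ _ _ _ _ _ _ _ _ x v rfl rfl rfl rfl h0, tr2 hJ _ _ _ _ _ _ _ _ x v rfl rfl rfl rfl h0,
    tr3 hJ, tr4 hJ _ _ _ _ x v rfl rfl rfl rfl]
  obtain ⟨t1, t2, t3, t4, t5, t6, t7, t8⟩ := dot_table hJ x v
  simp only [gamVec, dotProduct_add, dotProduct_sub, dotProduct_smul, smul_eq_mul, t2, t4, ricForm]
  ring

end Vale.Agent.P225
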