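import Vale.Agent.P225.GeoChris
import Vale.Agent.P225.GeoRicciA

/-!
Nonnegative Ricci curvature of `met`.
-/

namespace Vale.Agent.P225

open scoped ContDiff
open Filter Topology MvPolynomial Matrix Set

variable {ι : Type} [Fintype ι] [DecidableEq ι]

theorem ricForm_eq {n ρ a b w s s1 y1 y2 E : ℝ} (hρ : ρ ≠ 0) :
    ricForm n ρ a b w ((s - 1) * ρ⁻¹) ((E - 1) * ρ⁻¹) (-((E - 1) * (s - 2) + y1 * E) * (ρ⁻¹ * ρ⁻¹))
      ((y1 - (E - 1)) * (ρ⁻¹ * ρ⁻¹)) ((s1 - 2 * (s - 1)) * ρ⁻¹) ((2 * y1 * E - 2 * (E - 1)) * ρ⁻¹)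
      ((-(2 * y1 * E * (s - 2) + (E - 1) * s1 + y2 * E + 2 * y1 ^ 2 * E) +
        4 * ((E - 1) * (s - 2) + y1 * E)) * (ρ⁻¹ * ρ⁻¹))
      ((y2 - 2 * y1 * E - 4 * (y1 - (E - 1))) * (ρ⁻¹ * ρ⁻¹)) =
    (ricH n s s1 y1 E * (ρ * w - (a ^ 2 + b ^ 2)) + ricR n s s1 y1 y2 * a ^ 2 +
      E * ricV n s s1 y1 y2 E * b ^ 2) / ρ ^ 2 := by
  unfold ricForm ricH ricR ricV
  field_simp
  ring

theorem hasDerivAt_exp_mul (c σ : ℝ) :
    HasDerivAt (fun t => Real.exp (c * t)) (c * Real.exp (c * σ)) σ := by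
  simpa [mul_comm] using ((hasDerivAt_id σ).const_mul c).exp

theorem ricciNonneg_met {y L : ℝ → ℝ} {J : ℝ → Matrix ι ι ℝ} (h : IsProfile y L J)
    (hR : ∀ σ, 0 ≤ ricR (Fintype.card ι) (deriv L σ) (deriv (deriv L) σ) (deriv y σ)
      (deriv (deriv y) σ))
    (hH : ∀ σ, 0 ≤ ricH (Fintype.card ι) (deriv L σ) (deriv (deriv L) σ) (deriv y σ)
      (Real.exp (2 * y σ)))
    (hV : ∀ σ, 0 ≤ ricV (Fintype.card ι) (deriv L σ) (deriv (deriv L) σ) (deriv y σ)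
      (deriv (deriv y) σ) (Real.exp (2 * y σ))) :
    RicciNonneg (met y L J) := by
  intro x v
  rcases eq_or_ne x 0 with rfl | hx
  · have h0 : ∀ k i j : ι, christoffel (fun _ => (1 : Matrix ι ι ℝ)) k i j = fun _ => 0 :=
      fun k i j => funext (christoffel_one k i j)
    simp only [ricci_congr (met_near_zero h)]
    simp [ricci, h0, pd]
  set σ := sig x with hσ
  have hy0 : HasDerivAt y (deriv y σ) σ := (h.hy.differentiable (by simp) σ).hasDerivAt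
  have hy1 : HasDerivAt (deriv y) (deriv (deriv y) σ) σ :=
    ((contDiff_infty_iff_deriv.1 h.hy).2.differentiable (by simp) σ).hasDerivAt
  have hL1 : HasDerivAt (deriv L) (deriv (deriv L) σ) σ :=
    ((contDiff_infty_iff_deriv.1 h.hL).2.differentiable (by simp) σ).hasDerivAt
  have hE : HasDerivAt (fun t => Real.exp (2 * y t)) (2 * deriv y σ * Real.exp (2 * y σ)) σ :=
    (hy0.const_mul 2).exp.congr_deriv (by ring)
  have hρ := dot_self_pos hx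
  have e2 : Real.exp (-2 * σ) = (x ⬝ᵥ x)⁻¹ := by
    rw [← exp_two_sig hx, ← Real.exp_neg, neg_mul]
  have e4 : Real.exp (-4 * σ) = (x ⬝ᵥ x)⁻¹ * (x ⬝ᵥ x)⁻¹ := by
    rw [← e2, ← Real.exp_add]; congr 1; ring
  have h1 : HasDerivAt (ca1 L) _ σ := (hL1.sub_const 1).fun_mul (hasDerivAt_exp_mul (-2) σ)
  have h2 : HasDerivAt (ca2 y) _ σ := (hE.sub_const 1).fun_mul (hasDerivAt_exp_mul (-2) σ)
  have h3 : HasDerivAt (ca3 y L) _ σ :=
    (((hE.sub_const 1).fun_mul (hL1.sub_const 2)).fun_add (hy1.fun_mul hE)).fun_neg.fun_mul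
      (hasDerivAt_exp_mul (-4) σ)
  have h4 : HasDerivAt (ca4 y) _ σ :=
    (hy1.fun_sub (hE.sub_const 1)).fun_mul (hasDerivAt_exp_mul (-4) σ)
  have hg : ∀ k i j, christoffel (met y L fun _ => J σ) k i j =ᶠ[𝓝 x] fun z =>
      gamVec (J σ) (ca1 L (sig z)) (ca2 y (sig z)) (ca3 y L (sig z)) (ca4 y (sig z)) z
        (Pi.single i 1) (Pi.single j 1) k := fun k i j =>
    (isOpen_ne.eventually_mem hx).mono fun z hz => christoffel_met h.hy h.hL (h.cx σ) hz k i j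
  simp only [ricci_congr (met_local h hx)]
  rw [ricci_of_gamVec (h.cx σ) hx h1 h2 h3 h4 hg v]
  have hb := (h.cx σ).bessel x v
  have key := ricForm_eq (n := Fintype.card ι) (a := x ⬝ᵥ v) (b := (J σ *ᵥ x) ⬝ᵥ v) (w := v ⬝ᵥ v)
    (s := deriv L σ) (s1 := deriv (deriv L) σ) (y1 := deriv y σ) (y2 := deriv (deriv y) σ)
    (E := Real.exp (2 * y σ)) hρ.ne'
  refine le_of_le_of_eq (div_nonneg (add_nonneg (add_nonneg (mul_nonneg (hH σ) (sub_nonneg.2 hb))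
    (mul_nonneg (hR σ) (sq_nonneg _))) (mul_nonneg (mul_nonneg (Real.exp_pos _).le (hV σ))
      (sq_nonneg _))) (sq_nonneg _)) (key.symm.trans ?_)
  simp only [ca1, ca2, ca3, ca4, ← hσ, e2, e4]
  congr 1 <;> ring

end Vale.Agent.P225
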