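import Vale.Agent.P225.PolyBasic

/-!
Irreducibility of harmonic polynomials under the operators `eY α β`.
1. Every nonzero invariant `U` contains `X α ^ j` for each `α`. Grade monomials by
   `wt s = s α - s (bar α)` (at most `j`). For `β.1 ≠ α.1` the operator `eY α β` raises `wt` by one.
   Choose `f ≠ 0` in `U` maximising the minimal weight of its support; then `eY α β f = 0` for all
   `β.1 ≠ α.1`, that is `X α * ∂_{bar β} f = X β * g`, `g = ∂_{bar α} f`. Apply `∂_β`, sum over such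
   `β`, and use harmonicity (`∑_β ∂_β ∂_{bar β} f = -2 ∂_α g`):
   `(2m - 2) g + ∑_β X β ∂_β g + 2 X α ∂_α g = 0`; compare coefficients to get `g = 0`. Then all
   `∂_β f` with `β ≠ α` vanish, so `f` is a multiple of `X α ^ j`.
2. The bilinear form `B f g = ∑ s, (∏ i, (s i)!) * coeff s f * coeff (s ∘ bar) g` satisfies
   `B (X α * f) g = B f (∂_{bar α} g)` and is symmetric, so `B (eY α β f) g = -B f (eY α β g)`.
   (One may define `B f g = constantCoeff (D f g)` where `D` is the algebra map sending `X α` to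
   `∂_{bar α}`, or work with coefficients.)
3. If `⊥ < U < ⊤`, the orthogonal `{g | ∀ f ∈ U, B f g = 0}` is invariant and nonzero (dimension
   count), so it contains `X (bar α) ^ j` while `U` contains `X α ^ j`; but `B` of these is `j! ≠ 0`.
-/

namespace Vale.Agent.P225

open scoped ContDiff
open Filter Topology MvPolynomial Matrix Set

section fischer

variable {σ : Type} [Fintype σ] [DecidableEq σ]

omit [Fintype σ] in
theorem ir_coeff_ne {a b : σ} {f : MvPolynomial σ ℂ} {s : σ →₀ ℕ}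
    (h : coeff s (X a * pderiv b f) ≠ 0) :
    1 ≤ s a ∧ coeff (s - Finsupp.single a 1 + Finsupp.single b 1) f ≠ 0 := by
  rw [coeff_X_mul'] at h
  split_ifs at h with h1
  · rw [coeff_pderiv] at h
    exact ⟨Nat.one_le_iff_ne_zero.2 (Finsupp.mem_support_iff.1 h1), left_ne_zero_of_mul h⟩
  · exact absurd rfl h

omit [Fintype σ] in
theorem ir_coeff_euler (a : σ) (f : MvPolynomial σ ℂ) (s : σ →₀ ℕ) :
    coeff s (X a * pderiv a f) = s a * coeff s f := by
  rw [coeff_X_mul']
  split_ifs with h1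
  · have h2 : 1 ≤ s a := Nat.one_le_iff_ne_zero.2 (Finsupp.mem_support_iff.1 h1)
    rw [coeff_pderiv, tsub_add_cancel_of_le (Finsupp.single_le_iff.2 h2), mul_comm]
    simp [h2]
  · simp [Finsupp.notMem_support_iff.1 h1]

omit [DecidableEq σ] in
theorem ir_deg {j : ℕ} {f : MvPolynomial σ ℂ} (hf : f.IsHomogeneous j) {s : σ →₀ ℕ}
    (h : coeff s f ≠ 0) : ∑ i, s i = j := by
  have := hf h
  rw [← this, Finsupp.weight_apply, Finsupp.sum_fintype _ _ (by simp)]
  simp

/-- The Fischer pairing. -/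
noncomputable def fis : MvPolynomial σ ℂ →ₗ[ℂ] MvPolynomial σ ℂ →ₗ[ℂ] ℂ :=
  (basisMonomials σ ℂ).constr ℂ fun s => ((∏ i, (s i).factorial : ℕ) : ℂ) • lcoeff ℂ s

omit [DecidableEq σ] in
theorem fis_mono (s : σ →₀ ℕ) (g : MvPolynomial σ ℂ) :
    fis (monomial s 1) g = ((∏ i, (s i).factorial : ℕ) : ℂ) * coeff s g := by
  have := (basisMonomials σ ℂ).constr_basis ℂ
    (fun s => ((∏ i, (s i).factorial : ℕ) : ℂ) • lcoeff ℂ s) s
  rw [coe_basisMonomials] at this
  rw [fis, this]
  simp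

omit [Fintype σ] [DecidableEq σ] in
theorem ir_ext {N : Type} [AddCommGroup N] [Module ℂ N] {F G : MvPolynomial σ ℂ →ₗ[ℂ] N}
    (h : ∀ s, F (monomial s 1) = G (monomial s 1)) : F = G :=
  (basisMonomials σ ℂ).ext fun s => by simpa using h s

theorem fis_symm (f g : MvPolynomial σ ℂ) : fis f g = fis g f := by
  have : (fis : MvPolynomial σ ℂ →ₗ[ℂ] MvPolynomial σ ℂ →ₗ[ℂ] ℂ) = fis.flip :=
    ir_ext fun s => ir_ext fun t => by
      rw [LinearMap.flip_apply, fis_mono, fis_mono, coeff_monomial, coeff_monomial]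
      by_cases h : s = t
      · rw [h]
      · rw [if_neg h, if_neg (Ne.symm h), mul_zero, mul_zero]
  rw [this, LinearMap.flip_apply, ← this]

theorem fis_adj (a : σ) (f g : MvPolynomial σ ℂ) : fis (X a * f) g = fis f (pderiv a g) := by
  have : fis.flip g ∘ₗ LinearMap.mulLeft ℂ (X a) = fis.flip (pderiv a g) := ir_ext fun s => by
    simp only [LinearMap.comp_apply, LinearMap.mulLeft_apply, LinearMap.flip_apply]
    rw [X, monomial_mul, one_mul, fis_mono, fis_mono, coeff_pderiv, add_comm (Finsupp.single a 1)]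
    have e : ∏ i, ((s + Finsupp.single a 1 : σ →₀ ℕ) i).factorial =
        (∏ i, (s i).factorial) * (s a + 1) := by
      rw [← Finset.mul_prod_erase _ _ (Finset.mem_univ a),
        ← Finset.mul_prod_erase _ (fun i => (s i).factorial) (Finset.mem_univ a),
        Finset.prod_congr rfl (g := fun i => (s i).factorial) fun i hi => by
          simp [(Finset.mem_erase.1 hi).1]]
      simp only [Finsupp.add_apply, Finsupp.single_eq_same, Nat.factorial_succ]
      ring
    rw [e]
    push_cast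
    ring
  exact LinearMap.congr_fun this f

end fischer

theorem ir_bar_bar {m : ℕ} (α : Fin m × Bool) : bar (bar α) = α := by simp [bar]

theorem ir_bar_ne {m : ℕ} (α : Fin m × Bool) : bar α ≠ α := fun h => by
  simpa [bar] using congrArg Prod.snd h

theorem ir_cases {m : ℕ} {α β : Fin m × Bool} (h : β.1 = α.1) : β = α ∨ β = bar α := by
  obtain ⟨a, x⟩ := α
  obtain ⟨b, y⟩ := β
  obtain rfl : b = a := h
  cases x <;> cases y <;> simp [bar]

theorem fis_eY {m : ℕ} (α β : Fin m × Bool) (f g : MvPolynomial (Fin m × Bool) ℂ) :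
    fis (eY α β f) g = fis f (eY (bar β) (bar α) g) := by
  rw [eY_apply, eY_apply, map_sub, LinearMap.sub_apply, map_sub, fis_adj, fis_adj, ir_bar_bar,
    ir_bar_bar, fis_symm f, fis_symm f, fis_adj, fis_adj, fis_symm (pderiv α g),
    fis_symm (pderiv β g)]

theorem ir_top {m j : ℕ} (hm : 2 ≤ m) {α : Fin m × Bool} {f : MvPolynomial (Fin m × Bool) ℂ}
    (hf : f ∈ HarmY m j) (h : ∀ β : Fin m × Bool, β.1 ≠ α.1 → eY α β f = 0) :
    f = coeff (Finsupp.single α j) f • X α ^ j := by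
  obtain ⟨hh, hl⟩ := mem_HarmY.1 hf
  let B : Finset (Fin m × Bool) := Finset.univ.filter fun β => β.1 ≠ α.1
  have hB : ∀ β, β ∈ B ↔ β.1 ≠ α.1 := fun β => by simp [B]
  have hB0 : 0 < B.card := by
    have : Nontrivial (Fin m) := Fin.nontrivial_iff_two_le.2 hm
    obtain ⟨b, hb⟩ := exists_ne α.1
    exact Finset.card_pos.2 ⟨(b, true), (hB _).2 hb⟩
  have h1 : ∀ β ∈ B, X α * pderiv (bar β) f = X β * pderiv (bar α) f := fun β hβ =>
    sub_eq_zero.1 ((eY_apply α β f).symm.trans (h β ((hB β).1 hβ)))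
  have h2 : ∀ β ∈ B, X α * pderiv β (pderiv (bar β) f) =
      pderiv (bar α) f + X β * pderiv β (pderiv (bar α) f) := fun β hβ => by
    have e := congrArg (pderiv β) (h1 β hβ)
    have hne : α ≠ β := fun e => (hB β).1 hβ (by rw [e])
    rw [pderiv_mul, pderiv_mul, pderiv_X_of_ne hne, pderiv_X_self, zero_mul, zero_add,
      one_mul] at e
    exact e
  have h3 : ∑ β ∈ B, pderiv β (pderiv (bar β) f) +
      (pderiv α (pderiv (bar α) f) + pderiv α (pderiv (bar α) f)) = 0 := by
    have e : Finset.univ.filter (fun β : Fin m × Bool => ¬ β.1 ≠ α.1) = {α, bar α} := by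
      ext β
      simp only [Finset.mem_filter, Finset.mem_univ, true_and, not_not, Finset.mem_insert,
        Finset.mem_singleton]
      exact ⟨ir_cases, by rintro (rfl | rfl) <;> rfl⟩
    rw [← hl, ← Finset.sum_filter_add_sum_filter_not Finset.univ
      fun β : Fin m × Bool => β.1 ≠ α.1, e,
      Finset.sum_pair (ir_bar_ne α).symm, ir_bar_bar, pderiv_comm' (bar α) α]
  have hg : pderiv (bar α) f = 0 := by
    ext s
    have e := congrArg (fun p => coeff s (X α * p)) h3
    simp only [mul_add, Finset.mul_sum, mul_zero, Finset.sum_congr rfl h2, coeff_add, coeff_sum,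
      ir_coeff_euler, coeff_zero] at e
    simp only [Finset.sum_add_distrib, Finset.sum_const, nsmul_eq_mul, ← Finset.sum_mul] at e
    have e2 : ((B.card + ∑ β ∈ B, s β + 2 * s α : ℕ) : ℂ) * coeff s (pderiv (bar α) f) = 0 := by
      push_cast
      linear_combination e
    exact (mul_eq_zero.1 e2).resolve_left (Nat.cast_ne_zero.2 (by omega))
  have h4 : ∀ γ, γ ≠ α → pderiv γ f = 0 := fun γ hγ => by
    by_cases hc : γ.1 = α.1
    · rw [(ir_cases hc).resolve_left hγ, hg]
    · have e := h1 (bar γ) ((hB _).2 hc)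
      rw [hg, mul_zero, ir_bar_bar] at e
      exact (mul_eq_zero.1 e).resolve_left (X_ne_zero α)
  ext s
  rw [X_pow_eq_monomial, coeff_smul, coeff_monomial, smul_eq_mul]
  split_ifs with hs
  · rw [hs, mul_one]
  · rw [mul_zero]
    by_contra hc
    have h5 : ∀ γ, γ ≠ α → s γ = 0 := fun γ hγ => by
      have e := ir_coeff_euler γ f s
      rw [h4 γ hγ, mul_zero, coeff_zero] at e
      exact_mod_cast (mul_eq_zero.1 e.symm).resolve_right hc
    refine hs ?_
    ext γ
    by_cases hγ : γ = α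
    · subst hγ
      rw [Finsupp.single_eq_same, ← ir_deg hh hc,
        Finset.sum_eq_single γ (fun b _ hb => h5 b hb) (by simp)]
    · rw [Finsupp.single_eq_of_ne hγ, h5 γ hγ]

theorem ir_core {m j : ℕ} (hm : 2 ≤ m) (V : Submodule ℂ (MvPolynomial (Fin m × Bool) ℂ))
    (hV : V ≤ HarmY m j) (hinv : ∀ α β, ∀ f ∈ V, eY α β f ∈ V) (hne : V ≠ ⊥)
    (α : Fin m × Bool) : X α ^ j ∈ V := by
  have hle : ∀ f ∈ V, ∀ s, coeff s f ≠ 0 → ∀ γ, s γ ≤ j := fun f hf s hs γ => by
    rw [← ir_deg (mem_HarmY.1 (hV hf)).1 hs]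
    exact Finset.single_le_sum (f := fun i => s i) (fun _ _ => Nat.zero_le _) (Finset.mem_univ γ)
  obtain ⟨f, hf, hf0, h⟩ : ∃ f ∈ V, f ≠ 0 ∧ ∀ β : Fin m × Bool, β.1 ≠ α.1 → eY α β f = 0 := by
    by_contra hc
    push Not at hc
    have key : ∀ n : ℕ, ∃ f ∈ V, f ≠ 0 ∧ ∀ s, coeff s f ≠ 0 → n + s (bar α) ≤ s α + j := by
      intro n
      induction n with
      | zero =>
        obtain ⟨f, hf, hf0⟩ := Submodule.exists_mem_ne_zero_of_ne_bot hne
        exact ⟨f, hf, hf0, fun s hs => by have := hle f hf s hs (bar α); omega⟩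
      | succ n ih =>
        obtain ⟨f, hf, hf0, hw⟩ := ih
        obtain ⟨β, hβ, h0⟩ := hc f hf hf0
        refine ⟨_, hinv α β f hf, h0, fun s hs => ?_⟩
        have n1 : α ≠ β := fun e => hβ (by rw [e])
        have n2 : α ≠ bar β := fun e => hβ (by rw [e]; rfl)
        have n3 : bar α ≠ β := fun e => hβ (by rw [← e]; rfl)
        have n4 : bar α ≠ bar β := fun e => hβ (congrArg Prod.fst e).symm
        have n5 := ir_bar_ne α
        rw [eY_apply, coeff_sub] at hs
        by_cases h1 : coeff s (X α * pderiv (bar β) f) = 0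
        · rw [h1, zero_sub, neg_ne_zero] at hs
          have h2 := hw _ (ir_coeff_ne hs).2
          simp [n1, n3, n5.symm] at h2
          omega
        · obtain ⟨h3, h2⟩ := ir_coeff_ne h1
          have h2 := hw _ h2
          simp [n2, n4, n5] at h2
          omega
    obtain ⟨f, hf, hf0, hw⟩ := key (2 * j + 1)
    obtain ⟨s, hs⟩ := exists_coeff_ne_zero hf0
    have h1 := hw s hs
    have h2 := hle f hf s hs α
    omega
  have e := ir_top hm (hV hf) h
  have hc : coeff (Finsupp.single α j) f ≠ 0 := fun h0 => hf0 (by rw [e, h0, zero_smul])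
  exact (V.smul_mem_iff hc).1 (e ▸ hf)

theorem irred_HarmY {m j : ℕ} (hm : 2 ≤ m) (U : Submodule ℂ (HarmY m j))
    (hU : ∀ α β (T : Module.End ℂ (HarmY m j)), Rep T (eY α β) → ∀ f ∈ U, T f ∈ U) :
    U = ⊥ ∨ U = ⊤ := by
  by_contra hc
  push Not at hc
  have hU' : ∀ α β, ∀ f ∈ U, (⟨eY α β f, eY_mem_HarmY α β f.2⟩ : HarmY m j) ∈ U := by
    intro α β f hf
    obtain ⟨T, hT⟩ := exists_rep (W := HarmY m j) (F := eY α β) fun f hf => eY_mem_HarmY α β hf
    have e : (⟨eY α β f, eY_mem_HarmY α β f.2⟩ : HarmY m j) = T f := Subtype.ext (hT f).symm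
    exact e ▸ hU α β T hT f hf
  let φ : HarmY m j →ₗ[ℂ] Module.Dual ℂ U :=
    fis.compl₁₂ (HarmY m j).subtype ((HarmY m j).subtype ∘ₗ U.subtype)
  have hφ : LinearMap.ker φ ≠ ⊥ := LinearMap.ker_ne_bot_of_finrank_lt
    ((Subspace.dual_finrank_eq (K := ℂ) (V := U)).trans_lt (Submodule.finrank_lt hc.2))
  have hne : ∀ W : Submodule ℂ (HarmY m j), W ≠ ⊥ → W.map (HarmY m j).subtype ≠ ⊥ := fun W hW h =>
    hW (Submodule.map_injective_of_injective (HarmY m j).injective_subtype
      (h.trans (Submodule.map_bot _).symm))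
  let α : Fin m × Bool := (⟨0, by omega⟩, true)
  obtain ⟨f, hf, ef⟩ := ir_core hm _ (Submodule.map_subtype_le _ U) (by
    rintro α β _ ⟨f, hf, rfl⟩
    exact ⟨_, hU' α β f hf, rfl⟩) (hne _ hc.1) α
  obtain ⟨g, hg, eg⟩ := ir_core hm _ (Submodule.map_subtype_le _ (LinearMap.ker φ)) (by
    rintro α β _ ⟨g, hg, rfl⟩
    refine ⟨⟨_, eY_mem_HarmY α β g.2⟩, LinearMap.ext fun f => ?_, rfl⟩
    exact (fis_eY α β g f).trans
      (LinearMap.congr_fun (LinearMap.mem_ker.1 hg) ⟨_, hU' _ _ f f.2⟩)) (hne _ hφ) α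
  have h0 : fis (g : MvPolynomial (Fin m × Bool) ℂ) (f : MvPolynomial (Fin m × Bool) ℂ) = 0 :=
    LinearMap.congr_fun (LinearMap.mem_ker.1 hg) ⟨f, hf⟩
  rw [Submodule.subtype_apply] at ef eg
  rw [ef, eg, X_pow_eq_monomial, fis_mono, coeff_monomial, if_pos rfl, mul_one,
    Nat.cast_eq_zero] at h0
  exact (Finset.prod_ne_zero_iff.2 fun i _ => Nat.factorial_ne_zero _) h0

end Vale.Agent.P225
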