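import Vale.Agent.P225.Spec

/-!
The three Ricci inequalities from the static slack. Put `e = exp (-y/(n-1))`, `E = exp (2y)`.
* `ricR = -(n-1) S1 e - y1² (n-2)/(n-1) ≥ y1² ((n-1) e - 1) ≥ 0`, since `hstat` gives
  `exp (2 yb) < n/2 ≤ n - 1`, so `exp (y/(n-1)) ≤ n - 1`.
* `F y = n - 2 exp (2y) - (n-2) Ss² exp (-2y/(n-1))` is antitone on `Ici (-1/10)` (derivative
  `≤ -4 exp (-1/5) + 2 exp (1/10) < 0`), so `F y ≥ F yb > 0`, and `ricH ≥ F y - C ε0` (the term `-S1 e`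
  is nonnegative).
* `ricV ≥ (n-2)(E - Ss² e²) - C ε0` and `E - Ss² e²` is monotone in `y`, positive at `y = 0`, so it is
  `≥ (1 - Ss²)/2` for `y ≥ -ε0`, `ε0` small.
-/

namespace Vale.Agent.P225

open scoped ContDiff
open Filter Topology MvPolynomial Matrix Set

lemma ricIneq_exp_le {t : ℝ} (h1 : t ≤ 1 / 10) : Real.exp t ≤ 10 / 9 := by
  have h2 := Real.add_one_le_exp (-t)
  have h3 : Real.exp t * Real.exp (-t) = 1 := by rw [← Real.exp_add]; simp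
  nlinarith [Real.exp_pos t]

lemma ricIneq_exp_le' {t ε : ℝ} (h0 : 0 ≤ ε) (h1 : t ≤ ε) (h2 : ε ≤ 1 / 10) :
    Real.exp t ≤ 1 + 2 * ε := by
  have h3 := Real.add_one_le_exp (-t)
  have h4 : Real.exp t * Real.exp (-t) = 1 := by rw [← Real.exp_add]; simp
  have h5 := ricIneq_exp_le (h1.trans h2)
  nlinarith [Real.exp_pos t]

lemma ricIneq_anti {n yb y c : ℝ} (hn : 3 ≤ n) (hc0 : 0 ≤ c) (hc1 : c ≤ 1) (hy : -(1 / 10) ≤ y)
    (hyb : y ≤ yb) :
    n - 2 * Real.exp (2 * yb) - (n - 2) * c * Real.exp (-2 * yb / (n - 1)) ≤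
      n - 2 * Real.exp (2 * y) - (n - 2) * c * Real.exp (-2 * y / (n - 1)) := by
  have hm : 0 < n - 1 := by linarith
  set t := yb - y with ht
  have ht0 : 0 ≤ t := by linarith
  have e1 : Real.exp (2 * yb) = Real.exp (2 * y) * Real.exp (2 * t) := by
    rw [← Real.exp_add]; congr 1; ring
  have e2 : Real.exp (-2 * yb / (n - 1)) =
      Real.exp (-2 * y / (n - 1)) * Real.exp (-(2 * t / (n - 1))) := by
    rw [← Real.exp_add]; congr 1; rw [ht]; field_simp; ring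
  have a1 := Real.add_one_le_exp (2 * t)
  have a2 := Real.add_one_le_exp (-(2 * t / (n - 1)))
  have a3 := Real.add_one_le_exp (2 * y)
  have a4 : Real.exp (-2 * y / (n - 1)) ≤ 10 / 9 := by
    apply ricIneq_exp_le
    rw [div_le_iff₀ hm]
    nlinarith
  have a5 := Real.exp_pos (-2 * y / (n - 1))
  have a6 : (n - 2) * c * (2 * t / (n - 1)) ≤ 2 * t := by
    rw [← mul_div_assoc, div_le_iff₀ hm]
    have : (n - 2) * c ≤ n - 1 := by nlinarith
    nlinarith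
  have a7 : 0 ≤ (n - 2) * c := mul_nonneg (by linarith) hc0
  have b1 : 8 / 5 * (2 * t) ≤ 2 * (Real.exp (2 * y) * (Real.exp (2 * t) - 1)) := by
    have : 4 / 5 * (2 * t) ≤ Real.exp (2 * y) * (Real.exp (2 * t) - 1) :=
      mul_le_mul (by linarith) (by linarith) (by linarith) (by linarith)
    linarith
  have b2 : (n - 2) * c * (Real.exp (-2 * y / (n - 1)) * (1 - Real.exp (-(2 * t / (n - 1))))) ≤
      10 / 9 * (2 * t) := by
    have h1 : (n - 2) * c * (1 - Real.exp (-(2 * t / (n - 1)))) ≤ 2 * t :=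
      (mul_le_mul_of_nonneg_left (by linarith) a7).trans a6
    have h2 : 0 ≤ 2 * t := by linarith
    calc _ = Real.exp (-2 * y / (n - 1)) * ((n - 2) * c * (1 - Real.exp (-(2 * t / (n - 1))))) := by
          ring
      _ ≤ Real.exp (-2 * y / (n - 1)) * (2 * t) := mul_le_mul_of_nonneg_left h1 a5.le
      _ ≤ _ := mul_le_mul_of_nonneg_right a4 h2
  rw [e1, e2]
  nlinarith

lemma ricIneq_mul_le {a b A B : ℝ} (ha : |a| ≤ A) (hb : |b| ≤ B) :
    -(A * B) ≤ a * b ∧ a * b ≤ A * B := by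
  have : |a * b| ≤ A * B := by
    rw [abs_mul]
    exact mul_le_mul ha hb (abs_nonneg _) ((abs_nonneg _).trans ha)
  exact abs_le.1 this

lemma ricIneq_R {n a b e w u : ℝ} (hn : 3 ≤ n) (h3 : 1 ≤ (n - 1) * e)
    (hneg : ((n - 1) * a) ^ 2 * e ≤ -w) :
    0 ≤ ricR n (u - a) (w - u * a - b) ((n - 1) * a) ((n - 1) * b) := by
  have hm : 0 ≤ n - 1 := by linarith
  have : ricR n (u - a) (w - u * a - b) ((n - 1) * a) ((n - 1) * b) =
      (n - 1) * -w - ((n - 1) * a) ^ 2 + (n - 1) * a ^ 2 := by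
    rw [ricR]; ring
  rw [this]
  have h7 := mul_le_mul_of_nonneg_left hneg hm
  have h8 := mul_le_mul_of_nonneg_left h3 (sq_nonneg ((n - 1) * a))
  have h9 := mul_nonneg hm (sq_nonneg a)
  linarith

lemma ricIneq_H {n a b w u E c ε : ℝ} (hn : 3 ≤ n) (hw : 0 ≤ -w) (hu : |u| ≤ 2)
    (ha : (n - 1) * |a| ≤ ε) (hb : |b| ≤ ε) (hc : u ^ 2 ≤ c) (h : 3 * ε ≤ n - 2 * E - (n - 2) * c) :
    0 ≤ ricH n (u - a) (w - u * a - b) ((n - 1) * a) E := by
  have : ricH n (u - a) (w - u * a - b) ((n - 1) * a) E = -w + u * ((n - 2) * a) + b + a ^ 2 +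
      (n - 2 * E - (n - 2) * u ^ 2) := by
    rw [ricH]; ring
  rw [this]
  have h4 : |(n - 2) * a| ≤ ε := by
    rw [abs_mul, abs_of_nonneg (by linarith : 0 ≤ n - 2)]
    linarith [abs_nonneg a]
  have h5 := (ricIneq_mul_le hu h4).1
  have h6 := (abs_le.1 hb).1
  have h7 : (n - 2) * u ^ 2 ≤ (n - 2) * c := mul_le_mul_of_nonneg_left hc (by linarith)
  linarith [sq_nonneg a]

lemma ricIneq_V {n a b w u E y1 y2 ε : ℝ} (hn : 3 ≤ n) (hw : 0 ≤ -w) (hu0 : 0 ≤ u) (hu1 : u ≤ 2)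
    (hε : ε ≤ 1 / 10) (ha : |a| ≤ ε) (hb : |b| ≤ ε) (h1 : |y1| ≤ ε) (h2 : |y2| ≤ ε)
    (h : 14 * ε ≤ E - u ^ 2) : 0 ≤ ricV n (u - a) (w - u * a - b) y1 y2 E := by
  have : ricV n (u - a) (w - u * a - b) y1 y2 E = -w + (u * a + b - y2 -
      y1 * (u - a + y1)) + (n - 2) * (E - u ^ 2 - u * y1 + 2 * (u * a) + a * (y1 - a)) := by
    rw [ricV]; ring
  rw [this]
  have hu2 : |u| ≤ 2 := by rw [abs_of_nonneg hu0]; exact hu1
  have c1 := ricIneq_mul_le hu2 ha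
  have c2 := abs_le.1 hb
  have c3 := abs_le.1 h2
  have c4 := abs_le.1 h1
  have c5 := abs_le.1 ha
  have c6 := ricIneq_mul_le h1 (show |u - a + y1| ≤ 3 from abs_le.2 ⟨by linarith, by linarith⟩)
  have c7 := ricIneq_mul_le hu2 h1
  have c8 := ricIneq_mul_le ha (show |y1 - a| ≤ 1 from abs_le.2 ⟨by linarith, by linarith⟩)
  have c11 : 7 * ε ≤ E - u ^ 2 - u * y1 + 2 * (u * a) + a * (y1 - a) := by
    linarith [c1.1, c7.2, c8.1]
  have c12 : 1 * (7 * ε) ≤ (n - 2) * (E - u ^ 2 - u * y1 + 2 * (u * a) + a * (y1 - a)) :=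
    mul_le_mul (by linarith) c11 (by linarith) (by linarith)
  linarith [c1.1, c6.2]

lemma ricIneq_one_le {n yb y c : ℝ} (hn : 3 ≤ n) (hyb : 0 < yb) (hy : y ≤ yb) (hc : 0 ≤ c)
    (h : c < n - 2 * Real.exp (2 * yb)) : 1 ≤ (n - 1) * Real.exp (-y / (n - 1)) := by
  have hm : 0 < n - 1 := by linarith
  have h4 : Real.exp (y / (n - 1)) ≤ Real.exp (2 * yb) := by
    apply Real.exp_le_exp.2
    rw [div_le_iff₀ hm]
    nlinarith
  have h6 : Real.exp (y / (n - 1)) * Real.exp (-y / (n - 1)) = 1 := by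
    rw [← Real.exp_add, neg_div]; simp
  have h7 : Real.exp (y / (n - 1)) ≤ n - 1 := by linarith
  exact h6.symm.trans_le (mul_le_mul_of_nonneg_right h7 (Real.exp_pos _).le)

lemma ricIneq_abs_div {n y ε : ℝ} (hn : 3 ≤ n) (h : |y| ≤ ε) :
    (n - 1) * |y / (n - 1)| ≤ ε ∧ |y / (n - 1)| ≤ ε := by
  have hm : 0 < n - 1 := by linarith
  have h1 : (n - 1) * |y / (n - 1)| = |y| := by
    rw [abs_div, abs_of_pos hm]
    field_simp
  refine ⟨h1 ▸ h, ?_⟩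
  nlinarith [abs_nonneg (y / (n - 1))]

theorem ric_ineq {n yb Ss : ℝ} (hn : 3 ≤ n) (hyb : 0 < yb) (hS0 : 0 < Ss) (hS1 : Ss < 1)
    (hstat : (n - 2) * Ss ^ 2 * Real.exp (-2 * yb / (n - 1)) < n - 2 * Real.exp (2 * yb)) :
    ∃ ε0 > 0, ∀ y y1 y2 S S1 s s1 : ℝ, -ε0 ≤ y → y ≤ yb → |y1| ≤ ε0 → |y2| ≤ ε0 → 0 ≤ S →
      S ≤ Ss → S1 ≤ -y1 ^ 2 → s = S * Real.exp (-y / (n - 1)) - y1 / (n - 1) →
      s1 = S1 * Real.exp (-y / (n - 1)) - S * Real.exp (-y / (n - 1)) * y1 / (n - 1) -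
        y2 / (n - 1) →
      0 ≤ ricR n s s1 y1 y2 ∧ 0 ≤ ricH n s s1 y1 (Real.exp (2 * y)) ∧
        0 ≤ ricV n s s1 y1 y2 (Real.exp (2 * y)) := by
  have hm : 0 < n - 1 := by linarith
  obtain ⟨F0, hF0⟩ : ∃ F0, F0 = n - 2 * Real.exp (2 * yb) -
    (n - 2) * Ss ^ 2 * Real.exp (-2 * yb / (n - 1)) := ⟨_, rfl⟩
  have hF : 0 < F0 := by linarith
  have hSs : 0 < 1 - Ss ^ 2 := by nlinarith
  obtain ⟨ε, hε0, hε1, hε2, hε3⟩ : ∃ ε : ℝ, 0 < ε ∧ ε ≤ 1 / 10 ∧ ε ≤ F0 / 3 ∧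
      ε ≤ (1 - Ss ^ 2) / 18 :=
    ⟨min (1 / 10) (min (F0 / 3) ((1 - Ss ^ 2) / 18)), by positivity, min_le_left _ _,
      (min_le_right _ _).trans (min_le_left _ _), (min_le_right _ _).trans (min_le_right _ _)⟩
  refine ⟨ε, hε0, ?_⟩
  intro y y1 y2 S S1 s s1 hy0 hy1 h1 h2 hS hSS hS1' hs hs1
  have h3 := ricIneq_one_le hn hyb hy1
    (mul_nonneg (mul_nonneg (by linarith) (by positivity)) (Real.exp_pos _).le) hstat
  have h4 := ricIneq_anti (yb := yb) hn (sq_nonneg Ss) (by linarith) (by linarith) hy1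
  have he2 : Real.exp (-y / (n - 1)) ^ 2 = Real.exp (-2 * y / (n - 1)) := by
    rw [← Real.exp_nat_mul]; congr 1; push_cast; ring
  have he3 : Real.exp (-2 * y / (n - 1)) ≤ 1 + 2 * ε := by
    refine ricIneq_exp_le' hε0.le ?_ hε1
    rw [div_le_iff₀ hm]
    have := mul_le_mul_of_nonneg_left (show 2 ≤ n - 1 by linarith) hε0.le
    linarith
  have he0 : 0 < Real.exp (-y / (n - 1)) := Real.exp_pos _
  have c9 := Real.add_one_le_exp (2 * y)
  rw [← he2] at h4 he3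
  generalize Real.exp (-y / (n - 1)) = e at *
  have he4 : e ≤ 2 := by
    apply le_of_sq_le_sq _ (by norm_num)
    linarith
  obtain ⟨haa, ha1⟩ := ricIneq_abs_div hn h1
  obtain ⟨-, hb1⟩ := ricIneq_abs_div hn h2
  have ha' : y1 = (n - 1) * (y1 / (n - 1)) := by field_simp
  have hb' : y2 = (n - 1) * (y2 / (n - 1)) := by field_simp
  have hs1' : s1 = S1 * e - S * e * (y1 / (n - 1)) - y2 / (n - 1) := by rw [hs1]; ring
  generalize y1 / (n - 1) = a at *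
  generalize y2 / (n - 1) = b at *
  have hu0 : 0 ≤ S * e := mul_nonneg hS he0.le
  have hu1 : S * e ≤ 2 := (mul_le_mul (hSS.trans hS1.le) he4 he0.le zero_le_one).trans (by norm_num)
  have hu3 : (S * e) ^ 2 ≤ Ss ^ 2 * e ^ 2 := by
    rw [mul_pow]
    exact mul_le_mul_of_nonneg_right (pow_le_pow_left₀ hS hSS 2) (by positivity)
  have hneg : y1 ^ 2 * e ≤ -(S1 * e) := by
    have := mul_le_mul_of_nonneg_right hS1' he0.le
    linarith
  have hneg0 : 0 ≤ -(S1 * e) := le_trans (by positivity) hneg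
  rw [hs, hs1']
  refine ⟨?_, ?_, ?_⟩
  · rw [ha', hb']
    exact ricIneq_R hn h3 (ha' ▸ hneg)
  · rw [ha']
    exact ricIneq_H hn hneg0 (by rw [abs_of_nonneg hu0]; exact hu1) haa hb1 hu3 (by linarith)
  · have c1 := mul_le_mul_of_nonneg_left he3 (sq_nonneg Ss)
    have c2 := mul_le_mul_of_nonneg_right (show Ss ^ 2 ≤ 1 by linarith) hε0.le
    exact ricIneq_V hn hneg0 hu0 hu1 hε1 ha1 hb1 h1 h2 (by linarith)

/-- From the functions `y, S, τ` to a profile with nonnegative Ricci coefficients. Take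
`L σ = (∫ 0..σ, S * exp (-y/(n-1))) - y σ/(n-1)`, so `deriv L = sOf n y S`. Where `y` vanishes near
`σ` one has `s = S`, `s1 = S'` and the inequalities follow from `S' ≤ 0`, `0 ≤ S ≤ 1`. -/
theorem profile_of {ι : Type} [Fintype ι] [DecidableEq ι] {n yb Ss s0 : ℝ} (hn : 3 ≤ n)
    (hyb : 0 < yb) (hS0 : 0 < Ss) (hS1 : Ss < 1) (hs0 : 0 < s0)
    (hstat : (n - 2) * Ss ^ 2 * Real.exp (-2 * yb / (n - 1)) < n - 2 * Real.exp (2 * yb)) :
    ∃ ε0 > 0, ∀ (y S : ℝ → ℝ) (J : ℝ → Matrix ι ι ℝ), ContDiff ℝ ∞ y → ContDiff ℝ ∞ S →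
      (∀ σ ≤ 0, y σ = 0 ∧ S σ = 1) → (∀ σ, IsCx (J σ)) →
      (∀ σ, deriv S σ ≤ -deriv y σ ^ 2 ∧ S σ ≤ 1 ∧ s0 ≤ S σ * Real.exp (-y σ / (n - 1)) ∧
        -ε0 ≤ y σ ∧ y σ ≤ yb ∧ |deriv y σ| ≤ ε0 ∧ |deriv (deriv y) σ| ≤ ε0) →
      (∀ σ, (∀ᶠ t in 𝓝 σ, y t = 0) ∨ ((∀ᶠ t in 𝓝 σ, J t = J σ) ∧ S σ ≤ Ss)) →
      ∃ L : ℝ → ℝ, IsProfile y L J ∧ deriv L = sOf n y S ∧
        (∀ σ, 0 ≤ ricR n (deriv L σ) (deriv (deriv L) σ) (deriv y σ) (deriv (deriv y) σ)) ∧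
        (∀ σ, 0 ≤ ricH n (deriv L σ) (deriv (deriv L) σ) (deriv y σ) (Real.exp (2 * y σ))) ∧
        (∀ σ, 0 ≤ ricV n (deriv L σ) (deriv (deriv L) σ) (deriv y σ) (deriv (deriv y) σ)
          (Real.exp (2 * y σ))) ∧
        (∀ σ, 0 < deriv L σ ∧ deriv L σ ≤ 2) ∧ (∀ σ, -(1 / 2) ≤ y σ) ∧
        Tendsto L atTop atTop ∧ ∀ σ ≥ 0, s0 * σ - yb ≤ L σ := by
  have hm : 0 < n - 1 := by linarith
  obtain ⟨ε1, hε1, H⟩ := ric_ineq hn hyb hS0 hS1 hstat
  refine ⟨min ε1 (min (1 / 10) s0), by positivity, ?_⟩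
  set ε := min ε1 (min (1 / 10) s0) with hε
  have hεa : ε ≤ ε1 := min_le_left _ _
  have hεb : ε ≤ 1 / 10 := (min_le_right _ _).trans (min_le_left _ _)
  have hεc : ε ≤ s0 := (min_le_right _ _).trans (min_le_right _ _)
  clear_value ε
  intro y S J hy hS hneg hcx hb hdich
  set G : ℝ → ℝ := fun t => S t * Real.exp (-y t / (n - 1)) with hG
  have hGd : ContDiff ℝ ∞ G := hS.mul ((hy.neg.div_const _).exp)
  have hyd : Differentiable ℝ y := hy.differentiable (by simp)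
  have hSd : Differentiable ℝ S := hS.differentiable (by simp)
  have hy' : ContDiff ℝ ∞ (deriv y) := (contDiff_infty_iff_deriv.1 hy).2
  have hy'd : Differentiable ℝ (deriv y) := hy'.differentiable (by simp)
  set L : ℝ → ℝ := fun σ => (∫ t in (0 : ℝ)..σ, G t) - y σ / (n - 1) with hL
  have hLd : ∀ σ, HasDerivAt L (sOf n y S σ) σ := fun σ =>
    (hGd.continuous.integral_hasStrictDerivAt 0 σ).hasDerivAt.sub
      ((hyd σ).hasDerivAt.div_const _)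
  have hL' : deriv L = sOf n y S := funext fun σ => (hLd σ).deriv
  have hsd : ContDiff ℝ ∞ (sOf n y S) := hGd.sub (hy'.div_const _)
  have hL'' : ∀ σ, deriv (sOf n y S) σ = deriv S σ * Real.exp (-y σ / (n - 1)) -
      S σ * Real.exp (-y σ / (n - 1)) * deriv y σ / (n - 1) - deriv (deriv y) σ / (n - 1) := by
    intro σ
    have h1 := ((hSd σ).hasDerivAt.mul (((hyd σ).hasDerivAt.neg.div_const (n - 1)).exp)).sub
      ((hy'd σ).hasDerivAt.div_const (n - 1))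
    have h2 : deriv (sOf n y S) σ = _ := h1.deriv
    rw [h2]
    simp only [Pi.neg_apply]
    ring
  have hSnn : ∀ σ, 0 ≤ S σ := fun σ => by
    have h1 := (hb σ).2.2.1
    by_contra h2
    push Not at h2
    nlinarith [Real.exp_pos (-y σ / (n - 1))]
  have hric : ∀ σ, 0 ≤ ricR n (deriv L σ) (deriv (deriv L) σ) (deriv y σ) (deriv (deriv y) σ) ∧
      0 ≤ ricH n (deriv L σ) (deriv (deriv L) σ) (deriv y σ) (Real.exp (2 * y σ)) ∧
      0 ≤ ricV n (deriv L σ) (deriv (deriv L) σ) (deriv y σ) (deriv (deriv y) σ)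
        (Real.exp (2 * y σ)) := by
    intro σ
    obtain ⟨b1, b2, b3, b4, b5, b6, b7⟩ := hb σ
    rw [hL']
    rcases hdich σ with h0 | h0
    · have h1 : y =ᶠ[𝓝 σ] fun _ => 0 := h0
      have h2 : deriv y =ᶠ[𝓝 σ] fun _ => 0 := by
        filter_upwards [h1.deriv] with t ht
        rw [ht]
        simp
      have h3 : y σ = 0 := h1.eq_of_nhds
      have h4 : deriv y σ = 0 := h2.eq_of_nhds
      have h5 : deriv (deriv y) σ = 0 := by
        rw [h2.deriv_eq]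
        simp
      rw [hL'', sOf, h3, h4, h5]
      rw [h4] at b1
      have h6 := hSnn σ
      have h7 : S σ * S σ ≤ 1 := by nlinarith
      have h8 : (n - 2) * (S σ * S σ) ≤ (n - 2) * 1 := mul_le_mul_of_nonneg_left h7 (by linarith)
      simp only [ricR, ricH, ricV, neg_zero, zero_div, Real.exp_zero, mul_zero, mul_one, sub_zero]
      refine ⟨by nlinarith, by nlinarith, by nlinarith⟩
    · exact H _ _ _ _ _ _ _ (by linarith) b5 (b6.trans hεa) (b7.trans hεa) (hSnn σ) h0.2 b1 rfl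
        (hL'' σ)
  have hlow : ∀ σ ≥ 0, s0 * σ - yb ≤ L σ := by
    intro σ hσ
    have h1 : ∫ _ in (0 : ℝ)..σ, s0 ≤ ∫ t in (0 : ℝ)..σ, G t :=
      intervalIntegral.integral_mono_on hσ (by simp) (hGd.continuous.intervalIntegrable _ _)
        fun t _ => (hb t).2.2.1
    have h2 : y σ / (n - 1) ≤ yb := by
      rw [div_le_iff₀ hm]
      nlinarith [(hb σ).2.2.2.2.1]
    simp only [intervalIntegral.integral_const, sub_zero, smul_eq_mul] at h1
    simp only [hL]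
    linarith
  refine ⟨L, ⟨hy, contDiff_infty_iff_deriv.2 ⟨fun σ => (hLd σ).differentiableAt, hL' ▸ hsd⟩,
    fun σ hσ => ⟨(hneg σ hσ).1, ?_⟩, hcx, fun σ => (hdich σ).imp id And.left⟩, hL',
    fun σ => (hric σ).1, fun σ => (hric σ).2.1, fun σ => (hric σ).2.2, fun σ => ?_,
    fun σ => by linarith [(hb σ).2.2.2.1], ?_, hlow⟩
  · have h1 : ∫ t in (0 : ℝ)..σ, G t = ∫ _ in (0 : ℝ)..σ, (1 : ℝ) := by
      refine intervalIntegral.integral_congr fun t ht => ?_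
      rw [uIcc_of_ge hσ] at ht
      simp only [hG, (hneg t ht.2).1, (hneg t ht.2).2]
      simp
    simp only [hL, h1, (hneg σ hσ).1]
    simp
  · obtain ⟨b1, b2, b3, b4, b5, b6, b7⟩ := hb σ
    have h1 : |deriv y σ / (n - 1)| ≤ ε / 2 := by
      rw [abs_div, abs_of_pos hm, div_le_iff₀ hm]
      nlinarith [abs_nonneg (deriv y σ)]
    have h2 := abs_le.1 h1
    have h3 : Real.exp (-y σ / (n - 1)) ≤ 10 / 9 := by
      apply ricIneq_exp_le
      rw [div_le_iff₀ hm]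
      nlinarith
    have h4 : S σ * Real.exp (-y σ / (n - 1)) ≤ 1 * (10 / 9) :=
      mul_le_mul b2 h3 (Real.exp_pos _).le zero_le_one
    rw [hL', sOf]
    constructor <;> linarith [h2.1, h2.2]
  · refine tendsto_atTop_mono' atTop (eventually_atTop.2 ⟨0, hlow⟩) ?_
    exact tendsto_atTop_add_const_right _ (-yb) (tendsto_id.const_mul_atTop hs0)

end Vale.Agent.P225
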