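import Vale.Agent.P225.SelectAux

/-!
Selection of the index sets, `m = 16`, `n = 32`, `k = 4000`, `T0 = 16018444 = 0.9937 k (k + 30)`.
Degree `d = j + 2`. For `d ≤ 3987` take everything (`d (d + 30) < T0`); by `hN` and telescoping these
contribute at least `choose 4018 3987 + choose 4017 3986 - 33`. For `d = 3988 + i`, `i < 82`, take
for each `q` with `500 ≤ q ≤ cut i` a subset of size exactly `2 * dimPQ 16 (d - q) q` of
`{l | w l = d - 2q}` (`Finset.exists_subset_card_eq`; these sets are disjoint), where `cut` is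
[1993, 1994, 1994, 1995, 1995, 1986, 1917, 1861, 1814, 1773, 1736, 1701, 1670, 1640, 1612, 1585,
1560, 1536, 1513, 1491, 1469, 1448, 1428, 1409, 1390, 1372, 1354, 1336, 1319, 1303, 1286, 1270,
1255, 1239, 1224, 1210, 1195, 1181, 1167, 1153, 1139, 1126, 1113, 1100, 1087, 1074, 1062, 1050,
1037, 1025, 1014, 1002, 990, 979, 967, 956, 945, 934, 923, 912, 902, 891, 881, 870, 860, 850, 840,
830, 820, 810, 800, 790, 780, 771, 761, 752, 742, 733, 723, 714, 705, 696].
The numerical facts (about 58000 terms; the total exceeds the Euclidean count by the factor 1.0008)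
are to be checked by `decide +kernel` on a structurally recursive natural number function, with
`choose (p + 15) 15 = descFactorial (p + 15) 15 / 15!`; split into several modules
(SelectNum1, ...) of less than two minutes each if needed.
-/

namespace Vale.Agent.P225

open scoped ContDiff
open Filter Topology MvPolynomial Matrix Set

theorem select_sets {N : Fin 4068 → ℕ} (w : (j : Fin 4068) → Fin (N j) → ℕ)
    (hN : ∀ j : Fin 4068, (2 * 16 + (j : ℕ) + 1).choose ((j : ℕ) + 2) ≤
      N j + (2 * 16 + (j : ℕ) - 1).choose (j : ℕ))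
    (hcnt : ∀ (j : Fin 4068) (p q : ℕ), p + q = (j : ℕ) + 2 → q < p →
      2 * dimPQ 16 p q ≤ (Finset.univ.filter fun l => w j l = p - q).card) :
    ∃ I : (j : Fin 4068) → Finset (Fin (N j)),
      (∀ j : Fin 4068, (I j).Nonempty → ∑ l ∈ I j,
        (35 * (((j : ℕ) : ℤ) + 2) * (((j : ℕ) : ℤ) + 32) - 3 * (w j l : ℤ) ^ 2 - 35 * 16018444) < 0) ∧
      (4031 : ℕ).choose 4000 + (4030 : ℕ).choose 3999 + 1 ≤ ∑ j, (I j).card := by
  have key : ∀ j : Fin 4068, ∃ I : Finset (Fin (N j)), (I.Nonempty → ∑ l ∈ I,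
      (35 * (((j : ℕ) : ℤ) + 2) * (((j : ℕ) : ℤ) + 32) - 3 * (w j l : ℤ) ^ 2 - 35 * 16018444) < 0) ∧
      Sel.lb j ≤ I.card := by
    intro j
    have hj := j.2
    by_cases h : (j : ℕ) < 3986
    · refine ⟨Finset.univ, fun hne => Finset.sum_neg (fun l _ => ?_) hne, ?_⟩
      · have h1 : ((j : ℕ) : ℤ) ≤ 3985 := by exact_mod_cast Nat.le_of_lt_succ h
        have h2 : (0 : ℤ) ≤ ((j : ℕ) : ℤ) := Int.natCast_nonneg _
        nlinarith [sq_nonneg (w j l : ℤ)]
      · have h1 := hN j
        rw [Sel.lb, if_pos h, Finset.card_univ, Fintype.card_fin, Sel.c31_eq, Sel.c31_eq]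
        rw [show 2 * 16 + (j : ℕ) + 1 = (j + 2) + 31 by omega,
          show 2 * 16 + (j : ℕ) - 1 = j + 31 by omega, Nat.choose_symm_add,
          Nat.choose_symm_add] at h1
        omega
    · obtain ⟨I, h1, h2⟩ := Sel.block (w j) (j - 3986) (by omega)
        fun p q hpq hqp => hcnt j p q (by omega) hqp
      refine ⟨I, fun _ => ?_, ?_⟩
      · rw [show 3988 + ((j : ℕ) - 3986) = j + 2 by omega,
          show 4018 + ((j : ℕ) - 3986) = j + 32 by omega] at h1
        simpa only [Nat.cast_add, Nat.cast_ofNat] using h1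
      · rw [Sel.lb, if_neg h, h2]
  choose I hI using key
  refine ⟨I, fun j => (hI j).1, ?_⟩
  have h1 := Sel.sum_lb
  rw [← Fin.sum_univ_eq_sum_range] at h1
  have h2 : ∑ j : Fin 4068, Sel.lb j ≤ ((∑ j, (I j).card : ℕ) : ℤ) := by
    rw [Nat.cast_sum]
    exact Finset.sum_le_sum fun j _ => (hI j).2
  have h3 : (4031 : ℕ).choose 4000 = Sel.c31 4000 := by
    rw [Sel.c31_eq, ← Nat.choose_symm_add]
  have h4 : (4030 : ℕ).choose 3999 = Sel.c31 3999 := by
    rw [Sel.c31_eq, ← Nat.choose_symm_add]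
  rw [h3, h4]
  exact Int.ofNat_le.1 (h1.trans h2)

end Vale.Agent.P225
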