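import Vale.Agent.P225.Dyn
import Vale.Agent.P225.AlgMain
import Vale.Agent.P225.Select
import Vale.Agent.P225.RicIneq
import Vale.Agent.P225.GeoRicciB
import Vale.Agent.P225.GeoLap
import Vale.Agent.P225.GeoDist

namespace Vale.Agent.P225

open scoped ContDiff
open Filter Topology MvPolynomial Matrix Set

theorem poly_growth {ι : Type} [Fintype ι] [DecidableEq ι] {g : (ι → ℝ) → Matrix ι ι ℝ}
    {u : (ι → ℝ) → ℝ} {L p : ℝ → ℝ} {k : ℕ} {s0 yb C1 C2 : ℝ} (hC1 : 0 ≤ C1)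
    (hd : ∀ x, x ≠ 0 → Real.exp (L (sig x)) ≤ 4 * gdist g 0 x) (hL : ∀ σ ≥ 0, s0 * σ - yb ≤ L σ)
    (hu : ∀ x, x ≠ 0 → |u x| ≤ C1 * p (sig x)) (hp0 : ∀ σ ≤ 0, p σ ≤ 1)
    (hp : ∀ σ ≥ 0, p σ ≤ C2 * Real.exp (k * s0 * σ)) :
    ∃ C, ∀ x, |u x| ≤ C * (1 + gdist g 0 x) ^ k := by
  refine ⟨|u 0| + C1 + C1 * (|C2| * (Real.exp yb * 4) ^ k), fun x => ?_⟩
  have hd0 := gdist_nonneg g 0 x
  have h1 : 1 ≤ (1 + gdist g 0 x) ^ k := one_le_pow₀ (by linarith)
  have h2 : 0 ≤ C1 * (|C2| * (Real.exp yb * 4) ^ k) := by positivity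
  have h3 := abs_nonneg (u 0)
  by_cases hx : x = 0
  · subst hx
    nlinarith
  rcases le_total (sig x) 0 with hs | hs
  · have := (hu x hx).trans (mul_le_mul_of_nonneg_left (hp0 _ hs) hC1)
    nlinarith
  · have e1 : Real.exp (s0 * sig x) ≤ Real.exp yb * 4 * (1 + gdist g 0 x) := by
      have : Real.exp (s0 * sig x) ≤ Real.exp yb * Real.exp (L (sig x)) := by
        rw [← Real.exp_add]; exact Real.exp_le_exp.2 (by linarith [hL _ hs])
      have h4 := hd x hx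
      have h5 := Real.exp_pos yb
      nlinarith
    have e2 : Real.exp (k * s0 * sig x) ≤ (Real.exp yb * 4) ^ k * (1 + gdist g 0 x) ^ k := by
      rw [mul_assoc, Real.exp_nat_mul, ← mul_pow]
      exact pow_le_pow_left₀ (Real.exp_pos _).le e1 k
    have e3 : p (sig x) ≤ |C2| * ((Real.exp yb * 4) ^ k * (1 + gdist g 0 x) ^ k) :=
      (hp _ hs).trans ((mul_le_mul_of_nonneg_right (le_abs_self _) (Real.exp_pos _).le).trans
        (mul_le_mul_of_nonneg_left e2 (abs_nonneg _)))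
    have e4 := (hu x hx).trans (mul_le_mul_of_nonneg_left e3 hC1)
    have : 0 ≤ (|u 0| + C1) * (1 + gdist g 0 x) ^ k := by positivity
    nlinarith

theorem exists_params : ∃ y1 Ss s0 : ℝ, 0 < y1 ∧ 0 < Ss ∧ Ss < 1 ∧ 0 < s0 ∧
    s0 ^ 2 = 9937 / 10000 ∧ Real.exp (2 * y1) = 35 / 32 ∧ Irrational ((30 * Ss) ^ 2) ∧
    s0 < Ss * Real.exp (-y1 / 31) ∧ Ss ^ 2 * Real.exp (-2 * y1 / 31) < 159 / 160 := by
  set y1 := Real.log (35 / 32) / 2 with hy1
  have hy0 : 0 < y1 := div_pos (Real.log_pos (by norm_num)) two_pos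
  have hE : Real.exp (2 * y1) = 35 / 32 := by
    rw [hy1, mul_div_cancel₀ _ two_ne_zero, Real.exp_log (by norm_num)]
  set E := Real.exp (2 * y1 / 31) with hEdef
  have hE0 : 0 < E := Real.exp_pos _
  have hE1 : E < 160 / 159 := by
    have h1 : 2 * y1 ≤ 3 / 32 := by
      have := Real.log_le_sub_one_of_pos (show (0 : ℝ) < 35 / 32 by norm_num)
      rw [hy1]; linarith
    have h2 := Real.exp_bound_div_one_sub_of_interval (x := 2 * y1 / 31) (by positivity)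
      (by linarith)
    refine h2.trans_lt ?_
    rw [div_lt_div_iff₀ (by linarith) (by norm_num)]
    linarith
  obtain ⟨r, hr, hr1, hr2⟩ := exists_irrational_btwn
    (show 900 * (9937 / 10000) * E < 900 * (159 / 160) * E by nlinarith)
  have hr0 : 0 < r := lt_trans (by positivity) hr1
  have hsq : (Real.sqrt r / 30) ^ 2 = r / 900 := by
    rw [div_pow, Real.sq_sqrt hr0.le]; norm_num
  have hinv : Real.exp (-2 * y1 / 31) = E⁻¹ := by
    rw [hEdef, ← Real.exp_neg]; congr 1; ring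
  refine ⟨y1, Real.sqrt r / 30, Real.sqrt (9937 / 10000), hy0, by positivity, ?_, by positivity,
    Real.sq_sqrt (by norm_num), hE, ?_, ?_, ?_⟩
  · refine lt_of_pow_lt_pow_left₀ 2 zero_le_one ?_
    rw [hsq]; nlinarith
  · rwa [mul_div_cancel₀ _ (by norm_num), Real.sq_sqrt hr0.le]
  · refine lt_of_pow_lt_pow_left₀ 2 (by positivity) ?_
    rw [Real.sq_sqrt (by norm_num), mul_pow, hsq, ← Real.exp_nat_mul,
      show ((2 : ℕ) : ℝ) * (-y1 / 31) = -2 * y1 / 31 by push_cast; ring, hinv,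
      ← div_eq_mul_inv, lt_div_iff₀ hE0]
    linarith
  · rw [hsq, hinv, ← div_eq_mul_inv, div_lt_iff₀ hE0]
    linarith

theorem counter_aux {h nκ : ℕ} {T : Type} (D : AlgData (Fin 32) 16 nκ T)
    (I : (j : Fin nκ) → Finset (Fin (D.N j)))
    (hI : ∀ j : Fin nκ, (I j).Nonempty → ∑ l ∈ I j,
      (35 * (((j : ℕ) : ℤ) + 2) * (((j : ℕ) : ℤ) + 32) - 3 * (D.w j l : ℤ) ^ 2 -
        35 * 16018444) < 0) (hcard : h ≤ ∑ j, (I j).card) {k : ℕ} (hk : (k : ℝ) = 4000) :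
    ∃ g : (Fin 32 → ℝ) → Matrix (Fin 32) (Fin 32) ℝ,
      IsSmoothMetric g ∧ IsCompleteMetric g ∧ RicciNonneg g ∧
      ∃ u : Fin h → (Fin 32 → ℝ) → ℝ, LinearIndependent ℝ u ∧ ∀ a, IsPolyHarmonic g k (u a) := by
  classical
  obtain ⟨y1, Ss, s0, hy1, hS0, hS1, hs0, hs2, hE, hirr, hsS, hst⟩ := exists_params
  have hn : (3 : ℝ) ≤ 32 := by norm_num
  have hν : 1 - Real.exp (-2 * y1) = 3 / 35 := by
    rw [show -2 * y1 = -(2 * y1) by ring, Real.exp_neg, hE]; norm_num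
  obtain ⟨ε0, hε0, hprof⟩ := profile_of (ι := Fin 32) hn hy1 hS0 hS1 hs0
    (by rw [hE]; norm_num; norm_num at hst; linarith)
  set deg : Fin nκ → ℝ := fun j => (((j : ℕ) + 2 : ℕ) : ℝ) with hdeg
  have hdeg2 : ∀ j, 2 ≤ deg j := fun j => by
    simp only [hdeg]; push_cast; linarith [Nat.cast_nonneg (α := ℝ) (j : ℕ)]
  have hμ : ∀ j l, 0 ≤ (D.w j l : ℝ) ^ 2 ∧ (D.w j l : ℝ) ^ 2 ≤ deg j * (deg j + 32 - 2) := by
    intro j l
    have h1 : (D.w j l : ℝ) ≤ deg j := by simp only [hdeg]; exact_mod_cast D.hw j l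
    have h2 : (0 : ℝ) ≤ D.w j l := Nat.cast_nonneg _
    have := hdeg2 j
    exact ⟨by positivity, by nlinarith⟩
  have hex := fun j => exists_exponents (D := (32 - 2) * s0) (r := k * s0) (by positivity)
    (by positivity) (fun l => deg j * (deg j + 32 - 2) - (1 - Real.exp (-2 * y1)) *
      (D.w j l : ℝ) ^ 2) (fun l => by rw [hν]; linarith [hμ j l])
  choose x hx hxI using hex
  have hgen := D.gen (fun j => 2 / Real.sqrt (((32 - 2) * Ss) ^ 2 +
      4 * (deg j * (deg j + 32 - 2)))) (fun j => by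
        have h1 := hdeg2 j
        have h2 : 0 < ((32 - 2) * Ss) ^ 2 + 4 * (deg j * (deg j + 32 - 2)) := by nlinarith
        exact (div_pos two_pos (Real.sqrt_pos.2 h2)).ne')
    (fun j j' u hu => by
      have e : ∀ j : Fin nκ, deg j * (deg j + 32 - 2) =
          ((((j : ℕ) + 2) * ((j : ℕ) + 32) : ℕ) : ℝ) := fun j => by
        simp only [hdeg]; push_cast; ring
      rw [e j, e j', show (32 - 2 : ℝ) = 30 by norm_num] at hu
      have := no_int_ratio hirr (by positivity) u hu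
      refine Fin.ext ?_
      rcases lt_trichotomy (j : ℕ) j' with h | h | h
      · nlinarith
      · exact h
      · nlinarith)
  obtain ⟨y, S, τ, hy, hS, hneg, hb, hdich, hsol⟩ := dyn hn
    (fun j => lt_of_lt_of_le two_pos (hdeg2 j)) D.Xi D.t0 hμ D.hXi0 hy1 hS1.le hs0
    (by norm_num; norm_num at hsS; exact hsS) hgen hx I (k := k) (Nat.cast_nonneg _)
    (fun j hj => hxI j (I j) (by
      have h1 := hI j hj
      have h2 : ∑ l ∈ I j, (35 * (((j : ℕ) : ℝ) + 2) * (((j : ℕ) : ℝ) + 32) -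
          3 * (D.w j l : ℝ) ^ 2 - 35 * 16018444) < 0 := by exact_mod_cast h1
      have h3 : ∀ l, deg j * (deg j + 32 - 2) - (1 - Real.exp (-2 * y1)) * (D.w j l : ℝ) ^ 2 -
          k * s0 * (k * s0 + (32 - 2) * s0) = (1 / 35) * (35 * (((j : ℕ) : ℝ) + 2) *
            (((j : ℕ) : ℝ) + 32) - 3 * (D.w j l : ℝ) ^ 2 - 35 * 16018444) := fun l => by
        rw [hν, hk]; simp only [hdeg]; push_cast; linear_combination (-16120000) * hs2
      simp only [h3, ← Finset.mul_sum]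
      exact mul_neg_of_pos_of_neg (by norm_num) h2)) hε0
  obtain ⟨L, hP, hL', hR, hH, hV, hL2, hy2, hinf, hLlow⟩ := hprof y S (fun σ => D.Jm (τ σ)) hy hS
    hneg (fun σ => D.hJ _) hb fun σ => (hdich σ).imp_right fun h =>
      ⟨h.1.mono fun r hr => by rw [hr], h.2⟩
  have hc : (Fintype.card (Fin 32) : ℝ) = 32 := by simp
  obtain ⟨hcomp, hdist⟩ := dist_met hP hL2 hy2 hinf
  refine ⟨met y L fun σ => D.Jm (τ σ), met_smooth hP, hcomp,
    ricciNonneg_met hP (by rwa [hc]) (by rwa [hc]) (by rwa [hc]), ?_⟩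
  choose! P Q hPs hPQ hP0 hPC using hsol
  set A : Set (Σ j, Fin (D.N j)) := {a | a.2 ∈ I a.1} with hA
  have hmain := fun (a : Σ j, Fin (D.N j)) (ha : a ∈ A) =>
    harmonic_uOf hP (D.he a.1) (Xi := fun σ => D.Xi (τ σ) a.1) (fun σ v => D.hXi _ _ v)
      (hPs a.1 a.2 ha) (Q := Q a.1 a.2) (by
        have e1 : (fun σ => ((Fintype.card (Fin 32) : ℝ) - 2) * deriv L σ + deriv y σ) =
            dOf 32 y S := by
          funext σ; rw [hc, hL']; rfl
        rw [e1, hc]; exact hPQ a.1 a.2 ha) (hP0 a.1 a.2 ha)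
  have hind := indep_on_ball (deg := fun j : Fin nκ => (j : ℕ) + 2)
    (fun j j' h => Fin.ext (by simpa using h)) (e := D.e)
    (fun j l => (mem_Harm.1 (D.he j l)).1) D.hind
    (u := fun a => uOf (a.1 + 2) (D.e a.1) (P a.1 a.2)) (S := A) fun a ha x hx => by
      rw [(hmain a ha).2.2.1 x hx]
      simp [Pi.single_apply]
  have hAc : Fintype.card (Fin h) ≤ Fintype.card A := by
    rw [Fintype.card_fin]
    refine hcard.trans (le_of_eq ?_)
    rw [← Finset.card_sigma, ← Fintype.card_coe]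
    refine Fintype.card_congr (Equiv.subtypeEquivRight fun a => ?_)
    simp [hA]
  obtain ⟨f⟩ := Function.Embedding.nonempty_of_card_le hAc
  refine ⟨_, hind.comp f f.injective, fun b => ?_⟩
  obtain ⟨h1, h2, -, C1, hC1, h4⟩ := hmain (f b).1 (f b).2
  obtain ⟨C2, hC2⟩ := hPC _ _ (f b).2
  refine ⟨h1, h2, poly_growth (p := fun σ => ‖P (f b).1.1 (f b).1.2 σ‖) hC1 hdist hLlow h4
    (fun σ hσ => ?_) hC2⟩
  rw [hP0 _ _ (f b).2 σ hσ, norm_smul, Pi.norm_single, Real.norm_eq_abs, Real.abs_exp, norm_one,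
    mul_one]
  exact Real.exp_le_one_iff.2 (mul_nonpos_of_nonneg_of_nonpos (by linarith [hdeg2 (f b).1.1]) hσ)

theorem counterexample :
    ∃ (n k : ℕ) (g : (Fin n → ℝ) → Matrix (Fin n) (Fin n) ℝ), 2 ≤ n ∧ 1 ≤ k ∧
      IsSmoothMetric g ∧ IsCompleteMetric g ∧ RicciNonneg g ∧
      ∃ u : Fin ((n + k - 1).choose k + (n + k - 2).choose (k - 1) + 1) → (Fin n → ℝ) → ℝ,
        LinearIndependent ℝ u ∧ ∀ a, IsPolyHarmonic g k (u a) := by
  obtain ⟨D0⟩ := algData_prod (m := 16) (by norm_num) 4068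
  obtain ⟨D⟩ := D0.transport (Fintype.equivFinOfCardEq (n := 32) (by simp))
  obtain ⟨I, hI, hcard⟩ := select_sets D.w D.dimN D.cnt
  have hcard' : (32 + 4000 - 1 : ℕ).choose 4000 + (32 + 4000 - 2 : ℕ).choose (4000 - 1) + 1 ≤
      ∑ j, (I j).card := by
    rw [show (32 + 4000 - 1 : ℕ) = 4031 from rfl, show (32 + 4000 - 2 : ℕ) = 4030 from rfl,
      show (4000 - 1 : ℕ) = 3999 from rfl]
    exact hcard
  obtain ⟨g, h⟩ := counter_aux D I hI hcard' (k := 4000) (by norm_num)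
  exact ⟨32, 4000, g, by norm_num, by norm_num, h⟩

end Vale.Agent.P225
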