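import Vale.Agent.P225.SelectNum

/-! Link between the evaluated functions and binomial coefficients; one degree at a time. -/

namespace Vale.Agent.P225.Sel

theorem c31_eq (n : ℕ) : c31 n = (n + 31).choose 31 := by
  rw [c31, Nat.ascFactorial_eq_factorial_mul_choose, Nat.mul_div_cancel_left _ (Nat.factorial_pos _)]

theorem c15_eq (n : ℕ) : c15 n = (n + 15).choose 15 := by
  have h : c15 n = (n + 1).ascFactorial 15 / Nat.factorial 15 := by
    have h1 : Nat.factorial 15 = 1307674368000 := by decide +kernel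
    have h2 : (n + 1).ascFactorial 15 = m3 n * m3 (n + 3) * m3 (n + 6) * m3 (n + 9) * m3 (n + 12) := by
      simp only [m3, Nat.ascFactorial, Nat.mul_eq, Nat.add_eq]
      ring
    rw [h1, h2]
    rfl
  rw [h, Nat.ascFactorial_eq_factorial_mul_choose, Nat.mul_div_cancel_left _ (Nat.factorial_pos _)]

theorem dm_eq (p q : ℕ) : dm p q = dimPQ 16 (p + 1) (q + 1) := by
  simp only [dm, c15_eq, dimPQ, Nat.mul_eq, Nat.add_eq, Nat.sub_eq]
  rw [if_neg (Nat.succ_ne_zero q)]
  rfl

theorem sA_eq (e n : ℕ) : sA e n = ∑ k ∈ Finset.range n, tm e k := by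
  induction n with
  | zero => rfl
  | succ n ih =>
    rw [Finset.sum_range_succ, ← ih]
    rfl

theorem sB_eq (e n : ℕ) :
    sB e n = ∑ k ∈ Finset.range n, tm e k * ((e - 499 - k - k) * (e - 499 - k - k)) := by
  induction n with
  | zero => rfl
  | succ n ih =>
    rw [Finset.sum_range_succ, ← ih]
    rfl

theorem tm_eq (i k : ℕ) (hk : k ≤ 3487 + i) :
    tm (3487 + i) k = dimPQ 16 (3988 + i - (500 + k)) (500 + k) := by
  rw [tm, dm_eq]
  simp only [Nat.add_eq, Nat.sub_eq]
  congr 1 <;> omega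

theorem block {α : Type} [Fintype α] [DecidableEq α] (w : α → ℕ) (i : ℕ) (hi : i < 82)
    (hcnt : ∀ p q : ℕ, p + q = 3988 + i → q < p →
      2 * dimPQ 16 p q ≤ (Finset.univ.filter fun l => w l = p - q).card) :
    ∃ I : Finset α, ∑ l ∈ I, (35 * ((3988 + i : ℕ) : ℤ) * ((4018 + i : ℕ) : ℤ) -
      3 * (w l : ℤ) ^ 2 - 35 * 16018444) < 0 ∧ I.card = 2 * sA (3487 + i) (len i) := by
  have hl := len_le i hi
  have hS : ∀ k : ℕ, ∃ S : Finset α, k < len i →
      (S ⊆ Finset.univ.filter fun l => w l = 3487 + i - 499 - k - k) ∧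
        S.card = 2 * tm (3487 + i) k := by
    intro k
    by_cases hk : k < len i
    · have h1 := hcnt (3988 + i - (500 + k)) (500 + k) (by omega) (by omega)
      rw [← tm_eq i k (by omega),
        show 3988 + i - (500 + k) - (500 + k) = 3487 + i - 499 - k - k by omega] at h1
      obtain ⟨S, h2, h3⟩ := Finset.exists_subset_card_eq h1
      exact ⟨S, fun _ => ⟨h2, h3⟩⟩
    · exact ⟨∅, fun h => absurd h hk⟩
  choose S hS using hS
  have hw : ∀ k, k < len i → ∀ l ∈ S k, w l = 3487 + i - 499 - k - k := fun k hk l hl =>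
    (Finset.mem_filter.1 ((hS k hk).1 hl)).2
  have hd : ((Finset.range (len i) : Finset ℕ) : Set ℕ).PairwiseDisjoint S := by
    intro a ha b hb hab
    rw [Finset.mem_coe, Finset.mem_range] at ha hb
    refine Finset.disjoint_left.2 fun l h1 h2 => hab ?_
    have := hw a ha l h1
    have := hw b hb l h2
    omega
  refine ⟨(Finset.range (len i)).biUnion S, ?_, ?_⟩
  · rw [Finset.sum_biUnion hd]
    have h1 : ∀ k ∈ Finset.range (len i), ∑ l ∈ S k, (35 * ((3988 + i : ℕ) : ℤ) * ((4018 + i : ℕ) : ℤ) -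
        3 * (w l : ℤ) ^ 2 - 35 * 16018444) =
        2 * (35 * (((3988 + i : ℕ) : ℤ) * ((4018 + i : ℕ) : ℤ) - 16018444) * (tm (3487 + i) k : ℤ)) -
          2 * (3 * ((tm (3487 + i) k * ((3487 + i - 499 - k - k) * (3487 + i - 499 - k - k)) : ℕ) : ℤ)) := by
      intro k hk
      rw [Finset.mem_range] at hk
      rw [Finset.sum_congr rfl fun l hl => by rw [hw k hk l hl], Finset.sum_const, (hS k hk).2,
        nsmul_eq_mul]
      generalize 3487 + i - 499 - k - k = v
      generalize tm (3487 + i) k = t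
      generalize ((3988 + i : ℕ) : ℤ) = a
      generalize ((4018 + i : ℕ) : ℤ) = b
      push_cast
      ring
    rw [Finset.sum_congr rfl h1, Finset.sum_sub_distrib, ← Finset.mul_sum, ← Finset.mul_sum,
      ← Finset.mul_sum, ← Finset.mul_sum, ← Nat.cast_sum, ← Nat.cast_sum, ← sA_eq, ← sB_eq]
    have h2 := chk_all i hi
    rw [chk, Nat.blt_eq] at h2
    have h3 : 16018444 ≤ (3988 + i) * (4018 + i) := by nlinarith
    generalize sA (3487 + i) (len i) = A at h2 ⊢
    generalize sB (3487 + i) (len i) = B at h2 ⊢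
    have h4 : ((35 * ((3988 + i) * (4018 + i) - 16018444) * A : ℕ) : ℤ) < ((3 * B : ℕ) : ℤ) := by
      exact_mod_cast h2
    rw [Nat.cast_mul, Nat.cast_mul, Nat.cast_sub h3, Nat.cast_mul, Nat.cast_mul] at h4
    simp only [Nat.cast_ofNat] at h4
    linarith
  · rw [Finset.card_biUnion hd, sA_eq, Finset.mul_sum]
    exact Finset.sum_congr rfl fun k hk => (hS k (Finset.mem_range.1 hk)).2

theorem telescope (a : ℕ → ℤ) (n : ℕ) :
    ∑ j ∈ Finset.range n, (a (j + 2) - a j) = a (n + 1) + a n - a 1 - a 0 := by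
  induction n with
  | zero => simp
  | succ n ih =>
    rw [Finset.sum_range_succ, ih]
    ring

/-- lower bound for the number of chosen indices in degree `j + 2` -/
noncomputable def lb (j : ℕ) : ℤ :=
  if j < 3986 then (c31 (j + 2) : ℤ) - c31 j else (2 * sA (3487 + (j - 3986)) (len (j - 3986)) : ℕ)

theorem sum_lb : ((c31 4000 + c31 3999 + 1 : ℕ) : ℤ) ≤ ∑ j ∈ Finset.range 4068, lb j := by
  rw [show 4068 = 3986 + 82 from rfl, Finset.sum_range_add]
  have h1 : ∑ j ∈ Finset.range 3986, lb j = (c31 3987 : ℤ) + c31 3986 - c31 1 - c31 0 := by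
    rw [← telescope (fun n => (c31 n : ℤ)) 3986]
    exact Finset.sum_congr rfl fun j hj => if_pos (Finset.mem_range.1 hj)
  have h2 : ∑ i ∈ Finset.range 82, lb (3986 + i) =
      ((∑ i ∈ Finset.range 82, 2 * sA (3487 + i) (len i) : ℕ) : ℤ) := by
    rw [Nat.cast_sum]
    refine Finset.sum_congr rfl fun i _ => ?_
    rw [lb, if_neg (by omega), Nat.add_sub_cancel_left]
  have h3 : c31 1 = 32 := by decide +kernel
  have h4 : c31 0 = 1 := by decide +kernel
  have h5 := total
  rw [h1, h2, h3, h4]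
  generalize ∑ i ∈ Finset.range 82, 2 * sA (3487 + i) (len i) = s at h5 ⊢
  generalize c31 4000 = a at h5 ⊢
  generalize c31 3999 = b at h5 ⊢
  generalize c31 3987 = c at h5 ⊢
  generalize c31 3986 = d at h5 ⊢
  omega

end Vale.Agent.P225.Sel
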