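import Vale.Agent.P225.Spec

/-! The numerical facts behind the selection of the index sets. -/

namespace Vale.Agent.P225.Sel

def cutL : List ℕ :=
  [1993, 1994, 1994, 1995, 1995, 1986, 1917, 1861, 1814, 1773, 1736, 1701, 1670, 1640, 1612, 1585,
  1560, 1536, 1513, 1491, 1469, 1448, 1428, 1409, 1390, 1372, 1354, 1336, 1319, 1303, 1286, 1270,
  1255, 1239, 1224, 1210, 1195, 1181, 1167, 1153, 1139, 1126, 1113, 1100, 1087, 1074, 1062, 1050,
  1037, 1025, 1014, 1002, 990, 979, 967, 956, 945, 934, 923, 912, 902, 891, 881, 870, 860, 850, 840,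
  830, 820, 810, 800, 790, 780, 771, 761, 752, 742, 733, 723, 714, 705, 696]

/-- number of values of `q` in degree `3988 + i` -/
def len (i : ℕ) : ℕ := cutL.getD i 0 - 499

def m3 (n : ℕ) : ℕ :=
  Nat.mul (Nat.mul (Nat.add n (nat_lit 1)) (Nat.add n (nat_lit 2))) (Nat.add n (nat_lit 3))

/-- `choose (n + 15) 15` -/
def c15 (n : ℕ) : ℕ :=
  Nat.div (Nat.mul (Nat.mul (Nat.mul (Nat.mul (m3 n) (m3 (Nat.add n (nat_lit 3))))
    (m3 (Nat.add n (nat_lit 6)))) (m3 (Nat.add n (nat_lit 9)))) (m3 (Nat.add n (nat_lit 12))))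
    (nat_lit 1307674368000)

/-- `dimPQ 16 (p + 1) (q + 1)` -/
def dm (p q : ℕ) : ℕ :=
  Nat.sub (Nat.mul (c15 (Nat.add p (nat_lit 1))) (c15 (Nat.add q (nat_lit 1))))
    (Nat.mul (c15 p) (c15 q))

/-- `dimPQ 16 (3488 + i - k) (500 + k)`, where `e = 3487 + i` -/
def tm (e k : ℕ) : ℕ := dm (Nat.sub e k) (Nat.add (nat_lit 499) k)

def sq (a : ℕ) : ℕ := Nat.mul a a

noncomputable def sA (e n : ℕ) : ℕ := Nat.rec (nat_lit 0) (fun k acc => Nat.add acc (tm e k)) n

noncomputable def sB (e n : ℕ) : ℕ :=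
  Nat.rec (nat_lit 0) (fun k acc => Nat.add acc (Nat.mul (tm e k)
    (sq (Nat.sub (Nat.sub (Nat.sub e (nat_lit 499)) k) k)))) n

noncomputable def chk (i : ℕ) : Bool :=
  Nat.blt (35 * ((3988 + i) * (4018 + i) - 16018444) * sA (3487 + i) (len i))
    (3 * sB (3487 + i) (len i))

theorem chk_all : ∀ i < 82, chk i = true := by decide +kernel

theorem len_le : ∀ i < 82, 2 * len i + 998 < 3988 + i := by decide +kernel

/-- `choose (n + 31) 31` -/
def c31 (n : ℕ) : ℕ := (n + 1).ascFactorial 31 / Nat.factorial 31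

theorem total : c31 4000 + c31 3999 + 1 + 33 ≤
    c31 3987 + c31 3986 + ∑ i ∈ Finset.range 82, 2 * sA (3487 + i) (len i) := by
  decide +kernel

end Vale.Agent.P225.Sel
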