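import Vale.Agent.P225.Spec

/-!
Elementary lemmas.
`seq_bound`: put `N = I.card`, `a n = a ((π^(n+1)) i)`, periodic with period `N`
(`Equiv.Perm.IsCycleOn.pow_card_apply`) and `∑ n < N, a n = ∑ l ∈ I, a l = -N η < 0` (the map
`n ↦ (π^(n+1)) i` is a bijection from `range N` onto `I`). So `h n = ∑ r < n, (a r + η)` is
periodic, hence bounded by some `H`, and `W n = x n - (n+n0)² h n` satisfies
`W (n+1) ≤ W n - η (n+n0)² + H (2 (n+n0) + 1)`; conclude that `x n + C (n+n0)²` is bounded above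
(for instance `W n + (H + |C|)(n+n0)²` is eventually antitone).
`exists_exponents`: `x` is the nonnegative root of `x (x + D) = Λ`; the tangent line inequality is
`Λ - r (r + D) ≥ (2 r + D)(x - r)`.
-/

namespace Vale.Agent.P225

open scoped ContDiff
open Filter Topology MvPolynomial Matrix Set

theorem seq_sum_cycle {N : ℕ} {π : Equiv.Perm (Fin N)} {I : Finset (Fin N)}
    (hπ : π.IsCycleOn (I : Set (Fin N))) (a : Fin N → ℝ) {j : Fin N} (hj : j ∈ I) :
    ∑ r ∈ Finset.range I.card, a ((π ^ (r + 1)) j) = ∑ l ∈ I, a l := by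
  have hinj : Set.InjOn (fun r : ℕ => (π ^ (r + 1)) j) (Finset.range I.card : Set ℕ) := by
    intro r hr s hs hrs
    have h1 : r + 1 ≡ s + 1 [MOD I.card] := (hπ.pow_apply_eq_pow_apply hj).mp hrs
    have h2 : r ≡ s [MOD I.card] := Nat.ModEq.add_right_cancel' 1 h1
    exact Nat.ModEq.eq_of_lt_of_lt h2 (by simpa using hr) (by simpa using hs)
  have himg : (Finset.range I.card).image (fun r : ℕ => (π ^ (r + 1)) j) = I := by
    apply Finset.eq_of_subset_of_card_le
    · intro l hl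
      obtain ⟨r, -, rfl⟩ := Finset.mem_image.mp hl
      have := (hπ.1.perm_pow (r + 1)).mapsTo (Finset.mem_coe.mpr hj)
      exact Finset.mem_coe.mp this
    · rw [Finset.card_image_of_injOn hinj, Finset.card_range]
  conv_rhs => rw [← himg]
  rw [Finset.sum_image hinj]

theorem seq_bdd_of_eventually {V : ℕ → ℝ} {n1 : ℕ} (h : ∀ n, n1 ≤ n → V (n + 1) ≤ V n) :
    ∃ M, ∀ n, V n ≤ M := by
  have h0 : ∀ n, n ≤ n1 → V n ≤ ∑ r ∈ Finset.range (n1 + 1), |V r| := by
    intro n hn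
    exact le_trans (le_abs_self _) (Finset.single_le_sum (f := fun r => |V r|)
      (fun r _ => abs_nonneg _) (Finset.mem_range.mpr (Nat.lt_succ_of_le hn)))
  refine ⟨∑ r ∈ Finset.range (n1 + 1), |V r|, fun n => ?_⟩
  rcases le_total n n1 with hn | hn
  · exact h0 n hn
  · induction n, hn using Nat.le_induction with
    | base => exact h0 n1 le_rfl
    | succ k hk ih => exact le_trans (h k hk) ih

theorem seq_bound {N : ℕ} {π : Equiv.Perm (Fin N)} {I : Finset (Fin N)}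
    (hπ : π.IsCycleOn (I : Set (Fin N))) {a : Fin N → ℝ} (ha : ∑ l ∈ I, a l < 0) {i : Fin N}
    (hi : i ∈ I) (n0 : ℕ) {x : ℕ → ℝ}
    (hx : ∀ n, x (n + 1) ≤ x n + ((n : ℝ) + n0) ^ 2 * a ((π ^ (n + 1)) i)) (C : ℝ) :
    ∃ M, ∀ n, x n + C * ((n : ℝ) + n0) ^ 2 ≤ M := by
  have hK : 0 < I.card := Finset.card_pos.mpr ⟨i, hi⟩
  have hKr : (0 : ℝ) < I.card := by exact_mod_cast hK
  set η : ℝ := -(∑ l ∈ I, a l) / I.card with hη
  have hη0 : 0 < η := div_pos (by linarith) hKr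
  have hηK : (I.card : ℝ) * η = -(∑ l ∈ I, a l) := by
    rw [hη]; field_simp
  set h : ℕ → ℝ := fun n => ∑ r ∈ Finset.range n, (a ((π ^ (r + 1)) i) + η) with hh
  have hper : Function.Periodic h I.card := by
    intro n
    have hj : (π ^ n) i ∈ I := by
      have := (hπ.1.perm_pow n).mapsTo (Finset.mem_coe.mpr hi)
      exact Finset.mem_coe.mp this
    have hs := seq_sum_cycle hπ a hj
    simp only [hh]
    rw [Finset.sum_range_add, Finset.sum_add_distrib (s := Finset.range I.card)]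
    have h2 : ∑ r ∈ Finset.range I.card, a ((π ^ (n + r + 1)) i) = ∑ l ∈ I, a l := by
      rw [← hs]
      refine Finset.sum_congr rfl fun r _ => ?_
      rw [show n + r + 1 = (r + 1) + n by ring, pow_add, Equiv.Perm.mul_apply]
    rw [h2]
    simp only [Finset.sum_const, Finset.card_range, nsmul_eq_mul]
    linarith
  obtain ⟨H, hH⟩ : ∃ H : ℝ, ∀ n, |h n| ≤ H := by
    refine ⟨∑ r ∈ Finset.range I.card, |h r|, fun n => ?_⟩
    rw [← hper.map_mod_nat n]
    exact Finset.single_le_sum (f := fun r => |h r|) (fun r _ => abs_nonneg _)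
      (Finset.mem_range.mpr (Nat.mod_lt _ hK))
  have hH0 : 0 ≤ H := le_trans (abs_nonneg _) (hH 0)
  have hstep : ∀ n, h (n + 1) = h n + a ((π ^ (n + 1)) i) + η := by
    intro n
    simp only [hh]
    rw [Finset.sum_range_succ]
    ring
  set B : ℝ := 2 * H + |C| with hB
  have hB0 : 0 ≤ B := by positivity
  obtain ⟨n1, hn1⟩ := exists_nat_ge (3 * B / η + 1)
  obtain ⟨M, hM⟩ := seq_bdd_of_eventually
    (V := fun n => x n - ((n : ℝ) + n0) ^ 2 * h n + (H + |C|) * ((n : ℝ) + n0) ^ 2) (n1 := n1)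
    (by
      intro n hn
      have hn' : (n1 : ℝ) ≤ n := by exact_mod_cast hn
      have hn0 : (0 : ℝ) ≤ n0 := Nat.cast_nonneg _
      have hq : 0 ≤ 3 * B / η := by positivity
      have hm1 : (1 : ℝ) ≤ (n : ℝ) + n0 := by linarith
      have hm2 : 3 * B ≤ η * ((n : ℝ) + n0) := by
        have : 3 * B / η ≤ (n : ℝ) + n0 := by linarith
        rw [div_le_iff₀ hη0] at this
        linarith
      have h1 := hx n
      have h2 := hstep n
      have h3 := (abs_le.mp (hH (n + 1))).1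
      push_cast
      rw [show (n : ℝ) + 1 + n0 = ((n : ℝ) + n0) + 1 by ring]
      generalize (n : ℝ) + n0 = m at *
      have h4 : a ((π ^ (n + 1)) i) = h (n + 1) - h n - η := by linarith
      rw [h4] at h1
      have h5 : -(2 * m + 1) * h (n + 1) ≤ (2 * m + 1) * H := by nlinarith
      have h6 : B * (2 * m + 1) ≤ η * m ^ 2 := by nlinarith
      rw [hB] at h6
      nlinarith)
  refine ⟨M, fun n => le_trans ?_ (hM n)⟩
  have h1 := (abs_le.mp (hH n)).2
  have h2 := le_abs_self C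
  have h3 : 0 ≤ ((n : ℝ) + n0) ^ 2 := sq_nonneg _
  nlinarith

theorem exists_exponents {N : ℕ} {D r : ℝ} (hD : 0 < D) (hr : 0 ≤ r) (Λ : Fin N → ℝ)
    (hΛ : ∀ l, 0 ≤ Λ l) :
    ∃ x : Fin N → ℝ, (∀ l, 0 ≤ x l ∧ Λ l ≤ x l * (x l + D)) ∧
      ∀ I : Finset (Fin N), ∑ l ∈ I, (Λ l - r * (r + D)) < 0 → ∑ l ∈ I, (x l - r) < 0 := by
  have key : ∀ l, 0 ≤ (-D + Real.sqrt (D ^ 2 + 4 * Λ l)) / 2 ∧
      Λ l = (-D + Real.sqrt (D ^ 2 + 4 * Λ l)) / 2 *
        ((-D + Real.sqrt (D ^ 2 + 4 * Λ l)) / 2 + D) := by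
    intro l
    have h0 := hΛ l
    have h1 : Real.sqrt (D ^ 2 + 4 * Λ l) ^ 2 = D ^ 2 + 4 * Λ l :=
      Real.sq_sqrt (by positivity)
    have h2 : D ≤ Real.sqrt (D ^ 2 + 4 * Λ l) := Real.le_sqrt_of_sq_le (by linarith)
    constructor
    · linarith
    · nlinarith
  refine ⟨fun l => (-D + Real.sqrt (D ^ 2 + 4 * Λ l)) / 2,
    fun l => ⟨(key l).1, (key l).2.le⟩, fun I hI => ?_⟩
  have h1 : (2 * r + D) * ∑ l ∈ I, ((-D + Real.sqrt (D ^ 2 + 4 * Λ l)) / 2 - r) ≤
      ∑ l ∈ I, (Λ l - r * (r + D)) := by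
    rw [Finset.mul_sum]
    refine Finset.sum_le_sum fun l _ => ?_
    have h2 := (key l).2
    generalize (-D + Real.sqrt (D ^ 2 + 4 * Λ l)) / 2 = y at h2 ⊢
    rw [h2]
    nlinarith [sq_nonneg (y - r)]
  have h3 : 0 < 2 * r + D := by linarith
  by_contra hcon
  have h4 := mul_nonneg h3.le (not_lt.mp hcon)
  linarith

theorem alp_gam {n lam S : ℝ} (hlam : 0 < lam) :
    0 < alp n lam S ∧ 0 < gam n lam S ∧ alp n lam S * gam n lam S = lam ∧
      gam n lam S - alp n lam S = (n - 2) * S ∧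
      alp n lam S + gam n lam S = Real.sqrt (((n - 2) * S) ^ 2 + 4 * lam) := by
  unfold alp gam
  generalize (n - 2) * S = t
  have h1 : Real.sqrt (t ^ 2 + 4 * lam) ^ 2 = t ^ 2 + 4 * lam := Real.sq_sqrt (by positivity)
  have h2 : |t| < Real.sqrt (t ^ 2 + 4 * lam) := by
    apply Real.lt_sqrt_of_sq_lt
    rw [sq_abs]
    linarith
  have h3 := abs_lt.mp h2
  refine ⟨by linarith [h3.2], by linarith [h3.1], by nlinarith, by ring, by ring⟩

/-- Uniform bounds for `0 ≤ S ≤ 1`. -/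
theorem alp_gam_bounds {n lam : ℝ} (hn : 2 ≤ n) (hlam : 0 < lam) :
    ∃ a0 > 0, ∃ C, ∀ S ∈ Icc (0 : ℝ) 1, alp n lam S ∈ Icc a0 C ∧ gam n lam S ∈ Icc a0 C := by
  have hC := (alp_gam (n := n) (S := 1) hlam).2.1
  refine ⟨lam / gam n lam 1, div_pos hlam hC, gam n lam 1, fun S hS => ?_⟩
  obtain ⟨h1, h2, h3, h4, -⟩ := alp_gam (n := n) (S := S) hlam
  have ht0 : 0 ≤ (n - 2) * S := mul_nonneg (by linarith) hS.1
  have ht1 : (n - 2) * S ≤ (n - 2) * 1 := mul_le_mul_of_nonneg_left hS.2 (by linarith)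
  have h5 : gam n lam S ≤ gam n lam 1 := by
    unfold gam
    have : Real.sqrt (((n - 2) * S) ^ 2 + 4 * lam) ≤ Real.sqrt (((n - 2) * 1) ^ 2 + 4 * lam) := by
      apply Real.sqrt_le_sqrt
      nlinarith
    linarith
  have h6 : lam / gam n lam 1 ≤ alp n lam S := by
    rw [div_le_iff₀ hC]
    exact h3.symm.le.trans (mul_le_mul_of_nonneg_left h5 h1.le)
  exact ⟨⟨h6, by linarith⟩, ⟨by linarith, h5⟩⟩

theorem continuous_gam (n lam : ℝ) : Continuous (gam n lam) := by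
  unfold gam
  fun_prop

/-- For irrational `D` the normalising constants have no integer ratios. -/
theorem no_int_ratio {D : ℝ} (hD : Irrational D) (hD0 : 0 < D) {lam lam' : ℕ} (u : ℤ)
    (h : 2 / Real.sqrt (D + 4 * lam) = u * (2 / Real.sqrt (D + 4 * lam'))) : lam = lam' := by
  have hp : (0 : ℝ) < D + 4 * lam := by positivity
  have hq : (0 : ℝ) < D + 4 * lam' := by positivity
  have hsp := Real.sqrt_pos.mpr hp
  have hsq := Real.sqrt_pos.mpr hq
  have h1 : Real.sqrt (D + 4 * lam') = u * Real.sqrt (D + 4 * lam) := by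
    field_simp at h
    linarith
  have h2 : D + 4 * lam' = (u : ℝ) ^ 2 * (D + 4 * lam) := by
    have := congrArg (fun y : ℝ => y ^ 2) h1
    simp only [mul_pow] at this
    rwa [Real.sq_sqrt hp.le, Real.sq_sqrt hq.le] at this
  by_cases hu : (1 - u ^ 2 : ℤ) = 0
  · have hu' : (u : ℝ) ^ 2 = 1 := by
      have : ((1 - u ^ 2 : ℤ) : ℝ) = 0 := by exact_mod_cast hu
      push_cast at this
      linarith
    rw [hu'] at h2
    have : (lam : ℝ) = lam' := by linarith
    exact_mod_cast this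
  · exfalso
    have h3 := hD.mul_intCast hu
    apply h3.ne_int (4 * (u ^ 2 * lam - lam'))
    push_cast
    linarith

theorem sum_inv_sq_le {n0 : ℕ} (hn0 : 2 ≤ n0) (n : ℕ) :
    ∑ r ∈ Finset.range n, 1 / ((r : ℝ) + n0) ^ 2 ≤ 1 / ((n0 : ℝ) - 1) := by
  have hn0' : (2 : ℝ) ≤ n0 := by exact_mod_cast hn0
  have key : ∑ r ∈ Finset.range n, 1 / ((r : ℝ) + n0) ^ 2 ≤
      1 / ((n0 : ℝ) - 1) - 1 / ((n : ℝ) + n0 - 1) := by
    induction n with
    | zero => simp
    | succ k ih =>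
      rw [Finset.sum_range_succ]
      have hk : (0 : ℝ) ≤ k := Nat.cast_nonneg _
      have h1 : 1 / ((k : ℝ) + n0) ^ 2 ≤ 1 / ((k : ℝ) + n0 - 1) - 1 / ((k : ℝ) + n0) := by
        have ha : (0 : ℝ) < (k : ℝ) + n0 - 1 := by linarith
        have hb : (0 : ℝ) < (k : ℝ) + n0 := by linarith
        rw [div_sub_div _ _ ha.ne' hb.ne', div_le_div_iff₀ (by positivity) (by positivity)]
        nlinarith
      push_cast
      rw [show (k : ℝ) + 1 + n0 - 1 = (k : ℝ) + n0 by ring]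
      linarith
  have hn : (0 : ℝ) ≤ n := Nat.cast_nonneg _
  have h2 : 0 ≤ 1 / ((n : ℝ) + n0 - 1) := by
    apply div_nonneg zero_le_one
    linarith
  linarith

end Vale.Agent.P225
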