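import Vale.Agent.P225.StageCore
import Vale.Agent.P225.ControlPerm

/-!
One cycle: control stage (exact signed permutation, by `control_perm`) and Berger stage.
-/

namespace Vale.Agent.P225

open scoped ContDiff
open Filter Topology MvPolynomial Matrix Set

theorem continuous_ES {Λ : Type} [TopologicalSpace Λ] (n lam Sa T0 : ℝ) {d : Λ → ℝ → ℝ}
    (hd : Continuous fun p : Λ × ℝ => d p.1 p.2) : Continuous fun b => ES n lam Sa T0 (d b) := by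
  unfold ES
  refine Real.continuous_exp.comp (continuous_const.add (continuous_const.mul ?_)).neg
  exact intervalIntegral.continuous_parametric_intervalIntegral_of_continuous'
    (f := fun b s => gam n lam Sa - alp n lam Sa - d b s) (continuous_const.sub hd) _ _

theorem stage_final {N : ℕ} {l' : Fin N} {pT cp G : Fin N → ℝ} {E z c Cb B C0 a0 e w CΦ g h : ℝ}
    (hE : 0 < E) (hz : z ≠ 0) (hCb : 0 < Cb) (ha0 : 0 < a0) (hCΦ : 0 ≤ CΦ)
    (hG : ∀ l, Cb⁻¹ ≤ G l) (hG' : G l' ≤ Cb * Real.exp g) (hE' : E⁻¹ ≤ Real.exp h)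
    (hc : Real.exp (-B) ≤ |c|) (hc' : |c| ≤ Real.exp B)
    (hΨ : (fun l => z⁻¹ * (E * cp l / max (G l) Cb⁻¹)) = Pi.single l' c)
    (hp : ‖pT‖ ≤ Cb * (‖cp‖ + (w + 2 * e) / (2 * a0) / E)) (hw : w ≤ CΦ * |z|) (he : e ≤ |z|)
    (hC0 : Cb * (1 + (CΦ + 2) / (2 * a0) * (Real.exp B * Cb)) ≤ C0) :
    ∃ z', z' ≠ 0 ∧ cp = Pi.single l' z' ∧ ‖pT‖ ≤ C0 * |z'| ∧
      |z'| ≤ |z| * Real.exp (B + Cb + g + h) := by
  have hG0 : ∀ l, 0 < G l := fun l => (inv_pos.2 hCb).trans_le (hG l)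
  have hc0 : 0 < |c| := (Real.exp_pos _).trans_le hc
  have hcp : cp = Pi.single l' (c * G l' * z / E) := by
    funext l
    have h1 := congrFun hΨ l
    have := (hG0 l).ne'
    rw [max_eq_left (hG l)] at h1
    by_cases hl : l = l'
    · subst hl
      rw [Pi.single_eq_same] at h1 ⊢
      rw [← h1]; field_simp
    · rw [Pi.single_eq_of_ne hl] at h1 ⊢
      simpa [hz, hE.ne', this] using h1
  have habs : |c * G l' * z / E| = |c| * G l' * (|z| / E) := by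
    rw [abs_div, abs_mul, abs_mul, abs_of_pos (hG0 l'), abs_of_pos hE]; ring
  have hzE : 0 < |z| / E := div_pos (abs_pos.2 hz) hE
  refine ⟨_, ?_, hcp, ?_, ?_⟩
  · rw [← abs_pos, habs]; have := hG0 l'; positivity
  · have h1 : |z| / E ≤ Real.exp B * Cb * |c * G l' * z / E| := by
      rw [habs]
      have h2 : 1 ≤ Real.exp B * |c| := by
        rw [Real.exp_neg, inv_le_iff_one_le_mul₀' (Real.exp_pos _)] at hc; exact hc
      have h3 : 1 ≤ Cb * G l' := by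
        have := hG l'; rwa [inv_le_iff_one_le_mul₀' hCb] at this
      calc |z| / E = 1 * 1 * (|z| / E) := by ring
        _ ≤ (Real.exp B * |c|) * (Cb * G l') * (|z| / E) := by gcongr
        _ = _ := by ring
    have h2 : (w + 2 * e) / (2 * a0) / E ≤ (CΦ + 2) / (2 * a0) * (|z| / E) := by
      calc _ ≤ ((CΦ + 2) * |z|) / (2 * a0) / E := by gcongr; linarith
        _ = _ := by ring
    have h3 : ‖cp‖ = |c * G l' * z / E| := by rw [hcp, Pi.norm_single, Real.norm_eq_abs]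
    refine hp.trans (le_trans ?_ (mul_le_mul_of_nonneg_right hC0 (abs_nonneg _)))
    rw [h3, mul_assoc Cb]
    refine mul_le_mul_of_nonneg_left ?_ hCb.le
    have h4 := mul_le_mul_of_nonneg_left h1 (show 0 ≤ (CΦ + 2) / (2 * a0) by positivity)
    nlinarith
  · rw [habs, div_eq_mul_inv]
    have h1 : Cb ≤ Real.exp Cb := by linarith [Real.add_one_le_exp Cb]
    calc |c| * G l' * (|z| * E⁻¹)
        ≤ Real.exp B * (Real.exp Cb * Real.exp g) * (|z| * Real.exp h) := by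
          gcongr
          · exact (hG0 l').le
          · exact hG'.trans (by gcongr)
      _ = _ := by simp only [Real.exp_add]; ring

set_option maxHeartbeats 400000 in
theorem stage {n : ℝ} (hn : 3 ≤ n) {κ T : Type} [Fintype κ] [DecidableEq κ] {N : κ → ℕ}
    {lam : κ → ℝ} (hlam : ∀ j, 0 < lam j)
    (Xi : T → (j : κ) → (Fin (N j) → ℝ) →L[ℝ] (Fin (N j) → ℝ)) (t0 : T)
    {μ : (j : κ) → Fin (N j) → ℝ} (hμ : ∀ j l, 0 ≤ μ j l ∧ μ j l ≤ lam j)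
    (hXi0 : ∀ j v l, Xi t0 j v l = -μ j l * v l) {y1 Ss s0 : ℝ} (hy1 : 0 < y1) (hSs1 : Ss ≤ 1)
    (hs0 : 0 < s0) (hsS : s0 < Ss * Real.exp (-y1 / (n - 1)))
    (hgen : Gen fun t j => (2 / Real.sqrt (((n - 2) * Ss) ^ 2 + 4 * lam j)) • Xi t j)
    {x : (j : κ) → Fin (N j) → ℝ}
    (hx : ∀ j l, 0 ≤ x j l ∧
      lam j - (1 - Real.exp (-2 * y1)) * μ j l ≤ x j l * (x j l + (n - 2) * s0))
    (π : (j : κ) → Equiv.Perm (Fin (N j))) :
    ∃ (nP : ℕ) (t : ℕ → T) (B C1 : ℝ), ∀ K : ℕ, 2 ≤ K → ∀ C00 : ℝ, ∃ δ > 0, ∃ C0 ≥ C00, ∃ ℓ0,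
      ∀ ℓ ≥ ℓ0, ∀ Sa ∈ Icc (Ss - δ) Ss,
      ∀ (p q : (j : κ) → Fin (N j) → Fin (N j) → ℝ) (z : (j : κ) → Fin (N j) → ℝ),
      (∀ j l, Inv (gam n (lam j) Sa) C0 l (z j l) (p j l) (q j l)) →
      ∃ b : ℕ → ℝ, (∀ i, |b i| ≤ B) ∧ ∀ j l (P Q : ℝ → Fin (N j) → ℝ),
        Sol2 (dOf n (yS nP K y1 ℓ b) (SS Sa (yS nP K y1 ℓ b)))
          (AOf (lam j) (fun s => Xi (tauS nP t t0 ℓ s) j) (yS nP K y1 ℓ b)) P Q
          (Icc 0 ((nP + K) * ℓ)) →
        P 0 = p j l → Q 0 = q j l →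
        ∃ z', Inv (gam n (lam j) (SS Sa (yS nP K y1 ℓ b) ((nP + K) * ℓ))) C0 (π j l) z'
            (P ((nP + K) * ℓ)) (Q ((nP + K) * ℓ)) ∧
          |z'| ≤ |z j l| * Real.exp (C1 * ℓ + (K - 2) * x j (π j l) * ℓ) := by
  have : Nonempty T := ⟨t0⟩
  obtain ⟨nP, t, B, ε, hP, hB, hε, hctl⟩ := control_perm _ hgen π
  obtain ⟨Cy, hCy, hyb⟩ := yS_bounds nP y1 B
  choose a1 ha1 C1 hC1 using fun j => alp_gam_bounds (n := n) (by linarith) (hlam j)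
  obtain ⟨a0, ha0, ha0'⟩ := exists_lb a1 ha1
  obtain ⟨Cg, hCg0, hCg⟩ := exists_ub C1
  obtain ⟨Λ, hΛ0, hΛ⟩ := exists_ub lam
  obtain ⟨Xm, -, hXm⟩ := exists_ub fun a : Σ j, Fin (N j) => x a.1 a.2
  obtain ⟨Γ, hΓ⟩ : ∃ Γ, Γ = 2 * (n - 2) + 1 + 1 + Cg + Λ := ⟨_, rfl⟩
  obtain ⟨Cb, hCb, hberger⟩ := berger (a0 := a0) (Γ := Γ) (D := 2 * (n - 2) + 1)
    (D0 := (n - 2) * s0) Xm ha0 (by linarith) (by linarith) (mul_pos (by linarith) hs0)
  obtain ⟨c, hc⟩ : ∃ c : κ → ℝ, ∀ j, 2 / Real.sqrt (((n - 2) * Ss) ^ 2 + 4 * lam j) = c j :=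
    ⟨_, fun _ => rfl⟩
  simp only [hc] at hctl
  choose CΦ1 _ hΦ1 using fun j => norm_prodExp_le (fun i => c j • Xi (t i) j) B nP
  obtain ⟨CΦ, hCΦ0, hCΦ⟩ := exists_ub CΦ1
  have hP0 : (0 : ℝ) ≤ nP := Nat.cast_nonneg _
  have hq0 : 0 ≤ (n - 2) * (Cy ^ 2 * nP + 2 * Cy) + Cy :=
    add_nonneg (mul_nonneg (by linarith) (by positivity)) hCy
  obtain ⟨Cc, hCc⟩ : ∃ Cc, Cc = Γ + ((n - 2) * (Cy ^ 2 * nP + 2 * Cy) + Cy) + 4 * Cy := ⟨_, rfl⟩
  have g1 : Cg ≤ Γ := by linarith only [hΓ, hn, hΛ0]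
  have g2 : ∀ j, lam j ≤ Γ * (Γ - (2 * (n - 2) + 1)) := fun j =>
    (hΛ j).trans (le_trans (by linarith only [hΓ, hn, hCg0]) (le_mul_of_one_le_right
      (by linarith only [hΓ, hn, hCg0, hΛ0]) (by linarith only [hΓ, hCg0, hΛ0])))
  have g3 : Γ ≤ Cc := by linarith only [hCc, hq0, hCy]
  have g4 : (n - 2) * (Cy ^ 2 * nP + 2 * Cy) + Cy ≤ Cc := by
    linarith only [hCc, hCy, g1, hCg0]
  have g5 : 4 * Cy ≤ Cc := by linarith only [hCc, hq0, g1, hCg0]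
  refine ⟨nP, t, B, Γ * nP + 2 * Γ + 1, fun K hK C00 => ?_⟩
  obtain ⟨C0, hC00, hC0⟩ : ∃ C0 ≥ C00, Cb * (1 + (CΦ + 2) / (2 * a0) * (Real.exp B * Cb)) ≤ C0 :=
    ⟨max _ _, le_max_left _ _, le_max_right _ _⟩
  have hC0' : 0 < C0 := lt_of_lt_of_le (by positivity) hC0
  obtain ⟨ε', hε', hε1, hε2⟩ : ∃ ε' > 0, ε' * (1 + C0) * (1 + Cb) ≤ ε ∧ ε' * (1 + C0) ≤ 1 := by
    refine ⟨min ε 1 / ((1 + C0) * (1 + Cb)), by positivity, ?_, ?_⟩
    · rw [mul_assoc, div_mul_cancel₀ _ (by positivity)]; exact min_le_left _ _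
    · rw [div_mul_eq_mul_div, div_le_one (by positivity)]
      nlinarith only [min_le_right ε 1, mul_pos hC0' hCb, hC0', hCb]
  choose η1 hη1 ℓ1 hℓ1 hctrl using fun j =>
    ctrl_stage (fun i => Xi (t i) j) (c j) hP B Cc ha0 hε'
  obtain ⟨η, hη, hη'⟩ := exists_lb η1 hη1
  obtain ⟨L1, hL0, hL1⟩ := exists_ub ℓ1
  obtain ⟨δ, hδ, hδ1, hδ2⟩ := exists_delta (n := n) hlam hsS
    (show 0 < η / (2 * (Cy + 1)) by positivity)
  have hev : ∀ᶠ ℓ : ℝ in atTop, L1 ≤ ℓ ∧ 1 ≤ ℓ ∧ 2 * Cy ≤ ℓ ∧ Cy ^ 2 * (nP + K) / δ ≤ ℓ ∧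
      4 * Cy ^ 2 / (a0 * η) ≤ ℓ ∧ B + Cb + Cc * nP ≤ ℓ := by
    simp only [eventually_and, eventually_ge_atTop, and_self]
  obtain ⟨ℓ0, hℓ0⟩ := eventually_atTop.1 hev
  refine ⟨δ, hδ, C0, hC00, ℓ0, fun ℓ hℓ Sa hSa p q z hinv => ?_⟩
  obtain ⟨l1, l2, l3, l4, l5, l6⟩ := hℓ0 ℓ hℓ
  have hℓp : 0 < ℓ := by linarith
  have hK' : (2 : ℝ) ≤ K := by exact_mod_cast hK
  have hT0 : 0 ≤ (nP + K) * ℓ := by positivity
  have hT1 : nP * ℓ ≤ (nP + K) * ℓ := by gcongr; linarith only [hK']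
  obtain ⟨d, hd⟩ : ∃ d : (ℕ → ℝ) → ℝ → ℝ,
      ∀ b, d b = dOf n (yS nP K y1 ℓ b) (SS Sa (yS nP K y1 ℓ b)) := ⟨_, fun _ => rfl⟩
  obtain ⟨A, hA⟩ : ∃ A : (j : κ) → (ℕ → ℝ) → ℝ → (Fin (N j) → ℝ) →L[ℝ] (Fin (N j) → ℝ),
      ∀ j b, A j b = AOf (lam j) (fun s => Xi (tauS nP t t0 ℓ s) j) (yS nP K y1 ℓ b) :=
    ⟨_, fun _ _ => rfl⟩
  obtain ⟨γ', hγ'⟩ : ∃ γ' : κ → (ℕ → ℝ) → ℝ,
      ∀ j b, γ' j b = gam n (lam j) (SS Sa (yS nP K y1 ℓ b) ((nP + K) * ℓ)) := ⟨_, fun _ _ => rfl⟩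
  have hdc : Continuous fun r : (ℕ → ℝ) × ℝ => d r.1 r.2 := by
    simp only [hd]; exact continuous_dOf_yS n nP K y1 ℓ Sa
  have hAc : ∀ j, Continuous fun r : (ℕ → ℝ) × ℝ => A j r.1 r.2 := fun j => by
    simp only [hA]; exact continuous_AOf_yS (lam j) (fun r => Xi r j) nP K y1 hℓp t t0
  have hγc : ∀ j, Continuous (γ' j) := fun j => by
    rw [show γ' j = _ from funext (hγ' j)]
    exact (continuous_gam n (lam j)).comp (continuous_slice'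
      (f := fun b => SS Sa (yS nP K y1 ℓ b)) (continuous_SS_yS nP K y1 ℓ Sa) _)
  choose P Q hP0' hQ0 hPQ using fun j l b =>
    sol2_exists (continuous_slice hdc b) (continuous_slice (hAc j) b) 0 (p j l) (q j l)
  choose U W hU hW hUW using fun j b =>
    sol2_exists (continuous_slice hdc b) (continuous_slice (hAc j) b) (nP * ℓ)
      (fun _ => 1 / (alp n (lam j) Sa + gam n (lam j) Sa))
      (fun _ => alp n (lam j) Sa / (alp n (lam j) Sa + gam n (lam j) Sa))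
  have hPc := fun j l => sol2_continuous hdc (hAc j) hT0
    (fun b => (hPQ j l b).mono (subset_univ _)) (by simp only [hP0']; exact continuous_const)
    (by simp only [hQ0]; exact continuous_const)
  have hUc := fun j => sol2_continuous hdc (hAc j) hT1
    (fun b => (hUW j b).mono (subset_univ _)) (by simp only [hU]; exact continuous_const)
    (by simp only [hW]; exact continuous_const)
  have hSm0 : 0 ≤ Ss - 2 * δ :=
    ((mul_pos_iff_of_pos_right (Real.exp_pos _)).1 (hs0.trans_le hδ1)).le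
  have s1 : ∀ j, ∀ S ∈ Icc (0 : ℝ) 1, alp n (lam j) S ∈ Icc a0 Γ ∧ gam n (lam j) S ∈ Icc a0 Γ :=
    fun j S hS => ⟨⟨(ha0' j).trans (hC1 j S hS).1.1, (hC1 j S hS).1.2.trans ((hCg j).trans g1)⟩,
      ⟨(ha0' j).trans (hC1 j S hS).2.1, (hC1 j S hS).2.2.trans ((hCg j).trans g1)⟩⟩
  have s2 : Ss - 2 * δ + Cy ^ 2 * (nP + K) / ℓ ≤ Sa := by
    rw [div_le_iff₀ hδ, mul_comm ℓ, ← div_le_iff₀ hℓp] at l4
    linarith only [l4, hSa.1]
  have s3 : Cy / ℓ ≤ 1 / 2 := by rw [div_le_iff₀ hℓp]; linarith only [l3]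
  have s4 : ∀ j, |2 / Real.sqrt (((n - 2) * Sa) ^ 2 + 4 * lam j) - c j| ≤
      η1 j / (2 * (Cy + 1)) := fun j => by
    rw [← hc j]; exact (hδ2 Sa hSa j).trans (by gcongr; exact hη' j)
  have s5 : ∀ j, 4 * Cy ^ 2 ≤ a0 * η1 j * ℓ := fun j => by
    rw [div_le_iff₀ (by positivity)] at l5
    linarith only [l5, mul_le_mul_of_nonneg_left (hη' j) (mul_pos ha0 hℓp).le]
  have core := fun j l b (hb : ∀ i, |b i| ≤ B) =>
    stage_core (n := n) (lam := lam j) hn (hlam j) (fun r => Xi r j) (t0 := t0) (μ := μ j)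
      (hμ j) (hXi0 j) hy1 (x := x j) (fun l => (hx j l).2) (nP := nP) hK t (ℓ := ℓ)
      (Sa := Sa) (Sm := Ss - 2 * δ) (a0 := a0) (Γ := Γ) (Xm := Xm) (Cy := Cy) (Cc := Cc)
      (Cb := Cb) (B := B) (c := c j) (η := η1 j) (ε := ε') hℓp ha0
      (hη1 j) hCb (fun l => ⟨(hx j l).1, hXm ⟨j, l⟩⟩) (s1 j) (g2 j) g3 g4 g5 hSm0 hδ1 s2
      (hSa.2.trans hSs1) s3 (s4 j) (s5 j) (b := b)
      hb (hyb K ℓ b l2 hb) (hctrl j ℓ ((hL1 j).trans l1)) hberger (hd b) (hA j b) (hγ' j b)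
      (P := P j l b) (Q := Q j l b) (U := U j b) (W := W j b)
      ((hPQ j l b).mono (subset_univ _)) ((hUW j b).mono (subset_univ _)) (hU j b) (hW j b)
  simp only [hP0', hQ0, (hinv _ _).2.1, Pi.norm_single, Real.norm_eq_abs] at core
  have he : ∀ j l, ε' * (|z j l| + ‖p j l‖) ≤ ε' * (1 + C0) * |z j l| := fun j l => by
    rw [mul_assoc]; exact mul_le_mul_of_nonneg_left (by linarith only [(hinv j l).2.2]) hε'.le
  obtain ⟨b, hb, hsol⟩ := hctl (fun b j l l' => (z j l)⁻¹ * (ES n (lam j) Sa (nP * ℓ) (d b) *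
      (Q j l b ((nP + K) * ℓ) + γ' j b • P j l b ((nP + K) * ℓ)) l' /
      max (W j b ((nP + K) * ℓ) l' + γ' j b * U j b ((nP + K) * ℓ) l') Cb⁻¹))
    (by
      refine continuous_pi fun j => continuous_pi fun l => continuous_pi fun l' =>
        continuous_const.mul (Continuous.div ((continuous_ES _ _ _ _ hdc).mul ?_) ?_ fun b => ?_)
      · exact (continuous_apply l').comp ((hPc j l).2.add ((hγc j).smul (hPc j l).1))
      · exact (((continuous_apply l').comp (hUc j).2).add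
          ((hγc j).mul ((continuous_apply l').comp (hUc j).1))).max continuous_const
      · exact (lt_max_of_lt_right (inv_pos.2 hCb)).ne')
    (fun b hb j l => by
      obtain ⟨h1, h2, -⟩ := core j l b hb
      have hz := (hinv j l).1
      simp only [max_eq_left (h1 _).1]
      have e1 : (Pi.single l 1 : Fin (N j) → ℝ) = (z j l)⁻¹ • Pi.single l (z j l) := by
        rw [← Pi.single_smul, smul_eq_mul, inv_mul_cancel₀ hz]
      rw [e1, map_smul]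
      refine le_trans (le_of_eq ?_) (le_trans (mul_le_mul_of_nonneg_left h2
        (norm_nonneg (z j l)⁻¹)) ?_)
      · rw [← norm_smul, smul_sub]; rfl
      · rw [norm_inv, Real.norm_eq_abs, inv_mul_le_iff₀ (abs_pos.2 hz)]
        calc _ ≤ ε' * (1 + C0) * |z j l| * (1 + Cb) :=
              mul_le_mul_of_nonneg_right (he j l) (by positivity)
          _ = |z j l| * (ε' * (1 + C0) * (1 + Cb)) := by ring
          _ ≤ _ := by gcongr)
  refine ⟨b, hb, fun j l P' Q' hPQ' hP' hQ' => ?_⟩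
  rw [← hd b, ← hA j b] at hPQ'
  obtain ⟨e1, e2⟩ := sol2_unique (continuous_slice hdc b).continuousOn
    (continuous_slice (hAc j) b).continuousOn hPQ' ((hPQ j l b).mono (subset_univ _))
    (left_mem_Icc.2 hT0) (hP'.trans (hP0' j l b).symm) (hQ'.trans (hQ0 j l b).symm) _
    (right_mem_Icc.2 hT0)
  obtain ⟨c', hc1, hc2, hc3⟩ := hsol j l
  obtain ⟨h1, -, h3, h4⟩ := core j l b hb
  obtain ⟨z', hz1, hz2, hz3, hz4⟩ := stage_final (Real.exp_pos _) (hinv j l).1 hCb ha0 hCΦ0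
    (fun l => (h1 l).1) (h1 _).2 h4 hc1 hc2 hc3 h3
    (by
      refine (ContinuousLinearMap.le_opNorm _ _).trans ?_
      rw [Pi.norm_single, Real.norm_eq_abs]
      exact mul_le_mul_of_nonneg_right ((hΦ1 j b hb).trans (hCΦ j)) (abs_nonneg _))
    ((he j l).trans (mul_le_of_le_one_left (abs_nonneg _) hε2)) hC0
  refine ⟨z', ⟨hz1, by rw [← hγ', e1, e2, hz2], by rwa [e1]⟩, hz4.trans ?_⟩
  exact mul_le_mul_of_nonneg_left (Real.exp_le_exp.2 (by linarith only [l6])) (abs_nonneg _)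

end Vale.Agent.P225
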