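import Vale.Agent.P225.LinODE
import Vale.Agent.P225.CtrlStage
import Vale.Agent.P225.Berger
import Vale.Agent.P225.Seq

namespace Vale.Agent.P225

open scoped ContDiff
open Filter Topology Set

theorem exists_ub {κ : Type} [Finite κ] (f : κ → ℝ) : ∃ C, 0 ≤ C ∧ ∀ j, f j ≤ C := by
  obtain ⟨C, hC⟩ := (Set.finite_range f).bddAbove
  exact ⟨max C 0, le_max_right _ _, fun j => (hC ⟨j, rfl⟩).trans (le_max_left _ _)⟩

theorem exists_lb {κ : Type} [Finite κ] (f : κ → ℝ) (hf : ∀ j, 0 < f j) :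
    ∃ a > 0, ∀ j, a ≤ f j := by
  obtain ⟨C, hC0, hC⟩ := exists_ub fun j => (f j)⁻¹
  refine ⟨(C + 1)⁻¹, by positivity, fun j => ?_⟩
  rw [inv_le_comm₀ (by positivity) (hf j)]
  linarith [hC j]

theorem nu_bound {y : ℝ} (hy : |y| ≤ 1 / 2) :
    |1 - Real.exp (-2 * y)| ≤ 4 * |y| ∧ |1 - Real.exp (-2 * y) - 2 * y| ≤ 4 * y ^ 2 := by
  have h : |-2 * y| ≤ 1 := by rw [abs_mul]; norm_num; linarith
  have h1 := Real.abs_exp_sub_one_le h
  have h2 := Real.abs_exp_sub_one_sub_id_le h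
  rw [abs_mul] at h1
  refine ⟨by rw [abs_sub_comm]; norm_num at h1 ⊢; linarith, ?_⟩
  rw [← abs_neg]
  convert h2 using 2 <;> ring

theorem p_bound {n r m Sa S y y' : ℝ} (hn : 3 ≤ n) (hS : S ∈ Icc (Sa - m) Sa) (hS0 : 0 ≤ S)
    (hS1 : S ≤ 1) (hy : |y| ≤ r) (hy' : |y'| ≤ r) (hr : r ≤ 1 / 2) :
    |(n - 2) * Sa - ((n - 2) * (S * Real.exp (-y / (n - 1)) - y' / (n - 1)) + y')| ≤
      (n - 2) * (m + 2 * r) + r := by
  have hn1 : (2 : ℝ) ≤ n - 1 := by linarith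
  have hdiv : ∀ z : ℝ, |z| ≤ r → |z / (n - 1)| ≤ r / 2 := fun z hz => by
    rw [abs_div, abs_of_pos (by linarith : 0 < n - 1)]
    exact div_le_div₀ ((abs_nonneg _).trans hz) hz two_pos hn1
  have h1 := hdiv (-y) (by rwa [abs_neg])
  have h2 := hdiv y' hy'
  have h3 := Real.abs_exp_sub_one_le (x := -y / (n - 1)) (by linarith)
  have h4 : |S * (Real.exp (-y / (n - 1)) - 1)| ≤ r := by
    rw [abs_mul, abs_of_nonneg hS0]
    nlinarith [abs_nonneg (Real.exp (-y / (n - 1)) - 1)]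
  have h5 : |Sa - (S * Real.exp (-y / (n - 1)) - y' / (n - 1))| ≤ m + 2 * r := by
    rw [abs_le] at h2 h4 ⊢
    have hr0 : 0 ≤ r := (abs_nonneg _).trans hy
    constructor <;> nlinarith [hS.1, hS.2]
  rw [abs_le] at h5 hy' ⊢
  constructor <;> nlinarith

theorem d_bound {n S y y' : ℝ} (hn : 3 ≤ n) (hS0 : 0 ≤ S) (hS1 : S ≤ 1) (hy : 0 ≤ y)
    (hy' : |y'| ≤ 1) :
    |(n - 2) * (S * Real.exp (-y / (n - 1)) - y' / (n - 1)) + y'| ≤ 2 * (n - 2) + 1 := by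
  have h1 : Real.exp (-y / (n - 1)) ≤ 1 :=
    Real.exp_le_one_iff.2 (div_nonpos_of_nonpos_of_nonneg (by linarith) (by linarith))
  have h2 := Real.exp_pos (-y / (n - 1))
  have h3 : |y' / (n - 1)| ≤ 1 := by
    rw [abs_div, abs_of_pos (by linarith : 0 < n - 1), div_le_one (by linarith)]; linarith
  have h4 : S * Real.exp (-y / (n - 1)) ≤ 1 := by nlinarith
  have h5 : 0 ≤ S * Real.exp (-y / (n - 1)) := by positivity
  rw [abs_le] at h3 hy' ⊢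
  constructor <;> nlinarith

theorem exists_delta {κ : Type} [Finite κ] {n Ss s0 e η : ℝ} {lam : κ → ℝ}
    (hlam : ∀ j, 0 < lam j) (hsS : s0 < Ss * e) (hη : 0 < η) :
    ∃ δ > 0, s0 ≤ (Ss - 2 * δ) * e ∧ ∀ Sa ∈ Icc (Ss - δ) Ss, ∀ j,
      |2 / Real.sqrt (((n - 2) * Sa) ^ 2 + 4 * lam j) -
        2 / Real.sqrt (((n - 2) * Ss) ^ 2 + 4 * lam j)| ≤ η := by
  have h1 : ∀ᶠ S in 𝓝 Ss, ∀ j, |2 / Real.sqrt (((n - 2) * S) ^ 2 + 4 * lam j) -
      2 / Real.sqrt (((n - 2) * Ss) ^ 2 + 4 * lam j)| ≤ η := by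
    refine eventually_all.2 fun j => ?_
    have hc : ContinuousAt (fun S => 2 / Real.sqrt (((n - 2) * S) ^ 2 + 4 * lam j)) Ss := by
      refine ContinuousAt.div continuousAt_const (by fun_prop) ?_
      have := hlam j
      positivity
    filter_upwards [Metric.tendsto_nhds.1 hc η hη] with S hS
    exact le_of_lt hS
  have h2 : ∀ᶠ S in 𝓝 Ss, s0 < S * e :=
    (continuous_id.mul continuous_const).continuousAt.eventually (lt_mem_nhds hsS)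
  obtain ⟨r, hr, hball⟩ := Metric.eventually_nhds_iff.1 (h1.and h2)
  refine ⟨r / 4, by positivity, (hball (y := Ss - 2 * (r / 4)) ?_).2.le,
    fun Sa hSa => (hball (y := Sa) ?_).1⟩
  · rw [Real.dist_eq, abs_lt]; constructor <;> linarith
  · rw [Real.dist_eq, abs_lt]; constructor <;> linarith [hSa.1, hSa.2]

/-- Combination of the control estimate and the coordinatewise Berger estimate. -/
theorem combine {N : ℕ} {p0 q0 pT z G w0 : Fin N → ℝ} {E α γ Cb e a0 : ℝ} (hE : 0 < E)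
    (hCb : 0 < Cb) (ha0 : 0 < a0) (hα : a0 ≤ α) (hγ : a0 ≤ γ)
    (hw : ‖E • (q0 + γ • p0) - w0‖ ≤ e) (hv : ‖E • (q0 - α • p0)‖ ≤ e)
    (h3 : ∀ l, |z l / G l - (q0 l + γ * p0 l)| ≤ Cb * |q0 l - α * p0 l|)
    (h4 : ∀ l, |pT l| ≤ Cb * (|z l| + |p0 l|)) :
    ‖(fun l => E * z l / G l) - w0‖ ≤ e * (1 + Cb) ∧
      ‖pT‖ ≤ Cb * (‖z‖ + (‖w0‖ + 2 * e) / (2 * a0) / E) := by
  have he : 0 ≤ e := (norm_nonneg _).trans hv
  have hw' : ∀ l, |E * (q0 l + γ * p0 l) - w0 l| ≤ e := fun l => by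
    simpa [mul_add] using (norm_le_pi_norm _ l).trans hw
  have hv' : ∀ l, |E * (q0 l - α * p0 l)| ≤ e := fun l => by
    simpa using (norm_le_pi_norm _ l).trans hv
  constructor
  · refine (pi_norm_le_iff_of_nonneg (by positivity)).2 fun l => ?_
    have h1 : |E * (z l / G l - (q0 l + γ * p0 l))| ≤ Cb * e := by
      have := hv' l
      rw [abs_mul, abs_of_pos hE] at this ⊢
      nlinarith [h3 l]
    have := abs_add_le (E * (z l / G l - (q0 l + γ * p0 l))) (E * (q0 l + γ * p0 l) - w0 l)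
    rw [Pi.sub_apply, Real.norm_eq_abs, show E * z l / G l - w0 l =
      E * (z l / G l - (q0 l + γ * p0 l)) + (E * (q0 l + γ * p0 l) - w0 l) by ring]
    linarith [hw' l]
  · refine (pi_norm_le_iff_of_nonneg (by positivity)).2 fun l => (h4 l).trans ?_
    refine mul_le_mul_of_nonneg_left (add_le_add (norm_le_pi_norm z l) ?_) hCb.le
    have h5 : |w0 l| ≤ ‖w0‖ := norm_le_pi_norm w0 l
    have h6 : |E * (α + γ) * p0 l| ≤ ‖w0‖ + 2 * e := by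
      have h7 := hw' l
      have h8 := hv' l
      rw [abs_le] at h5 h7 h8 ⊢
      constructor <;> nlinarith
    rw [abs_mul, abs_of_pos (by positivity [show 0 < α + γ by linarith])] at h6
    rw [le_div_iff₀ hE, le_div_iff₀ (by positivity)]
    have : 0 ≤ E * |p0 l| * (α + γ - 2 * a0) :=
      mul_nonneg (by positivity) (by linarith)
    nlinarith

theorem Sol2.coord {N : ℕ} {d : ℝ → ℝ} {A : ℝ → (Fin N → ℝ) →L[ℝ] (Fin N → ℝ)}
    {P Q : ℝ → Fin N → ℝ} {s : Set ℝ} (h : Sol2 d A P Q s) {l : Fin N} {a : ℝ → ℝ}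
    (ha : ∀ t ∈ s, ∀ v, A t v l = a t * v l) :
    ∀ t ∈ s, HasDerivAt (fun r => P r l) (Q t l) t ∧
      HasDerivAt (fun r => Q r l) (a t * P t l - d t * Q t l) t := fun t ht =>
  ⟨hasDerivAt_pi.1 (h t ht).1 l, by
    simpa [ha t ht] using hasDerivAt_pi.1 (h t ht).2 l⟩

theorem stage_p {n lam Cy Cc ℓ Sa : ℝ} {nP : ℕ} {y : ℝ → ℝ} (hn : 3 ≤ n) (hlam : 0 < lam)
    (hℓ : 0 < ℓ) (hys : ContDiff ℝ ∞ y) (hy : ∀ s, s ≤ nP * ℓ → |y s| ≤ Cy / ℓ)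
    (hy' : ∀ s, |deriv y s| ≤ Cy / ℓ) (hr : Cy / ℓ ≤ 1 / 2) (hS0 : Cy ^ 2 * nP / ℓ ≤ Sa)
    (hS1 : Sa ≤ 1) (hCc : (n - 2) * (Cy ^ 2 * nP + 2 * Cy) + Cy ≤ Cc) {s : ℝ}
    (hs : s ∈ Icc 0 (nP * ℓ)) : |gam n lam Sa - alp n lam Sa - dOf n y (SS Sa y) s| ≤ Cc / ℓ := by
  have hS := SS_bounds Sa hys hs.1 fun r _ => hy' r
  have h1 : (Cy / ℓ) ^ 2 * s ≤ Cy ^ 2 * nP / ℓ := by
    calc _ ≤ (Cy / ℓ) ^ 2 * (nP * ℓ) := mul_le_mul_of_nonneg_left hs.2 (sq_nonneg _)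
      _ = _ := by field_simp
  have h2 := p_bound (m := Cy ^ 2 * nP / ℓ) (Sa := Sa) hn ⟨by linarith [hS.1], hS.2⟩
    (by linarith [hS.1]) (hS.2.trans hS1) (hy s hs.2) (hy' s) hr
  rw [(alp_gam (n := n) (S := Sa) hlam).2.2.2.1]
  refine h2.trans ?_
  calc _ = ((n - 2) * (Cy ^ 2 * nP + 2 * Cy) + Cy) / ℓ := by field_simp
    _ ≤ _ := by gcongr

theorem stage_nu {n lam Cy ℓ Sa a0 η c y : ℝ} (hlam : 0 < lam) (hℓ : 0 < ℓ) (ha0 : 0 < a0)
    (hη : 0 < η) (hy : |y| ≤ Cy / ℓ) (hr : Cy / ℓ ≤ 1 / 2) (hα : a0 ≤ alp n lam Sa)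
    (hγ : a0 ≤ gam n lam Sa)
    (hc : |2 / Real.sqrt (((n - 2) * Sa) ^ 2 + 4 * lam) - c| ≤ η / (2 * (Cy + 1)))
    (hl : 4 * Cy ^ 2 ≤ a0 * η * ℓ) :
    |(1 - Real.exp (-2 * y)) / (alp n lam Sa + gam n lam Sa) - c * y| ≤ η / ℓ := by
  rw [← (alp_gam (n := n) (S := Sa) hlam).2.2.2.2] at hc
  set κ := alp n lam Sa + gam n lam Sa
  have hκ : 2 * a0 ≤ κ := by simp only [κ]; linarith
  have hκ0 : 0 < κ := by linarith
  have hCy : 0 ≤ Cy := by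
    have := (abs_nonneg _).trans hy
    exact (div_nonneg_iff.1 this).elim (·.1) fun h => absurd h.2 (not_le.2 hℓ)
  have h1 := (nu_bound (hy.trans hr)).2
  have h2 : |(1 - Real.exp (-2 * y) - 2 * y) / κ| ≤ η / (2 * ℓ) := by
    rw [abs_div, abs_of_pos hκ0, div_le_div_iff₀ hκ0 (by positivity)]
    have h3 : y ^ 2 ≤ (Cy / ℓ) ^ 2 := by
      rw [← sq_abs]; exact pow_le_pow_left₀ (abs_nonneg _) hy 2
    have h4 : 4 * (Cy / ℓ) ^ 2 * (2 * ℓ) ≤ η * (2 * a0) := by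
      rw [show 4 * (Cy / ℓ) ^ 2 * (2 * ℓ) = 2 * (4 * Cy ^ 2) / ℓ by field_simp, div_le_iff₀ hℓ]
      linarith
    calc _ ≤ 4 * (Cy / ℓ) ^ 2 * (2 * ℓ) := by gcongr; linarith
      _ ≤ η * (2 * a0) := h4
      _ ≤ _ := by gcongr
  have h5 : |y * (2 / κ - c)| ≤ η / (2 * ℓ) := by
    rw [abs_mul]
    calc _ ≤ (Cy + 1) / ℓ * (η / (2 * (Cy + 1))) := by
          refine mul_le_mul (hy.trans (by gcongr; linarith)) hc (abs_nonneg _) (by positivity)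
      _ = _ := by field_simp
  rw [show (1 - Real.exp (-2 * y)) / κ - c * y =
    (1 - Real.exp (-2 * y) - 2 * y) / κ + y * (2 / κ - c) by field_simp; ring]
  refine (abs_add_le _ _).trans ((add_le_add h2 h5).trans (le_of_eq ?_))
  field_simp; ring

theorem AOf_apply {N : ℕ} {T : Type} {lam : ℝ} {Xi : T → (Fin N → ℝ) →L[ℝ] (Fin N → ℝ)} {t0 : T}
    {μ : Fin N → ℝ} (hXi0 : ∀ v l, Xi t0 v l = -μ l * v l) {τ : ℝ → T} {y : ℝ → ℝ} {s : ℝ}
    (hs : τ s = t0) (v : Fin N → ℝ) (l : Fin N) :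
    AOf lam (fun s => Xi (τ s)) y s v l = (lam - nuOf y s * μ l) * v l := by
  simp [AOf, hs, hXi0]; ring

theorem nuOf_mem {y : ℝ → ℝ} {s : ℝ} (h : 0 ≤ y s) : nuOf y s ∈ Icc (0 : ℝ) 1 := by
  have h1 : Real.exp (-2 * y s) ≤ 1 := Real.exp_le_one_iff.2 (by linarith)
  have h2 := Real.exp_pos (-2 * y s)
  exact ⟨by unfold nuOf; linarith, by unfold nuOf; linarith⟩

theorem continuous_slice {Λ E : Type} [TopologicalSpace Λ] [TopologicalSpace E] {f : Λ → ℝ → E}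
    (h : Continuous fun p : Λ × ℝ => f p.1 p.2) (b : Λ) : Continuous (f b) :=
  h.comp (f := fun s => (b, s)) (continuous_const.prodMk continuous_id)

theorem continuous_slice' {Λ E : Type} [TopologicalSpace Λ] [TopologicalSpace E] {f : Λ → ℝ → E}
    (h : Continuous fun p : Λ × ℝ => f p.1 p.2) (s : ℝ) : Continuous fun b => f b s :=
  h.comp (f := fun b => (b, s)) (continuous_id.prodMk continuous_const)

end Vale.Agent.P225
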