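import Vale.Agent.P225.StageAux

namespace Vale.Agent.P225

open scoped ContDiff
open Filter Topology Set

/-- The normalising factor of the control stage. -/
noncomputable def ES (n lam Sa T0 : ℝ) (d : ℝ → ℝ) : ℝ :=
  Real.exp (-(alp n lam Sa * T0 + alp n lam Sa / (alp n lam Sa + gam n lam Sa) *
    ∫ s in (0 : ℝ)..T0, (gam n lam Sa - alp n lam Sa - d s)))

theorem ES_inv_le {n lam Sa T0 Γ c : ℝ} {d : ℝ → ℝ} (hlam : 0 < lam) (hT : 0 ≤ T0)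
    (hΓ : alp n lam Sa ≤ Γ) (hc : ∀ s ∈ Icc 0 T0, |gam n lam Sa - alp n lam Sa - d s| ≤ c) :
    (ES n lam Sa T0 d)⁻¹ ≤ Real.exp (Γ * T0 + c * T0) := by
  obtain ⟨h1, h2, -⟩ := alp_gam (n := n) (S := Sa) hlam
  rw [ES, ← Real.exp_neg, neg_neg]
  refine Real.exp_le_exp.2 (add_le_add (mul_le_mul_of_nonneg_right hΓ hT) ?_)
  have h3 := intervalIntegral.norm_integral_le_of_norm_le_const (a := 0) (b := T0) (C := c)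
    (f := fun s => gam n lam Sa - alp n lam Sa - d s) fun s hs => by
      rw [uIoc_of_le hT] at hs; exact hc s (Ioc_subset_Icc_self hs)
  rw [sub_zero, abs_of_nonneg hT, Real.norm_eq_abs] at h3
  have h4 : alp n lam Sa / (alp n lam Sa + gam n lam Sa) ≤ 1 :=
    (div_le_one (by linarith)).2 (by linarith)
  have h5 : 0 ≤ alp n lam Sa / (alp n lam Sa + gam n lam Sa) := by positivity
  refine (mul_le_mul_of_nonneg_left (le_abs_self _) h5).trans ?_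
  nlinarith [abs_nonneg (∫ s in (0 : ℝ)..T0, (gam n lam Sa - alp n lam Sa - d s))]

theorem stage_core {n lam : ℝ} (hn : 3 ≤ n) (hlam : 0 < lam) {N : ℕ} {T : Type}
    (Xi : T → (Fin N → ℝ) →L[ℝ] (Fin N → ℝ)) {t0 : T} {μ : Fin N → ℝ}
    (hμ : ∀ l, 0 ≤ μ l ∧ μ l ≤ lam) (hXi0 : ∀ v l, Xi t0 v l = -μ l * v l) {y1 s0 : ℝ}
    (hy1 : 0 < y1) {x : Fin N → ℝ}
    (hx : ∀ l, lam - (1 - Real.exp (-2 * y1)) * μ l ≤ x l * (x l + (n - 2) * s0))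
    {nP K : ℕ} (hK : 2 ≤ K) (t : ℕ → T) {ℓ Sa Sm a0 Γ Xm Cy Cc Cb B c η ε : ℝ} (hℓ : 0 < ℓ)
    (ha0 : 0 < a0) (hη : 0 < η) (hCb : 0 < Cb) (hxm : ∀ l, x l ∈ Icc 0 Xm)
    (hag : ∀ S ∈ Icc (0 : ℝ) 1, alp n lam S ∈ Icc a0 Γ ∧ gam n lam S ∈ Icc a0 Γ)
    (hΓ : lam ≤ Γ * (Γ - (2 * (n - 2) + 1))) (hΓc : Γ ≤ Cc)
    (hCc : (n - 2) * (Cy ^ 2 * nP + 2 * Cy) + Cy ≤ Cc) (hCc' : 4 * Cy ≤ Cc)
    (hSm0 : 0 ≤ Sm) (hSm : s0 ≤ Sm * Real.exp (-y1 / (n - 1)))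
    (hSa : Sm + Cy ^ 2 * (nP + K) / ℓ ≤ Sa) (hSa1 : Sa ≤ 1) (hr : Cy / ℓ ≤ 1 / 2)
    (hc : |2 / Real.sqrt (((n - 2) * Sa) ^ 2 + 4 * lam) - c| ≤ η / (2 * (Cy + 1)))
    (hl : 4 * Cy ^ 2 ≤ a0 * η * ℓ) {b : ℕ → ℝ} (hb : ∀ i, |b i| ≤ B)
    (hy : ∀ s, (s ≤ nP * ℓ → |yS nP K y1 ℓ b s| ≤ Cy / ℓ) ∧
      |deriv (yS nP K y1 ℓ b) s| ≤ Cy / ℓ ∧ |deriv (deriv (yS nP K y1 ℓ b)) s| ≤ Cy / ℓ)
    (hctrl : ∀ α γ : ℝ, α ∈ Icc a0 Cc → γ ∈ Icc a0 Cc →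
      ∀ b : ℕ → ℝ, (∀ i, |b i| ≤ B) → ∀ (d ν : ℝ → ℝ) (A : ℝ → (Fin N → ℝ) →L[ℝ] (Fin N → ℝ))
      (P Q : ℝ → Fin N → ℝ), Continuous d →
      (∀ i < nP, ∀ s ∈ Icc (i * ℓ) ((i + 1) * ℓ),
        A s = (α * γ) • (1 : (Fin N → ℝ) →L[ℝ] (Fin N → ℝ)) + ν s • Xi (t i) ∧
        |γ - α - d s| ≤ Cc / ℓ ∧ |ν s| ≤ Cc / ℓ ∧
        |ν s / (α + γ) - c * (b i / ℓ * chi (s / ℓ - i))| ≤ η / ℓ) →
      Sol2 d A P Q (Icc 0 (nP * ℓ)) →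
      ‖Real.exp (-(α * (nP * ℓ) + α / (α + γ) * ∫ s in (0 : ℝ)..(nP * ℓ), (γ - α - d s))) •
            (Q (nP * ℓ) + γ • P (nP * ℓ)) -
          prodExp (fun i => c • Xi (t i)) b nP (Q 0 + γ • P 0)‖ ≤ ε * (‖Q 0 + γ • P 0‖ + ‖P 0‖) ∧
      ‖Real.exp (-(α * (nP * ℓ) + α / (α + γ) * ∫ s in (0 : ℝ)..(nP * ℓ), (γ - α - d s))) •
            (Q (nP * ℓ) - α • P (nP * ℓ))‖ ≤ ε * (‖Q 0 + γ • P 0‖ + ‖P 0‖))
    (hberger : ∀ (a T ℓ α γ γ' x : ℝ) (d A f g u v : ℝ → ℝ), 0 ≤ ℓ → a + 2 * ℓ ≤ T →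
      α ∈ Icc a0 Γ → γ ∈ Icc a0 Γ → γ' ∈ Icc a0 Γ → x ∈ Icc 0 Xm → Continuous d →
      (∀ s ∈ Icc a T, |d s| ≤ 2 * (n - 2) + 1 ∧ 0 ≤ A s ∧ A s ≤ Γ * (Γ - (2 * (n - 2) + 1))) →
      (∀ s ∈ Icc (a + ℓ) (T - ℓ), (n - 2) * s0 ≤ d s ∧ A s ≤ x * (x + (n - 2) * s0)) →
      (∀ s ∈ Icc a T, HasDerivAt f (g s) s ∧ HasDerivAt g (A s * f s - d s * g s) s) →
      (∀ s ∈ Icc a T, HasDerivAt u (v s) s ∧ HasDerivAt v (A s * u s - d s * v s) s) →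
      u a = 1 / (α + γ) → v a = α / (α + γ) →
      Cb⁻¹ ≤ v T + γ' * u T ∧
      v T + γ' * u T ≤ Cb * Real.exp (2 * Γ * ℓ + x * (T - a - 2 * ℓ)) ∧
      |(g T + γ' * f T) / (v T + γ' * u T) - (g a + γ * f a)| ≤ Cb * |g a - α * f a| ∧
      |f T| ≤ Cb * (|g T + γ' * f T| + |f a|))
    {d : ℝ → ℝ} (hd : d = dOf n (yS nP K y1 ℓ b) (SS Sa (yS nP K y1 ℓ b)))
    {A : ℝ → (Fin N → ℝ) →L[ℝ] (Fin N → ℝ)}
    (hA : A = AOf lam (fun s => Xi (tauS nP t t0 ℓ s)) (yS nP K y1 ℓ b))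
    {γ' : ℝ} (hγ' : γ' = gam n lam (SS Sa (yS nP K y1 ℓ b) ((nP + K) * ℓ)))
    {P Q U W : ℝ → Fin N → ℝ} (hPQ : Sol2 d A P Q (Icc 0 ((nP + K) * ℓ)))
    (hUW : Sol2 d A U W (Icc (nP * ℓ) ((nP + K) * ℓ)))
    (hU : U (nP * ℓ) = fun _ => 1 / (alp n lam Sa + gam n lam Sa))
    (hW : W (nP * ℓ) = fun _ => alp n lam Sa / (alp n lam Sa + gam n lam Sa)) :
    (∀ l, Cb⁻¹ ≤ W ((nP + K) * ℓ) l + γ' * U ((nP + K) * ℓ) l ∧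
      W ((nP + K) * ℓ) l + γ' * U ((nP + K) * ℓ) l ≤
        Cb * Real.exp (2 * Γ * ℓ + (K - 2) * x l * ℓ)) ∧
    ‖(fun l => ES n lam Sa (nP * ℓ) d * (Q ((nP + K) * ℓ) + γ' • P ((nP + K) * ℓ)) l /
        (W ((nP + K) * ℓ) l + γ' * U ((nP + K) * ℓ) l)) -
        prodExp (fun i => c • Xi (t i)) b nP (Q 0 + gam n lam Sa • P 0)‖ ≤
      ε * (‖Q 0 + gam n lam Sa • P 0‖ + ‖P 0‖) * (1 + Cb) ∧
    ‖P ((nP + K) * ℓ)‖ ≤ Cb * (‖Q ((nP + K) * ℓ) + γ' • P ((nP + K) * ℓ)‖ +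
      (‖prodExp (fun i => c • Xi (t i)) b nP (Q 0 + gam n lam Sa • P 0)‖ +
        2 * (ε * (‖Q 0 + gam n lam Sa • P 0‖ + ‖P 0‖))) / (2 * a0) / ES n lam Sa (nP * ℓ) d) ∧
    (ES n lam Sa (nP * ℓ) d)⁻¹ ≤ Real.exp (Γ * (nP * ℓ) + Cc * nP) := by
  set y := yS nP K y1 ℓ b with hydef
  have hys : ContDiff ℝ ∞ y := contDiff_yS _ _ _ _ _
  have hK' : (2 : ℝ) ≤ K := by exact_mod_cast hK
  have hP0 : (0 : ℝ) ≤ nP := Nat.cast_nonneg _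
  have hT0 : 0 ≤ nP * ℓ := by positivity
  have hTT : nP * ℓ + 2 * ℓ ≤ (nP + K) * ℓ := by nlinarith
  have hCy : 0 ≤ Cy := by
    have := (abs_nonneg _).trans (hy 0).2.1
    exact (div_nonneg_iff.1 this).elim (·.1) fun h => absurd h.2 (not_le.2 hℓ)
  have hS : ∀ s ∈ Icc 0 ((nP + K) * ℓ), SS Sa y s ∈ Icc Sm 1 := fun s hs => by
    have h1 := SS_bounds Sa hys hs.1 fun r _ => (hy r).2.1
    have h2 : (Cy / ℓ) ^ 2 * s ≤ Cy ^ 2 * (nP + K) / ℓ := by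
      calc _ ≤ (Cy / ℓ) ^ 2 * ((nP + K) * ℓ) := mul_le_mul_of_nonneg_left hs.2 (sq_nonneg _)
        _ = _ := by field_simp
    exact ⟨by linarith [h1.1], h1.2.trans hSa1⟩
  have hK0 : Cy ^ 2 * nP / ℓ ≤ Cy ^ 2 * (nP + K) / ℓ := by gcongr; linarith
  have hSa0 : Sa ∈ Icc (0 : ℝ) 1 :=
    ⟨by have : 0 ≤ Cy ^ 2 * (nP + K) / ℓ := by positivity
        linarith, hSa1⟩
  obtain ⟨hα, hγ⟩ := hag Sa hSa0
  have hdc : Continuous d := by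
    rw [hd]
    exact continuous_slice (f := fun b => dOf n (yS nP K y1 ℓ b) (SS Sa (yS nP K y1 ℓ b)))
      (continuous_dOf_yS n nP K y1 ℓ Sa) b
  have hp : ∀ s ∈ Icc 0 (nP * ℓ), |gam n lam Sa - alp n lam Sa - d s| ≤ Cc / ℓ := fun s hs => by
    rw [hd]
    exact stage_p hn hlam hℓ hys (fun s => (hy s).1) (fun s => (hy s).2.1) hr (by linarith) hSa1
      hCc hs
  obtain ⟨hw, hv⟩ := hctrl _ _ ⟨hα.1, hα.2.trans hΓc⟩ ⟨hγ.1, hγ.2.trans hΓc⟩ b hb d (nuOf y) A P Q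
    hdc (fun i hi s hs => by
      have hi' : (i : ℝ) + 1 ≤ nP := by exact_mod_cast hi
      have hs' : s ∈ Icc 0 (nP * ℓ) :=
        ⟨le_trans (by positivity) hs.1, hs.2.trans (by gcongr)⟩
      have hys := (hy s).1 hs'.2
      refine ⟨?_, hp s hs', ?_, ?_⟩
      · rw [hA, (alp_gam hlam).2.2.1]
        rcases tauS_ctrl (K := K) (y1 := y1) hℓ b t t0 hi hs with h | h
        · simp [AOf, nuOf, hydef, h]
        · simp [AOf, h]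
      · refine (nu_bound (hys.trans hr)).1.trans ?_
        calc 4 * |y s| ≤ 4 * (Cy / ℓ) := by gcongr
          _ = 4 * Cy / ℓ := by ring
          _ ≤ _ := by gcongr
      · rw [← yS_ctrl (K := K) (y1 := y1) hℓ b hi hs]
        exact stage_nu hlam hℓ ha0 hη hys hr hα.1 hγ.1 hc hl)
    (hPQ.mono (Icc_subset_Icc_right (by linarith)))
  have hsub : Icc (nP * ℓ) ((nP + K) * ℓ) ⊆ Icc 0 ((nP + K) * ℓ) := Icc_subset_Icc_left hT0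
  have hAl : ∀ l, ∀ s ∈ Icc (nP * ℓ) ((nP + K) * ℓ), ∀ v,
      A s v l = (lam - nuOf y s * μ l) * v l := fun l s hs v => by
    rw [hA]; exact AOf_apply hXi0 (tauS_berger hℓ t t0 hs.1) v l
  have hγ'm : γ' ∈ Icc a0 Γ := by
    have := hS _ (right_mem_Icc.2 (by linarith))
    rw [hγ']; exact (hag _ ⟨hSm0.trans this.1, this.2⟩).2
  have hB := fun l => hberger (nP * ℓ) ((nP + K) * ℓ) ℓ _ _ γ' (x l) d
    (fun s => lam - nuOf y s * μ l) (fun s => P s l) (fun s => Q s l) (fun s => U s l)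
    (fun s => W s l) hℓ.le hTT hα hγ hγ'm (hxm l) hdc
    (fun s hs => by
      have h1 := yS_berger (K := K) hy1.le hℓ b hs.1
      have h2 := hS s (hsub hs)
      have h3 := nuOf_mem (y := y) h1.1
      refine ⟨?_, by nlinarith [hμ l, h3.1, h3.2], by nlinarith [hμ l, h3.1, h3.2]⟩
      rw [hd]
      exact d_bound hn (hSm0.trans h2.1) h2.2 h1.1 (by linarith [(hy s).2.1]))
    (fun s hs => by
      obtain ⟨h1, h1'⟩ := yS_plateau (y1 := y1) hℓ b hs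
      have h2 := hS s ⟨by linarith [hs.1], by linarith [hs.2]⟩
      refine ⟨?_, by simpa only [nuOf, hydef, h1] using hx l⟩
      rw [hd]
      simp only [dOf, sOf, hydef, h1, h1', zero_div, sub_zero, add_zero]
      refine mul_le_mul_of_nonneg_left (hSm.trans ?_) (by linarith)
      exact mul_le_mul_of_nonneg_right h2.1 (Real.exp_pos _).le)
    ((hPQ.mono hsub).coord (hAl l)) (hUW.coord (hAl l)) (by simp only [hU]) (by simp only [hW])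
  obtain ⟨h1, h2⟩ := combine (E := ES n lam Sa (nP * ℓ) d)
    (z := Q ((nP + K) * ℓ) + γ' • P ((nP + K) * ℓ)) (pT := P ((nP + K) * ℓ))
    (G := fun l => W ((nP + K) * ℓ) l + γ' * U ((nP + K) * ℓ) l) (Real.exp_pos _) hCb ha0 hα.1 hγ.1
    hw hv (fun l => (hB l).2.2.1) (fun l => (hB l).2.2.2)
  refine ⟨fun l => ⟨(hB l).1, (hB l).2.1.trans (le_of_eq ?_)⟩, h1, h2, ?_⟩
  · congr 2; ring
  · refine (ES_inv_le hlam hT0 hα.2 hp).trans (le_of_eq ?_)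
    congr 2; field_simp

end Vale.Agent.P225
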