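import Vale.Agent.P225.Spec

/-!
Properties of the explicit functions on one cycle. `om = 0` on `Iic (1/4)`, `om = 1` on
`Ici (3/4)`, so `chi = deriv om` vanishes outside `Ioo (1/4) (3/4)` (at the two endpoints by
continuity); `st = 0` on `Iic (1/2)`, `st = 1` on `Ici 1`, `0 ≤ st ≤ 1`
(`Real.smoothTransition`). All derivatives of positive order of `om`, `st` are continuous with compact
support, hence bounded. `deriv (yS ..) s = ∑ b i / ℓ² * deriv chi (s/ℓ - i) + y1 / ℓ * (...)`.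
For `SS` use `intervalIntegral.continuous_parametric_primitive_of_continuous`.
For `AOf`: by `yS_dich` it is, near any `(b, s)`, either constant or given by a continuous formula.
-/

namespace Vale.Agent.P225

open scoped ContDiff
open Filter Topology MvPolynomial Matrix Set

theorem om_low {x : ℝ} (h : x ≤ 1 / 4) : om x = 0 :=
  Real.smoothTransition.zero_of_nonpos (by linarith)

theorem om_high {x : ℝ} (h : 3 / 4 ≤ x) : om x = 1 :=
  Real.smoothTransition.one_of_one_le (by linarith)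

theorem st_low {x : ℝ} (h : x ≤ 1 / 2) : st x = 0 :=
  Real.smoothTransition.zero_of_nonpos (by linarith)

theorem st_high {x : ℝ} (h : 1 ≤ x) : st x = 1 :=
  Real.smoothTransition.one_of_one_le (by linarith)

theorem st_mem (x : ℝ) : st x ∈ Icc (0 : ℝ) 1 :=
  ⟨Real.smoothTransition.nonneg _, Real.smoothTransition.le_one _⟩

theorem contDiff_om : ContDiff ℝ ∞ om :=
  Real.smoothTransition.contDiff.comp (by fun_prop)

theorem contDiff_st : ContDiff ℝ ∞ st :=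
  Real.smoothTransition.contDiff.comp (by fun_prop)

theorem cd_deriv {f : ℝ → ℝ} (hf : ContDiff ℝ ∞ f) : ContDiff ℝ ∞ (deriv f) :=
  (contDiff_infty_iff_deriv.1 hf).2

theorem cd_has {f : ℝ → ℝ} (hf : ContDiff ℝ ∞ f) (x : ℝ) : HasDerivAt f (deriv f x) x :=
  ((contDiff_infty_iff_deriv.1 hf).1 x).hasDerivAt

theorem contDiff_chi : ContDiff ℝ ∞ chi := cd_deriv contDiff_om

theorem om_zero : om 0 = 0 := by
  exact om_low (by norm_num)

theorem om_one : om 1 = 1 := by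
  exact om_high (by norm_num)

theorem om_mem (x : ℝ) : om x ∈ Icc (0 : ℝ) 1 := by
  exact ⟨Real.smoothTransition.nonneg _, Real.smoothTransition.le_one _⟩

theorem hasDerivAt_om (x : ℝ) : HasDerivAt om (chi x) x := by
  exact cd_has contDiff_om x

theorem chi_low {x : ℝ} (h : x ≤ 1 / 4) : chi x = 0 :=
  IsLocalMin.deriv_eq_zero (.of_forall fun r => by rw [om_low h]; exact (om_mem r).1)

theorem chi_high {x : ℝ} (h : 3 / 4 ≤ x) : chi x = 0 :=
  IsLocalMax.deriv_eq_zero (.of_forall fun r => by rw [om_high h]; exact (om_mem r).2)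

theorem dst_low {x : ℝ} (h : x ≤ 1 / 2) : deriv st x = 0 :=
  IsLocalMin.deriv_eq_zero (.of_forall fun r => by rw [st_low h]; exact (st_mem r).1)

theorem dst_high {x : ℝ} (h : 1 ≤ x) : deriv st x = 0 :=
  IsLocalMax.deriv_eq_zero (.of_forall fun r => by rw [st_high h]; exact (st_mem r).2)

/-- Vanishing outside the unit interval. -/
def Out (f : ℝ → ℝ) : Prop := ∀ x, x < 0 ∨ 1 < x → f x = 0

theorem Out.deriv {f : ℝ → ℝ} (h : Out f) : Out (deriv f) := by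
  intro x hx
  have : f =ᶠ[𝓝 x] fun _ => 0 := by
    rcases hx with hx | hx
    · filter_upwards [gt_mem_nhds hx] with r hr using h r (.inl hr)
    · filter_upwards [lt_mem_nhds hx] with r hr using h r (.inr hr)
  rw [this.deriv_eq, deriv_const]

theorem out_chi : Out chi := fun _ hx =>
  hx.elim (fun h => chi_low (by linarith)) fun h => chi_high (by linarith)

theorem out_dst : Out (deriv st) := fun _ hx =>
  hx.elim (fun h => dst_low (by linarith)) fun h => dst_high h.le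

theorem bdd_of_out {f : ℝ → ℝ} (hf : Continuous f) (h : Out f) : ∃ M, 0 ≤ M ∧ ∀ x, |f x| ≤ M := by
  obtain ⟨M, hM⟩ := (isCompact_Icc (a := (0 : ℝ)) (b := 1)).exists_bound_of_continuousOn
    hf.continuousOn
  have h0 : 0 ≤ M := (norm_nonneg _).trans (hM 0 (by simp))
  refine ⟨M, h0, fun x => ?_⟩
  by_cases hx : x ∈ Icc (0 : ℝ) 1
  · exact hM x hx
  · rw [h x (by simpa only [mem_Icc, not_and_or, not_le] using hx), abs_zero]
    exact h0

theorem chi_bound : ∃ M, 0 ≤ M ∧ ∀ x, |chi x| ≤ M := by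
  exact bdd_of_out contDiff_chi.continuous out_chi

theorem contDiff_yS (nP K : ℕ) (y1 ℓ : ℝ) (b : ℕ → ℝ) : ContDiff ℝ ∞ (yS nP K y1 ℓ b) := by
  refine ContDiff.add (ContDiff.sum fun i _ => contDiff_const.mul (contDiff_chi.comp ?_))
    (contDiff_const.mul ((contDiff_st.comp ?_).mul (contDiff_st.comp ?_))) <;> fun_prop

theorem sum_chi_zero {nP : ℕ} {ℓ x : ℝ} (b : ℕ → ℝ) {f : ℝ → ℝ} (hx : nP - 1 / 4 ≤ x)
    (hf : ∀ u, 3 / 4 ≤ u → f u = 0) :
    ∑ i ∈ Finset.range nP, b i / ℓ * f (x - i) = 0 := by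
  refine Finset.sum_eq_zero fun i hi => ?_
  have : (i : ℝ) + 1 ≤ nP := by exact_mod_cast Finset.mem_range.1 hi
  rw [hf _ (by linarith), mul_zero]

theorem yS_zero {nP K : ℕ} {y1 ℓ : ℝ} (hℓ : 0 < ℓ) (b : ℕ → ℝ) {s : ℝ}
    (hs : s ≤ ℓ / 4 ∨ (nP + K) * ℓ - ℓ / 4 ≤ s) : yS nP K y1 ℓ b s = 0 := by
  unfold yS
  rcases hs with hs | hs
  · have h : s / ℓ ≤ 1 / 4 := by rw [div_le_iff₀ hℓ]; linarith
    rw [Finset.sum_eq_zero fun i _ => by
      rw [chi_low (by linarith [Nat.cast_nonneg (α := ℝ) i]), mul_zero],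
      st_low (x := s / ℓ - nP) (by linarith [Nat.cast_nonneg (α := ℝ) nP])]
    simp
  · have h : nP + K - 1 / 4 ≤ s / ℓ := by rw [le_div_iff₀ hℓ]; linarith
    rw [sum_chi_zero b (by linarith [Nat.cast_nonneg (α := ℝ) K]) (fun _ => chi_high),
      st_low (x := nP + K - s / ℓ) (by linarith)]
    simp

theorem yS_ctrl {nP K : ℕ} {y1 ℓ : ℝ} (hℓ : 0 < ℓ) (b : ℕ → ℝ) {i : ℕ} (hi : i < nP) {s : ℝ}
    (hs : s ∈ Icc (i * ℓ) ((i + 1) * ℓ)) : yS nP K y1 ℓ b s = b i / ℓ * chi (s / ℓ - i) := by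
  have h1 : (i : ℝ) ≤ s / ℓ := by rw [le_div_iff₀ hℓ]; exact hs.1
  have h2 : s / ℓ ≤ i + 1 := by rw [div_le_iff₀ hℓ]; exact hs.2
  have h3 : (i : ℝ) + 1 ≤ nP := by exact_mod_cast hi
  unfold yS
  rw [st_low (x := s / ℓ - nP) (by linarith), zero_mul, mul_zero, add_zero]
  refine Finset.sum_eq_single_of_mem i (Finset.mem_range.2 hi) fun j _ hj => ?_
  rcases lt_or_gt_of_ne hj with hj | hj
  · have : (j : ℝ) + 1 ≤ i := by exact_mod_cast hj
    rw [chi_high (by linarith), mul_zero]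
  · have : (i : ℝ) + 1 ≤ j := by exact_mod_cast hj
    rw [chi_low (by linarith), mul_zero]

theorem tauS_ctrl {T : Type} {nP K : ℕ} {y1 ℓ : ℝ} (hℓ : 0 < ℓ) (b : ℕ → ℝ) (t : ℕ → T) (t0 : T)
    {i : ℕ} (hi : i < nP) {s : ℝ} (hs : s ∈ Icc (i * ℓ) ((i + 1) * ℓ)) :
    yS nP K y1 ℓ b s = 0 ∨ tauS nP t t0 ℓ s = t i := by
  have h1 : (i : ℝ) ≤ s / ℓ := by rw [le_div_iff₀ hℓ]; exact hs.1
  by_cases h : s / ℓ < i + 1
  · right
    have : ⌊s / ℓ⌋₊ = i := Nat.floor_eq_on_Ico i _ ⟨h1, h⟩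
    simp [tauS, this, hi]
  · left
    rw [yS_ctrl hℓ b hi hs, chi_high (by linarith), mul_zero]

theorem tauS_berger {T : Type} {nP : ℕ} {ℓ : ℝ} (hℓ : 0 < ℓ) (t : ℕ → T) (t0 : T) {s : ℝ}
    (hs : nP * ℓ ≤ s) : tauS nP t t0 ℓ s = t0 := by
  have h1 : (nP : ℝ) ≤ s / ℓ := by rw [le_div_iff₀ hℓ]; exact hs
  exact if_neg (not_lt.2 (Nat.le_floor h1))

theorem yS_berger {nP K : ℕ} {y1 ℓ : ℝ} (hy1 : 0 ≤ y1) (hℓ : 0 < ℓ) (b : ℕ → ℝ) {s : ℝ}
    (hs : nP * ℓ ≤ s) : yS nP K y1 ℓ b s ∈ Icc 0 y1 := by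
  have h1 : (nP : ℝ) ≤ s / ℓ := by rw [le_div_iff₀ hℓ]; exact hs
  unfold yS
  rw [sum_chi_zero b (by linarith) (fun _ => chi_high), zero_add]
  have h2 := st_mem (s / ℓ - nP)
  have h3 := st_mem (nP + K - s / ℓ)
  exact ⟨mul_nonneg hy1 (mul_nonneg h2.1 h3.1),
    mul_le_of_le_one_right hy1 (mul_le_one₀ h2.2 h3.1 h3.2)⟩

theorem has_shift {f : ℝ → ℝ} (hf : ContDiff ℝ ∞ f) (ℓ c s : ℝ) :
    HasDerivAt (fun s => f (s / ℓ - c)) (deriv f (s / ℓ - c) / ℓ) s := by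
  have := (cd_has hf (s / ℓ - c)).comp s (((hasDerivAt_id s).div_const ℓ).sub_const c)
  exact this.congr_deriv (by ring)

theorem has_shift' {f : ℝ → ℝ} (hf : ContDiff ℝ ∞ f) (ℓ c s : ℝ) :
    HasDerivAt (fun s => f (c - s / ℓ)) (-(deriv f (c - s / ℓ) / ℓ)) s := by
  have := (cd_has hf (c - s / ℓ)).comp s (((hasDerivAt_id s).div_const ℓ).const_sub c)
  exact this.congr_deriv (by ring)

theorem deriv_yS (nP K : ℕ) (y1 ℓ : ℝ) (b : ℕ → ℝ) (s : ℝ) : deriv (yS nP K y1 ℓ b) s =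
    ((∑ i ∈ Finset.range nP, b i / ℓ * deriv chi (s / ℓ - i)) +
      y1 * (deriv st (s / ℓ - nP) * st (nP + K - s / ℓ) -
        st (s / ℓ - nP) * deriv st (nP + K - s / ℓ))) / ℓ := by
  have h := (HasDerivAt.fun_sum (u := Finset.range nP) fun i _ =>
    (has_shift contDiff_chi ℓ i s).const_mul (b i / ℓ)).fun_add
    (((has_shift contDiff_st ℓ nP s).fun_mul (has_shift' contDiff_st ℓ (nP + K) s)).const_mul y1)
  refine h.deriv.trans ?_
  rw [add_div, Finset.sum_div]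
  congr 1
  · exact Finset.sum_congr rfl fun i _ => by ring
  · ring

theorem deriv2_yS (nP K : ℕ) (y1 ℓ : ℝ) (b : ℕ → ℝ) (s : ℝ) : deriv (deriv (yS nP K y1 ℓ b)) s =
    ((∑ i ∈ Finset.range nP, b i / ℓ * deriv (deriv chi) (s / ℓ - i)) +
      y1 * (deriv (deriv st) (s / ℓ - nP) * st (nP + K - s / ℓ) -
        2 * (deriv st (s / ℓ - nP) * deriv st (nP + K - s / ℓ)) +
        st (s / ℓ - nP) * deriv (deriv st) (nP + K - s / ℓ))) / ℓ / ℓ := by
  have h := ((HasDerivAt.fun_sum (u := Finset.range nP) fun i _ =>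
    (has_shift (cd_deriv contDiff_chi) ℓ i s).const_mul (b i / ℓ)).fun_add
    ((((has_shift (cd_deriv contDiff_st) ℓ nP s).fun_mul
      (has_shift' contDiff_st ℓ (nP + K) s)).fun_sub ((has_shift contDiff_st ℓ nP s).fun_mul
      (has_shift' (cd_deriv contDiff_st) ℓ (nP + K) s))).const_mul y1)).div_const ℓ
  rw [funext (deriv_yS nP K y1 ℓ b)]
  refine h.deriv.trans ?_
  congr 1
  rw [add_div, Finset.sum_div]
  congr 1
  · exact Finset.sum_congr rfl fun i _ => by ring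
  · ring

theorem sum_bound {nP : ℕ} {ℓ B M : ℝ} {b : ℕ → ℝ} (hℓ : 1 ≤ ℓ) (hb : ∀ i, |b i| ≤ B) {f : ℝ → ℝ}
    (hf : ∀ x, |f x| ≤ M) (x : ℝ) :
    |∑ i ∈ Finset.range nP, b i / ℓ * f (x - i)| ≤ nP * (|B| * M) / ℓ := by
  refine (Finset.abs_sum_le_sum_abs _ _).trans ?_
  refine (Finset.sum_le_card_nsmul _ _ (|B| * M / ℓ) fun i _ => ?_).trans ?_
  · rw [abs_mul, abs_div, abs_of_pos (by linarith : 0 < ℓ), div_mul_eq_mul_div]
    exact div_le_div_of_nonneg_right (mul_le_mul ((hb i).trans (le_abs_self B)) (hf _)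
      (abs_nonneg _) (abs_nonneg _)) (by linarith)
  · simp [mul_div_assoc]

theorem yS_plateau {nP K : ℕ} {y1 ℓ : ℝ} (hℓ : 0 < ℓ) (b : ℕ → ℝ) {s : ℝ}
    (hs : s ∈ Icc (nP * ℓ + ℓ) ((nP + K) * ℓ - ℓ)) :
    yS nP K y1 ℓ b s = y1 ∧ deriv (yS nP K y1 ℓ b) s = 0 := by
  have h1 : (nP : ℝ) + 1 ≤ s / ℓ := by rw [le_div_iff₀ hℓ]; linarith [hs.1]
  have h2 : s / ℓ ≤ nP + K - 1 := by rw [div_le_iff₀ hℓ]; linarith [hs.2]
  constructor
  · unfold yS
    rw [sum_chi_zero b (by linarith) (fun _ => chi_high), st_high (by linarith), st_high (by linarith)]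
    simp
  · rw [deriv_yS, Finset.sum_eq_zero fun i hi => ?_, dst_high (by linarith), dst_high (by linarith)]
    · simp
    · have : (i : ℝ) + 1 ≤ nP := by exact_mod_cast Finset.mem_range.1 hi
      rw [out_chi.deriv _ (.inr (by linarith)), mul_zero]

theorem yS_bounds (nP : ℕ) (y1 B : ℝ) : ∃ C, 0 ≤ C ∧ ∀ (K : ℕ) (ℓ : ℝ) (b : ℕ → ℝ), 1 ≤ ℓ →
    (∀ i, |b i| ≤ B) → ∀ s, (s ≤ nP * ℓ → |yS nP K y1 ℓ b s| ≤ C / ℓ) ∧
      |deriv (yS nP K y1 ℓ b) s| ≤ C / ℓ ∧ |deriv (deriv (yS nP K y1 ℓ b)) s| ≤ C / ℓ := by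
  obtain ⟨M0, p0, h0⟩ := chi_bound
  obtain ⟨M1, p1, h1⟩ := bdd_of_out (cd_deriv contDiff_chi).continuous out_chi.deriv
  obtain ⟨M2, p2, h2⟩ := bdd_of_out (cd_deriv (cd_deriv contDiff_chi)).continuous
    out_chi.deriv.deriv
  obtain ⟨M3, p3, h3⟩ := bdd_of_out (cd_deriv contDiff_st).continuous out_dst
  obtain ⟨M4, p4, h4⟩ := bdd_of_out (cd_deriv (cd_deriv contDiff_st)).continuous out_dst.deriv
  have h5 : ∀ x, |st x| ≤ 1 := fun x => by rw [abs_of_nonneg (st_mem x).1]; exact (st_mem x).2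
  have q0 : 0 ≤ nP * (|B| * M0) := by positivity
  have q1 : 0 ≤ nP * (|B| * M1) := by positivity
  have q2 : 0 ≤ nP * (|B| * M2) := by positivity
  have q3 : 0 ≤ |y1| * (M3 * 1 + 1 * M3) := by positivity
  have q4 : 0 ≤ |y1| * (M4 * 1 + 2 * (M3 * M3) + 1 * M4) := by positivity
  refine ⟨nP * (|B| * M0) + nP * (|B| * M1) + nP * (|B| * M2) + |y1| * (M3 * 1 + 1 * M3) +
    |y1| * (M4 * 1 + 2 * (M3 * M3) + 1 * M4), by positivity, fun K ℓ b hℓ hb s => ⟨?_, ?_, ?_⟩⟩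
  · intro hs
    have hs' : s / ℓ ≤ nP := by rw [div_le_iff₀ (by linarith)]; exact hs
    unfold yS
    rw [st_low (x := s / ℓ - nP) (by linarith), zero_mul, mul_zero, add_zero]
    refine (sum_bound hℓ hb h0 _).trans ?_
    gcongr
    linarith
  · rw [deriv_yS, abs_div, abs_of_pos (by linarith : 0 < ℓ)]
    refine div_le_div_of_nonneg_right ((abs_add_le _ _).trans ?_) (by linarith)
    have a1 := (sum_bound (nP := nP) hℓ hb h1 (s / ℓ)).trans (div_le_self q1 hℓ)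
    have a2 : |y1 * (deriv st (s / ℓ - nP) * st (nP + K - s / ℓ) -
        st (s / ℓ - nP) * deriv st (nP + K - s / ℓ))| ≤ |y1| * (M3 * 1 + 1 * M3) := by
      rw [abs_mul]
      refine mul_le_mul_of_nonneg_left ((abs_sub _ _).trans ?_) (abs_nonneg _)
      rw [abs_mul, abs_mul]
      gcongr <;> apply_assumption
    linarith
  · rw [deriv2_yS, abs_div, abs_div, abs_of_pos (by linarith : 0 < ℓ)]
    refine div_le_div_of_nonneg_right ((div_le_self (abs_nonneg _) hℓ).trans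
      ((abs_add_le _ _).trans ?_)) (by linarith)
    have a1 := (sum_bound (nP := nP) hℓ hb h2 (s / ℓ)).trans (div_le_self q2 hℓ)
    have a2 : |y1 * (deriv (deriv st) (s / ℓ - nP) * st (nP + K - s / ℓ) -
        2 * (deriv st (s / ℓ - nP) * deriv st (nP + K - s / ℓ)) +
        st (s / ℓ - nP) * deriv (deriv st) (nP + K - s / ℓ))| ≤
        |y1| * (M4 * 1 + 2 * (M3 * M3) + 1 * M4) := by
      rw [abs_mul]
      refine mul_le_mul_of_nonneg_left ((abs_add_le _ _).trans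
        ((add_le_add (abs_sub _ _) le_rfl).trans ?_)) (abs_nonneg _)
      rw [abs_mul, abs_mul, abs_mul, abs_mul, abs_two]
      gcongr <;> apply_assumption
    linarith

theorem yS_dich {T : Type} {nP K : ℕ} {y1 ℓ : ℝ} (hℓ : 0 < ℓ) (t : ℕ → T) (t0 : T) (s : ℝ) :
    (∀ᶠ r in 𝓝 s, ∀ b, yS nP K y1 ℓ b r = 0) ∨
      ∀ᶠ r in 𝓝 s, tauS nP t t0 ℓ r = tauS nP t t0 ℓ s := by
  have hc : Tendsto (fun r => r / ℓ) (𝓝 s) (𝓝 (s / ℓ)) := (continuous_id.div_const ℓ).tendsto s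
  by_cases h0 : s < ℓ / 4
  · left
    filter_upwards [gt_mem_nhds h0] with r hr b using yS_zero hℓ b (.inl hr.le)
  have h1 : 0 ≤ s / ℓ := div_nonneg (by linarith) hℓ.le
  rcases (Nat.floor_le h1).lt_or_eq with h2 | h2
  · right
    filter_upwards [hc.eventually (lt_mem_nhds h2),
      hc.eventually (gt_mem_nhds (Nat.lt_floor_add_one (s / ℓ)))] with r a1 a2
    have : ⌊r / ℓ⌋₊ = ⌊s / ℓ⌋₊ := Nat.floor_eq_on_Ico _ _ ⟨a1.le, a2⟩
    simp only [tauS, this]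
  by_cases h3 : nP * ℓ < s
  · right
    filter_upwards [lt_mem_nhds h3] with r hr
    rw [tauS_berger hℓ t t0 hr.le, tauS_berger hℓ t t0 h3.le]
  left
  have h4 : s / ℓ ≤ nP := by rw [div_le_iff₀ hℓ]; linarith
  generalize ⌊s / ℓ⌋₊ = m at h2
  filter_upwards [hc.eventually (lt_mem_nhds (show s / ℓ - 1 / 4 < s / ℓ by linarith)),
    hc.eventually (gt_mem_nhds (show s / ℓ < s / ℓ + 1 / 4 by linarith))] with r a1 a2 b
  unfold yS
  rw [st_low (x := r / ℓ - nP) (by linarith), zero_mul, mul_zero, add_zero]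
  refine Finset.sum_eq_zero fun j _ => ?_
  rcases lt_or_ge j m with hj | hj
  · have : (j : ℝ) + 1 ≤ m := by exact_mod_cast hj
    rw [chi_high (by linarith), mul_zero]
  · have : (m : ℝ) ≤ j := by exact_mod_cast hj
    rw [chi_low (by linarith), mul_zero]

theorem hasDerivAt_SS (Sa : ℝ) {y : ℝ → ℝ} (hy : ContDiff ℝ ∞ y) (s : ℝ) :
    HasDerivAt (SS Sa y) (-deriv y s ^ 2) s := by
  have hc : Continuous fun u => deriv y u ^ 2 := (cd_deriv hy).continuous.pow 2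
  exact (hc.integral_hasStrictDerivAt 0 s).hasDerivAt.const_sub Sa

theorem SS_bounds (Sa : ℝ) {y : ℝ → ℝ} (hy : ContDiff ℝ ∞ y) {c s : ℝ} (hs : 0 ≤ s)
    (hc : ∀ r ∈ Icc 0 s, |deriv y r| ≤ c) : SS Sa y s ∈ Icc (Sa - c ^ 2 * s) Sa := by
  have hc' : Continuous fun u => deriv y u ^ 2 := (cd_deriv hy).continuous.pow 2
  have h1 : 0 ≤ ∫ u in (0 : ℝ)..s, deriv y u ^ 2 :=
    intervalIntegral.integral_nonneg hs fun _ _ => sq_nonneg _
  have h2 : ∫ u in (0 : ℝ)..s, deriv y u ^ 2 ≤ ∫ _ in (0 : ℝ)..s, c ^ 2 :=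
    intervalIntegral.integral_mono_on hs (hc'.intervalIntegrable _ _) (by simp)
      fun r hr => sq_le_sq' (abs_le.1 (hc r hr)).1 (abs_le.1 (hc r hr)).2
  simp only [intervalIntegral.integral_const, sub_zero, smul_eq_mul] at h2
  unfold SS
  constructor <;> linarith

theorem continuous_yS (nP K : ℕ) (y1 ℓ : ℝ) :
    Continuous fun p : (ℕ → ℝ) × ℝ => yS nP K y1 ℓ p.1 p.2 := by
  have h1 := contDiff_chi.continuous
  have h2 := contDiff_st.continuous
  unfold yS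
  fun_prop

theorem continuous_dyS (nP K : ℕ) (y1 ℓ : ℝ) :
    Continuous fun p : (ℕ → ℝ) × ℝ => deriv (yS nP K y1 ℓ p.1) p.2 := by
  have h1 := (cd_deriv contDiff_chi).continuous
  have h2 := contDiff_st.continuous
  have h3 := (cd_deriv contDiff_st).continuous
  simp only [deriv_yS]
  fun_prop

theorem continuous_SS_yS (nP K : ℕ) (y1 ℓ Sa : ℝ) :
    Continuous fun p : (ℕ → ℝ) × ℝ => SS Sa (yS nP K y1 ℓ p.1) p.2 := by
  exact continuous_const.sub (intervalIntegral.continuous_parametric_primitive_of_continuous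
    (f := fun b u => deriv (yS nP K y1 ℓ b) u ^ 2) ((continuous_dyS nP K y1 ℓ).pow 2))

theorem continuous_dOf_yS (n : ℝ) (nP K : ℕ) (y1 ℓ Sa : ℝ) :
    Continuous fun p : (ℕ → ℝ) × ℝ =>
      dOf n (yS nP K y1 ℓ p.1) (SS Sa (yS nP K y1 ℓ p.1)) p.2 := by
  have h1 := continuous_yS nP K y1 ℓ
  have h2 := continuous_dyS nP K y1 ℓ
  have h3 := continuous_SS_yS nP K y1 ℓ Sa
  exact (continuous_const.mul ((h3.mul (h1.neg.div_const _).rexp).sub (h2.div_const _))).add h2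

theorem continuous_nuOf_yS (nP K : ℕ) (y1 ℓ : ℝ) :
    Continuous fun p : (ℕ → ℝ) × ℝ => nuOf (yS nP K y1 ℓ p.1) p.2 := by
  exact continuous_const.sub (continuous_const.mul (continuous_yS nP K y1 ℓ)).rexp

theorem continuous_AOf_yS {V T : Type} [NormedAddCommGroup V] [NormedSpace ℝ V] (lam : ℝ)
    (Xi : T → V →L[ℝ] V) (nP K : ℕ) (y1 : ℝ) {ℓ : ℝ} (hℓ : 0 < ℓ) (t : ℕ → T) (t0 : T) :
    Continuous fun p : (ℕ → ℝ) × ℝ =>
      AOf lam (fun s => Xi (tauS nP t t0 ℓ s)) (yS nP K y1 ℓ p.1) p.2 := by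
  refine continuous_iff_continuousAt.2 fun p => ?_
  rcases yS_dich (nP := nP) (K := K) (y1 := y1) hℓ t t0 p.2 with h | h
  · refine (continuousAt_const (y := lam • (1 : V →L[ℝ] V))).congr ?_
    filter_upwards [(continuous_snd.tendsto p).eventually h] with q hq
    simp [AOf, nuOf, hq]
  · refine (continuousAt_const (y := lam • (1 : V →L[ℝ] V)).add
      ((continuous_nuOf_yS nP K y1 ℓ).continuousAt.smul
        (continuousAt_const (y := Xi (tauS nP t t0 ℓ p.2))))).congr ?_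
    filter_upwards [(continuous_snd.tendsto p).eventually h] with q hq
    simp [AOf, hq]

theorem exists_cycle' {a : ℕ → ℝ} (hinf : Tendsto a atTop atTop) {σ : ℝ} (hσ : a 0 ≤ σ) :
    ∃ n, σ ∈ Ico (a n) (a (n + 1)) := by
  classical
  have hex : ∃ n, σ < a n := (hinf.eventually (eventually_gt_atTop σ)).exists
  have h0 : Nat.find hex ≠ 0 := fun h => not_lt.2 hσ ((Nat.find_eq_zero _).1 h)
  obtain ⟨n, hn⟩ := Nat.exists_eq_succ_of_ne_zero h0
  exact ⟨n, not_lt.1 (Nat.find_min hex (by omega)), by simpa [hn] using Nat.find_spec hex⟩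

/-- Gluing the cycles. -/
theorem glue {T : Type} {a : ℕ → ℝ} (ha : StrictMono a) (hinf : Tendsto a atTop atTop)
    {f : ℕ → ℝ → ℝ} (hf : ∀ n, ContDiff ℝ ∞ (f n))
    (h0 : ∀ n, ∃ η > 0, ∀ s, (s ≤ a n + η ∨ a (n + 1) - η ≤ s) → f n s = 0) (g : ℕ → ℝ → T) :
    ∃ (y : ℝ → ℝ) (τ : ℝ → T), ContDiff ℝ ∞ y ∧ (∀ σ ≤ a 0, ∀ᶠ r in 𝓝 σ, y r = 0) ∧
      (∀ n, ∀ σ ∈ Icc (a n) (a (n + 1)), y =ᶠ[𝓝 σ] f n) ∧
      ∀ n, ∀ σ ∈ Ico (a n) (a (n + 1)), τ σ = g n σ := by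
  classical
  choose η hη h0 using h0
  have hex : ∀ σ, ∃ n, σ < a (n + 1) := fun σ =>
    ((hinf.comp (tendsto_add_atTop_nat 1)).eventually (eventually_gt_atTop σ)).exists
  have hN : ∀ n, ∀ σ ∈ Ico (a n) (a (n + 1)), Nat.find (hex σ) = n := fun n σ hσ =>
    (Nat.find_eq_iff _).2 ⟨hσ.2, fun m hm => not_lt.2 ((ha.monotone hm).trans hσ.1)⟩
  have h1 : ∀ σ ≤ a 0, ∀ᶠ r in 𝓝 σ, f (Nat.find (hex r)) r = 0 := by
    intro σ hσ
    filter_upwards [gt_mem_nhds (hσ.trans_lt (ha Nat.zero_lt_one)),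
      gt_mem_nhds (show σ < a 0 + η 0 by linarith [hη 0])] with r a1 a2
    rw [(Nat.find_eq_zero _).2 a1]
    exact h0 0 r (.inl a2.le)
  have h2 : ∀ n, ∀ σ ∈ Icc (a n) (a (n + 1)), (fun r => f (Nat.find (hex r)) r) =ᶠ[𝓝 σ] f n := by
    intro n σ hσ
    have e1 : ∀ᶠ r in 𝓝 σ, ∀ m ∈ Finset.range n, f m r = 0 := by
      refine (eventually_all_finset _).2 fun m hm => ?_
      have := ha.monotone (show m + 1 ≤ n from Finset.mem_range.1 hm)
      filter_upwards [lt_mem_nhds (show a (m + 1) - η m < σ by linarith [hη m, hσ.1])] with r hr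
      exact h0 m r (.inr hr.le)
    filter_upwards [e1, gt_mem_nhds (hσ.2.trans_lt (ha (Nat.lt_succ_self _))),
      gt_mem_nhds (show σ < a (n + 1) + η (n + 1) by linarith [hη (n + 1), hσ.2])] with r a1 a2 a3
    have b1 : Nat.find (hex r) ≤ n + 1 := Nat.find_min' _ a2
    by_cases b2 : Nat.find (hex r) = n
    · rw [b2]
    have b3 : f n r = 0 := by
      refine h0 n r ?_
      by_contra hh
      push Not at hh
      exact b2 (hN n r ⟨by linarith [hη n], by linarith [hη n]⟩)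
    rw [b3]
    rcases b1.lt_or_eq with b4 | b4
    · exact a1 _ (Finset.mem_range.2 (by omega))
    · rw [b4]
      exact h0 _ r (.inl a3.le)
  refine ⟨fun r => f (Nat.find (hex r)) r, fun r => g (Nat.find (hex r)) r,
    contDiff_iff_contDiffAt.2 fun σ => ?_, h1, h2, fun n σ hσ => by simp only [hN n σ hσ]⟩
  rcases le_total σ (a 0) with h | h
  · exact (contDiffAt_const (c := (0 : ℝ))).congr_of_eventuallyEq (h1 σ h)
  · obtain ⟨n, hn⟩ := exists_cycle' hinf h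
    exact (hf n).contDiffAt.congr_of_eventuallyEq (h2 n σ (Ico_subset_Icc_self hn))

theorem exists_cycle {a : ℕ → ℝ} (hinf : Tendsto a atTop atTop) {σ : ℝ} (hσ : a 0 ≤ σ) :
    ∃ n, σ ∈ Ico (a n) (a (n + 1)) := by
  exact exists_cycle' hinf hσ

end Vale.Agent.P225
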